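import Mathlib

namespace Vale.Agent.P161

open Real Set

set_option linter.unusedSectionVars false

lemma tanh_add' (a b : ℝ) : tanh (a + b) = (tanh a + tanh b) / (1 + tanh a * tanh b) := by
  have ha := cosh_pos a
  have hb := cosh_pos b
  have hab := cosh_pos (a + b)
  rw [cosh_add] at hab
  rw [tanh_eq_sinh_div_cosh, tanh_eq_sinh_div_cosh, tanh_eq_sinh_div_cosh, sinh_add, cosh_add]
  field_simp

lemma hasDerivAt_tanh' (x : ℝ) : HasDerivAt tanh (1 - tanh x ^ 2) x := by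
  have h := (hasDerivAt_sinh x).div (hasDerivAt_cosh x) (cosh_pos x).ne'
  have e : tanh = sinh / cosh := by ext y; simp [tanh_eq_sinh_div_cosh]
  have := (cosh_pos x).ne'
  have h2 : HasDerivAt tanh _ x := e ▸ h
  refine h2.congr_deriv ?_
  rw [tanh_eq_sinh_div_cosh]
  field_simp

@[fun_prop] lemma continuous_tanh' : Continuous tanh :=
  continuous_iff_continuousAt.2 fun x => (hasDerivAt_tanh' x).continuousAt

@[fun_prop] lemma measurable_tanh' : Measurable tanh := continuous_tanh'.measurable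

@[fun_prop] lemma measurable_artanh : Measurable artanh := by
  unfold artanh; fun_prop

lemma hasDerivAt_artanh {x : ℝ} (h : |x| < 1) : HasDerivAt artanh (1 / (1 - x ^ 2)) x := by
  rw [abs_lt] at h
  have h1 : 0 < 1 + x := by linarith
  have h2 : 0 < 1 - x := by linarith
  have e : artanh =ᶠ[nhds x] fun y => 1 / 2 * (log (1 + y) - log (1 - y)) := by
    filter_upwards [Ioo_mem_nhds h.1 h.2] with y hy
    rw [artanh_eq_half_log ⟨hy.1.le, hy.2.le⟩, log_div (by linarith [hy.1]) (by linarith [hy.2])]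
  have d1 := ((hasDerivAt_id x).const_add 1).log h1.ne'
  have d2 := ((hasDerivAt_id x).const_sub 1).log h2.ne'
  have := ((d1.sub d2).const_mul (1 / 2)).congr_of_eventuallyEq e
  refine this.congr_deriv ?_
  have : 1 - x ^ 2 = (1 + x) * (1 - x) := by ring
  rw [this]
  simp only [id]
  field_simp
  ring

lemma mono_of_deriv {f f' : ℝ → ℝ} {a b : ℝ} (h : ∀ x ∈ Icc a b, HasDerivAt f (f' x) x)
    (h0 : ∀ x ∈ Icc a b, 0 ≤ f' x) : MonotoneOn f (Icc a b) := by
  apply monotoneOn_of_deriv_nonneg (convex_Icc a b)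
  · exact fun x hx => (h x hx).continuousAt.continuousWithinAt
  · exact fun x hx => (h x (interior_subset hx)).differentiableAt.differentiableWithinAt
  · exact fun x hx => by
      rw [(h x (interior_subset hx)).deriv]; exact h0 x (interior_subset hx)

lemma abs_tanh_le_one (x : ℝ) : |tanh x| ≤ 1 := (abs_tanh_lt_one x).le

lemma tanh_mono {a b : ℝ} (h : a ≤ b) : tanh a ≤ tanh b :=
  mono_of_deriv (a := a) (b := b) (fun x _ => hasDerivAt_tanh' x)
    (fun x _ => by linarith [tanh_sq_lt_one x]) ⟨le_rfl, h⟩ ⟨h, le_rfl⟩ h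

lemma tanh_nonneg' {a : ℝ} (h : 0 ≤ a) : 0 ≤ tanh a := by simpa using tanh_mono h

lemma abs_tanh' (a : ℝ) : |tanh a| = tanh |a| := by
  rcases le_total 0 a with h | h
  · rw [abs_of_nonneg h, abs_of_nonneg (tanh_nonneg' h)]
  · rw [abs_of_nonpos h, tanh_neg, abs_of_nonpos (by simpa using tanh_mono h)]

lemma tanh_lip (a b : ℝ) : |tanh a - tanh b| ≤ |a - b| := by
  wlog h : b ≤ a generalizing a b
  · rw [abs_sub_comm, abs_sub_comm a]; exact this _ _ (le_of_not_ge h)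
  rw [abs_of_nonneg (sub_nonneg.2 (tanh_mono h)), abs_of_nonneg (sub_nonneg.2 h)]
  have := mono_of_deriv (a := b) (b := a) (f := fun x => x - tanh x)
    (fun x _ => (hasDerivAt_id x).sub (hasDerivAt_tanh' x)) (fun x _ => by nlinarith)
    ⟨le_rfl, h⟩ ⟨h, le_rfl⟩ h
  simp only at this; linarith

lemma abs_tanh_le (a : ℝ) : |tanh a| ≤ |a| := by simpa using tanh_lip a 0

/-- Lower slope of `tanh` on `[-B, B]`. -/
noncomputable def kap (B : ℝ) : ℝ := 1 - tanh B ^ 2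

lemma kap_pos (B : ℝ) : 0 < kap B := by unfold kap; linarith [tanh_sq_lt_one B]

lemma kap_le_one (B : ℝ) : kap B ≤ 1 := by unfold kap; nlinarith

lemma kap_le {B x : ℝ} (h : |x| ≤ B) : kap B ≤ 1 - tanh x ^ 2 := by
  unfold kap
  have h1 : |tanh x| ≤ tanh B := by rw [abs_tanh']; exact tanh_mono h
  have := sq_abs (tanh x)
  nlinarith [abs_nonneg (tanh x)]

lemma tanh_lower {B a b : ℝ} (ha : |a| ≤ B) (hb : |b| ≤ B) :
    kap B * |a - b| ≤ |tanh a - tanh b| := by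
  wlog h : b ≤ a generalizing a b
  · rw [abs_sub_comm, abs_sub_comm (tanh a)]; exact this hb ha (le_of_not_ge h)
  rw [abs_of_nonneg (sub_nonneg.2 (tanh_mono h)), abs_of_nonneg (sub_nonneg.2 h)]
  have := mono_of_deriv (a := b) (b := a) (f := fun x => tanh x - kap B * x)
    (fun x _ => (hasDerivAt_tanh' x).sub ((hasDerivAt_id x).const_mul _))
    (fun x hx => by
      have : |x| ≤ B := abs_le.2 ⟨by linarith [(abs_le.1 hb).1, hx.1], by
        linarith [(abs_le.1 ha).2, hx.2]⟩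
      linarith [kap_le this])
    ⟨le_rfl, h⟩ ⟨h, le_rfl⟩ h
  simp only at this; linarith

lemma tanh_lower' {B a : ℝ} (ha : |a| ≤ B) : kap B * |a| ≤ |tanh a| := by
  simpa using tanh_lower (b := 0) ha (by simpa using (abs_nonneg a).trans ha)

lemma artanh_neg' {x : ℝ} (h : |x| < 1) : artanh (-x) = -artanh x := by
  have h' : x ∈ Ioo (-1 : ℝ) 1 := abs_lt.1 h
  conv_lhs => rw [← tanh_artanh h', ← tanh_neg, artanh_tanh]

lemma tanh_artanh' {x : ℝ} (h : |x| < 1) : tanh (artanh x) = x := tanh_artanh (abs_lt.1 h)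

lemma abs_le_artanh {x : ℝ} (h : |x| < 1) : |x| ≤ |artanh x| := by
  conv_lhs => rw [← tanh_artanh' h]
  exact abs_tanh_le _

lemma abs_artanh_le {x : ℝ} (h : |x| ≤ 1 / 2) : |artanh x| ≤ 2 * |x| := by
  wlog hx : 0 ≤ x generalizing x
  · have := this (x := -x) (by rwa [abs_neg]) (by linarith)
    rwa [artanh_neg' (by linarith), abs_neg, abs_neg] at this
  rw [abs_of_nonneg hx] at *
  rw [abs_of_nonneg (artanh_nonneg hx)]
  have := mono_of_deriv (a := 0) (b := x) (f := fun y => 2 * y - artanh y)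
    (fun y hy => ((hasDerivAt_id y).const_mul 2).sub (hasDerivAt_artanh (x := y)
      (by rw [abs_of_nonneg hy.1]; linarith [hy.2])))
    (fun y hy => by
      have h1 : y ^ 2 ≤ 1 / 4 := by nlinarith [hy.1, hy.2]
      have : 1 / (1 - y ^ 2) ≤ 2 := by rw [div_le_iff₀ (by linarith)]; linarith
      linarith)
    ⟨le_rfl, hx⟩ ⟨hx, le_rfl⟩ hx
  simp only [artanh_zero] at this; linarith

lemma one_add_sign {w s : ℝ} (h : |w| < 1) (hs : s = 1 ∨ s = -1) :
    1 + s * w = √(1 - w ^ 2) * exp (s * artanh w) := by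
  have h' : w ∈ Ioo (-1 : ℝ) 1 := abs_lt.1 h
  have hp : 0 < √(1 - w ^ 2) := sqrt_pos.2 (by nlinarith [h'.1, h'.2])
  rcases hs with rfl | rfl
  · rw [one_mul, one_mul, ← cosh_add_sinh, cosh_artanh h', sinh_artanh h']; field_simp
  · rw [neg_one_mul, neg_one_mul, ← cosh_sub_sinh, cosh_artanh h', sinh_artanh h']
    field_simp; ring

/-- The message map. -/
noncomputable def F (θ H : ℝ) : ℝ := artanh (θ * tanh H)

/-- Its derivative. -/
noncomputable def th (θ H : ℝ) : ℝ := θ * (1 - tanh H ^ 2) / (1 - θ ^ 2 * tanh H ^ 2)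

@[fun_prop] lemma measurable_F (θ : ℝ) : Measurable (F θ) := by unfold F; fun_prop

@[fun_prop] lemma measurable_th (θ : ℝ) : Measurable (th θ) := by unfold th; fun_prop

@[simp] lemma F_zero (θ : ℝ) : F θ 0 = 0 := by simp [F]

@[simp] lemma th_neg (θ H : ℝ) : th θ (-H) = th θ H := by simp [th]

section
variable {θ : ℝ} (h0 : 0 ≤ θ) (h1 : θ < 1)
include h0 h1

lemma abs_mul_tanh_le (H : ℝ) : |θ * tanh H| ≤ θ := by
  rw [abs_mul, abs_of_nonneg h0]; exact mul_le_of_le_one_right h0 (abs_tanh_le_one H)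

lemma abs_mul_tanh_lt (H : ℝ) : |θ * tanh H| < 1 := (abs_mul_tanh_le h0 h1 H).trans_lt h1

lemma tanh_F (H : ℝ) : tanh (F θ H) = θ * tanh H := tanh_artanh' (abs_mul_tanh_lt h0 h1 H)

lemma F_neg (H : ℝ) : F θ (-H) = -F θ H := by
  rw [F, tanh_neg, mul_neg, artanh_neg' (abs_mul_tanh_lt h0 h1 H), F]

lemma F_sign {s : ℝ} (hs : s = 1 ∨ s = -1) (H : ℝ) : F θ (s * H) = s * F θ H := by
  rcases hs with rfl | rfl
  · simp
  · simp [F_neg h0 h1]

lemma den_ge (H : ℝ) : 1 - θ ^ 2 ≤ 1 - θ ^ 2 * tanh H ^ 2 := by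
  nlinarith [tanh_sq_lt_one H, sq_nonneg θ]

lemma one_sub_sq_pos : 0 < 1 - θ ^ 2 := by nlinarith

lemma den_pos (H : ℝ) : 0 < 1 - θ ^ 2 * tanh H ^ 2 :=
  (one_sub_sq_pos h0 h1).trans_le (den_ge h0 h1 H)

lemma hasDerivAt_F (H : ℝ) : HasDerivAt (F θ) (th θ H) H := by
  have := (hasDerivAt_artanh (abs_mul_tanh_lt h0 h1 H)).comp H ((hasDerivAt_tanh' H).const_mul θ)
  refine HasDerivAt.congr_deriv this ?_
  unfold th; rw [mul_pow]; field_simp

lemma continuous_F : Continuous (F θ) :=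
  continuous_iff_continuousAt.2 fun x => (hasDerivAt_F h0 h1 x).continuousAt

lemma continuous_th : Continuous (th θ) := by
  unfold th
  exact Continuous.div (by fun_prop) (by fun_prop) fun x => (den_pos h0 h1 x).ne'

lemma th_nonneg (H : ℝ) : 0 ≤ th θ H :=
  div_nonneg (mul_nonneg h0 (by linarith [tanh_sq_lt_one H])) (den_pos h0 h1 H).le

lemma th_le' (H : ℝ) : th θ H ≤ θ - θ * (1 - θ ^ 2) * tanh H ^ 2 := by
  unfold th
  rw [div_le_iff₀ (den_pos h0 h1 H)]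
  have : 0 ≤ θ * (1 - θ ^ 2) * θ ^ 2 * tanh H ^ 4 := by
    have := one_sub_sq_pos h0 h1; positivity
  nlinarith

lemma th_le (H : ℝ) : th θ H ≤ θ := by
  have := th_le' h0 h1 H
  have : 0 ≤ θ * (1 - θ ^ 2) * tanh H ^ 2 := by
    have := one_sub_sq_pos h0 h1; positivity
  linarith

lemma th_sq_le (H : ℝ) : th θ H ^ 2 ≤ θ ^ 2 - θ ^ 2 * (1 - θ ^ 2) * tanh H ^ 2 := by
  have a1 := th_le' h0 h1 H
  have a2 := th_le h0 h1 H
  have a3 := th_nonneg h0 h1 H
  nlinarith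

lemma th_sq_le' (H : ℝ) : th θ H ^ 2 ≤ θ ^ 2 :=
  pow_le_pow_left₀ (th_nonneg h0 h1 H) (th_le h0 h1 H) 2

lemma th_sub (a b : ℝ) :
    |th θ a - th θ b| ≤ (|tanh a| + |tanh b|) * |tanh a - tanh b| / (1 - θ ^ 2) := by
  have ha := den_pos h0 h1 a
  have hb := den_pos h0 h1 b
  have hc := one_sub_sq_pos h0 h1
  have e : th θ a - th θ b = θ * (1 - θ ^ 2) * ((tanh b + tanh a) * (tanh b - tanh a)) /
      ((1 - θ ^ 2 * tanh a ^ 2) * (1 - θ ^ 2 * tanh b ^ 2)) := by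
    unfold th; field_simp; ring
  rw [e, abs_div, abs_mul, abs_mul (tanh b + tanh a), abs_of_pos (mul_pos ha hb),
    abs_of_nonneg (mul_nonneg h0 hc.le), abs_sub_comm (tanh b),
    div_le_div_iff₀ (mul_pos ha hb) hc]
  have e1 : |tanh b + tanh a| ≤ |tanh a| + |tanh b| := by rw [add_comm]; exact abs_add_le _ _
  have e2 : (1 - θ ^ 2) * (1 - θ ^ 2) ≤ (1 - θ ^ 2 * tanh a ^ 2) * (1 - θ ^ 2 * tanh b ^ 2) :=
    mul_le_mul (den_ge h0 h1 a) (den_ge h0 h1 b) hc.le ha.le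
  have e3 : θ * ((1 - θ ^ 2) * (1 - θ ^ 2)) ≤
      (1 - θ ^ 2 * tanh a ^ 2) * (1 - θ ^ 2 * tanh b ^ 2) := by nlinarith [mul_pos hc hc]
  calc θ * (1 - θ ^ 2) * (|tanh b + tanh a| * |tanh a - tanh b|) * (1 - θ ^ 2)
      = (|tanh b + tanh a| * |tanh a - tanh b|) * (θ * ((1 - θ ^ 2) * (1 - θ ^ 2))) := by ring
    _ ≤ _ := by gcongr

lemma F_lip (a b : ℝ) : |F θ a - F θ b| ≤ θ * |a - b| := by
  wlog h : b ≤ a generalizing a b
  · rw [abs_sub_comm, abs_sub_comm a]; exact this _ _ (le_of_not_ge h)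
  have m1 := mono_of_deriv (a := b) (b := a) (fun x _ => hasDerivAt_F h0 h1 x)
    (fun x _ => th_nonneg h0 h1 x) ⟨le_rfl, h⟩ ⟨h, le_rfl⟩ h
  have m2 := mono_of_deriv (a := b) (b := a) (f := fun x => θ * x - F θ x)
    (fun x _ => ((hasDerivAt_id x).const_mul θ).sub (hasDerivAt_F h0 h1 x))
    (fun x _ => by linarith [th_le h0 h1 x]) ⟨le_rfl, h⟩ ⟨h, le_rfl⟩ h
  rw [abs_of_nonneg (sub_nonneg.2 m1), abs_of_nonneg (sub_nonneg.2 h)]
  simp only at m2; linarith

lemma abs_F_le (a : ℝ) : |F θ a| ≤ θ * |a| := by simpa using F_lip h0 h1 a 0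

lemma abs_F_le' (a : ℝ) : |F θ a| ≤ artanh θ := by
  have h := abs_le.1 (abs_mul_tanh_le h0 h1 a)
  rw [abs_le, ← artanh_neg' (by rwa [abs_of_nonneg h0])]
  exact ⟨artanh_le_artanh (by linarith) (abs_lt.1 (abs_mul_tanh_lt h0 h1 a)).2 h.1,
    artanh_le_artanh (abs_lt.1 (abs_mul_tanh_lt h0 h1 a)).1 h1 h.2⟩

lemma le_abs_F {B a : ℝ} (ha : |a| ≤ B) : θ * kap B * |a| ≤ |F θ a| := by
  have h2 := abs_le_artanh (abs_mul_tanh_lt h0 h1 a)
  rw [abs_mul, abs_of_nonneg h0] at h2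
  have := mul_le_mul_of_nonneg_left (tanh_lower' ha) h0
  unfold F; linarith

lemma F_mul_tanh_le {B a : ℝ} (ha : |a| ≤ B) :
    F θ a * tanh a ≤ θ * (a * tanh a) - θ * (1 - θ ^ 2) * kap B ^ 2 / 3 * (a * tanh a) ^ 2 := by
  wlog hx : 0 ≤ a generalizing a
  · have := this (a := -a) (by rwa [abs_neg]) (by linarith)
    simpa [F_neg h0 h1] using this
  have hc := one_sub_sq_pos h0 h1
  set c := θ * (1 - θ ^ 2) * kap B ^ 2 / 3 with hcdef
  have hc0 : 0 ≤ c := by positivity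
  have m2 := mono_of_deriv (a := 0) (b := a) (f := fun x => θ * x - F θ x - c * x ^ 3)
    (fun x _ => (((hasDerivAt_id x).const_mul θ).sub (hasDerivAt_F h0 h1 x)).sub
      ((hasDerivAt_pow 3 x).const_mul c))
    (fun x hx' => by
      have b1 : |x| ≤ B := by
        rw [abs_of_nonneg hx'.1]; rw [abs_of_nonneg hx] at ha; linarith [hx'.2]
      have b2 := tanh_lower' b1
      rw [abs_of_nonneg hx'.1, abs_of_nonneg (tanh_nonneg' hx'.1)] at b2
      have b3 : (kap B * x) ^ 2 ≤ tanh x ^ 2 :=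
        pow_le_pow_left₀ (mul_nonneg (kap_pos B).le hx'.1) b2 2
      have b4 := th_le' h0 h1 x
      have b5 := mul_le_mul_of_nonneg_left b3 (mul_nonneg h0 hc.le)
      simp only [hcdef]
      push_cast
      nlinarith)
    ⟨le_rfl, hx⟩ ⟨hx, le_rfl⟩ hx
  simp only [F_zero] at m2
  have t0 := tanh_nonneg' hx
  have t1 : tanh a ≤ a := by
    have := abs_tanh_le a; rwa [abs_of_nonneg hx, abs_of_nonneg t0] at this
  have m3 : F θ a ≤ θ * a - c * a ^ 3 := by nlinarith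
  have m4 : (a * tanh a) ^ 2 ≤ a ^ 3 * tanh a := by
    have : a ^ 2 * tanh a * tanh a ≤ a ^ 2 * tanh a * a := by gcongr
    nlinarith
  nlinarith [mul_le_mul_of_nonneg_right m3 t0, mul_le_mul_of_nonneg_left m4 hc0]

lemma mix_exp {s : ℝ} (hs : s = 1 ∨ s = -1) (H : ℝ) :
    (1 + θ) / 2 * exp (s * H) + (1 - (1 + θ) / 2) * exp (s * (-1) * H) =
      cosh H * √(1 - (θ * tanh H) ^ 2) * exp (s * F θ H) := by
  rw [mul_assoc (cosh H), F, ← one_add_sign (abs_mul_tanh_lt h0 h1 H) hs, tanh_eq_sinh_div_cosh]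
  have := (cosh_pos H).ne'
  rcases hs with rfl | rfl
  · rw [one_mul, one_mul, neg_one_mul, ← cosh_add_sinh, ← cosh_sub_sinh]; field_simp; ring
  · rw [neg_one_mul, neg_one_mul, neg_neg, one_mul, ← cosh_sub_sinh, ← cosh_add_sinh]
    field_simp; ring

lemma edge_sym (a b : ℝ) :
    th θ a * (1 - tanh (b + F θ a) ^ 2) = th θ b * (1 - tanh (a + F θ b) ^ 2) := by
  rw [tanh_add', tanh_add', tanh_F h0 h1, tanh_F h0 h1]
  have ha := den_pos h0 h1 a
  have hb := den_pos h0 h1 b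
  have h2 : 0 < 1 + tanh b * (θ * tanh a) := by
    have := abs_lt.1 (show |tanh b * (θ * tanh a)| < 1 by
      rw [abs_mul]
      exact mul_lt_one_of_nonneg_of_lt_one_right (abs_tanh_le_one b) (abs_nonneg _)
        (abs_mul_tanh_lt h0 h1 a))
    linarith
  have h3 : 1 + tanh a * (θ * tanh b) = 1 + tanh b * (θ * tanh a) := by ring
  rw [h3]
  unfold th
  generalize tanh a = x at *
  generalize tanh b = y at *
  have e1 : 1 - ((y + θ * x) / (1 + y * (θ * x))) ^ 2 =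
      (1 - y ^ 2) * (1 - θ ^ 2 * x ^ 2) / (1 + y * (θ * x)) ^ 2 := by
    rw [div_pow, eq_div_iff (by positivity), sub_mul, div_mul_cancel₀ _ (by positivity)]; ring
  have e2 : 1 - ((x + θ * y) / (1 + y * (θ * x))) ^ 2 =
      (1 - x ^ 2) * (1 - θ ^ 2 * y ^ 2) / (1 + y * (θ * x)) ^ 2 := by
    rw [div_pow, eq_div_iff (by positivity), sub_mul, div_mul_cancel₀ _ (by positivity)]; ring
  rw [e1, e2]
  generalize 1 + y * (θ * x) = P at *
  field_simp

lemma jump_step (a y l : ℝ) :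
    tanh (F θ (a + l) - F θ a) / (1 + tanh (F θ (a + l) - F θ a) * tanh (y + F θ a)) =
      tanh l * th θ a / (1 + tanh l * tanh (a + F θ y)) ∧
    (1 - tanh (F θ (a + l) - F θ a) ^ 2) /
        (1 + tanh (F θ (a + l) - F θ a) * tanh (y + F θ a)) ^ 2 * th θ (a + l) =
      th θ a * ((1 - tanh l ^ 2) / (1 + tanh l * tanh (a + F θ y)) ^ 2) := by
  have pos : ∀ p q : ℝ, |p| < 1 → |q| < 1 → 0 < 1 + p * q := fun p q hp hq => by
    have := abs_lt.1 (show |p * q| < 1 by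
      rw [abs_mul]; exact mul_lt_one_of_nonneg_of_lt_one_right hp.le (abs_nonneg _) hq)
    linarith
  have p1 := pos _ _ (abs_tanh_lt_one (F θ (a + l) - F θ a)) (abs_tanh_lt_one (y + F θ a))
  have p2 := pos _ _ (abs_tanh_lt_one l) (abs_tanh_lt_one (a + F θ y))
  have p3 := pos _ _ (abs_tanh_lt_one a) (abs_tanh_lt_one l)
  have p4 := pos _ _ (abs_tanh_lt_one y) (abs_mul_tanh_lt h0 h1 a)
  have p5 := pos _ _ (abs_tanh_lt_one a) (abs_mul_tanh_lt h0 h1 y)
  have p6 := pos _ _ (abs_mul_tanh_lt h0 h1 (a + l)) (abs_mul_tanh_lt h0 h1 (-a))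
  have p7 := den_pos h0 h1 a
  have p8 := den_pos h0 h1 (a + l)
  unfold th
  rw [sub_eq_add_neg (F θ (a + l)), ← F_neg h0 h1] at *
  simp only [tanh_add', tanh_F h0 h1, tanh_neg] at *
  generalize tanh a = x at *
  generalize tanh l = w at *
  generalize tanh y = z at *
  have r1 : 1 + x * (θ * z) = 1 + x * θ * z := by ring
  have r2 : 1 + z * (θ * x) = 1 + x * θ * z := by ring
  rw [r1] at p2 p5 ⊢
  rw [r2] at p1 p4 ⊢
  have q6 : 0 < 1 + x * w - θ ^ 2 * x * (x + w) := by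
    have : 1 + θ * ((x + w) / (1 + x * w)) * (θ * -x) =
      (1 + x * w - θ ^ 2 * x * (x + w)) / (1 + x * w) := by field_simp; ring
    rw [this] at p6
    exact (div_pos_iff_of_pos_right p3).1 p6
  have e1 : (θ * ((x + w) / (1 + x * w)) + θ * -x) / (1 + θ * ((x + w) / (1 + x * w)) * (θ * -x))
      = θ * w * (1 - x ^ 2) / (1 + x * w - θ ^ 2 * x * (x + w)) := by
    have : 1 + θ * ((x + w) / (1 + x * w)) * (θ * -x) =
      (1 + x * w - θ ^ 2 * x * (x + w)) / (1 + x * w) := by field_simp; ring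
    rw [this]; field_simp; ring
  rw [e1] at p1 ⊢
  have q2 : 0 < 1 + x * θ * z + w * (x + θ * z) := by
    have : 1 + w * ((x + θ * z) / (1 + x * θ * z)) =
      (1 + x * θ * z + w * (x + θ * z)) / (1 + x * θ * z) := by field_simp
    rw [this] at p2
    exact (div_pos_iff_of_pos_right p5).1 p2
  have e2 : 1 + θ * w * (1 - x ^ 2) / (1 + x * w - θ ^ 2 * x * (x + w)) *
      ((z + θ * x) / (1 + x * θ * z)) = (1 - θ ^ 2 * x ^ 2) *
        (1 + x * θ * z + w * (x + θ * z)) /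
        ((1 + x * w - θ ^ 2 * x * (x + w)) * (1 + x * θ * z)) := by
    rw [div_mul_div_comm, eq_div_iff (by positivity), add_mul,
      div_mul_cancel₀ _ (by positivity)]; ring
  have e3 : 1 + w * ((x + θ * z) / (1 + x * θ * z)) =
      (1 + x * θ * z + w * (x + θ * z)) / (1 + x * θ * z) := by field_simp
  have q8 : 0 < (1 + x * w) ^ 2 - θ ^ 2 * (x + w) ^ 2 := by
    have : 1 - θ ^ 2 * ((x + w) / (1 + x * w)) ^ 2 =
      ((1 + x * w) ^ 2 - θ ^ 2 * (x + w) ^ 2) / (1 + x * w) ^ 2 := by field_simp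
    rw [this] at p8
    exact (div_pos_iff_of_pos_right (by positivity)).1 p8
  have e4 : θ * (1 - ((x + w) / (1 + x * w)) ^ 2) / (1 - θ ^ 2 * ((x + w) / (1 + x * w)) ^ 2) =
      θ * (1 - x ^ 2) * (1 - w ^ 2) / ((1 + x * w) ^ 2 - θ ^ 2 * (x + w) ^ 2) := by
    have : 1 - θ ^ 2 * ((x + w) / (1 + x * w)) ^ 2 =
      ((1 + x * w) ^ 2 - θ ^ 2 * (x + w) ^ 2) / (1 + x * w) ^ 2 := by field_simp
    rw [this]; field_simp; ring
  have e5 : 1 - (θ * w * (1 - x ^ 2) / (1 + x * w - θ ^ 2 * x * (x + w))) ^ 2 =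
      (1 - θ ^ 2 * x ^ 2) * ((1 + x * w) ^ 2 - θ ^ 2 * (x + w) ^ 2) /
        (1 + x * w - θ ^ 2 * x * (x + w)) ^ 2 := by
    rw [div_pow, eq_div_iff (by positivity), sub_mul, div_mul_cancel₀ _ (by positivity)]; ring
  rw [e2, e3, e4, e5]
  generalize 1 + x * w - θ ^ 2 * x * (x + w) = A at *
  generalize 1 + x * θ * z + w * (x + θ * z) = B at *
  generalize 1 + x * θ * z = C at *
  generalize (1 + x * w) ^ 2 - θ ^ 2 * (x + w) ^ 2 = D at *
  generalize 1 - θ ^ 2 * x ^ 2 = E at *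
  constructor
  · field_simp
  · field_simp

end

end Vale.Agent.P161
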