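import Vale.Agent.P161.Tree
import Vale.Agent.P161.Ana

namespace Vale.Agent.P161

open Finset Filter Topology Real

set_option linter.unusedSectionVars false

variable {d : ℕ}

/-- Depth-`n` message from `v` to its neighbour along `i`. -/
noncomputable def Hn (θ : ℝ) (h : V d → ℝ) : ℕ → V d → Fin d → ℝ
  | 0, v, _ => h v
  | n + 1, v, i => h v + ∑ j ∈ univ.erase i, F θ (Hn θ h n (step j v) j)

def Cv (θ : ℝ) (h : V d → ℝ) (v : V d) (i : Fin d) : Prop :=
  ∃ a, Tendsto (fun n => Hn θ h n v i) atTop (𝓝 a)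

open Classical in
noncomputable def Hi (θ : ℝ) (h : V d → ℝ) (v : V d) (i : Fin d) : ℝ :=
  if Cv θ h v i then limUnder atTop (fun n => Hn θ h n v i) else 0

def Good (θ : ℝ) (h : V d → ℝ) : Prop := ∀ v i, Cv θ h v i

noncomputable def Hv (θ : ℝ) (h : V d → ℝ) (v : V d) : ℝ :=
  h v + ∑ j, F θ (Hi θ h (step j v) j)

noncomputable def mag (θ : ℝ) (h : V d → ℝ) (v : V d) : ℝ := tanh (Hv θ h v)

noncomputable def Upn (θ : ℝ) (h : V d → ℝ) : ℕ → V d → ℝ
  | 0, v => h v
  | n + 1, v => h v + ∑ j ∈ ch v, F θ (Upn θ h n (step j v))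

noncomputable def tt (θ : ℝ) (h : V d → ℝ) (v : V d) (i : Fin d) : ℝ := th θ (Hi θ h v i)

def pp' (t : V d → Fin d → ℝ) : (l : List (Fin d)) → l.IsChain (· ≠ ·) → ℝ
  | [], _ => 1
  | j :: l, h => pp' t l h.tail * t ⟨j :: l, h⟩ j

/-- Product of edge weights along the path from the root. -/
def pp (t : V d → Fin d → ℝ) (u : V d) : ℝ := pp' t u.1 u.2

noncomputable def Cov (θ : ℝ) (h : V d → ℝ) (u : V d) : ℝ :=
  (1 - mag θ h (root d) ^ 2) * pp (tt θ h) u

/-- Weighted sums over the subtree behind a directed edge. -/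
def Ws (t : V d → Fin d → ℝ) (φ : V d → ℝ) : ℕ → V d → Fin d → ℝ
  | 0, v, _ => φ v
  | n + 1, v, i => φ v + ∑ j ∈ univ.erase i, t (step j v) j * Ws t φ n (step j v) j

def WV (t : V d → Fin d → ℝ) (φ : V d → ℝ) (n : ℕ) (v : V d) : ℝ :=
  φ v + ∑ j, t (step j v) j * Ws t φ n (step j v) j

def Wd (t : V d → Fin d → ℝ) (φ : V d → ℝ) : ℕ → V d → ℝ
  | 0, v => φ v
  | n + 1, v => φ v + ∑ j ∈ ch v, t (step j v) j * Wd t φ n (step j v)

@[simp] lemma pp_root (t : V d → Fin d → ℝ) : pp t (root d) = 1 := rfl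

lemma pp_step (t : V d → Fin d → ℝ) {v : V d} {j : Fin d} (hj : j ∈ ch v) :
    pp t (step j v) = pp t v * t (step j v) j := by
  have e : step j v = ⟨j :: v.1, step_val hj ▸ (step j v).2⟩ := Subtype.ext (step_val hj)
  rw [e]; rfl

lemma pp_mul (t t' : V d → Fin d → ℝ) (u : V d) :
    pp (fun v i => t v i * t' v i) u = pp t u * pp t' u := by
  induction u using V_ind with
  | h0 => simp
  | hs v j hj ih => rw [pp_step _ hj, pp_step _ hj, pp_step _ hj, ih]; ring

lemma pp_one (u : V d) : pp (fun _ _ => 1) u = 1 := by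
  induction u using V_ind with
  | h0 => simp
  | hs v j hj ih => rw [pp_step _ hj, ih]; ring

lemma pp_bound {t : V d → Fin d → ℝ} {c : ℝ} (h0 : ∀ v i, 0 ≤ t v i) (h1 : ∀ v i, t v i ≤ c)
    (u : V d) : 0 ≤ pp t u ∧ pp t u ≤ c ^ len u := by
  induction u using V_ind with
  | h0 => simp [len_root]
  | hs v j hj ih =>
    rw [pp_step _ hj, len_step hj, pow_succ]
    exact ⟨mul_nonneg ih.1 (h0 _ _), mul_le_mul ih.2 (h1 _ _) (h0 _ _) (ih.1.trans ih.2)⟩

lemma Ws_eq_Wd (t : V d → Fin d → ℝ) (φ : V d → ℝ) (n : ℕ) {v : V d} {j : Fin d}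
    (hj : j ∈ ch v) : Ws t φ n (step j v) j = Wd t φ n (step j v) := by
  induction n generalizing v j with
  | zero => rfl
  | succ n ih =>
    rw [Ws, Wd, ← ch_step hj]
    exact congrArg _ (sum_congr rfl fun i hi => by rw [ih hi])

lemma WV_root (t : V d → Fin d → ℝ) (φ : V d → ℝ) (n : ℕ) :
    WV t φ n (root d) = Wd t φ (n + 1) (root d) := by
  rw [WV, Wd, ch_root]
  exact congrArg _ (sum_congr rfl fun i _ => by rw [Ws_eq_Wd _ _ _ (by simp [ch_root])])

lemma sum_sph_Wd (t : V d → Fin d → ℝ) (φ : V d → ℝ) (m k : ℕ) :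
    ∑ v ∈ sph d k, pp t v * Wd t φ m v =
      ∑ i ∈ range (m + 1), ∑ u ∈ sph d (k + i), pp t u * φ u := by
  induction m generalizing k with
  | zero => simp [Wd]
  | succ m ih =>
    rw [sum_range_succ', add_zero]
    simp only [Wd, mul_add, sum_add_distrib]
    rw [add_comm]
    congr 1
    have := ih (k + 1)
    rw [sum_sph_succ] at this
    have e : ∑ i ∈ range (m + 1), ∑ u ∈ sph d (k + (i + 1)), pp t u * φ u =
        ∑ i ∈ range (m + 1), ∑ u ∈ sph d (k + 1 + i), pp t u * φ u :=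
      sum_congr rfl fun i _ => by rw [show k + (i + 1) = k + 1 + i by omega]
    rw [e, ← this]
    refine sum_congr rfl fun v _ => ?_
    rw [mul_sum]
    exact sum_congr rfl fun j hj => by rw [pp_step _ hj]; ring

lemma sum_ball_pp (t : V d → Fin d → ℝ) (φ : V d → ℝ) (n : ℕ) :
    ∑ u ∈ ball d n, pp t u * φ u = Wd t φ n (root d) := by
  have := sum_sph_Wd t φ n 0
  simp only [sph, sum_singleton, pp_root, one_mul, zero_add] at this
  rw [this, sum_ball]

lemma Ws_comp (g : TAut d) (t : V d → Fin d → ℝ) (φ : V d → ℝ) (n : ℕ) (v : V d) (i : Fin d) :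
    Ws (fun v i => t (g.e v) (g.π v i)) (fun v => φ (g.e v)) n v i =
      Ws t φ n (g.e v) (g.π v i) := by
  induction n generalizing v i with
  | zero => rfl
  | succ n ih =>
    simp only [Ws, ih, g.map_step, g.π_step]
    congr 1
    refine sum_equiv (g.π v) (fun j => by simp) fun j _ => rfl

lemma WV_comp (g : TAut d) (t : V d → Fin d → ℝ) (φ : V d → ℝ) (n : ℕ) (v : V d) :
    WV (fun v i => t (g.e v) (g.π v i)) (fun v => φ (g.e v)) n v = WV t φ n (g.e v) := by
  simp only [WV, Ws_comp, g.map_step, g.π_step]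
  congr 1
  exact Equiv.sum_comp (g.π v) fun j => t (step j (g.e v)) j * Ws t φ n (step j (g.e v)) j

lemma Ws_nonneg {t : V d → Fin d → ℝ} {φ : V d → ℝ} (ht : ∀ v i, 0 ≤ t v i) (hφ : ∀ v, 0 ≤ φ v)
    (n : ℕ) (v : V d) (i : Fin d) : 0 ≤ Ws t φ n v i := by
  induction n generalizing v i with
  | zero => exact hφ v
  | succ n ih => exact add_nonneg (hφ v) (sum_nonneg fun j _ => mul_nonneg (ht _ _) (ih _ _))

lemma Ws_mono {t : V d → Fin d → ℝ} {φ : V d → ℝ} (ht : ∀ v i, 0 ≤ t v i) (hφ : ∀ v, 0 ≤ φ v)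
    (n : ℕ) (v : V d) (i : Fin d) : Ws t φ n v i ≤ Ws t φ (n + 1) v i := by
  induction n generalizing v i with
  | zero =>
    exact le_add_of_nonneg_right (sum_nonneg fun j _ => mul_nonneg (ht _ _) (hφ _))
  | succ n ih =>
    rw [Ws, Ws]
    exact add_le_add_right (sum_le_sum fun j _ => mul_le_mul_of_nonneg_left (ih _ _) (ht _ _)) _

lemma Ws_le {t : V d → Fin d → ℝ} {φ : V d → ℝ} {γ c : ℝ} (ht : ∀ v i, 0 ≤ t v i)
    (ht' : ∀ v i, t v i ≤ γ) (hγ : ((d : ℝ) - 1) * γ ≤ 1) (hφ : ∀ v, |φ v| ≤ c)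
    (n : ℕ) (v : V d) (i : Fin d) : |Ws t φ n v i| ≤ (n + 1) * c := by
  induction n generalizing v i with
  | zero => simpa [Ws] using hφ v
  | succ n ih =>
    have hc : 0 ≤ c := (abs_nonneg _).trans (hφ v)
    have hγ0 : 0 ≤ γ := (ht v i).trans (ht' v i)
    rw [Ws]
    refine (abs_add_le _ _).trans ?_
    have : |∑ j ∈ univ.erase i, t (step j v) j * Ws t φ n (step j v) j| ≤
        ∑ j ∈ univ.erase i, γ * ((n + 1) * c) := by
      refine (abs_sum_le_sum_abs _ _).trans (sum_le_sum fun j _ => ?_)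
      rw [abs_mul, abs_of_nonneg (ht _ _)]
      exact mul_le_mul (ht' _ _) (ih _ _) (abs_nonneg _) hγ0
    rw [sum_const, card_erase_of_mem (mem_univ _), card_univ, Fintype.card_fin, nsmul_eq_mul,
      Nat.cast_pred (Fin.pos i)] at this
    have h2 : ((d : ℝ) - 1) * γ * ((n + 1) * c) ≤ 1 * ((n + 1) * c) := by gcongr
    push_cast
    linarith [hφ v]

lemma measurable_Ws {α : Type*} [MeasurableSpace α] {t : α → V d → Fin d → ℝ} {φ : α → V d → ℝ}
    (ht : ∀ v i, Measurable fun x => t x v i) (hφ : ∀ v, Measurable fun x => φ x v)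
    (n : ℕ) (v : V d) (i : Fin d) : Measurable fun x => Ws (t x) (φ x) n v i := by
  induction n generalizing v i with
  | zero => exact hφ v
  | succ n ih =>
    exact (hφ v).add (Finset.measurable_sum _ fun j _ => (ht _ _).mul (ih _ _))

lemma measurable_WV {α : Type*} [MeasurableSpace α] {t : α → V d → Fin d → ℝ} {φ : α → V d → ℝ}
    (ht : ∀ v i, Measurable fun x => t x v i) (hφ : ∀ v, Measurable fun x => φ x v)
    (n : ℕ) (v : V d) : Measurable fun x => WV (t x) (φ x) n v :=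
  (hφ v).add (Finset.measurable_sum _ fun _ _ => (ht _ _).mul (measurable_Ws ht hφ _ _ _))

lemma measurable_pp {α : Type*} [MeasurableSpace α] {t : α → V d → Fin d → ℝ}
    (ht : ∀ v i, Measurable fun x => t x v i) (u : V d) : Measurable fun x => pp (t x) u := by
  induction u using V_ind with
  | h0 => simp
  | hs v j hj ih => simp only [pp_step _ hj]; exact ih.mul (ht _ _)

/-! ### Measurability -/

@[fun_prop] lemma measurable_Hn (θ : ℝ) (n : ℕ) (v : V d) (i : Fin d) :
    Measurable fun h : V d → ℝ => Hn θ h n v i := by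
  induction n generalizing v i with
  | zero => exact measurable_pi_apply v
  | succ n ih =>
    exact (measurable_pi_apply v).add
      (Finset.measurable_sum _ fun j _ => (measurable_F θ).comp (ih _ _))

@[fun_prop] lemma measurable_Upn (θ : ℝ) (n : ℕ) (v : V d) :
    Measurable fun h : V d → ℝ => Upn θ h n v := by
  induction n generalizing v with
  | zero => exact measurable_pi_apply v
  | succ n ih =>
    exact (measurable_pi_apply v).add
      (Finset.measurable_sum _ fun j _ => (measurable_F θ).comp (ih _))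

lemma measurableSet_Cv (θ : ℝ) (v : V d) (i : Fin d) :
    MeasurableSet {h : V d → ℝ | Cv θ h v i} :=
  MeasureTheory.measurableSet_exists_tendsto fun n => measurable_Hn θ n v i

lemma measurableSet_Good (θ : ℝ) : MeasurableSet {h : V d → ℝ | Good θ h} := by
  unfold Good
  simp only [Set.ofPred_forall]
  exact MeasurableSet.iInter fun v => MeasurableSet.iInter fun i => measurableSet_Cv θ v i

@[fun_prop] lemma measurable_Hi (θ : ℝ) (v : V d) (i : Fin d) :
    Measurable fun h : V d → ℝ => Hi θ h v i := by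
  unfold Hi
  refine Measurable.ite (measurableSet_Cv θ v i) ?_ measurable_const
  exact (MeasureTheory.StronglyMeasurable.limUnder
    fun n => (measurable_Hn θ n v i).stronglyMeasurable).measurable

@[fun_prop] lemma measurable_Hv (θ : ℝ) (v : V d) : Measurable fun h : V d → ℝ => Hv θ h v := by
  unfold Hv; fun_prop

@[fun_prop] lemma measurable_mag (θ : ℝ) (v : V d) : Measurable fun h : V d → ℝ => mag θ h v := by
  unfold mag; fun_prop

@[fun_prop] lemma measurable_tt (θ : ℝ) (v : V d) (i : Fin d) :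
    Measurable fun h : V d → ℝ => tt θ h v i := by
  unfold tt; fun_prop

@[fun_prop] lemma measurable_pptt (θ : ℝ) (u : V d) :
    Measurable fun h : V d → ℝ => pp (tt θ h) u :=
  measurable_pp (fun v i => measurable_tt θ v i) u

@[fun_prop] lemma measurable_Cov (θ : ℝ) (u : V d) : Measurable fun h : V d → ℝ => Cov θ h u := by
  unfold Cov; fun_prop

/-! ### Equivariance -/

lemma Hn_comp (g : TAut d) (θ : ℝ) (h : V d → ℝ) (n : ℕ) (v : V d) (i : Fin d) :
    Hn θ (fun v => h (g.e v)) n v i = Hn θ h n (g.e v) (g.π v i) := by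
  induction n generalizing v i with
  | zero => rfl
  | succ n ih =>
    simp only [Hn, ih, g.map_step, g.π_step]
    congr 1
    refine sum_equiv (g.π v) (fun j => by simp) fun j _ => rfl

lemma Cv_comp (g : TAut d) (θ : ℝ) (h : V d → ℝ) (v : V d) (i : Fin d) :
    Cv θ (fun v => h (g.e v)) v i ↔ Cv θ h (g.e v) (g.π v i) := by
  simp only [Cv, Hn_comp]

lemma Hi_ext {θ : ℝ} {h h' : V d → ℝ} {v v' : V d} {i i' : Fin d}
    (H : ∀ n, Hn θ h n v i = Hn θ h' n v' i') : Hi θ h v i = Hi θ h' v' i' := by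
  have e : (fun n => Hn θ h n v i) = fun n => Hn θ h' n v' i' := funext H
  have e2 : Cv θ h v i ↔ Cv θ h' v' i' := by rw [Cv, Cv, e]
  classical
  rw [Hi, Hi, e]
  exact if_congr e2 rfl rfl

lemma Hi_comp (g : TAut d) (θ : ℝ) (h : V d → ℝ) (v : V d) (i : Fin d) :
    Hi θ (fun v => h (g.e v)) v i = Hi θ h (g.e v) (g.π v i) :=
  Hi_ext fun n => Hn_comp g θ h n v i

lemma tt_comp (g : TAut d) (θ : ℝ) (h : V d → ℝ) (v : V d) (i : Fin d) :
    tt θ (fun v => h (g.e v)) v i = tt θ h (g.e v) (g.π v i) := by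
  simp only [tt, Hi_comp]

lemma Hv_comp (g : TAut d) (θ : ℝ) (h : V d → ℝ) (v : V d) :
    Hv θ (fun v => h (g.e v)) v = Hv θ h (g.e v) := by
  simp only [Hv, Hi_comp, g.map_step, g.π_step]
  congr 1
  exact Equiv.sum_comp (g.π v) fun j => F θ (Hi θ h (step j (g.e v)) j)

lemma mag_comp (g : TAut d) (θ : ℝ) (h : V d → ℝ) (v : V d) :
    mag θ (fun v => h (g.e v)) v = mag θ h (g.e v) := by
  simp only [mag, Hv_comp]

/-! ### Locality -/

lemma Hn_eq_Upn (θ : ℝ) (h : V d → ℝ) (n : ℕ) {v : V d} {j : Fin d} (hj : j ∈ ch v) :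
    Hn θ h n (step j v) j = Upn θ h n (step j v) := by
  induction n generalizing v j with
  | zero => rfl
  | succ n ih =>
    rw [Hn, Upn, ← ch_step hj]
    exact congrArg _ (sum_congr rfl fun i hi => by rw [ih hi])

lemma Upn_congr (θ : ℝ) {h h' : V d → ℝ} (n : ℕ) (v : V d)
    (H : ∀ w, anc v w → len w ≤ len v + n → h w = h' w) : Upn θ h n v = Upn θ h' n v := by
  induction n generalizing v with
  | zero => exact H v (anc_refl v) (by omega)
  | succ n ih =>
    rw [Upn, Upn, H v (anc_refl v) (by omega)]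
    refine congrArg _ (sum_congr rfl fun j hj => ?_)
    rw [ih _ fun w hw hl => H w (anc_trans (anc_step_self hj) hw)
      (by rw [len_step hj] at hl; omega)]

lemma Hi_congr (θ : ℝ) {h h' : V d → ℝ} {v : V d} {j : Fin d} (hj : j ∈ ch v)
    (H : ∀ w, anc (step j v) w → h w = h' w) :
    Hi θ h (step j v) j = Hi θ h' (step j v) j := by
  have : ∀ n, Hn θ h n (step j v) j = Hn θ h' n (step j v) j := fun n => by
    rw [Hn_eq_Upn _ _ _ hj, Hn_eq_Upn _ _ _ hj, Upn_congr θ n _ fun w hw _ => H w hw]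
  exact Hi_ext this

lemma Upn_zero (θ : ℝ) (n : ℕ) (v : V d) : Upn θ (fun _ => 0) n v = 0 := by
  induction n generalizing v with
  | zero => rfl
  | succ n ih => simp [Upn, ih]

lemma Hi_of_tendsto {θ : ℝ} {h : V d → ℝ} {v : V d} {i : Fin d} {a : ℝ}
    (H : Tendsto (fun n => Hn θ h n v i) atTop (𝓝 a)) : Hi θ h v i = a := by
  rw [Hi, if_pos ⟨a, H⟩, H.limUnder_eq]

lemma Cv.tendsto {θ : ℝ} {h : V d → ℝ} {v : V d} {i : Fin d} (H : Cv θ h v i) :
    Tendsto (fun n => Hn θ h n v i) atTop (𝓝 (Hi θ h v i)) := by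
  obtain ⟨a, ha⟩ := H
  rwa [Hi_of_tendsto ha]

/-- Truncation of a field to a ball. -/
def tr (n : ℕ) (h : V d → ℝ) (v : V d) : ℝ := if len v ≤ n then h v else 0

lemma Upn_tr (θ : ℝ) (h : V d → ℝ) (n m N : ℕ) (v : V d) (hv : len v + m = n) (hN : m ≤ N) :
    Upn θ (tr n h) N v = Upn θ h m v := by
  induction m generalizing v N with
  | zero =>
    have e : tr n h v = h v := by rw [tr, if_pos (by omega)]
    rcases N with _ | N
    · exact e
    · rw [Upn, Upn, e, sum_eq_zero, add_zero]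
      intro j hj
      rw [Upn_congr θ (h' := fun _ => 0) N _ fun w hw _ => ?_, Upn_zero, F_zero]
      have := anc_len hw
      rw [len_step hj] at this
      rw [tr, if_neg (by omega)]
  | succ m ih =>
    obtain ⟨N, rfl⟩ : ∃ N', N = N' + 1 := ⟨N - 1, by omega⟩
    rw [Upn, Upn, tr, if_pos (by omega)]
    refine congrArg _ (sum_congr rfl fun j hj => ?_)
    rw [ih N _ (by rw [len_step hj]; omega) (by omega)]

lemma Hv_tr (θ : ℝ) (h : V d → ℝ) (n : ℕ) :
    Hv θ (tr (n + 1) h) (root d) = Upn θ h (n + 1) (root d) := by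
  rw [Hv, Upn, ch_root, tr, if_pos (by simp [len_root])]
  refine congrArg _ (sum_congr rfl fun j _ => ?_)
  have hj : j ∈ ch (root d) := by simp [ch_root]
  congr 1
  apply Hi_of_tendsto
  refine tendsto_const_nhds.congr' ?_
  filter_upwards [eventually_ge_atTop n] with N hN
  rw [Hn_eq_Upn _ _ _ hj, Upn_tr θ h (n + 1) n N _ (by rw [len_step hj, len_root]; omega) hN]

section
variable {θ : ℝ} (h0 : 0 ≤ θ) (h1 : θ < 1)
include h0 h1

lemma Hn_sign {s : ℝ} (hs : s = 1 ∨ s = -1) (h : V d → ℝ) (n : ℕ) (v : V d) (i : Fin d) :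
    Hn θ (fun w => s * h w) n v i = s * Hn θ h n v i := by
  induction n generalizing v i with
  | zero => rfl
  | succ n ih => simp only [Hn, ih, F_sign h0 h1 hs, mul_add, mul_sum]

lemma Upn_sign {s : ℝ} (hs : s = 1 ∨ s = -1) (h : V d → ℝ) (n : ℕ) (v : V d) :
    Upn θ (fun w => s * h w) n v = s * Upn θ h n v := by
  induction n generalizing v with
  | zero => rfl
  | succ n ih => simp only [Upn, ih, F_sign h0 h1 hs, mul_add, mul_sum]

lemma Hi_sign {s : ℝ} (hs : s = 1 ∨ s = -1) (h : V d → ℝ) (v : V d) (i : Fin d) :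
    Hi θ (fun w => s * h w) v i = s * Hi θ h v i := by
  by_cases H : Cv θ h v i
  · apply Hi_of_tendsto
    simp only [Hn_sign h0 h1 hs]
    exact H.tendsto.const_mul s
  · have H' : ¬ Cv θ (fun w => s * h w) v i := by
      intro H'
      apply H
      have := H'.tendsto.const_mul s
      simp only [Hn_sign h0 h1 hs, ← mul_assoc] at this
      have e : s * s = 1 := by rcases hs with rfl | rfl <;> norm_num
      simp only [e, one_mul] at this
      exact ⟨_, this⟩
    rw [Hi, Hi, if_neg H, if_neg H', mul_zero]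

/-- Uniform bound for messages. -/
noncomputable def Bd (d : ℕ) (θ η : ℝ) : ℝ := η + d * artanh θ

lemma sum_F_le (s : Finset (Fin d)) (a : Fin d → ℝ) : |∑ j ∈ s, F θ (a j)| ≤ d * artanh θ := by
  refine (abs_sum_le_sum_abs _ _).trans ?_
  refine (sum_le_card_nsmul _ _ _ fun j _ => abs_F_le' h0 h1 _).trans ?_
  rw [nsmul_eq_mul]
  have : (s.card : ℝ) ≤ d := by exact_mod_cast card_le_univ s |>.trans (by simp)
  exact mul_le_mul_of_nonneg_right this (artanh_nonneg h0)

lemma le_Bd {η a : ℝ} (H : |a| ≤ η) : |a| ≤ Bd d θ η :=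
  H.trans (le_add_of_nonneg_right (mul_nonneg (Nat.cast_nonneg _) (artanh_nonneg h0)))

lemma abs_Hn_le {h : V d → ℝ} {η : ℝ} (H : ∀ v, |h v| ≤ η) (n : ℕ) (v : V d) (i : Fin d) :
    |Hn θ h n v i| ≤ Bd d θ η := by
  rcases n with _ | n
  · exact le_Bd h0 h1 (H v)
  · exact (abs_add_le _ _).trans (add_le_add (H v) (sum_F_le h0 h1 _ _))

lemma abs_Upn_le {h : V d → ℝ} {η : ℝ} (H : ∀ v, |h v| ≤ η) (n : ℕ) (v : V d) :
    |Upn θ h n v| ≤ Bd d θ η := by
  rcases n with _ | n
  · exact le_Bd h0 h1 (H v)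
  · exact (abs_add_le _ _).trans (add_le_add (H v) (sum_F_le h0 h1 _ _))

lemma abs_Hi_le {h : V d → ℝ} {η : ℝ} (H : ∀ v, |h v| ≤ η) (v : V d) (i : Fin d) :
    |Hi θ h v i| ≤ Bd d θ η := by
  by_cases hc : Cv θ h v i
  · exact le_of_tendsto' hc.tendsto.abs fun n => abs_Hn_le h0 h1 H n v i
  · rw [Hi, if_neg hc, abs_zero]
    exact (abs_nonneg _).trans (abs_Hn_le h0 h1 H 0 v i)

lemma abs_Hv_le {h : V d → ℝ} {η : ℝ} (H : ∀ v, |h v| ≤ η) (v : V d) :
    |Hv θ h v| ≤ Bd d θ η :=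
  (abs_add_le _ _).trans (add_le_add (H v) (sum_F_le h0 h1 _ _))

lemma tt_nonneg (h : V d → ℝ) (v : V d) (i : Fin d) : 0 ≤ tt θ h v i := th_nonneg h0 h1 _

lemma tt_le (h : V d → ℝ) (v : V d) (i : Fin d) : tt θ h v i ≤ θ := th_le h0 h1 _

lemma pptt_bound (h : V d → ℝ) (u : V d) : 0 ≤ pp (tt θ h) u ∧ pp (tt θ h) u ≤ 1 :=
  ⟨(pp_bound (tt_nonneg h0 h1 h) (tt_le h0 h1 h) u).1,
    (pp_bound (tt_nonneg h0 h1 h) (tt_le h0 h1 h) u).2.trans (pow_le_one₀ h0 h1.le)⟩

lemma Cov_bound (h : V d → ℝ) (u : V d) : 0 ≤ Cov θ h u ∧ Cov θ h u ≤ pp (tt θ h) u := by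
  have a := pptt_bound h0 h1 h u
  have b := tanh_sq_lt_one (Hv θ h (root d))
  unfold Cov mag
  exact ⟨mul_nonneg (by linarith) a.1, by nlinarith [sq_nonneg (tanh (Hv θ h (root d)))]⟩

lemma abs_Cov_le (h : V d → ℝ) (u : V d) : |Cov θ h u| ≤ 1 := by
  have a := Cov_bound h0 h1 h u
  rw [abs_of_nonneg a.1]; exact a.2.trans (pptt_bound h0 h1 h u).2

lemma Good.bp {h : V d → ℝ} (H : Good θ h) (v : V d) (i : Fin d) :
    Hi θ h v i = h v + ∑ j ∈ univ.erase i, F θ (Hi θ h (step j v) j) := by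
  apply Hi_of_tendsto
  rw [← tendsto_add_atTop_iff_nat 1]
  exact tendsto_const_nhds.add (tendsto_finsetSum _ fun j _ =>
    ((continuous_F h0 h1).tendsto _).comp (H _ _).tendsto)

lemma Good.hv {h : V d → ℝ} (H : Good θ h) (v : V d) (i : Fin d) :
    Hv θ h v = Hi θ h v i + F θ (Hi θ h (step i v) i) := by
  rw [H.bp h0 h1 v i, Hv, add_assoc, sum_erase_add _ _ (mem_univ i)]

lemma Good.tendsto_Upn {h : V d → ℝ} (H : Good θ h) :
    Tendsto (fun n => Upn θ h n (root d)) atTop (𝓝 (Hv θ h (root d))) := by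
  rw [← tendsto_add_atTop_iff_nat 1]
  simp only [Upn, Hv, ch_root]
  refine tendsto_const_nhds.add (tendsto_finsetSum _ fun j _ =>
    ((continuous_F h0 h1).tendsto _).comp ?_)
  have := (H (step j (root d)) j).tendsto
  simpa only [Hn_eq_Upn _ _ _ (show j ∈ ch (root d) by simp [ch_root])] using this

lemma Good.tendsto_mag {h : V d → ℝ} (H : Good θ h) :
    Tendsto (fun n => mag θ (tr (n + 1) h) (root d)) atTop (𝓝 (mag θ h (root d))) := by
  simp only [mag, Hv_tr]
  exact (continuous_tanh'.tendsto _).comp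
    ((tendsto_add_atTop_iff_nat 1).2 (H.tendsto_Upn h0 h1))

lemma Good.edge {h : V d → ℝ} (H : Good θ h) (v : V d) (i : Fin d) :
    tt θ h v i * (1 - mag θ h (step i v) ^ 2) = tt θ h (step i v) i * (1 - mag θ h v ^ 2) := by
  rw [mag, mag, H.hv h0 h1 v i, H.hv h0 h1 (step i v) i, step_step]
  exact edge_sym h0 h1 _ _

noncomputable def Up (θ : ℝ) (h : V d → ℝ) (v : V d) : ℝ :=
  h v + ∑ j ∈ ch v, F θ (Hi θ h (step j v) j)

lemma Good.up {h : V d → ℝ} (H : Good θ h) {v : V d} {j : Fin d} (hj : j ∈ ch v) :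
    Hi θ h (step j v) j = Up θ h (step j v) := by
  rw [H.bp h0 h1, Up, ch_step hj]

lemma jump_aux {h h' : V d → ℝ} (H : Good θ h) (H' : Good θ h') (u : V d) :
    ∀ l : ℝ, Up θ h' u = Up θ h u + l →
      (∀ v j, j ∈ ch v → anc (step j v) u →
        Up θ h' v = Up θ h v + (F θ (Up θ h' (step j v)) - F θ (Up θ h (step j v)))) →
      mag θ h' (root d) - mag θ h (root d) = tanh l * Cov θ h u / (1 + tanh l * mag θ h u) ∧
      Cov θ h' u = Cov θ h u * ((1 - tanh l ^ 2) / (1 + tanh l * mag θ h u) ^ 2) := by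
  induction u using V_ind with
  | h0 =>
    intro l e _
    have e1 : Hv θ h' (root d) = Hv θ h (root d) + l := by
      simpa only [Up, ch_root, Hv] using e
    have p : 0 < 1 + tanh (Hv θ h (root d)) * tanh l := by
      have := abs_lt.1 (show |tanh (Hv θ h (root d)) * tanh l| < 1 by
        rw [abs_mul]
        exact mul_lt_one_of_nonneg_of_lt_one_right (abs_tanh_le_one _) (abs_nonneg _)
          (abs_tanh_lt_one _))
      linarith
    simp only [Cov, mag, pp_root, e1, tanh_add', mul_comm (tanh l) (tanh (Hv θ h (root d)))]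
    constructor
    · field_simp; ring
    · rw [div_pow, mul_one, mul_one, mul_div_assoc', eq_div_iff (by positivity), sub_mul,
        div_mul_cancel₀ _ (by positivity)]; ring
  | hs v j hj ih =>
    intro l e hA
    have e1 := hA v j hj (anc_refl _)
    rw [e] at e1
    obtain ⟨i1, i2⟩ := ih _ e1 fun w i hi hw => hA w i hi (anc_trans hw (anc_step_self hj))
    have m1 : mag θ h v = tanh (Hi θ h v j + F θ (Up θ h (step j v))) := by
      rw [mag, H.hv h0 h1 v j, H.up h0 h1 hj]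
    have m2 : mag θ h (step j v) = tanh (Up θ h (step j v) + F θ (Hi θ h v j)) := by
      rw [mag, H.hv h0 h1 (step j v) j, H.up h0 h1 hj, step_step]
    have c1 : Cov θ h (step j v) = Cov θ h v * th θ (Up θ h (step j v)) := by
      rw [Cov, Cov, pp_step _ hj, tt, H.up h0 h1 hj]; ring
    have c2 : Cov θ h' (step j v) = Cov θ h' v * th θ (Up θ h (step j v) + l) := by
      rw [Cov, Cov, pp_step _ hj, tt, H'.up h0 h1 hj, e]; ring
    obtain ⟨j1, j2⟩ := jump_step h0 h1 (Up θ h (step j v)) (Hi θ h v j) l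
    rw [← m1, ← m2] at j1 j2
    constructor
    · rw [i1, c1, mul_comm _ (Cov θ h v), mul_div_assoc, j1]; ring
    · rw [c2, i2, c1, mul_assoc, j2]; ring

lemma jump {h h' : V d → ℝ} (H : Good θ h) (H' : Good θ h') (u : V d) (l : ℝ)
    (e : ∀ w, h' w = h w + if w = u then l else 0) :
    mag θ h' (root d) - mag θ h (root d) = tanh l * Cov θ h u / (1 + tanh l * mag θ h u) ∧
      Cov θ h' u = Cov θ h u * ((1 - tanh l ^ 2) / (1 + tanh l * mag θ h u) ^ 2) := by
  have key : ∀ v j, j ∈ ch v → ¬ anc (step j v) u →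
      Hi θ h' (step j v) j = Hi θ h (step j v) j := fun v j hj hn =>
    Hi_congr θ hj fun w hw => by
      rw [e w, if_neg (by rintro rfl; exact hn hw), add_zero]
  refine jump_aux h0 h1 H H' u l ?_ fun v j hj hA => ?_
  · rw [Up, Up, e u, if_pos rfl, sum_congr rfl fun j hj => by rw [key u j hj (not_anc_child hj)]]
    ring
  · have hv : v ≠ u := by rintro rfl; exact not_anc_child hj hA
    rw [Up, Up, e v, if_neg hv, ← H.up h0 h1 hj, ← H'.up h0 h1 hj,
      ← add_sum_erase _ _ hj, ← add_sum_erase _ _ hj,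
      sum_congr rfl fun i hi => by
        rw [key v i (mem_of_mem_erase hi) fun hi' =>
          (mem_erase.1 hi).1 (anc_sib (mem_of_mem_erase hi) hj hi' hA)]]
    ring

end

end Vale.Agent.P161
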