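import Vale.Agent.P161.World

namespace Vale.Agent.P161

open MeasureTheory Finset Real Filter Topology

set_option linter.unusedSectionVars false

variable {d : ℕ}

lemma Wd_congr (t : V d → Fin d → ℝ) {φ φ' : V d → ℝ} (n : ℕ) (v : V d)
    (H : ∀ w, anc v w → φ w = φ' w) : Wd t φ n v = Wd t φ' n v := by
  induction n generalizing v with
  | zero => exact H v (anc_refl v)
  | succ n ih =>
    rw [Wd, Wd, H v (anc_refl v)]
    refine congrArg _ (sum_congr rfl fun j hj => ?_)
    rw [ih _ fun w hw => H w (anc_trans (anc_step_self hj) hw)]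

lemma Wd_smul (t : V d → Fin d → ℝ) (φ : V d → ℝ) (c : ℝ) (n : ℕ) (v : V d) :
    c * Wd t φ n v = Wd t (fun w => c * φ w) n v := by
  induction n generalizing v with
  | zero => rfl
  | succ n ih =>
    rw [Wd, Wd, mul_add, mul_sum]
    exact congrArg _ (sum_congr rfl fun j _ => by rw [← ih]; ring)

lemma BM_Wd {α : Type*} [MeasurableSpace α] (t : V d → Fin d → ℝ) {φ : α → V d → ℝ}
    (hφ : ∀ v, BM fun x => φ x v) (n : ℕ) (v : V d) : BM fun x => Wd t (φ x) n v := by
  induction n generalizing v with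
  | zero => exact hφ v
  | succ n ih => exact (hφ v).add (BM.sum _ fun j => (BM.const _).mul (ih _))

/-- Coordinates strictly governing the subtree of `v` in the gauge of `v`. -/
def sub0 (v : V d) : Set (K d) := {k | anc v k.1 ∧ k ≠ (v, none)}

def sub1 (v : V d) : Set (K d) := {k | anc v k.1}

lemma sub1_disj {v : V d} {i j : Fin d} (hi : i ∈ ch v) (hj : j ∈ ch v) (hij : i ≠ j) :
    Disjoint (sub1 (step i v)) (sub1 (step j v)) :=
  Set.disjoint_left.2 fun _ h1 h2 => hij (anc_sib hi hj h1 h2)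

lemma sig_mul_dep {ω ω' : Om d} {v w : V d} (H : ∀ k ∈ sub0 v, ω k = ω' k) (h : anc v w) :
    sig ω v * sig ω w = sig ω' v * sig ω' w :=
  sig_mul_congr h fun u h1 h2 _ => H _ ⟨h1, by simpa using h2⟩

lemma sig_parent (ω : Om d) {v : V d} {j : Fin d} (hj : j ∈ ch v) :
    sig ω v = sg (ω (step j v, none)) * sig ω (step j v) := by
  rw [sig_step _ hj, ← mul_assoc, sign_sq (sg_cases _), one_mul]

noncomputable def GW (h : V d → ℝ) (m : ℕ) (v : V d) (ω : Om d) : ℝ :=
  sig ω v * Wd (fun _ _ => 1) (fun w => sig ω w * h w) m v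

lemma BM_GW (h : V d → ℝ) (m : ℕ) (v : V d) : BM (GW h m v) :=
  (BM_sig measurable_id v).mul (BM_Wd _ (fun w => (BM_sig measurable_id w).mul (BM.const _)) _ _)

lemma GW_dep (h : V d → ℝ) (m : ℕ) (v : V d) : DependsOn (GW h m v) (sub0 v) := fun ω ω' H => by
  rw [GW, GW, Wd_smul, Wd_smul]
  exact Wd_congr _ _ _ fun w hw => by rw [← mul_assoc, ← mul_assoc, sig_mul_dep H hw]

lemma upd_sub0 {f : Om d → ℝ} {v : V d} (hf : DependsOn f (sub0 v)) (ω : Om d) (t : ℝ) :
    f (Function.update ω (v, none) t) = f ω :=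
  hf fun _ hk => Function.update_of_ne hk.2 _ _

section
variable {θ : ℝ} (h0 : 0 ≤ θ) (h1 : θ < 1)
include h0 h1

lemma half_mem : (1 + θ) / 2 ∈ Set.Icc (0 : ℝ) 1 := ⟨by linarith, by linarith⟩

/-- Integrating out the coin of a child. -/
lemma int_coin {c : V d} (hc : c ≠ root d) {G : Om d → ℝ} (hG : DependsOn G (sub0 c))
    {φ : ℝ × ℝ → ℝ} (hφ : BM fun ω : Om d => φ (sg (ω (c, none)), G ω))
    (h1' : BM fun ω => φ (1, G ω)) (h2' : BM fun ω => φ (-1, G ω)) :
    ∫ ω, φ (sg (ω (c, none)), G ω) ∂PP d θ =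
      (1 + θ) / 2 * ∫ ω, φ (1, G ω) ∂PP d θ + (1 - (1 + θ) / 2) * ∫ ω, φ (-1, G ω) ∂PP d θ := by
  rw [int_upd _ (c, none) hφ, ← integral_const_mul, ← integral_const_mul,
    ← int_add ((BM.const _).mul h1') ((BM.const _).mul h2')]
  congr 1; ext ω
  simp only [rho, if_neg hc, Function.update_self, upd_sub0 hG]
  rw [int_two (half_mem h0 h1), sg_one, sg_neg_one]

lemma ising_exp (h : V d → ℝ) (m : ℕ) (v : V d) : ∃ N : ℝ, ∀ s : ℝ, (s = 1 ∨ s = -1) →
    ∫ ω, exp (s * GW h m v ω) ∂PP d θ = N * exp (s * Upn θ h m v) := by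
  induction m generalizing v with
  | zero =>
    refine ⟨1, fun s _ => ?_⟩
    simp only [GW, Wd, Upn, ← mul_assoc (sig _ v), sign_sq (sig_cases _ _)]
    simp
  | succ m ih =>
    choose N hN using ih
    refine ⟨∏ j ∈ ch v, N (step j v) * (cosh (Upn θ h m (step j v)) *
      √(1 - (θ * tanh (Upn θ h m (step j v))) ^ 2)), fun s hs => ?_⟩
    have e : ∀ ω, exp (s * GW h (m + 1) v ω) = exp (s * h v) *
        ∏ j ∈ ch v, exp (s * (sg (ω (step j v, none)) * GW h m (step j v) ω)) := fun ω => by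
      rw [← exp_sum, ← exp_add, GW, Wd, mul_add, mul_add, ← mul_assoc (sig _ v),
        sign_sq (sig_cases _ _), one_mul, mul_sum, mul_sum]
      congr 2
      exact sum_congr rfl fun j hj => by rw [GW, sig_parent ω hj]; ring
    have b : ∀ j, BM fun ω : Om d => exp (s * (sg (ω (step j v, none)) * GW h m (step j v) ω)) :=
      fun j => ((BM.const _).mul ((BM.of_le (by fun_prop) fun ω =>
        (sign_abs (sg_cases _)).le).mul (BM_GW _ _ _))).exp
    simp only [e]
    rw [integral_const_mul, int_prod_dep _ _ b (A := fun j => sub1 (step j v))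
      (fun j _ ω ω' H => by
        rw [H _ (anc_refl _), GW_dep h m _ fun k hk => H k hk.1])
      fun i hi j hj hij => sub1_disj hi hj hij, Upn, mul_add, exp_add, mul_sum, exp_sum,
      mul_left_comm, ← prod_mul_distrib]
    congr 1
    refine prod_congr rfl fun j hj => ?_
    rw [int_coin h0 h1 (step_ne_root hj) (GW_dep h m _) (φ := fun p => exp (s * (p.1 * p.2))) (b j)
      ((BM.const _).mul ((BM.const _).mul (BM_GW _ _ _))).exp
      ((BM.const _).mul ((BM.const _).mul (BM_GW _ _ _))).exp]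
    simp only [one_mul, ← mul_assoc s]
    rw [hN _ s hs, hN _ (s * -1) (sign_mul hs (Or.inr rfl)), mul_assoc (N _),
      ← mix_exp h0 h1 hs]
    ring

lemma ising_zero (h : V d → ℝ) (n : ℕ) :
    ∫ ω, (sig ω (root d) - tanh (Upn θ h n (root d))) *
      exp (∑ v ∈ ball d n, sig ω v * h v) ∂PP d θ = 0 := by
  obtain ⟨N, hN⟩ := ising_exp h0 h1 h n (root d)
  have e : ∀ ω : Om d, ∑ v ∈ ball d n, sig ω v * h v = sg (ω (root d, none)) * GW h n (root d) ω :=
    fun ω => by
      rw [GW, ← mul_assoc, ← sig_root, sign_sq (sig_cases _ _), one_mul, ← sum_ball_pp]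
      simp only [pp_one, one_mul]
  have b := BM_GW h n (root d)
  have bs : BM fun ω : Om d => sg (ω (root d, none)) := BM_sig measurable_id (root d)
  simp only [e, sig_root]
  rw [int_upd' _ (root d, none) (by fun_prop)]
  simp only [rho, if_true, Function.update_self, upd_sub0 (GW_dep h n _)]
  rw [int_two (by norm_num), sg_one, sg_neg_one, integral_const_mul, integral_const_mul,
    hN _ (Or.inl rfl), hN _ (Or.inr rfl), tanh_eq, one_mul, neg_one_mul]
  have := exp_pos (Upn θ h n (root d))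
  have := exp_pos (-Upn θ h n (root d))
  field_simp
  ring

end

open Classical in
noncomputable def DS (S : Finset (J d)) (ω : Om d) : X d :=
  fun l => (ω (kt l), if l ∈ S then 2 * cl (ω (kn l)) - 1 else sig ω l.1 * Yt ω l)

open Classical in
noncomputable def at' (R : Rule d) (ω : Om d) (l : J d) : ℝ :=
  if R.R (clk (D ω)) l then am (D ω) l else 0

noncomputable def wt (R : Rule d) (S : Finset (J d)) (ω : Om d) : ℝ :=
  ∏ l ∈ S, (1 + at' R ω l * sig ω l.1 * (2 * cl (ω (kn l)) - 1))

@[fun_prop] lemma measurable_DS (S : Finset (J d)) : Measurable (DS S) := by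
  refine measurable_pi_lambda _ fun l => Measurable.prodMk (by fun_prop) ?_
  split_ifs <;> fun_prop

@[fun_prop] lemma BM_at (R : Rule d) (l : J d) : BM fun ω => at' R ω l := by
  classical
  exact BM.ite ((measurable_clk.comp measurable_D) (R.meas l)) (by fun_prop) (BM.const _)

@[fun_prop] lemma BM_lin {α : Type*} [MeasurableSpace α] {f : α → ℝ} (hf : Measurable f) :
    BM fun a => cl (f a) :=
  BM.of_le (C := 1) (by fun_prop) fun a => by
    rw [abs_of_nonneg (cl_mem _).1]; exact (cl_mem _).2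

lemma BM_wt (R : Rule d) (S : Finset (J d)) : BM (wt R S) := by
  unfold wt; fun_prop

lemma sig_upd (ω : Om d) (v : V d) (a : ℕ × Bool) (t : ℝ) (w : V d) :
    sig (Function.update ω (v, some a) t) w = sig ω w :=
  sig_congr (fun _ => Function.update_of_ne (by simp) _ _) w

lemma sig_upd_kn (ω : Om d) (l : J d) (t : ℝ) (w : V d) :
    sig (Function.update ω (kn l) t) w = sig ω w := sig_upd _ _ _ _ _

lemma sig_upd_kt (ω : Om d) (l : J d) (t : ℝ) (w : V d) :
    sig (Function.update ω (kt l) t) w = sig ω w := sig_upd _ _ _ _ _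

lemma upd_kn_kt (ω : Om d) (l l' : J d) (t : ℝ) :
    Function.update ω (kn l) t (kt l') = ω (kt l') := Function.update_of_ne (kt_ne_kn _ _) _ _

lemma upd_kt_kn (ω : Om d) (l l' : J d) (t : ℝ) :
    Function.update ω (kt l) t (kn l') = ω (kn l') :=
  Function.update_of_ne (kt_ne_kn _ _).symm _ _

lemma upd_kn_kn (ω : Om d) {l l' : J d} (h : l' ≠ l) (t : ℝ) :
    Function.update ω (kn l) t (kn l') = ω (kn l') := Function.update_of_ne (kn_inj.ne h) _ _

lemma upd_kt_kt (ω : Om d) {l l' : J d} (h : l' ≠ l) (t : ℝ) :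
    Function.update ω (kt l) t (kt l') = ω (kt l') := Function.update_of_ne (kt_inj.ne h) _ _

lemma clk_D_upd (ω : Om d) (l : J d) (t : ℝ) :
    clk (D (Function.update ω (kn l) t)) = clk (D ω) := funext fun l' => upd_kn_kt ω l l' t

lemma DS_upd (S : Finset (J d)) (ω : Om d) (l : J d) (t : ℝ) :
    DS S (Function.update ω (kn l) t) = Function.update (DS S ω) l (ω (kt l),
      if l ∈ S then 2 * cl t - 1 else sig ω l.1 * Qt (amp l.2 (ω (kt l))) (cl t)) := by
  funext l'
  by_cases h : l' = l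
  · subst h
    simp only [DS, Yt, upd_kn_kt, sig_upd_kn, Function.update_self]
  · simp only [DS, Yt, upd_kn_kt, sig_upd_kn, Function.update_of_ne h, upd_kn_kn ω h]

lemma DS_empty (ω : Om d) : DS ∅ ω = D ω := by
  funext l; simp [DS, D]

lemma D_upd (ω : Om d) (l : J d) (t : ℝ) :
    D (Function.update ω (kn l) t) = Function.update (D ω) l (ω (kt l),
      sig ω l.1 * Qt (amp l.2 (ω (kt l))) (cl t)) := by
  simpa only [DS_empty, notMem_empty, if_false] using DS_upd ∅ ω l t

lemma clk_upd (x : X d) (l : J d) (y : ℝ) : clk (Function.update x l ((x l).1, y)) = clk x := by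
  funext l'
  by_cases h : l' = l
  · subst h; simp [clk]
  · simp [clk, h]

lemma mask_upd_of_not {R : Rule d} {x : X d} {l : J d} (h : ¬ R.R (clk x) l) (y : ℝ) :
    mask R (Function.update x l ((x l).1, y)) = mask R x := by
  funext l'
  unfold mask
  rw [clk_upd]
  by_cases e : l' = l
  · subst e; simp [h]
  · simp [e]

lemma chg (θ : ℝ) (R : Rule d) {c : Om d → ℝ} (hc : BM c)
    (hc' : ∀ ω l t, c (Function.update ω (kn l) t) = c ω) {ψ : X d → ℝ} (hψ : BM ψ)
    (S : Finset (J d)) : ∫ ω, c ω * ψ (mask R (D ω)) ∂PP d θ =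
      ∫ ω, c ω * ψ (mask R (DS S ω)) * wt R S ω ∂PP d θ := by
  classical
  induction S using Finset.induction_on with
  | empty => simp [DS_empty, wt]
  | insert l S hl ih =>
    rw [ih, int_upd _ (kn l) ((hc.mul (hψ.comp (by fun_prop))).mul (BM_wt _ _)),
      int_upd _ (kn l) ((hc.mul (hψ.comp (by fun_prop))).mul (BM_wt _ _))]
    congr 1; ext ω
    have ha : ∀ t l', at' R (Function.update ω (kn l) t) l' = at' R ω l' := fun t l' => by
      simp only [at', clk_D_upd, am, D, upd_kn_kt]
    have hw : ∀ t, wt R S (Function.update ω (kn l) t) = wt R S ω := fun t =>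
      prod_congr rfl fun l' hl' => by
        rw [ha, sig_upd_kn, upd_kn_kn ω (by rintro rfl; exact hl hl')]
    have hw' : ∀ t, wt R (insert l S) (Function.update ω (kn l) t) =
        (1 + at' R ω l * sig ω l.1 * (2 * cl t - 1)) * wt R S ω := fun t => by
      rw [← hw t, wt, prod_insert hl, ha, sig_upd_kn, Function.update_self]; rfl
    have hD : ∀ p, Function.update (DS (insert l S) ω) l p = Function.update (DS S ω) l p :=
      fun p => by
        funext l'
        by_cases e : l' = l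
        · subst e; simp
        · simp [e, DS]
    simp only [hc', hw, hw', DS_upd, hD, if_neg hl, mem_insert_self, if_true, rho_kn]
    by_cases hR : R.R (clk (D ω)) l
    · have := cvA (abs_amp_le l.2 (ω (kt l))) (sig_cases ω l.1)
        fun y => c ω * ψ (mask R (Function.update (DS S ω) l (ω (kt l), y))) * wt R S ω
      rw [this]
      congr 1; ext t
      simp only [at', if_pos hR, am, D]; ring
    · have e : ∀ y, mask R (Function.update (DS S ω) l (ω (kt l), y)) = mask R (DS S ω) :=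
        fun y => mask_upd_of_not (x := DS S ω) hR y
      simp only [e, at', if_neg hR]
      simp

noncomputable def D0 (ω : Om d) : X d := fun l => (ω (kt l), 2 * cl (ω (kn l)) - 1)

@[fun_prop] lemma measurable_D0 : Measurable (D0 (d := d)) := by unfold D0; fun_prop

@[fun_prop] lemma BM_tanh {α : Type*} [MeasurableSpace α] {f : α → ℝ} (hf : Measurable f) :
    BM fun a => tanh (f a) := BM.of_le (by fun_prop) fun _ => abs_tanh_le_one _

@[fun_prop] lemma BM_mag {α : Type*} [MeasurableSpace α] {f : α → V d → ℝ} (hf : Measurable f)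
    (θ : ℝ) (v : V d) : BM fun a => mag θ (f a) v :=
  BM.of_le (by fun_prop) fun _ => abs_tanh_le_one _

lemma CE_fin {θ : ℝ} (h0 : 0 ≤ θ) (h1 : θ < 1) (R : Rule d) (n : ℕ)
    (hR : ∀ τ l, R.R τ l → len l.1 ≤ n) {ψ : X d → ℝ} (hψ : BM ψ) :
    ∫ ω, sig ω (root d) * ψ (mask R (D ω)) ∂PP d θ =
      ∫ ω, tanh (Upn θ (fld R (mask R (D ω))) n (root d)) * ψ (mask R (D ω)) ∂PP d θ := by
  classical
  set S := ball d n ×ˢ range R.N
  have b1 : BM fun x => tanh (Upn θ (fld R x) n (root d)) * ψ x := by fun_prop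
  have e1 := chg θ R (BM_sig measurable_id (root d)) (fun ω l t => sig_upd_kn ω l t _) hψ S
  have e2 := chg θ R (BM.const 1) (fun _ _ _ => rfl) b1 S
  simp only [one_mul, id] at e1 e2
  have hm : ∀ ω, mask R (DS S ω) = mask R (D0 ω) := fun ω => by
    funext l
    simp only [mask]
    refine Prod.ext rfl ?_
    change (if R.R (clk (D0 ω)) l then _ else _) = _
    split_ifs with h
    · simp only [DS, D0, if_pos (show l ∈ S from
        mem_product.2 ⟨mem_ball.2 (hR _ _ h), mem_range.2 (R.bdd _ _ h)⟩)]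
    · rfl
  have b2 : BM fun ω => sig ω (root d) * ψ (mask R (D0 ω)) * wt R S ω :=
    ((BM_sig measurable_id _).mul (hψ.comp (by fun_prop))).mul (BM_wt _ _)
  have b3 : BM fun ω => tanh (Upn θ (fld R (mask R (D0 ω))) n (root d)) * ψ (mask R (D0 ω)) *
      wt R S ω := (b1.comp (φ := fun ω => mask R (D0 ω)) (by fun_prop)).mul (BM_wt _ _)
  rw [e1, e2, ← sub_eq_zero]
  simp only [hm]
  rw [← int_sub b2 b3, int_pw _ {k | k.2 ≠ none} (b2.sub b3)]
  refine integral_eq_zero_of_ae (ae_of_all _ fun ω => ?_)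
  have a1 : ∀ ω', D0 (Set.piecewise {k : K d | k.2 ≠ none} ω ω') = D0 ω := fun ω' => by
    funext l; simp [D0, kt, kn]
  have a2 : ∀ ω' v, sig (Set.piecewise {k : K d | k.2 ≠ none} ω ω') v = sig ω' v := fun ω' v =>
    sig_congr (fun u => by simp) v
  let w : J d → ℝ := fun l => if R.R (clk (D0 ω)) l then wv (D0 ω) l else 0
  have hw : ∀ l, |w l| < 1 := fun l => by
    simp only [w]; split_ifs
    · linarith [abs_wv_le (D0 ω) l]
    · simp
  have a3 : ∀ ω', wt R S (Set.piecewise {k : K d | k.2 ≠ none} ω ω') =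
      (∏ l ∈ S, √(1 - w l ^ 2)) * exp (∑ v ∈ ball d n, sig ω' v * fld R (D0 ω) v) := fun ω' => by
    have : ∑ v ∈ ball d n, sig ω' v * fld R (D0 ω) v = ∑ l ∈ S, sig ω' l.1 * artanh (w l) := by
      rw [sum_product]
      refine sum_congr rfl fun v _ => ?_
      rw [fld, fldS, mul_sum]
      refine sum_congr rfl fun r _ => ?_
      simp only [w]; split_ifs <;> simp
    rw [this, exp_sum, ← prod_mul_distrib]
    refine prod_congr rfl fun l _ => ?_
    rw [← one_add_sign (hw l) (sig_cases _ _), a2]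
    have c1 : clk (D (Set.piecewise {k : K d | k.2 ≠ none} ω ω')) = clk (D0 ω) := by
      rw [← a1 ω']; rfl
    have c2 : am (D (Set.piecewise {k : K d | k.2 ≠ none} ω ω')) l = am (D0 ω) l := by
      rw [← a1 ω']; rfl
    have c3 : 2 * cl (Set.piecewise {k : K d | k.2 ≠ none} ω ω' (kn l)) - 1 = (D0 ω l).2 := by
      rw [← a1 ω']; rfl
    simp only [at', w, c1, c2, c3]
    split_ifs
    · rw [wv, clp_of_le (show |(D0 ω l).2| ≤ 1 from abs_lin_le _)]; ring
    · simp
  simp only [a1, a2, a3, fld_mask fun _ h => h, Pi.zero_apply]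
  have := ising_zero h0 h1 (fld R (D0 ω)) n
  rw [← mul_zero (ψ (mask R (D0 ω)) * ∏ l ∈ S, √(1 - w l ^ 2)), ← this, ← integral_const_mul]
  congr 1; ext ω'; ring

end Vale.Agent.P161
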