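import Vale.Agent.P161.CE

namespace Vale.Agent.P161

open MeasureTheory Finset Real Filter Topology

set_option linter.unusedSectionVars false

section general
variable {α β : Type*} [mα : MeasurableSpace α] [mβ : MeasurableSpace β]

lemma condExp_of_int (μ : Measure α) [IsFiniteMeasure μ] {φ : α → β} (hφ : Measurable φ)
    {f : α → ℝ} {γ : β → ℝ} (hf : BM f) (hγ : BM γ)
    (h : ∀ ψ : β → ℝ, BM ψ → ∫ x, f x * ψ (φ x) ∂μ = ∫ x, γ (φ x) * ψ (φ x) ∂μ) :
    (fun x => γ (φ x)) =ᵐ[μ] μ[f | mβ.comap φ] := by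
  classical
  refine ae_eq_condExp_of_forall_setIntegral_eq hφ.comap_le (hf.int μ)
    (fun s _ _ => ((hγ.comp hφ).int μ).integrableOn) ?_ ?_
  · rintro _ ⟨t, ht, rfl⟩ _
    have := h (t.indicator 1) (BM.ind (p := (· ∈ t)) ht)
    rw [← integral_indicator (hφ ht), ← integral_indicator (hφ ht)]
    convert this.symm using 2 <;> ext x <;> by_cases hx : φ x ∈ t <;> simp [hx]
  · exact (hγ.1.comp (comap_measurable φ)).stronglyMeasurable.aestronglyMeasurable

lemma int_mul_condExp (μ : Measure α) [IsFiniteMeasure μ] {m : MeasurableSpace α} (hm : m ≤ mα)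
    {f g : α → ℝ} (hf : Integrable f μ) (hg : @BM α m g) :
    ∫ x, g x * f x ∂μ = ∫ x, g x * (μ[f | m]) x ∂μ := by
  obtain ⟨h1, C, h2⟩ := hg
  have h3 : Integrable (g * f) μ :=
    hf.bdd_mul (c := C) (h1.mono hm le_rfl).aestronglyMeasurable (ae_of_all _ h2)
  have := condExp_mul_of_stronglyMeasurable_left (μ := μ) h1.stronglyMeasurable h3 hf
  exact (integral_condExp hm).symm.trans (integral_congr_ae this)

end general

variable {d : ℕ}

lemma BM_sig' (v : V d) : BM fun ω : Om d => sig ω v := BM_sig measurable_id v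

def Rule.and (R : Rule d) (B : V d → Prop) : Rule d where
  R := fun τ l => R.R τ l ∧ B l.1
  meas := fun l => by
    by_cases h : B l.1
    · simpa [h] using R.meas l
    · simp [h]
  N := R.N
  bdd := fun τ l h => R.bdd τ l h.1

open Classical in
lemma fld_and (R : Rule d) (B : V d → Prop) (x : X d) (v : V d) :
    fld (R.and B) x v = if B v then fld R x v else 0 := by
  split_ifs with h
  · exact fld_congr (fun r => by simp [Rule.and, h]) fun _ _ => rfl
  · simp [fld, fldS, Rule.and, h]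

lemma fld_ball (R : Rule d) (n : ℕ) (x : X d) :
    fld (R.and fun v => len v ≤ n) x = tr n (fld R x) := by
  funext v; rw [fld_and, tr]; congr

def Rule.tr (R : Rule d) (g : TAut d) : Rule d where
  R := fun τ l => R.R (fun l' => τ (g.e.symm l'.1, l'.2)) (g.e l.1, l.2)
  meas := fun l => (show Measurable fun (τ : J d → ℝ) (l' : J d) => τ (g.e.symm l'.1, l'.2) by
    fun_prop) (R.meas _)
  N := R.N
  bdd := fun _ l h => R.bdd _ (g.e l.1, l.2) h

lemma tr_iff (R : Rule d) (g : TAut d) (x : X d) (l : J d) :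
    (R.tr g).R (clk (sh g x)) l ↔ R.R (clk x) (g.e l.1, l.2) := by
  have : (fun l' : J d => clk (sh g x) (g.e.symm l'.1, l'.2)) = clk x := by
    funext l'; simp [clk, sh]
  simp only [Rule.tr, this]

lemma fld_tr (R : Rule d) (g : TAut d) (x : X d) :
    fld (R.tr g) (sh g x) = fun v => fld R x (g.e v) :=
  funext fun _ => fld_congr (fun _ => tr_iff R g x _) fun _ _ => rfl

lemma mask_tr (R : Rule d) (g : TAut d) (x : X d) :
    mask (R.tr g) (sh g x) = sh g (mask R x) := by
  classical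
  funext l
  exact Prod.ext rfl (if_congr (tr_iff R g x l) rfl rfl)

lemma sh_symm_sh (g : TAut d) (x : X d) : sh g.symm (sh g x) = x := by
  funext l; simp [sh, TAut.symm]

lemma sh_sh_symm (g : TAut d) (x : X d) : sh g (sh g.symm x) = x := by
  funext l; simp [sh, TAut.symm]

noncomputable def filt (R : Rule d) : Filtration ℕ (inferInstance : MeasurableSpace (Om d)) where
  seq n := MeasurableSpace.comap (fun ω => mask (R.and fun v => len v ≤ n) (D ω)) inferInstance
  mono' := fun m n h => by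
    have : (fun ω => mask (R.and fun v => len v ≤ m) (D ω)) = mask (R.and fun v => len v ≤ m) ∘
        fun ω => mask (R.and fun v => len v ≤ n) (D ω) :=
      funext fun ω => (mask_mask (R := R.and fun v => len v ≤ m) (R' := R.and fun v => len v ≤ n)
        fun l hl => ⟨hl.1, hl.2.trans h⟩).symm
    simp only
    rw [this, ← MeasurableSpace.comap_comp]
    exact MeasurableSpace.comap_mono (measurable_mask _).comap_le
  le' := fun n => Measurable.comap_le (by fun_prop)

section
variable {θ : ℝ} (h0 : 0 ≤ θ) (h1 : θ < 1)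
include h0 h1

lemma levy (R : Rule d) : ∀ᵐ ω ∂PP d θ, Tendsto (fun n => tanh (Upn θ (fld R (D ω)) n (root d)))
    atTop (𝓝 ((PP d θ)[fun ω => sig ω (root d) | ⨆ n, filt R n] ω)) := by
  have h2 : ∀ n, ∀ᵐ ω ∂PP d θ, tanh (Upn θ (fld R (D ω)) n (root d)) =
      (PP d θ)[fun ω => sig ω (root d) | filt R n] ω := fun n => by
    have := condExp_of_int (PP d θ) (φ := fun ω => mask (R.and fun v => len v ≤ n) (D ω))
      (by fun_prop) (BM_sig' (root d))
      (γ := fun x => tanh (Upn θ (fld (R.and fun v => len v ≤ n) x) n (root d))) (by fun_prop)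
      fun ψ hψ => CE_fin h0 h1 (R.and fun v => len v ≤ n) n (fun _ _ h => h.2) hψ
    filter_upwards [this] with ω hω
    rw [fld_mask fun _ h => h, fld_ball, Upn_tr θ _ n n n _ (by simp [len_root]) le_rfl] at hω
    exact hω
  filter_upwards [ae_all_iff.2 h2, tendsto_ae_condExp (μ := PP d θ) (ℱ := filt R)
    fun ω => sig ω (root d)] with ω h3 h4
  simpa only [h3] using h4

lemma ae_Upn (R : Rule d) : ∀ᵐ ω ∂PP d θ, ∃ a,
    Tendsto (fun n => Upn θ (fld R (D ω)) n (root d)) atTop (𝓝 a) := by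
  filter_upwards [levy h0 h1 R] with ω hω
  generalize (PP d θ)[fun ω => sig ω (root d) | ⨆ n, filt R n] ω = c at hω
  have hc : |c| ≤ tanh (Bd d θ R.N) := le_of_tendsto' hω.abs fun n => by
    rw [abs_tanh']; exact tanh_mono (abs_Upn_le h0 h1 (abs_fld_le R _) _ _)
  have := ((hasDerivAt_artanh (hc.trans_lt (tanh_lt_one _))).continuousAt.tendsto).comp hω
  simp only [Function.comp_def, artanh_tanh] at this
  exact ⟨_, this⟩

lemma ae_Cv_root (R : Rule d) (i : Fin d) : ∀ᵐ ω ∂PP d θ, Cv θ (fld R (D ω)) (root d) i := by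
  filter_upwards [ae_Upn h0 h1 (R.and fun v => ¬ anc (step i (root d)) v)] with ω ⟨a, ha⟩
  refine ⟨a, ?_⟩
  rw [← tendsto_add_atTop_iff_nat 1] at ha ⊢
  refine ha.congr fun n => ?_
  have hj : ∀ j, j ∈ ch (root d) := fun j => by simp [ch_root]
  rw [Upn, Hn, ch_root, ← add_sum_erase _ _ (mem_univ i), fld_and,
    if_pos (not_anc_child (hj i)), Upn_congr θ (h' := fun _ => 0) n _ fun w hw _ => by
      rw [fld_and, if_neg (not_not.2 hw)], Upn_zero, F_zero, zero_add]
  refine congrArg _ (sum_congr rfl fun j hji => ?_)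
  rw [Hn_eq_Upn _ _ _ (hj j), Upn_congr θ (h' := fld R (D ω)) n _ fun w hw _ => by
    rw [fld_and, if_pos fun hw' => (mem_erase.1 hji).1 (anc_sib (hj j) (hj i) hw hw')]]

lemma ae_good (R : Rule d) : ∀ᵐ ω ∂PP d θ, Good θ (fld R (D ω)) := by
  refine ae_all_iff.2 fun v => ae_all_iff.2 fun i => ?_
  have := (mp_act θ (lm v)).quasiMeasurePreserving.ae (ae_Cv_root h0 h1 (R.tr (lm v)) i)
  filter_upwards [this] with ω hω
  rwa [D_act, fld_tr, Cv_comp] at hω

lemma CE_root (R : Rule d) {ψ : X d → ℝ} (hψ : BM ψ) :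
    ∫ ω, ψ (mask R (D ω)) * sig ω (root d) ∂PP d θ =
      ∫ ω, ψ (mask R (D ω)) * mag θ (fld R (D ω)) (root d) ∂PP d θ := by
  have hm : Measurable[⨆ n, filt R n] fun ω => mask R (D ω) := by
    refine @measurable_pi_lambda _ _ _ (⨆ n, filt R n) _ _ fun l => ?_
    have e : (fun ω => mask R (D ω) l) =
        (fun x : X d => x l) ∘ fun ω => mask (R.and fun v => len v ≤ len l.1) (D ω) := by
      funext ω
      classical
      exact Prod.ext rfl (if_congr ⟨fun h => ⟨h, le_rfl⟩, fun h => h.1⟩ rfl rfl)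
    rw [e]
    exact ((measurable_pi_apply l).comp (comap_measurable _)).mono (le_iSup (filt R) (len l.1))
      le_rfl
  rw [int_mul_condExp (PP d θ) (iSup_le fun n => (filt R).le n)
    ((BM_sig' (root d)).int _) (@BM.comp _ _ _ (⨆ n, filt R n) _ hψ _ hm)]
  refine integral_congr_ae ?_
  filter_upwards [levy h0 h1 R, ae_good h0 h1 R] with ω h2 h3
  rw [tendsto_nhds_unique h2 ((continuous_tanh'.tendsto _).comp (h3.tendsto_Upn h0 h1))]
  rfl

lemma CE (R : Rule d) (u : V d) {ψ : X d → ℝ} (hψ : BM ψ) :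
    ∫ ω, ψ (mask R (D ω)) * sig ω u ∂PP d θ =
      ∫ ω, ψ (mask R (D ω)) * mag θ (fld R (D ω)) u ∂PP d θ := by
  have := CE_root h0 h1 (R.tr (lm u)) (hψ.comp (measurable_sh (lm u).symm))
  rw [← int_act θ (lm u) (f := fun ω => ψ (sh (lm u).symm (mask (R.tr (lm u)) (D ω))) *
      sig ω (root d)) (((hψ.comp (measurable_sh (lm u).symm)).1.comp (by fun_prop)).mul
      (measurable_sig _)),
    ← int_act θ (lm u) (f := fun ω => ψ (sh (lm u).symm (mask (R.tr (lm u)) (D ω))) *
      mag θ (fld (R.tr (lm u)) (D ω)) (root d))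
      (((hψ.comp (measurable_sh (lm u).symm)).1.comp (by fun_prop)).mul (by fun_prop))] at this
  simp only [D_act, mask_tr, sh_symm_sh, sig_act, fld_tr, mag_comp] at this
  simpa only [lm_e, mul_root] using this

lemma KEY (R : Rule d) (k : J d) (hk : ∀ τ, ¬ R.R τ k) {G : X d × ℝ → ℝ} (hG : BM G) :
    ∫ ω, G (mask R (D ω), (D ω k).2) ∂PP d θ =
      ∫ ω, ∫ t, G (mask R (D ω), 2 * cl t - 1) *
        (1 + am (D ω) k * mag θ (fld R (D ω)) k.1 * (2 * cl t - 1)) ∂lam ∂PP d θ := by
  let G0 : X d → ℝ := fun x => ∫ t, G (x, 2 * cl t - 1) ∂lam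
  let G1 : X d → ℝ := fun x => ∫ t, G (x, 2 * cl t - 1) * am x k * (2 * cl t - 1) ∂lam
  have b0 : BM fun p : X d × ℝ => G (p.1, 2 * cl p.2 - 1) := hG.comp (by fun_prop)
  have b1 : BM fun p : X d × ℝ => G (p.1, 2 * cl p.2 - 1) * am p.1 k * (2 * cl p.2 - 1) :=
    (b0.mul (by fun_prop)).mul (by fun_prop)
  have c0 : BM G0 := b0.integral lam
  have c1 : BM G1 := b1.integral lam
  have e : ∀ (ω : Om d) (c : ℝ), ∫ t, G (mask R (D ω), 2 * cl t - 1) *
      (1 + am (D ω) k * c * (2 * cl t - 1)) ∂lam =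
        G0 (mask R (D ω)) + G1 (mask R (D ω)) * c := fun ω c => by
    rw [← integral_mul_const, ← int_add (b0.comp measurable_prodMk_left)
      ((b1.comp measurable_prodMk_left).mul (BM.const _))]
    congr 1; ext t
    have : am (mask R (D ω)) k = am (D ω) k := rfl
    simp only [this]; ring
  simp only [e]
  rw [int_add (c0.comp (by fun_prop)) ((c1.comp (by fun_prop)).mul (by fun_prop)),
    ← CE h0 h1 R k.1 c1, ← int_add (c0.comp (by fun_prop))
      ((c1.comp (by fun_prop)).mul (BM_sig' _)),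
    int_upd _ (kn k) (hG.comp (by fun_prop)),
    int_upd _ (kn k) ((c0.comp (by fun_prop)).add ((c1.comp (by fun_prop)).mul
      (BM_sig' _)))]
  congr 1; ext ω
  have e2 : ∀ t, mask R (D (Function.update ω (kn k) t)) = mask R (D ω) := fun t => by
    rw [D_upd]; exact mask_upd_of_not (x := D ω) (hk _) _
  simp only [e2, sig_upd_kn, rho_kn, integral_const, probReal_univ, one_smul, ← e]
  simp only [D_upd, Function.update_self]
  exact cvA (abs_amp_le _ _) (sig_cases ω k.1) fun y => G (mask R (D ω), y)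

end

end Vale.Agent.P161
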