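import Vale.Agent.P161.Fin2

namespace Vale.Agent.P161

open MeasureTheory Finset Real Filter Topology

set_option linter.unusedSectionVars false

variable {d : ℕ}

def TAut.iso (t : TAut d) : tree d ≃g tree d where
  toEquiv := t.e
  map_rel_iff' := fun {a b} => by
    rw [adj_iff, adj_iff]
    refine ⟨fun ⟨j, h⟩ => ⟨(t.π a).symm j, t.e.injective ?_⟩, fun ⟨j, h⟩ => ⟨t.π a j, ?_⟩⟩
    · rw [t.map_step, Equiv.apply_symm_apply, h]
    · rw [h, t.map_step]

lemma int_sg {θ : ℝ} (h0 : 0 ≤ θ) (h1 : θ < 1) (v : V d) :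
    ∫ ω, sg (ω (v, none)) ∂PP d θ = if v = root d then 0 else θ := by
  rw [int_eval _ _ measurable_sg]
  simp only [rho]
  split_ifs
  · rw [int_two (by norm_num), sg_one, sg_neg_one]; norm_num
  · rw [int_two ⟨by linarith, by linarith⟩, sg_one, sg_neg_one]; ring

lemma cov_sig {θ : ℝ} (h0 : 0 ≤ θ) (h1 : θ < 1) (v : V d) :
    ∫ ω, sig ω (root d) * sig ω v ∂PP d θ = θ ^ len v := by
  induction v using V_ind with
  | h0 => simp [sign_sq (sig_cases _ _), len_root]
  | hs v j hj ih =>
    simp only [sig_step _ hj, mul_left_comm (sig _ (root d))]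
    rw [int_mul_dep _ (BM_sg _) ((BM_sig' _).mul (BM_sig' _)) (A := {(step j v, none)})
      (fun ω ω' H => congrArg sg (H _ rfl)) fun ω ω' H => sig_mul_congr (anc_root v)
        fun u _ _ h => H _ fun e => not_anc_child hj (by
          rwa [show u = step j v from congrArg Prod.fst e] at h),
      ih, int_sg h0 h1, if_neg (step_ne_root hj), len_step hj, pow_succ']

lemma not_gr {θ : ℝ} (h0 : 0 ≤ θ) (h1 : θ < 1) (hb : 1 < ((d : ℝ) - 1) * θ ^ 2) (hd : 3 ≤ d) :
    ¬ Gr (PP d θ) sig := by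
  rintro ⟨K, hK⟩
  have d3 : (3 : ℝ) ≤ d := by exact_mod_cast hd
  have t0 : 0 < θ := h0.lt_of_ne (by rintro rfl; norm_num at hb)
  obtain ⟨b, hb'⟩ : ∃ b : ℝ, b = d - 1 := ⟨_, rfl⟩
  rw [← hb'] at hb hK
  have b0 : 0 < b := by linarith
  have lt : 1 / (b * θ) < θ := by rw [div_lt_iff₀ (by positivity)]; linarith
  have l0 : 0 < b * θ + 1 / θ := by positivity
  have low := le_Ad (φ := fun v : V d => θ ^ len v) (l := b * θ + 1 / θ)
    (w := fun v => θ ^ len v - (1 / (b * θ)) ^ len v) l0.le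
    (fun v => sub_le_self _ (by positivity)) fun v => by
      induction v using V_ind with
      | h0 =>
        rw [Ad_rad_root fun k => θ ^ k - (1 / (b * θ)) ^ k, len_root, pow_zero, pow_zero, sub_self,
          mul_zero, pow_one, pow_one]
        exact mul_nonneg (by linarith) (by linarith)
      | hs v j hj _ =>
        rw [Ad_rad (fun k => θ ^ k - (1 / (b * θ)) ^ k) hj, len_step hj, ← hb']
        refine le_of_eq ?_
        simp only [pow_succ]
        field_simp
        ring
  have eq : Eqv (fun g => act (lm g)) (sig (d := d)) := ⟨BM_sig', fun g ω v => sig_act _ _ _⟩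
  have big : 1 < (b * θ + 1 / θ) ^ 2 / (4 * b) := by
    rw [one_lt_div (by positivity)]
    have : 0 < b * θ - 1 / θ := by rw [sub_pos, div_lt_iff₀ t0]; linarith
    have e : θ * (1 / θ) = 1 := mul_one_div_cancel t0.ne'
    nlinarith [mul_pos this this]
  obtain ⟨n, hn⟩ := pow_unbounded_of_one_lt
    (K * (4 * b) / (d * ((b * θ + 1 / θ) * (θ - 1 / (b * θ))))) big
  have := hK (n + 1)
  rw [eq.xs_eq fun g => mp_act θ (lm g), ← add_assoc, Ad_succ] at this
  simp only [cov_sig h0 h1] at this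
  have := (sum_le_sum fun j _ => low _ _).trans this
  simp only [len_step (ch_root' _), len_root, zero_add, pow_one, sum_const, card_univ,
    Fintype.card_fin, nsmul_eq_mul] at this
  rw [div_pow, div_lt_div_iff₀ (mul_pos (by linarith) (mul_pos l0 (by linarith))) (by positivity),
    ← pow_mul] at hn
  rw [show n + 1 + n = 2 * n + 1 by ring, pow_succ, pow_succ] at this
  linarith

theorem converse {β : ℝ} (hβ : 0 ≤ β) (hd : 3 ≤ d) (h : IsFIID (ising d β)) :
    ((d : ℝ) - 1) * tanh β ^ 2 ≤ 1 := by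
  have h0 : 0 ≤ tanh β := by simpa using tanh_mono hβ
  have h1 := tanh_lt_one β
  by_contra hb
  refine not_gr h0 h1 (not_le.1 hb) hd ?_
  obtain ⟨Φ, mΦ, hΦ, hg⟩ := h
  let Z : (V d → Bool) → V d → ℝ := fun η v => if η v then 1 else -1
  have bZ : ∀ v, BM fun η => Z η v := fun v =>
    BM.ite (measurableSet_eq_fun (by fun_prop) measurable_const) (BM.const _) (BM.const _)
  have eZ : ∀ ω, Z (bs ω) = sig ω := fun ω => funext fun v => by
    rcases sig_cases ω v with e | e <;> simp [Z, bs, pos, e]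
  have m1 : MeasurePreserving Φ _ (ising d β) := ⟨mΦ, hΦ⟩
  have m2 : MeasurePreserving bs (PP d (tanh β)) (ising d β) := ⟨measurable_bs, (ising_eq β).symm⟩
  have g := gr_prod (fun _ : V d => (volume : Measure unitInterval)) (by omega)
    (a := fun g U v => U (mul g v)) (fun g => ⟨by fun_prop,
      Measure.map_infinitePi_infinitePi_of_inj (P := fun _ : V d => (volume : Measure unitInterval))
        (lm g).e.injective⟩) (fun g v U => by simp only [mul_mul]) (B := fun n => {v | len v ≤ n})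
    (fun m n h v hv => le_trans hv h) (fun n => ⟨2 * n, fun u v hu hv => ⟨{v | len v ≤ n},
      fun U U' H k hk => H _ (by rwa [hu, root_mul]), fun U U' H k hk => H _ fun a => by
        have := le_len_mul v k
        simp only [Set.mem_ofPred_eq] at a hk
        omega⟩⟩) ((bZ (root d)).comp mΦ)
    (fun U U' H => by rw [funext fun v => H v (Set.mem_iUnion.2 ⟨len v, le_refl (len v)⟩)]) (by
      rw [integral_mp m1 (bZ _).1, ← integral_mp m2 (bZ _).1]
      simp only [eZ, sig_root, int_sg h0 h1, if_true])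
  have := (Gr.comp m2 bZ).2 ((Gr.comp m1 bZ).1 (g.imp fun K hK n => le_trans (le_of_eq
    (integral_congr_ae ?_)) (hK n)))
  · simpa only [eZ] using this
  · filter_upwards [ae_all_iff.2 fun v => hg (lm v).iso.symm] with U hU
    refine congrArg (fun φ => Ad^[n] φ (root d) ^ 2) (funext fun v => ?_)
    exact congrArg (fun y => if y = true then (1 : ℝ) else -1) (congrFun (hU v) (root d)).symm

theorem main (d : ℕ) (hd : 3 ≤ d) (β : ℝ) (hβ : 0 ≤ β) :
    IsFIID (ising d β) ↔ tanh β ≤ ((d : ℝ) - 1) ^ (-(1 / 2) : ℝ) := by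
  have h0 : 0 ≤ tanh β := by simpa using tanh_mono hβ
  have d3 : (3 : ℝ) ≤ d := by exact_mod_cast hd
  have e : tanh β ≤ ((d : ℝ) - 1) ^ (-(1 / 2) : ℝ) ↔ ((d : ℝ) - 1) * tanh β ^ 2 ≤ 1 := by
    rw [← pow_le_pow_iff_left₀ h0 (rpow_nonneg (by linarith) _) two_ne_zero, ← rpow_natCast (_ ^ _),
      ← rpow_mul (by linarith), show -(1 / 2 : ℝ) * (2 : ℕ) = -1 by norm_num, rpow_neg_one,
      ← one_div, le_div_iff₀ (by linarith), mul_comm]
  rw [e]
  exact ⟨converse hβ hd, fun h => forward hβ h hd⟩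

end Vale.Agent.P161
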