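import Vale.Agent.P161.Dep

namespace Vale.Agent.P161

open MeasureTheory Finset Real Filter Topology

set_option linter.unusedSectionVars false

variable {d : ℕ}

lemma int_l2 {α : Type*} [MeasurableSpace α] {μ : Measure α} [IsFiniteMeasure μ] {f g : α → ℝ}
    (hf : BM f) (hg : BM g) (a b : ℝ) :
    ∫ x, (a * f x + b * g x) ∂μ = a * ∫ x, f x ∂μ + b * ∫ x, g x ∂μ := by
  rw [int_add (by fun_prop) (by fun_prop), integral_const_mul, integral_const_mul]

lemma int_l3 {α : Type*} [MeasurableSpace α] {μ : Measure α} [IsFiniteMeasure μ] {f g k : α → ℝ}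
    (hf : BM f) (hg : BM g) (hk : BM k) (a b c : ℝ) :
    ∫ x, (a * f x + b * g x + c * k x) ∂μ =
      a * ∫ x, f x ∂μ + b * ∫ x, g x ∂μ + c * ∫ x, k x ∂μ := by
  rw [int_add (by fun_prop) (by fun_prop), int_l2 hf hg, integral_const_mul]

lemma BM_indic {α : Type*} [MeasurableSpace α] {s : Set α} (hs : MeasurableSet s) :
    BM (s.indicator (1 : α → ℝ)) := by
  classical exact BM.ind (p := (· ∈ s)) hs

lemma var_lower {K E : Type*} [MeasurableSpace E] (ρ : K → Measure E)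
    [∀ k, IsProbabilityMeasure (ρ k)] {A : Set K} {r ξ Ψ : (K → E) → ℝ} (br : BM r) (bξ : BM ξ)
    (bΨ : BM Ψ) (dξ : DependsOn ξ A) (dr : DependsOn r Aᶜ) (dΨ : DependsOn Ψ Aᶜ)
    (h0 : ∀ ω, 0 ≤ Ψ ω) :
    (∫ ω, ξ ω ^ 2 ∂Measure.infinitePi ρ - (∫ ω, ξ ω ∂Measure.infinitePi ρ) ^ 2) *
      ∫ ω, Ψ ω ∂Measure.infinitePi ρ ≤ ∫ ω, (r ω + ξ ω) ^ 2 * Ψ ω ∂Measure.infinitePi ρ := by
  have e1 := int_mul_dep ρ bξ (br.mul bΨ) dξ fun x y H => by simp only [dr H, dΨ H]
  have e2 := int_mul_dep ρ (bξ.pow 2) bΨ (fun x y H => by simp only [dξ H]) dΨ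
  generalize ∫ ω, ξ ω ∂Measure.infinitePi ρ = m at *
  have e3 := int_l3 (μ := Measure.infinitePi ρ) ((br.pow 2).mul bΨ) (bξ.mul (br.mul bΨ))
    ((bξ.pow 2).mul bΨ) 1 2 1
  have e4 := int_l3 (μ := Measure.infinitePi ρ) ((br.pow 2).mul bΨ) (br.mul bΨ) bΨ 1 (2 * m) (m ^ 2)
  have e5 : 0 ≤ ∫ ω, (1 * (r ω ^ 2 * Ψ ω) + 2 * m * (r ω * Ψ ω) + m ^ 2 * Ψ ω)
      ∂Measure.infinitePi ρ := integral_nonneg fun ω =>
    (mul_nonneg (sq_nonneg (r ω + m)) (h0 ω)).trans (le_of_eq (by ring))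
  have e6 : ∀ ω, (r ω + ξ ω) ^ 2 * Ψ ω =
      1 * (r ω ^ 2 * Ψ ω) + 2 * (ξ ω * (r ω * Ψ ω)) + 1 * (ξ ω ^ 2 * Ψ ω) := fun ω => by ring
  simp only [e6]
  rw [e3, e1, e2]; nlinarith

noncomputable def q1 (θ : ℝ) (N : ℕ) (s : ℝ) (i0 : Fin d) : ℝ :=
  ∫ ω, tanh (Hi θ (hc N (fun _ => s) ω) (root d) i0) ^ 2 ∂PP d θ

lemma q1_mem (θ : ℝ) (N : ℕ) (s : ℝ) (i0 : Fin d) : 0 ≤ q1 θ N s i0 ∧ q1 θ N s i0 ≤ 1 :=
  ⟨integral_nonneg fun _ => sq_nonneg _,
    int_le_const (by fun_prop) fun _ => (tanh_sq_lt_one _).le⟩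

lemma sq_sig_mul (ω : Om d) (v : V d) (y : ℝ) : (sig ω v * y) ^ 2 = y ^ 2 := by
  rw [mul_pow, sq (sig ω v), sign_sq (sig_cases _ _), one_mul]

def phl (l : ℕ) (v : V d) : ℝ := if len v ≤ l then 0 else 1

lemma phl_mem (l : ℕ) (v : V d) : 0 ≤ phl l v ∧ phl l v ≤ 1 := by
  unfold phl; split_ifs <;> norm_num

lemma Wd_nonneg {t : V d → Fin d → ℝ} {φ : V d → ℝ} (ht : ∀ v i, 0 ≤ t v i) (hφ : ∀ v, 0 ≤ φ v)
    (n : ℕ) (v : V d) : 0 ≤ Wd t φ n v := by
  induction n generalizing v with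
  | zero => exact hφ v
  | succ n ih => exact add_nonneg (hφ v) (sum_nonneg fun j _ => mul_nonneg (ht _ _) (ih _))

lemma int_Qt {c : ℝ} (hc : |c| ≤ 1 / 2) : ∫ t, Qt c (cl t) ∂lam = c / 3 := by
  have := cvA hc (Or.inl rfl) fun y => y
  simp only [one_mul, mul_one] at this
  have e : ∀ t, (2 * cl t - 1) * (1 + c * (2 * cl t - 1)) =
      (2 * cl t - 1) + c * (2 * cl t - 1) ^ 2 := fun t => by ring
  simp only [this, e]
  rw [int_add (by fun_prop) (by fun_prop), integral_const_mul, int_lin, int_sq]; ring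

lemma BM_Yt (l : J d) : BM fun ω : Om d => Yt ω l := BM.of_le (by fun_prop) fun ω => abs_Yt_le ω l

lemma int_aY (θ s s' : ℝ) (k : J d) : ∫ ω, aI s s' k.2 (ω (kt k)) * Yt ω k ∂PP d θ =
    (∫ τ, aI s s' k.2 τ ^ 2 ∂lam) / 3 := by
  classical
  rw [int_upd _ (kn k) (BM.mul (by fun_prop) (BM_Yt k)), ← integral_div, ← rho_kt θ k,
    ← int_eval (rho θ) (kt k) (f := fun τ => aI s s' k.2 τ ^ 2 / 3)
      (((BM_aI measurable_id _ _ _).pow 2).div_const 3).1]
  congr 1; ext ω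
  simp only [Yt, upd_kn_kt, Function.update_self, rho_kn]
  rw [integral_const_mul, int_Qt (abs_amp_le _ _), aI]
  split_ifs <;> ring

lemma e2_lower {s : ℝ} (hs : 0 < s) : min s (1 / 2) ^ 3 / 8 ≤ ∫ τ, aI 0 s 0 τ ^ 2 ∂lam := by
  set a := min s (1 / 2)
  have a0 : 0 < a := lt_min hs (by norm_num)
  have a1 : a ≤ s := min_le_left _ _
  have a2 : a ≤ 1 / 2 := min_le_right _ _
  have b : BM ((Set.Ico (a / 2) a).indicator (1 : ℝ → ℝ)) := BM_indic measurableSet_Ico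
  have := int_mono (μ := lam) (b.mul (BM.const ((a / 2) ^ 2))) ((BM_aI measurable_id 0 s 0).pow 2)
    fun τ => by
      by_cases h : τ ∈ Set.Ico (a / 2) a
      · have c : cl τ = τ := cl_of_mem ⟨by linarith [h.1], by linarith [h.2]⟩
        simp only [Set.indicator_of_mem h, aI, amp, Tm, id, c, Nat.cast_zero, zero_add,
          Pi.one_apply, one_mul]
        rw [if_pos ⟨by linarith [h.1], by linarith [h.2]⟩, if_pos (by linarith [h.2]),
          min_eq_left (by linarith [h.2])]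
        exact pow_le_pow_left₀ (by linarith) h.1 2
      · rw [Set.indicator_of_notMem h, zero_mul]; positivity
  rw [integral_mul_const, integral_indicator_one measurableSet_Ico, Measure.real, lam,
    Measure.restrict_apply measurableSet_Ico, Set.inter_eq_left.2
      (Set.Ico_subset_Icc_self.trans (Set.Icc_subset_Icc (by linarith) (by linarith))),
    Real.volume_Ico,
    ENNReal.toReal_ofReal (by linarith)] at this
  refine le_trans (le_of_eq (by ring)) this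

lemma q1_arith {a e q g m n : ℝ} (e1 : a / 8 ≤ e) (e2 : e ≤ 1 / 4) (e3 : 0 ≤ e) (q0 : 0 ≤ q)
    (g0 : 0 ≤ g) (g1 : g ≤ 1) (hm : m = g * q + e / 6)
    (hn : n ≤ g * q + (g * q) ^ 2 + g * (q * e) / 3 + e / 4) (pr : 2 * m - n ≤ q) :
    a / 192 ≤ (1 - g + q) ^ 2 := by
  have k1 : (g * q) ^ 2 ≤ q ^ 2 := pow_le_pow_left₀ (by positivity) (by nlinarith) 2
  have k2 : g * (q * e) ≤ q * e := by nlinarith [mul_nonneg q0 e3]
  have k3 : e / 12 ≤ (1 - g) * q + q ^ 2 + q * e / 3 := by nlinarith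
  rcases le_total q (1 / 8) with h | h <;> nlinarith

lemma card_erase' (i : Fin d) : ((univ.erase i).card : ℝ) = (d : ℝ) - 1 := by
  rw [card_erase_of_mem (mem_univ _), card_univ, Fintype.card_fin, Nat.cast_pred (Fin.pos i)]

section
variable {θ : ℝ} (h0 : 0 ≤ θ) (h1 : θ < 1)
include h0 h1

lemma damp (hd : 3 ≤ d) (N : ℕ) {s : ℝ} {c : V d → ℝ} (hs : ∀ v, s ≤ c v) (i0 : Fin d)
    {v : V d} {j i : Fin d} (hj : j ∈ ch v) (hi : i ∈ ch (step j v)) {Ψ : Om d → ℝ} (bΨ : BM Ψ)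
    (pΨ : ∀ ω, 0 ≤ Ψ ω) (dΨ : DependsOn Ψ (sub1 (step i (step j v)))) :
    ∫ ω, t2 θ (hc N c ω) (step j v) j * Ψ ω ∂PP d θ ≤
      (θ ^ 2 - θ ^ 2 * (1 - θ ^ 2) * kap (Bd d θ N) ^ 2 * ((1 - θ ^ 2) * θ ^ 2 * q1 θ N s i0)) *
        ∫ ω, Ψ ω ∂PP d θ := by
  set w := step j v
  obtain ⟨i', hi', hne⟩ := exists_mem_ne (s := ch w) (by rw [card_ch (step_ne_root hj)]; omega) i
  have oF := fun s y (hs : s = 1 ∨ s = -1) => F_sign h0 h1 hs y
  have bF : ∀ u k, BM fun ω => F θ (Hi θ (hc N c ω) u k) := fun u k => BM_F h0 h1 (by fun_prop)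
  have bh : BM fun ω => hc N c ω w := BM.of_le (by fun_prop) fun ω => abs_hc_le N c ω w
  have dis : ∀ k ∈ ch w, k ≠ i' → sub1 (step k w) ⊆ (sub1 (step i' w))ᶜ := fun k hk h =>
    (sub1_disj hk hi' h).subset_compl_right
  have := var_lower (rho θ) (A := sub1 (step i' w)) (r := fun ω => sig ω w * hc N c ω w +
      ∑ k ∈ (ch w).erase i', sig ω w * F θ (Hi θ (hc N c ω) (step k w) k))
    (((BM_sig' w).mul bh).add (BM.sum _ fun k => (BM_sig' w).mul (bF _ _)))
    ((BM_sig' w).mul (bF _ _)) bΨ (odd_dep h0 h1 N c hi' oF).2 (fun ω ω' H => by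
      refine congrArg₂ _ (fc_gauge0 N c fun a => H _ (not_anc_child hi')) (sum_congr rfl
        fun k hk => (odd_dep h0 h1 N c (mem_of_mem_erase hk) oF).2 fun l hl => H l ?_)
      exact dis k (mem_of_mem_erase hk) (mem_erase.1 hk).1 hl)
    (dΨ.mono (dis i hi hne.symm)) pΨ
  have m1 : ∫ ω, sig ω w * F θ (Hi θ (hc N c ω) (step i' w) i') ∂PP d θ =
      θ * ∫ ω, sig ω (step i' w) * F θ (Hi θ (hc N c ω) (step i' w) i') ∂PP d θ := by
    rw [← coin_mean h0 h1 (step_ne_root hi') ((BM_sig' _).mul (bF _ _))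
      (odd_dep h0 h1 N c hi' oF).1]
    simp only [sig_parent _ hi', mul_assoc]
  have m2 := int_jensen (PP d θ) ((BM_sig' (step i' w)).mul (bF (step i' w) i'))
  have m3 : θ ^ 2 * q1 θ N s i0 ≤ ∫ ω, F θ (Hi θ (hc N c ω) (step i' w) i') ^ 2 ∂PP d θ := by
    have := edge_mono h0 h1 (rd_le N hs) (step i' w) i'
    simp only [fld_rd] at this
    rw [q1, ← hom_Hi θ N s (G := fun y => tanh y ^ 2) (by fun_prop) (step i' w) i']
    refine (mul_le_mul_of_nonneg_left this (sq_nonneg _)).trans ?_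
    rw [← integral_const_mul]
    refine int_mono (by fun_prop) ((bF _ _).pow 2) fun ω => ?_
    rw [← mul_pow]
    exact sq_le_sq.2 (abs_le_artanh (abs_mul_tanh_lt h0 h1 _))
  simp only [sq_sig_mul] at this m2
  rw [m1] at this
  have p1 := one_sub_sq_pos h0 h1
  have p2 : 0 ≤ ∫ ω, Ψ ω ∂PP d θ := integral_nonneg pΨ
  have m4 : (1 - θ ^ 2) * θ ^ 2 * q1 θ N s i0 * ∫ ω, Ψ ω ∂PP d θ ≤ _ :=
    (mul_le_mul_of_nonneg_right (by nlinarith [sq_nonneg θ]) p2).trans this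
  have br : BM fun ω => sig ω w * hc N c ω w +
      ∑ k ∈ (ch w).erase i', sig ω w * F θ (Hi θ (hc N c ω) (step k w) k) +
        sig ω w * F θ (Hi θ (hc N c ω) (step i' w) i') :=
    (((BM_sig' w).mul bh).add (BM.sum _ fun k => (BM_sig' w).mul (bF _ _))).add
      ((BM_sig' w).mul (bF _ _))
  have m5 := int_mono_ae (μ := PP d θ) ((BM_t2 h0 h1 (measurable_hc N c) w j).mul bΨ)
    (((BM.const (θ ^ 2)).mul bΨ).sub ((BM.const (θ ^ 2 * (1 - θ ^ 2) * kap (Bd d θ N) ^ 2)).mul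
      ((br.pow 2).mul bΨ))) (by
    filter_upwards [good_hc h0 h1 N c] with ω hω
    rw [← mul_sum, ← mul_add, ← mul_add, sq_sig_mul, add_assoc, sum_erase_add _ _ hi', ← Up,
      ← hω.up h0 h1 hj, ← mul_assoc, ← sub_mul]
    refine mul_le_mul_of_nonneg_right ((th_sq_le h0 h1 _).trans ?_) (pΨ ω)
    have a := tanh_lower' (abs_Hi_le h0 h1 (abs_hc_le N c ω) (step j v) j)
    have b := pow_le_pow_left₀ (mul_nonneg (kap_pos _).le (abs_nonneg _)) a 2
    rw [mul_pow, sq_abs, sq_abs] at b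
    have := mul_le_mul_of_nonneg_left b (mul_nonneg (sq_nonneg θ) p1.le)
    linarith)
  rw [int_sub (by fun_prop) (by fun_prop), integral_const_mul, integral_const_mul] at m5
  have := mul_le_mul_of_nonneg_left m4
    (show 0 ≤ θ ^ 2 * (1 - θ ^ 2) * kap (Bd d θ N) ^ 2 by positivity)
  linarith

lemma Wd_bound (hd : 3 ≤ d) (N : ℕ) {s β : ℝ} {c : V d → ℝ} (hs : ∀ v, s ≤ c v) (i0 : Fin d)
    (hβ : ((d : ℝ) - 1) * (θ ^ 2 - θ ^ 2 * (1 - θ ^ 2) * kap (Bd d θ N) ^ 2 *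
      ((1 - θ ^ 2) * θ ^ 2 * q1 θ N s i0)) ≤ β) (β0 : 0 ≤ β) (β1 : β < 1) (l m : ℕ) {v : V d}
    {j : Fin d} (hj : j ∈ ch v) :
    ∫ ω, t2 θ (hc N c ω) (step j v) j * Wd (t2 θ (hc N c ω)) (phl l) m (step j v) ∂PP d θ ≤
      θ ^ 2 * β ^ (l + 1 - len (step j v)) / (1 - β) := by
  have bt := BM_t2 h0 h1 (measurable_hc N c)
  have bW := BM_Wd2 h0 h1 (measurable_hc N c) (phl l)
  have z : ∀ {v : V d} {j : Fin d}, ∫ ω, t2 θ (hc N c ω) (step j v) j * phl l (step j v) ∂PP d θ ≤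
      θ ^ 2 * phl l (step j v) := int_le_const ((bt _ _).mul (BM.const _)) fun ω =>
    mul_le_mul_of_nonneg_right (t2_le h0 h1 _ _ _) (phl_mem _ _).1
  have p : 0 < 1 - β := by linarith
  induction m generalizing v j with
  | zero =>
    refine z.trans ?_
    unfold phl; split_ifs with h
    · rw [mul_zero]; positivity
    · rw [Nat.sub_eq_zero_of_le (by omega), pow_zero, le_div_iff₀ p]; nlinarith [sq_nonneg θ]
  | succ m ih =>
    simp only [Wd, mul_add, mul_sum]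
    rw [int_add ((bt _ _).mul (BM.const _)) (BM.sum _ fun i => (bt _ _).mul ((bt _ _).mul (bW _ _))),
      int_sum _ fun i => (bt _ _).mul ((bt _ _).mul (bW _ _))]
    set ρ := θ ^ 2 - θ ^ 2 * (1 - θ ^ 2) * kap (Bd d θ N) ^ 2 * ((1 - θ ^ 2) * θ ^ 2 * q1 θ N s i0)
    have d1 : (1 : ℝ) ≤ d - 1 := by
      have : (3 : ℝ) ≤ d := by exact_mod_cast hd
      linarith
    have := sum_le_card_nsmul (ch (step j v)) _ (β / (d - 1) *
      (θ ^ 2 * β ^ (l - len (step j v)) / (1 - β))) fun i hi =>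
      (damp h0 h1 hd N hs i0 hj hi ((bt _ _).mul (bW m _)) (fun ω => mul_nonneg (sq_nonneg _)
        (Wd_nonneg (t2_nonneg h0 h1 _) (fun v => (phl_mem l v).1) _ _)) fun ω ω' H => by
          have a := t2_dep h0 h1 N c hi fun k hk => H k hk.1
          have b := Wd_dep h0 h1 N c (phl l) m _ fun k hk => H k hk.1
          simp only at a b ⊢
          rw [a, b]).trans (by
        have := ih hi
        rw [len_step hi, Nat.add_sub_add_right] at this
        exact mul_le_mul (by rw [le_div_iff₀ (by linarith)]; linarith) this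
          (integral_nonneg fun ω => mul_nonneg (sq_nonneg _)
            (Wd_nonneg (t2_nonneg h0 h1 _) (fun v => (phl_mem l v).1) _ _)) (by positivity))
    rw [ch_step hj, nsmul_eq_mul, card_erase', ← mul_assoc, mul_div_cancel₀ _ (by linarith),
      ← ch_step hj] at this
    refine (add_le_add z this).trans (le_of_eq ?_)
    unfold phl; split_ifs with h
    · rw [Nat.succ_sub h, Nat.succ_eq_add_one, pow_succ β]; ring
    · rw [Nat.sub_eq_zero_of_le (by omega), Nat.sub_eq_zero_of_le (by omega)]; field_simp; ring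

lemma q1_lower (hb : ((d : ℝ) - 1) * θ ^ 2 ≤ 1) {N : ℕ} (hN : 1 ≤ N) {s : ℝ} (hs : 0 < s)
    (i0 : Fin d) : min s (1 / 2) ^ 3 / 192 ≤ (1 - ((d : ℝ) - 1) * θ ^ 2 + q1 θ N s i0) ^ 2 := by
  classical
  set R' := (rd N fun _ => s).and fun v => ¬ anc (step i0 (root d)) v
  set k : J d := (root d, 0)
  set q := q1 θ N s i0 with hq
  set e := ∫ τ, aI 0 s 0 τ ^ 2 ∂lam
  let x : Fin d → Om d → ℝ := fun j ω =>
    sig ω (root d) * tanh (Hi θ (hc N (fun _ => s) ω) (step j (root d)) j)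
  let y : Om d → ℝ := fun ω => aI 0 s 0 (ω (kt k)) * Yt ω k
  let S : Om d → ℝ := fun ω => θ * ∑ j ∈ univ.erase i0, x j ω + y ω / 2
  have bx : ∀ j, BM (x j) := fun j => (BM_sig' _).mul (by fun_prop)
  have hy : BM y := BM.mul (by fun_prop) (BM_Yt k)
  have bS : BM S := ((BM.const _).mul (BM.sum _ bx)).add (hy.div_const _)
  have dx := fun j : Fin d => odd_dep h0 h1 N (fun _ => s) (ch_root' j) fun s y hs => tanh_sign hs y
  have mx : ∀ j, ∫ ω, x j ω ∂PP d θ = θ * q := fun j => by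
    have := CE_hc h0 h1 N (fun _ => s) (step j (root d)) j continuous_tanh'
    simp only [← sq] at this
    rw [hq, q1, ← hom_Hi θ N s (G := fun y => tanh y ^ 2) (by fun_prop) (step j (root d)) j, ← this,
      ← coin_mean h0 h1 (step_ne_root (ch_root' j)) ((BM_sig' _).mul (by fun_prop)) (dx j).1]
    simp only [x, sig_parent _ (ch_root' j), mul_assoc]
  have my : ∫ ω, y ω ∂PP d θ = e / 3 := int_aY θ 0 s k
  have xx : ∀ i j, ∫ ω, x i ω * x j ω ∂PP d θ ≤ (if i = j then q else 0) + (θ * q) ^ 2 :=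
    fun i j => by
      split_ifs with h
      · subst h
        simp only [← sq, x, sq_sig_mul]
        rw [hom_Hi θ N s (G := fun y => tanh y ^ 2) (by fun_prop) _ i i0]
        exact le_add_of_nonneg_right (sq_nonneg _)
      · rw [int_mul_dep _ (bx i) (bx j) (dx i).2 ((dx j).2.mono
          (sub1_disj (ch_root' j) (ch_root' i) (Ne.symm h)).subset_compl_right), mx, mx, zero_add, sq]
  have xy : ∀ j, ∫ ω, x j ω * y ω ∂PP d θ = θ * q * (e / 3) := fun j => by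
    rw [int_mul_dep _ (bx j) hy (dx j).2 fun ω ω' H => by
      simp only [y, Yt, H (kt k) (not_anc_child (ch_root' j)),
        H (kn k) (not_anc_child (ch_root' j))], mx, my]
  have yy : ∫ ω, y ω ^ 2 ∂PP d θ ≤ e := by
    refine le_of_le_of_eq (int_mono (hy.pow 2) (by fun_prop) fun ω => ?_) (int_eval (rho θ) (kt k)
      (f := fun τ => aI 0 s 0 τ ^ 2) ((BM_aI measurable_id _ _ _).pow 2).1)
    simp only [y, mul_pow]
    exact mul_le_of_le_one_right (sq_nonneg _) (by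
      rw [← sq_abs]; exact pow_le_one₀ (abs_nonneg _) (abs_Yt_le ω k))
  have mS : ∫ ω, S ω ∂PP d θ = (d - 1) * θ ^ 2 * q + e / 6 := by
    rw [int_add ((BM.const _).mul (BM.sum _ bx)) (hy.div_const _), integral_const_mul,
      int_sum _ bx, integral_div, my]
    simp only [mx, sum_const, nsmul_eq_mul, card_erase']; ring
  have SS : ∫ ω, S ω ^ 2 ∂PP d θ ≤ θ ^ 2 * ((d - 1) * (q + (d - 1) * (θ * q) ^ 2)) +
      θ * ((d - 1) * (θ * q * (e / 3))) + e / 4 := by
    have : ∀ ω, S ω ^ 2 = θ ^ 2 * ∑ i ∈ univ.erase i0, ∑ j ∈ univ.erase i0, x i ω * x j ω +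
        θ * ∑ j ∈ univ.erase i0, x j ω * y ω + y ω ^ 2 / 4 := fun ω => by
      rw [← sum_mul_sum, ← sum_mul]; simp only [S]; ring
    simp only [this]
    have b1 : ∀ i, BM fun ω => ∑ j ∈ univ.erase i0, x i ω * x j ω := fun i =>
      BM.sum _ fun j => (bx i).mul (bx j)
    have b2 : BM fun ω => ∑ j ∈ univ.erase i0, x j ω * y ω := BM.sum _ fun j => (bx j).mul hy
    rw [int_add (((BM.const _).mul (BM.sum _ b1)).add ((BM.const _).mul b2))
      ((hy.pow 2).div_const _), int_add ((BM.const _).mul (BM.sum _ b1)) ((BM.const _).mul b2),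
      integral_const_mul, integral_const_mul, int_sum _ b1, int_sum _ fun j => (bx j).mul hy,
      integral_div]
    simp only [xy, sum_const, nsmul_eq_mul, card_erase']
    gcongr
    refine (sum_le_card_nsmul _ _ (q + (d - 1) * (θ * q) ^ 2) fun i hi => ?_).trans
      (by rw [nsmul_eq_mul, card_erase'])
    rw [int_sum _ fun j => (bx i).mul (bx j)]
    refine (sum_le_sum fun j _ => xx i j).trans ?_
    rw [sum_add_distrib, sum_ite_eq, if_pos hi, sum_const, nsmul_eq_mul, card_erase']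
  have ce := CE_edge_root h0 h1 (rd N fun _ => s) i0 (ψ := fun z => θ * ∑ j ∈ univ.erase i0,
    tanh (Hi θ (fld R' z) (step j (root d)) j) + aI 0 s 0 (clk z k) * clp 1 (z k).2 / 2)
    (BM.add (by fun_prop) (BM.div_const (BM.mul (by fun_prop) (BM.of_le (by fun_prop)
      fun _ => abs_clp_le zero_le_one _)) _))
  have e0 : ∀ ω, θ * ∑ j ∈ univ.erase i0, tanh (Hi θ (fld R' (mask R' (D ω))) (step j (root d)) j) +
      aI 0 s 0 (clk (mask R' (D ω)) k) * clp 1 (mask R' (D ω) k).2 / 2 = sig ω (root d) * S ω :=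
    fun ω => by
      have a : aI 0 s 0 (clk (mask R' (D ω)) k) * clp 1 (mask R' (D ω) k).2 =
          sig ω (root d) * y ω := by
        change aI 0 s 0 (ω (kt k)) * _ = _
        simp only [y, aI]
        split_ifs with h
        · rw [mask_of (R := R') (x := D ω) (l := k) ⟨⟨h.2, hN⟩, not_anc_child (ch_root' i0)⟩,
            clp_of_le (abs_D_le _ _)]
          simp only [D, k]; ring
        · simp
      rw [fld_mask fun _ h => h, a, sum_congr rfl (g := fun j => sig ω (root d) * x j ω) fun j hj => by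
        rw [Hi_congr θ (h' := hc N (fun _ => s) ω) (ch_root' j) fun w hw => by
          rw [fld_and, if_pos fun hw' => (mem_erase.1 hj).1
            (anc_sib (ch_root' j) (ch_root' i0) hw hw'), fld_rd, hc]]
        simp only [x]
        rw [← mul_assoc, sign_sq (sig_cases _ _), one_mul], ← mul_sum]
      simp only [S]; ring
  change ∫ ω, (θ * ∑ j ∈ univ.erase i0, tanh (Hi θ (fld R' (mask R' (D ω))) (step j (root d)) j) +
      aI 0 s 0 (clk (mask R' (D ω)) k) * clp 1 (mask R' (D ω) k).2 / 2) * _ ∂_ =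
    ∫ ω, (θ * ∑ j ∈ univ.erase i0, tanh (Hi θ (fld R' (mask R' (D ω))) (step j (root d)) j) +
      aI 0 s 0 (clk (mask R' (D ω)) k) * clp 1 (mask R' (D ω) k).2 / 2) * _ ∂_ at ce
  simp only [e0, mul_right_comm _ (S _) (sig _ (root d)), sign_sq (sig_cases _ _), one_mul,
    fld_rd] at ce
  have pr : 2 * ∫ ω, S ω ∂PP d θ - ∫ ω, S ω ^ 2 ∂PP d θ ≤ q := by
    have bt : BM fun ω => tanh (Hi θ (fc N (fun _ => s) (D ω)) (root d) i0) := by fun_prop
    rw [ce, ← integral_const_mul, ← int_sub ((BM.const _).mul (((BM_sig' _).mul bS).mul bt))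
      (bS.pow 2)]
    refine int_mono (((BM.const _).mul (((BM_sig' _).mul bS).mul bt)).sub (bS.pow 2)) (bt.pow 2)
      fun ω => ?_
    rw [← sq_sig_mul ω (root d) (S ω), hc]
    nlinarith [sq_nonneg (sig ω (root d) * S ω - tanh (Hi θ (fc N (fun _ => s) (D ω)) (root d) i0))]
  refine q1_arith (e2_lower hs) (int_le_const ((BM_aI measurable_id _ _ _).pow 2) fun τ => ?_)
    (integral_nonneg fun _ => sq_nonneg _) (q1_mem θ N s i0).1 ?_ hb mS
    (SS.trans (le_of_eq (by ring))) pr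
  · have := aI_mem 0 s 0 τ
    simp only [id]; nlinarith
  · rw [← card_erase' i0]; positivity

end

end Vale.Agent.P161
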