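import Mathlib

namespace Vale.Agent.P161

open MeasureTheory

/-- Vertices of the `d`-regular tree: words over `Fin d` with no two equal adjacent letters. -/
abbrev V (d : ℕ) : Type := {l : List (Fin d) // l.IsChain (· ≠ ·)}

/-- The root: the empty word. -/
def root (d : ℕ) : V d := ⟨[], List.isChain_nil⟩

/-- The infinite `d`-regular tree: a word is joined to its one-letter extensions. -/
def tree (d : ℕ) : SimpleGraph (V d) where
  Adj u v := (∃ j, v.1 = j :: u.1) ∨ (∃ j, u.1 = j :: v.1)
  symm := ⟨fun _ _ h => h.symm⟩
  loopless := ⟨fun u h => by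
    rcases h with ⟨j, h⟩ | ⟨j, h⟩ <;> exact absurd (congrArg List.length h) (by simp)⟩

/-- The coin that shows `true` with probability `p`. -/
noncomputable def coin (p : ℝ) : Measure Bool :=
  ENNReal.ofReal p • Measure.dirac true + ENNReal.ofReal (1 - p) • Measure.dirac false

/-- Broadcasting: the root spin is the root coin; a child agrees with its parent exactly when
the coin of the child shows `true`. Spins are `true` (plus one) and `false` (minus one). -/
def spin {d : ℕ} (ξ : V d → Bool) : (l : List (Fin d)) → l.IsChain (· ≠ ·) → Bool
  | [], h => ξ ⟨[], h⟩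
  | j :: l, h => if ξ ⟨j :: l, h⟩ then spin ξ l h.tail else !spin ξ l h.tail

/-- The free zero-field Ising measure on the `d`-regular tree at inverse temperature `β`. -/
noncomputable def ising (d : ℕ) (β : ℝ) : Measure (V d → Bool) :=
  (Measure.infinitePi fun v : V d =>
    if v = root d then coin (1 / 2) else coin ((1 + Real.tanh β) / 2)).map
    fun ξ v => spin ξ v.1 v.2

/-- `ν` is a factor of IID with respect to the full automorphism group of the tree. -/
def IsFIID {d : ℕ} (ν : Measure (V d → Bool)) : Prop :=
  ∃ Φ : (V d → unitInterval) → (V d → Bool), Measurable Φ ∧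
    (Measure.infinitePi fun _ : V d => (volume : Measure unitInterval)).map Φ = ν ∧
    ∀ g : tree d ≃g tree d,
      ∀ᵐ U ∂(Measure.infinitePi fun _ : V d => (volume : Measure unitInterval)),
        Φ (fun v => U (g.symm v)) = fun v => Φ U (g.symm v)

end Vale.Agent.P161
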