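import Vale.Agent.P161.Haz

namespace Vale.Agent.P161

open MeasureTheory Finset Real Filter Topology

set_option linter.unusedSectionVars false

variable {d : ℕ}

lemma BM.cont {α : Type*} [MeasurableSpace α] {f : α → ℝ} (hf : BM f) {G : ℝ → ℝ}
    (hG : Continuous G) : BM fun x => G (f x) := by
  obtain ⟨h1, C, h2⟩ := hf
  obtain ⟨D, hD⟩ := (isCompact_Icc (a := -C) (b := C)).exists_bound_of_continuousOn hG.continuousOn
  exact ⟨hG.measurable.comp h1, D, fun x => hD _ (abs_le.1 (h2 x))⟩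

lemma artanh_sign {s w : ℝ} (hs : s = 1 ∨ s = -1) (hw : |w| < 1) :
    artanh (s * w) = s * artanh w := by
  rcases hs with rfl | rfl
  · simp
  · simp [artanh_neg' hw]

lemma tanh_sign {s : ℝ} (hs : s = 1 ∨ s = -1) (w : ℝ) : tanh (s * w) = s * tanh w := by
  rcases hs with rfl | rfl <;> simp

lemma th_sign {s : ℝ} (hs : s = 1 ∨ s = -1) (θ w : ℝ) : th θ (s * w) = th θ w := by
  rcases hs with rfl | rfl <;> simp [th]

lemma abs_wv_lt (x : X d) (l : J d) : |wv x l| < 1 := by linarith [abs_wv_le x l]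

lemma wv_gauge (ω : Om d) (l : J d) :
    sig ω l.1 * wv (D ω) l = amp l.2 (ω (kt l)) * Yt ω l := by
  rw [wv_D]
  simp only [D, am]
  rw [mul_left_comm, ← mul_assoc (sig ω l.1), sign_sq (sig_cases _ _), one_mul]

lemma fc_gauge0 (N : ℕ) (c : V d → ℝ) {ω ω' : Om d} {w : V d}
    (H : ∀ a, ω (w, some a) = ω' (w, some a)) :
    sig ω w * fc N c (D ω) w = sig ω' w * fc N c (D ω') w := by
  simp only [fc, fldS, mul_sum]
  refine sum_congr rfl fun r _ => ?_
  have e1 : ω (kt (w, r)) = ω' (kt (w, r)) := H _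
  have e2 : ω (kn (w, r)) = ω' (kn (w, r)) := H _
  have e3 : T (D ω) (w, r) = T (D ω') (w, r) := by rw [T_D, T_D, e1]
  by_cases h : T (D ω) (w, r) < c w
  · rw [if_pos h, if_pos (e3 ▸ h), ← artanh_sign (sig_cases _ _) (abs_wv_lt _ _),
      ← artanh_sign (sig_cases _ _) (abs_wv_lt _ _), wv_gauge ω (w, r), wv_gauge ω' (w, r), Yt, Yt,
      e1, e2]
  · rw [if_neg h, if_neg (e3 ▸ h), mul_zero, mul_zero]

lemma sub0_sub1 (v : V d) : sub0 v ⊆ sub1 v := fun _ h => h.1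

lemma sub1_step {v : V d} {j : Fin d} (hj : j ∈ ch v) : sub1 (step j v) ⊆ sub0 v :=
  fun _ h => ⟨anc_trans (anc_step_self hj) h, by rintro rfl; exact not_anc_child hj h⟩

lemma fc_gauge (N : ℕ) (c : V d → ℝ) {ω ω' : Om d} {v w : V d} (H : ∀ k ∈ sub0 v, ω k = ω' k)
    (hw : anc v w) : fc N c (D ω) w = (sig ω v * sig ω' v) * fc N c (D ω') w := by
  have h1 := fc_gauge0 N c (w := w) fun a => H (w, some a) ⟨hw, by simp⟩
  have h2 := sig_mul_dep H hw
  have h3 := sign_sq (sig_cases ω w)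
  have h4 := sign_sq (sig_cases ω v)
  have h5 := sign_sq (sig_cases ω' w)
  calc _ = sig ω w * (sig ω w * fc N c (D ω) w) := by rw [← mul_assoc, h3, one_mul]
    _ = sig ω v * (sig ω v * sig ω w) * sig ω' w * fc N c (D ω') w := by
      rw [h1, ← mul_assoc (sig ω v), h4]; ring
    _ = _ := by rw [h2, mul_assoc (sig ω v), mul_assoc (sig ω' v), h5, mul_one]

/-- The field at cutoffs `c`. -/
noncomputable def hc (N : ℕ) (c : V d → ℝ) (ω : Om d) : V d → ℝ := fc N c (D ω)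

@[fun_prop] lemma measurable_hc (N : ℕ) (c : V d → ℝ) : Measurable (hc N c) := by
  unfold hc; fun_prop

lemma abs_hc_le (N : ℕ) (c : V d → ℝ) (ω : Om d) (v : V d) : |hc N c ω v| ≤ N := abs_fc_le _ _ _ _

lemma hc_act (g : TAut d) (N : ℕ) (s : ℝ) (ω : Om d) :
    hc N (fun _ => s) (act g ω) = fun v => hc N (fun _ => s) ω (g.e v) := by
  rw [hc, D_act]; rfl

lemma hom (θ : ℝ) (g : TAut d) (N : ℕ) (s : ℝ) {Φ : (V d → ℝ) → ℝ} (hΦ : Measurable Φ) :
    ∫ ω, Φ (fun v => hc N (fun _ => s) ω (g.e v)) ∂PP d θ =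
      ∫ ω, Φ (hc N (fun _ => s) ω) ∂PP d θ := by
  simp only [← hc_act]
  exact int_act θ g (f := fun ω => Φ (hc N (fun _ => s) ω)) (by fun_prop)

lemma hom_Hi (θ : ℝ) (N : ℕ) (s : ℝ) {G : ℝ → ℝ} (hG : Measurable G) (v : V d) (i i0 : Fin d) :
    ∫ ω, G (Hi θ (hc N (fun _ => s) ω) v i) ∂PP d θ =
      ∫ ω, G (Hi θ (hc N (fun _ => s) ω) (root d) i0) ∂PP d θ := by
  obtain ⟨g, h1, h2⟩ := exists_taut v i i0
  rw [← hom θ g N s (Φ := fun h => G (Hi θ h (root d) i0)) (by fun_prop)]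
  simp only [Hi_comp, h1, h2]

lemma hom_mag (θ : ℝ) (N : ℕ) (s : ℝ) (v : V d) :
    ∫ ω, mag θ (hc N (fun _ => s) ω) v ^ 2 ∂PP d θ =
      ∫ ω, mag θ (hc N (fun _ => s) ω) (root d) ^ 2 ∂PP d θ := by
  rw [← hom θ (lm v) N s (Φ := fun h => mag θ h (root d) ^ 2) (by fun_prop)]
  simp only [mag_comp]
  simp only [lm_e, mul_root]

/-- Squared edge weights. -/
noncomputable def t2 (θ : ℝ) (h : V d → ℝ) (v : V d) (i : Fin d) : ℝ := tt θ h v i ^ 2

@[fun_prop] lemma measurable_t2 (θ : ℝ) (v : V d) (i : Fin d) :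
    Measurable fun h : V d → ℝ => t2 θ h v i := by unfold t2; fun_prop

noncomputable def Lam (θ : ℝ) (h : V d → ℝ) (n : ℕ) (v : V d) (i : Fin d) : ℝ :=
  Ws (t2 θ h) (fun _ => 1) n v i

@[fun_prop] lemma measurable_Lam (θ : ℝ) (n : ℕ) (v : V d) (i : Fin d) :
    Measurable fun h : V d → ℝ => Lam θ h n v i :=
  measurable_Ws (fun v i => measurable_t2 θ v i) (fun _ => measurable_const) n v i

lemma t2_comp (g : TAut d) (θ : ℝ) (h : V d → ℝ) :
    t2 θ (fun v => h (g.e v)) = fun v i => t2 θ h (g.e v) (g.π v i) := by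
  funext v i; simp only [t2, tt_comp]

lemma Lam_comp (g : TAut d) (θ : ℝ) (h : V d → ℝ) (n : ℕ) (v : V d) (i : Fin d) :
    Lam θ (fun v => h (g.e v)) n v i = Lam θ h n (g.e v) (g.π v i) := by
  rw [Lam, t2_comp]; exact Ws_comp g _ (fun _ => 1) n v i

lemma hom_Lam (θ : ℝ) (N : ℕ) (s : ℝ) {G : ℝ → ℝ} (hG : Measurable G) (n : ℕ) (v : V d)
    (i i0 : Fin d) : ∫ ω, G (Lam θ (hc N (fun _ => s) ω) n v i) ∂PP d θ =
      ∫ ω, G (Lam θ (hc N (fun _ => s) ω) n (root d) i0) ∂PP d θ := by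
  obtain ⟨g, h1, h2⟩ := exists_taut v i i0
  rw [← hom θ g N s (Φ := fun h => G (Lam θ h n (root d) i0)) (by fun_prop)]
  simp only [Lam_comp, h1, h2]

lemma Wd_congr_t {t t' : V d → Fin d → ℝ} (φ : V d → ℝ) (m : ℕ) (w : V d)
    (H : ∀ u j, anc w u → j ∈ ch u → t (step j u) j = t' (step j u) j) :
    Wd t φ m w = Wd t' φ m w := by
  induction m generalizing w with
  | zero => rfl
  | succ m ih =>
    simp only [Wd]
    refine congrArg _ (sum_congr rfl fun j hj => ?_)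
    rw [H w j (anc_refl _) hj, ih _ fun u i hu hi => H u i (anc_trans (anc_step_self hj) hu) hi]

lemma ch_root' (j : Fin d) : j ∈ ch (root d) := by simp [ch_root]

lemma BM_sg (k : K d) : BM fun ω : Om d => sg (ω k) :=
  BM.of_le (by fun_prop) fun _ => (sign_abs (sg_cases _)).le

lemma Rule.tr_le {R R' : Rule d} (h : ∀ τ l, R.R τ l → R'.R τ l) (g : TAut d) :
    ∀ τ l, (R.tr g).R τ l → (R'.tr g).R τ l := fun _ _ => h _ _

lemma rd_le (N : ℕ) {c c' : V d → ℝ} (h : ∀ v, c v ≤ c' v) :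
    ∀ τ l, (rd N c).R τ l → (rd N c').R τ l := fun _ _ a => ⟨a.1.trans_le (h _), a.2⟩

section
variable {θ : ℝ} (h0 : 0 ≤ θ) (h1 : θ < 1)
include h0 h1

lemma t2_nonneg (h : V d → ℝ) (v : V d) (i : Fin d) : 0 ≤ t2 θ h v i := sq_nonneg _

lemma t2_le (h : V d → ℝ) (v : V d) (i : Fin d) : t2 θ h v i ≤ θ ^ 2 := th_sq_le' h0 h1 _

lemma BM_tt {α : Type*} [MeasurableSpace α] {f : α → V d → ℝ} (hf : Measurable f) (v : V d)
    (i : Fin d) : BM fun a => tt θ (f a) v i :=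
  BM.of_le (C := θ) (by fun_prop) fun a => by
    rw [abs_of_nonneg (tt_nonneg h0 h1 _ _ _)]; exact tt_le h0 h1 _ _ _

lemma BM_t2 {α : Type*} [MeasurableSpace α] {f : α → V d → ℝ} (hf : Measurable f) (v : V d)
    (i : Fin d) : BM fun a => t2 θ (f a) v i := (BM_tt h0 h1 hf v i).pow 2

lemma BM_Hi {α : Type*} [MeasurableSpace α] {f : α → V d → ℝ} (hf : Measurable f) {η : ℝ}
    (hb : ∀ a v, |f a v| ≤ η) (v : V d) (i : Fin d) : BM fun a => Hi θ (f a) v i :=
  BM.of_le (by fun_prop) fun a => abs_Hi_le h0 h1 (hb a) v i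

lemma BM_Hc (N : ℕ) (c : V d → ℝ) (v : V d) (i : Fin d) : BM fun ω => Hi θ (hc N c ω) v i :=
  BM_Hi h0 h1 (measurable_hc N c) (abs_hc_le N c) v i

lemma BM_F {α : Type*} [MeasurableSpace α] {f : α → ℝ} (hf : Measurable f) :
    BM fun a => F θ (f a) := BM.of_le (by fun_prop) fun _ => abs_F_le' h0 h1 _

lemma good_hc (N : ℕ) (c : V d → ℝ) : ∀ᵐ ω ∂PP d θ, Good θ (hc N c ω) := by
  simpa only [fld_rd, hc] using ae_good h0 h1 (rd N c)

lemma Hg_dep (N : ℕ) (c : V d → ℝ) {v : V d} {j : Fin d} (hj : j ∈ ch v) :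
    DependsOn (fun ω => sig ω (step j v) * Hi θ (hc N c ω) (step j v) j) (sub0 (step j v)) :=
  fun ω ω' H => by
    simp only [hc]
    rw [Hi_congr θ hj fun w hw => fc_gauge N c H hw,
      Hi_sign h0 h1 (sign_mul (sig_cases _ _) (sig_cases _ _)), ← mul_assoc, ← mul_assoc,
      sign_sq (sig_cases _ _), one_mul]

lemma t2_dep (N : ℕ) (c : V d → ℝ) {v : V d} {j : Fin d} (hj : j ∈ ch v) :
    DependsOn (fun ω => t2 θ (hc N c ω) (step j v) j) (sub0 (step j v)) := fun ω ω' H => by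
  have := Hg_dep h0 h1 N c hj H
  simp only [t2, tt] at this ⊢
  rw [← th_sign (sig_cases ω (step j v)), this, th_sign (sig_cases _ _)]

lemma Wd_dep (N : ℕ) (c : V d → ℝ) (φ : V d → ℝ) (m : ℕ) (w : V d) :
    DependsOn (fun ω => Wd (t2 θ (hc N c ω)) φ m w) (sub0 w) := fun _ _ H =>
  Wd_congr_t φ m w fun _ _ hu hj => t2_dep h0 h1 N c hj fun k hk => H k
    ⟨anc_trans hu (sub1_step hj hk.1).1, by
      rintro rfl; exact not_anc_child hj (anc_trans hk.1 hu)⟩

lemma BM_Wd2 {α : Type*} [MeasurableSpace α] {f : α → V d → ℝ} (hf : Measurable f)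
    (φ : V d → ℝ) (m : ℕ) (w : V d) : BM fun a => Wd (t2 θ (f a)) φ m w := by
  induction m generalizing w with
  | zero => exact BM.const _
  | succ m ih => exact (BM.const _).add (BM.sum _ fun j => (BM_t2 h0 h1 hf _ _).mul (ih _))

lemma coin_mean {c : V d} (hc : c ≠ root d) {G : Om d → ℝ} (hG : BM G)
    (dG : DependsOn G (sub0 c)) :
    ∫ ω, sg (ω (c, none)) * G ω ∂PP d θ = θ * ∫ ω, G ω ∂PP d θ := by
  rw [int_coin h0 h1 hc dG (φ := fun p => p.1 * p.2) ((BM_sg _).mul hG) ((BM.const _).mul hG)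
    ((BM.const _).mul hG)]
  simp only [integral_const_mul]; ring

/-- An odd function of the message of a child, in the gauge of the parent. -/
lemma odd_dep (N : ℕ) (c : V d → ℝ) {v : V d} {j : Fin d} (hj : j ∈ ch v) {G : ℝ → ℝ}
    (hG : ∀ s y, s = 1 ∨ s = -1 → G (s * y) = s * G y) :
    DependsOn (fun ω => sig ω (step j v) * G (Hi θ (hc N c ω) (step j v) j)) (sub0 (step j v)) ∧
    DependsOn (fun ω => sig ω v * G (Hi θ (hc N c ω) (step j v) j)) (sub1 (step j v)) := by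
  have a : DependsOn (fun ω => sig ω (step j v) * G (Hi θ (hc N c ω) (step j v) j))
      (sub0 (step j v)) := fun ω ω' H => by
    have := Hg_dep h0 h1 N c hj H
    simp only [← hG _ _ (sig_cases _ _)] at this ⊢
    rw [this]
  refine ⟨a, fun ω ω' H => ?_⟩
  have := a fun k hk => H k hk.1
  simp only [sig_parent _ hj, mul_assoc] at this ⊢
  rw [this, H _ (anc_refl _)]

lemma mag_and (R : Rule d) (i : Fin d) {x : X d} (hx : Good θ (fld R x)) :
    mag θ (fld (R.and fun v => ¬ anc (step i (root d)) v) x) (root d) =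
      tanh (Hi θ (fld R x) (root d) i) := by
  rw [mag, Hv, hx.bp h0 h1, ← add_sum_erase _ _ (mem_univ i), fld_and,
    if_pos (not_anc_child (ch_root' i)), Hi_congr θ (h' := fun _ => 0) (ch_root' i) fun w hw => by
      rw [fld_and, if_neg (not_not.2 hw)]]
  have : Hi θ (fun _ => 0) (step i (root d)) i = 0 := Hi_of_tendsto (by
    simp only [Hn_eq_Upn _ _ _ (ch_root' i), Upn_zero]; exact tendsto_const_nhds)
  rw [this, F_zero, zero_add]
  refine congrArg _ (congrArg _ (sum_congr rfl fun j hj => ?_))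
  rw [Hi_congr θ (ch_root' j) fun w hw => by
    rw [fld_and, if_pos fun hw' => (mem_erase.1 hj).1 (anc_sib (ch_root' j) (ch_root' i) hw hw')]]

lemma CE_edge_root (R : Rule d) (i : Fin d) {ψ : X d → ℝ} (hψ : BM ψ) :
    ∫ ω, ψ (mask (R.and fun v => ¬ anc (step i (root d)) v) (D ω)) * sig ω (root d) ∂PP d θ =
      ∫ ω, ψ (mask (R.and fun v => ¬ anc (step i (root d)) v) (D ω)) *
        tanh (Hi θ (fld R (D ω)) (root d) i) ∂PP d θ := by
  rw [CE_root h0 h1 _ hψ]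
  refine integral_congr_ae ?_
  filter_upwards [ae_good h0 h1 R] with ω hω
  rw [mag_and h0 h1 R i hω]

lemma CE_edge (R : Rule d) (v : V d) (i : Fin d) {G : ℝ → ℝ} (hG : Continuous G) :
    ∫ ω, G (Hi θ (fld R (D ω)) v i) * sig ω v ∂PP d θ =
      ∫ ω, G (Hi θ (fld R (D ω)) v i) * tanh (Hi θ (fld R (D ω)) v i) ∂PP d θ := by
  have key : ∀ R : Rule d, ∫ ω, G (Hi θ (fld R (D ω)) (root d) i) * sig ω (root d) ∂PP d θ =
      ∫ ω, G (Hi θ (fld R (D ω)) (root d) i) * tanh (Hi θ (fld R (D ω)) (root d) i) ∂PP d θ :=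
    fun R => by
      set R' := R.and fun v => ¬ anc (step i (root d)) v
      have b : BM fun x => Hv θ (fld R' x) (root d) :=
        BM.of_le (by fun_prop) fun x => abs_Hv_le h0 h1 (abs_fld_le R' x) _
      have := CE_edge_root h0 h1 R i (b.cont hG)
      have e0 : ∀ x, fld R' (mask R' x) = fld R' x := fun x => fld_mask fun _ h => h
      change ∫ ω, G (Hv θ (fld R' (mask R' (D ω))) (root d)) * _ ∂PP d θ =
        ∫ ω, G (Hv θ (fld R' (mask R' (D ω))) (root d)) * _ ∂PP d θ at this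
      simp only [e0] at this
      have e : ∀ᵐ ω ∂PP d θ, Hv θ (fld R' (D ω)) (root d) = Hi θ (fld R (D ω)) (root d) i := by
        filter_upwards [ae_good h0 h1 R] with ω hω
        simpa only [mag, artanh_tanh] using congrArg artanh (mag_and h0 h1 R i hω)
      refine Eq.trans ?_ (this.trans ?_) <;> refine integral_congr_ae ?_ <;>
        filter_upwards [e] with ω hω <;> rw [hω]
  have := key (R.tr (lm v))
  rw [← int_act θ (lm v) (f := fun ω => G (Hi θ (fld (R.tr (lm v)) (D ω)) (root d) i) *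
      sig ω (root d)) ((hG.measurable.comp (by fun_prop)).mul (by fun_prop)),
    ← int_act θ (lm v) (f := fun ω => G (Hi θ (fld (R.tr (lm v)) (D ω)) (root d) i) *
      tanh (Hi θ (fld (R.tr (lm v)) (D ω)) (root d) i))
      ((hG.measurable.comp (by fun_prop)).mul (by fun_prop))] at this
  simp only [D_act, sig_act, fld_tr, Hi_comp] at this
  simpa only [lm_e, mul_root, lm_π] using this

lemma CE_hc (N : ℕ) (c : V d → ℝ) (v : V d) (i : Fin d) {G : ℝ → ℝ} (hG : Continuous G) :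
    ∫ ω, sig ω v * G (Hi θ (hc N c ω) v i) ∂PP d θ =
      ∫ ω, G (Hi θ (hc N c ω) v i) * tanh (Hi θ (hc N c ω) v i) ∂PP d θ := by
  simpa only [fld_rd, mul_comm (sig _ v), hc] using CE_edge h0 h1 (rd N c) v i hG

lemma edge_mono {R R' : Rule d} (h : ∀ τ l, R.R τ l → R'.R τ l) (v : V d) (i : Fin d) :
    ∫ ω, tanh (Hi θ (fld R (D ω)) v i) ^ 2 ∂PP d θ ≤
      ∫ ω, tanh (Hi θ (fld R' (D ω)) v i) ^ 2 ∂PP d θ := by
  have e : ∀ R : Rule d, ∫ ω, tanh (Hi θ (fld R (D ω)) v i) ^ 2 ∂PP d θ =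
      ∫ ω, mag θ (fld ((R.tr (lm v)).and fun v => ¬ anc (step i (root d)) v) (D ω)) (root d) ^ 2
        ∂PP d θ := fun R => by
    have := int_act θ (lm v) (f := fun ω =>
      tanh (Hi θ (fld (R.tr (lm v)) (D ω)) (root d) i) ^ 2) (by fun_prop)
    simp only [D_act, fld_tr, Hi_comp] at this
    simp only [lm_e, mul_root, lm_π] at this
    rw [this]
    refine integral_congr_ae ?_
    filter_upwards [ae_good h0 h1 (R.tr (lm v))] with ω hω
    rw [mag_and h0 h1 _ i hω]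
  rw [e, e]
  exact sq_mono h0 h1 (R := (R.tr (lm v)).and _) (R' := (R'.tr (lm v)).and _)
    (fun τ l a => ⟨h _ _ a.1, a.2⟩) _

end

end Vale.Agent.P161
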