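import Vale.Agent.P161.Static

namespace Vale.Agent.P161

open MeasureTheory Finset Real Filter Topology

set_option linter.unusedSectionVars false

variable {d : ℕ}

/-- Tail hypotheses for a nonnegative variable at scale `K / z ^ 12`. -/
structure Tl {α : Type*} [MeasurableSpace α] (μ : Measure α) (K z : ℝ) (J : ℕ) (L : α → ℝ) :
    Prop where
  bm : BM L
  pos : ∀ x, 0 ≤ L x
  mL : ∫ x, exp (z ^ 12 / K * L x) ∂μ ≤ 2
  tL : ∫ x, (if 2 * J + 2 * K / z ^ 12 < L x then (1 : ℝ) else 0) ∂μ ≤ exp (-4 ^ J)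

structure Wld {α : Type*} [MeasurableSpace α] (μ : Measure α) (a : V d → α → α) (θ η K z : ℝ)
    (J : ℕ) (h : α → V d → ℝ) : Prop where
  meas : Measurable h
  eqv : ∀ g ω, h (a g ω) = fun v => h ω ((lm g).e v)
  good : ∀ᵐ ω ∂μ, Good θ (h ω) ∧ ∀ v, |h ω v| ≤ η
  mH : ∀ v i, ∫ ω, exp (1 / (K * z ^ 2) * |tanh (Hi θ (h ω) v i)|) ∂μ ≤ 4
  tl : ∀ n v i, Tl μ K z J fun ω => Lam θ (h ω) n v i

noncomputable def Th {α : Type*} [MeasurableSpace α] (μ : Measure α) (θ K z : ℝ) (J : ℕ)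
    (h h' : α → V d → ℝ) : ℝ := 10 ^ 6 * K ^ 4 * ((2 ^ J * (J + 1) ^ 2 *
      ∫ ω, (mag θ (h ω) (root d) - mag θ (h' ω) (root d)) ^ 2 ∂μ + exp (-4 ^ J / 2)) / z ^ 23)

lemma one_sub_mag_mem (θ : ℝ) (h : V d → ℝ) (v : V d) :
    0 ≤ 1 - mag θ h v ^ 2 ∧ 1 - mag θ h v ^ 2 ≤ 1 :=
  ⟨sub_nonneg.2 (tanh_sq_lt_one _).le, sub_le_self _ (sq_nonneg _)⟩

lemma abs_dm_le (θ : ℝ) (h h' : V d → ℝ) (v : V d) : |mag θ h v - mag θ h' v| ≤ 2 :=
  (abs_sub _ _).trans (by linarith [abs_mag_le θ h v, abs_mag_le θ h' v])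

lemma BM_pptt {θ : ℝ} (h0 : 0 ≤ θ) (h1 : θ < 1) {α : Type*} [MeasurableSpace α]
    {h : α → V d → ℝ} (m : Measurable h) (u : V d) : BM fun ω => pp (tt θ (h ω)) u :=
  BM.of_le (C := 1) ((measurable_pptt θ u).comp m) fun ω => abs_le.2 ⟨by
    linarith [(pptt_bound h0 h1 (h ω) u).1], (pptt_bound h0 h1 (h ω) u).2⟩

lemma BM_Cov {θ : ℝ} (h0 : 0 ≤ θ) (h1 : θ < 1) {α : Type*} [MeasurableSpace α]
    {h : α → V d → ℝ} (m : Measurable h) (u : V d) : BM fun ω => Cov θ (h ω) u :=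
  BM.of_le ((measurable_Cov θ u).comp m) fun _ => abs_Cov_le h0 h1 _ _

lemma stat_pt {p q x y x' y' : ℝ} (p0 : 0 ≤ p) (p1 : p ≤ 1) (q0 : 0 ≤ q) (q1 : q ≤ 1)
    (x0 : 0 ≤ x) (y0 : 0 ≤ y) (hx : x ≤ x') (hy : y ≤ y') :
    (p ^ 2 * x - q ^ 2 * y - p ^ 2 * (x' - y')) ^ 2 ≤
      3 * (x' ^ 2 + y' ^ 2) + -3 * (x ^ 2 + y ^ 2) + 12 * ((p - q) * y) ^ 2 := by
  have a0 : (p ^ 2) ^ 2 ≤ 1 := pow_le_one₀ (sq_nonneg _) (pow_le_one₀ p0 p1)
  have a1 : (p ^ 2 * (x' - x)) ^ 2 ≤ x' ^ 2 - x ^ 2 := by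
    rw [mul_pow]; exact (mul_le_of_le_one_left (sq_nonneg _) a0).trans (by nlinarith)
  have a2 : (p ^ 2 * (y' - y)) ^ 2 ≤ y' ^ 2 - y ^ 2 := by
    rw [mul_pow]; exact (mul_le_of_le_one_left (sq_nonneg _) a0).trans (by nlinarith)
  have a3 : ((p + q) * ((p - q) * y)) ^ 2 ≤ 4 * ((p - q) * y) ^ 2 := by
    rw [mul_pow]; exact mul_le_mul_of_nonneg_right (by nlinarith) (sq_nonneg _)
  rw [show p ^ 2 * x - q ^ 2 * y - p ^ 2 * (x' - y') =
    p ^ 2 * (y' - y) - p ^ 2 * (x' - x) + (p + q) * ((p - q) * y) by ring]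
  generalize p ^ 2 * (y' - y) = a, p ^ 2 * (x' - x) = b, (p + q) * ((p - q) * y) = c at *
  nlinarith [sq_nonneg (a + b), sq_nonneg (a - c), sq_nonneg (b + c)]

lemma stat_pt2 {p q X A A' x y : ℝ} (q0 : 0 ≤ q) (q1 : q ≤ 1) (X0 : 0 ≤ X) (hX : 2 * X ≤ A + A')
    (x0 : 0 ≤ x) : X * |(p - q) * (p * x - q * y)| ≤ 1 / 2 * ((p - q) * A) ^ 2 +
      1 / 2 * ((p - q) * A') ^ 2 + 1 / 2 * ((p - q) * x) ^ 2 + 1 / 2 * (x - y) ^ 2 := by
  have a1 : |p * x - q * y| ≤ |p - q| * x + |x - y| := by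
    rw [show p * x - q * y = (p - q) * x + q * (x - y) by ring]
    refine (abs_add_le _ _).trans (add_le_add (by rw [abs_mul, abs_of_nonneg x0]) ?_)
    rw [abs_mul, abs_of_nonneg q0]; exact mul_le_of_le_one_left (abs_nonneg _) q1
  have a2 : 2 * X ^ 2 ≤ A ^ 2 + A' ^ 2 := by nlinarith [sq_nonneg (A - A')]
  rw [abs_mul, mul_pow, mul_pow, mul_pow, ← sq_abs (p - q), ← sq_abs (x - y)]
  have := mul_le_mul_of_nonneg_left a1 (mul_nonneg X0 (abs_nonneg (p - q)))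
  generalize |p - q| = g, |x - y| = w, |p * x - q * y| = r at *
  nlinarith [mul_le_mul_of_nonneg_left a2 (sq_nonneg g), sq_nonneg (g * X - g * x),
    sq_nonneg (g * X - w)]

section
variable {α : Type} [MeasurableSpace α] {μ : Measure α} [IsProbabilityMeasure μ]
  {a : V d → α → α} {θ η K z : ℝ} {J : ℕ} {h h' : α → V d → ℝ}

lemma Tl.sq {L : α → ℝ} (H : Tl μ K z J L) (K1 : 1 ≤ K) (z0 : 0 < z) :
    ∫ ω, L ω ∂μ ≤ K / z ^ 12 * 2 ∧ ∫ ω, L ω ^ 2 ∂μ ≤ 2 * (K / z ^ 12) ^ 2 * 2 := by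
  have b := ((BM.const (z ^ 12 / K)).mul H.bm).exp
  have e : ∀ ω, L ω = K / z ^ 12 * (z ^ 12 / K * L ω) := fun ω => by field_simp
  have q := fun ω => quadratic_le_exp_of_nonneg (mul_nonneg (show 0 ≤ z ^ 12 / K by positivity)
    (H.pos ω))
  have p := fun ω => mul_nonneg (show 0 ≤ z ^ 12 / K by positivity) (H.pos ω)
  constructor
  · refine (int_mono H.bm ((BM.const (K / z ^ 12)).mul b) fun ω => ?_).trans ?_
    · conv_lhs => rw [e ω]
      exact mul_le_mul_of_nonneg_left (by nlinarith [q ω, p ω]) (by positivity)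
    · rw [integral_const_mul]; exact mul_le_mul_of_nonneg_left H.mL (by positivity)
  · refine (int_mono (H.bm.pow 2) ((BM.const (2 * (K / z ^ 12) ^ 2)).mul b) fun ω => ?_).trans ?_
    · conv_lhs => rw [e ω, mul_pow]
      nlinarith [mul_le_mul_of_nonneg_left (show (z ^ 12 / K * L ω) ^ 2 ≤
        2 * exp (z ^ 12 / K * L ω) by linarith [q ω, p ω]) (sq_nonneg (K / z ^ 12))]
    · rw [integral_const_mul]; exact mul_le_mul_of_nonneg_left H.mL (by positivity)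

lemma Wld.mg (W : Wld μ a θ η K z J h) : Eqv a fun ω => mag θ (h ω) :=
  ⟨fun v => BM_mag W.meas θ v, fun g ω v => by simp only [W.eqv, mag_comp]; rfl⟩

lemma Wld.cc (W : Wld μ a θ η K z J h) : Eqv a fun ω v => 1 - mag θ (h ω) v ^ 2 :=
  ⟨fun v => (BM.const _).sub ((W.mg.1 v).pow 2), fun g ω v => by simp only [W.mg.2]⟩

lemma Eqv.mul {Z W : α → V d → ℝ} (h : Eqv a Z) (h' : Eqv a W) : Eqv a fun ω v => Z ω v * W ω v :=
  ⟨fun v => (h.1 v).mul (h'.1 v), fun g ω v => by simp only [h.2, h'.2]⟩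

lemma F_le_Th (K1 : 1 ≤ K) (z0 : 0 < z) (z1 : z ≤ 1) :
    (∫ ω, (mag θ (h ω) (root d) - mag θ (h' ω) (root d)) ^ 2 ∂μ) / z ^ 4 ≤ Th μ θ K z J h h' := by
  rw [Th]
  have F0 : 0 ≤ ∫ ω, (mag θ (h ω) (root d) - mag θ (h' ω) (root d)) ^ 2 ∂μ := by positivity
  generalize ∫ ω, (mag θ (h ω) (root d) - mag θ (h' ω) (root d)) ^ 2 ∂μ = F at *
  have a1 : (1 : ℝ) ≤ 2 ^ J * (J + 1) ^ 2 := one_le_mul_of_one_le_of_one_le (one_le_pow₀ (by norm_num))
    (one_le_pow₀ (by linarith [Nat.cast_nonneg (α := ℝ) J]))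
  refine le_trans ?_ (le_mul_of_one_le_left (by positivity)
    (one_le_mul_of_one_le_of_one_le (by norm_num) (one_le_pow₀ K1)))
  exact div_le_div₀ (by positivity) (by nlinarith [exp_pos (-4 ^ J / 2 : ℝ)]) (by positivity)
    (pow_le_pow_of_le_one z0.le z1 (by norm_num))

lemma psi_L (W : Wld μ a θ η K z J h) (W' : Wld μ a θ η K z J h') (K1 : 1 ≤ K) (z0 : 0 < z)
    (z1 : z ≤ 1) {L : α → ℝ} (H : Tl μ K z J L) :
    ∫ ω, L ω * (mag θ (h ω) (root d) - mag θ (h' ω) (root d)) ^ 2 ∂μ ≤ Th μ θ K z J h h' := by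
  have bD : BM fun ω => mag θ (h ω) (root d) - mag θ (h' ω) (root d) := (W.mg.sub W'.mg).1 (root d)
  have := trunc μ bD (BM.const (z ^ 2)) H.bm K1 z0 z1
    (fun ω => (abs_dm_le _ _ _ _).trans (by norm_num))
    (fun _ => by rw [abs_of_pos (by positivity)]; exact pow_le_one₀ z0.le z1) H.pos
    (int_le_const (by fun_prop) fun _ => by
      rw [abs_of_pos (by positivity), show 1 / (K * z ^ 2) * z ^ 2 = 1 / K by field_simp]
      linarith [exp_le_exp.2 ((div_le_one (by linarith)).2 K1), exp_one_lt_d9]) H.mL H.tL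
  have a2 := F_le_Th (μ := μ) (θ := θ) (J := J) (h := h) (h' := h') K1 z0 z1
  have b1 := ((bD.mul (BM.const (z ^ 2))).mul H.bm).pow 2
  have a3 := int_mono (μ := μ) (H.bm.mul (bD.pow 2)) (((BM.const (1 / 2)).mul b1).add
    ((BM.const (1 / 2 / z ^ 4)).mul (bD.pow 2))) fun ω => by
      generalize mag θ (h ω) (root d) - mag θ (h' ω) (root d) = D, L ω = L
      have : 0 ≤ D ^ 2 * (z ^ 4 * L - 1) ^ 2 / (2 * z ^ 4) := by positivity
      refine le_of_sub_nonneg (this.trans (le_of_eq ?_))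
      field_simp; ring
  rw [int_l2 b1 (bD.pow 2), div_mul_eq_mul_div (1 / 2) (z ^ 4), mul_div_assoc] at a3
  rw [← Th] at this
  linarith

variable (h0 : 0 ≤ θ) (h1 : θ < 1) (hb : ((d : ℝ) - 1) * θ ^ 2 ≤ 1)
  (ha : ∀ g, MeasurePreserving (a g) μ μ)
include h0 h1 hb ha

lemma Wld.t (W : Wld μ a θ η K z J h) : EqE a fun ω => tt θ (h ω) :=
  ⟨fun v i => BM_tt h0 h1 W.meas v i, fun g ω v i => by simp only [W.eqv, tt_comp]; rfl⟩

lemma Wld.t2 (W : Wld μ a θ η K z J h) : EqE a fun ω => t2 θ (h ω) :=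
  ⟨fun v i => BM_t2 h0 h1 W.meas v i, fun g ω v i => by simp only [W.eqv, t2_comp]; rfl⟩

lemma Wld.lam (W : Wld μ a θ η K z J h) (n : ℕ) : EqE a fun ω => Lam θ (h ω) n :=
  (W.t2 h0 h1 hb ha).ws Eqv.one n

lemma g_L (W : Wld μ a θ η K z J h) (W' : Wld μ a θ η K z J h') (K1 : 1 ≤ K) (z0 : 0 < z)
    (z1 : z ≤ 1) {L : α → ℝ} (H : Tl μ K z J L) (j : Fin d) :
    ∫ ω, ((tt θ (h ω) (root d) j - tt θ (h' ω) (root d) j) * L ω) ^ 2 ∂μ ≤
      16 * KL d θ η ^ 2 * Th μ θ K z J h h' := by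
  have bm : ∀ v, BM fun ω => mag θ (h ω) v - mag θ (h' ω) v := (W.mg.sub W'.mg).1
  have bD := (bm (root d)).abs.add (bm (step j (root d))).abs
  have dD : ∀ ω, |(|mag θ (h ω) (root d) - mag θ (h' ω) (root d)| +
      |mag θ (h ω) (step j (root d)) - mag θ (h' ω) (step j (root d))|)| ≤ 4 := fun ω => by
    rw [abs_of_nonneg (by positivity)]
    linarith [abs_dm_le θ (h ω) (h' ω) (root d), abs_dm_le θ (h ω) (h' ω) (step j (root d))]
  have bT : BM fun ω => tanh (Hi θ (h ω) (root d) j) := BM_tanh (by have := W.meas; fun_prop)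
  have bT' : BM fun ω => tanh (Hi θ (h' ω) (root d) j) := BM_tanh (by have := W'.meas; fun_prop)
  have a1 := trunc μ bD bT H.bm K1 z0 z1 dD (fun _ => abs_tanh_le_one _) H.pos (W.mH _ _) H.mL H.tL
  have a2 := trunc μ bD bT' H.bm K1 z0 z1 dD (fun _ => abs_tanh_le_one _) H.pos (W'.mH _ _) H.mL H.tL
  have a3 := int_mono (μ := μ) (bD.pow 2) (((BM.const 2).mul ((bm (root d)).pow 2)).add
    ((BM.const 2).mul ((bm (step j (root d))).pow 2))) fun ω => by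
      generalize mag θ (h ω) (root d) - mag θ (h' ω) (root d) = x,
        mag θ (h ω) (step j (root d)) - mag θ (h' ω) (step j (root d)) = y
      nlinarith [sq_abs x, sq_abs y, sq_nonneg (|x| - |y|)]
  have a4 := ((W.mg.sub W'.mg).mul (W.mg.sub W'.mg)).edge.flip ha j
  simp only [← sq] at a4
  rw [int_l2 ((bm _).pow 2) ((bm _).pow 2), a4] at a3
  have a5 : 10 ^ 6 * K ^ 4 * ((2 ^ J * (J + 1) ^ 2 * ∫ ω, (|mag θ (h ω) (root d) -
      mag θ (h' ω) (root d)| + |mag θ (h ω) (step j (root d)) -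
      mag θ (h' ω) (step j (root d))|) ^ 2 ∂μ + exp (-4 ^ J / 2)) / z ^ 23) ≤
      4 * Th μ θ K z J h h' := by
    rw [Th, mul_left_comm, ← mul_div_assoc 4]
    gcongr
    nlinarith [mul_le_mul_of_nonneg_left a3 (show (0 : ℝ) ≤ 2 ^ J * (J + 1) ^ 2 by positivity),
      exp_pos (-4 ^ J / 2 : ℝ)]
  have b1 := ((bD.mul bT).mul H.bm).pow 2
  have b2 := ((bD.mul bT').mul H.bm).pow 2
  have a6 := int_mono_ae (μ := μ) (((((W.t h0 h1 hb ha).sub (W'.t h0 h1 hb ha)).1 (root d) j).mul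
    H.bm).pow 2) (((BM.const (2 * KL d θ η ^ 2)).mul b1).add
      ((BM.const (2 * KL d θ η ^ 2)).mul b2)) (by
    filter_upwards [W.good, W'.good] with ω g g'
    have := mul_le_mul_of_nonneg_right (pow_le_pow_left₀ (abs_nonneg _)
      (tt_lip h0 h1 g.1 g'.1 g.2 g'.2 (root d) j) 2) (sq_nonneg (L ω))
    rw [sq_abs, ← mul_pow] at this
    refine this.trans ?_
    generalize tanh (Hi θ (h ω) (root d) j) = x, tanh (Hi θ (h' ω) (root d) j) = y,
      |mag θ (h ω) (root d) - mag θ (h' ω) (root d)| + |mag θ (h ω) (step j (root d)) -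
        mag θ (h' ω) (step j (root d))| = D
    have : (|x| + |y|) ^ 2 ≤ 2 * x ^ 2 + 2 * y ^ 2 := by
      nlinarith [sq_abs x, sq_abs y, sq_nonneg (|x| - |y|)]
    nlinarith [mul_le_mul_of_nonneg_left this (sq_nonneg (KL d θ η * D * L ω))])
  rw [int_l2 b1 b2] at a6
  nlinarith [mul_le_mul_of_nonneg_left (add_le_add (a1.trans a5) (a2.trans a5))
    (sq_nonneg (KL d θ η))]

lemma stat1 (W : Wld μ a θ η K z J h) (W' : Wld μ a θ η K z J h') (K1 : 1 ≤ K) (z0 : 0 < z)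
    (z1 : z ≤ 1) (n : ℕ) : ∫ ω, ∑ u ∈ ball d (n + 1), Cov θ (h ω) u ^ 2 *
      (mag θ (h ω) u - mag θ (h' ω) u) ^ 2 ∂μ ≤ (d + 1) * Th μ θ K z J h h' := by
  have eψ := (W.mg.sub W'.mg).mul (W.mg.sub W'.mg)
  simp only [← sq] at eψ
  have e2 := W.t2 h0 h1 hb ha
  have t1 : ∀ ω v i, t2 θ (h ω) v i ≤ 1 := fun ω v i => (t2_le h0 h1 _ _ _).trans (by nlinarith)
  have := dual ha e2 ((e2.ws eψ n).sub eψ.edge) (e2.mul eψ.edge) (W.cc.mul W.cc)
    (fun _ _ _ => sq_nonneg _) t1 (fun _ _ => mul_self_nonneg _)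
    (fun ω v => mul_le_one₀ (one_sub_mag_mem _ _ _).2 (one_sub_mag_mem _ _ _).1
      (one_sub_mag_mem _ _ _).2) (by
      filter_upwards [W.good] with ω g i
      simp only [t2, ← sq, ← mul_pow, g.1.edge h0 h1])
    (fun ω i => by
      have := Ws_mono (t2_nonneg h0 h1 (h ω))
        (fun v => sq_nonneg (mag θ (h ω) v - mag θ (h' ω) v)) n (root d) i
      rw [Ws] at this
      simp only [← mul_add, sub_add_cancel]; linarith)
    (K := ∑ _j : Fin d, K / z ^ 12 * 2) (Φ := ∑ _j : Fin d, Th μ θ K z J h h')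
    (fun m => sum_le_sum fun j _ => ((W.tl m _ j).sq K1 z0).1) fun m => sum_le_sum fun j _ =>
      le_trans (int_mono (((W.tl m _ j).bm).mul ((e2.mul eψ.edge).1 _ _).abs)
        ((W.tl m _ j).bm.mul (eψ.1 _)) fun ω => mul_le_mul_of_nonneg_left (by
          rw [abs_of_nonneg (mul_nonneg (sq_nonneg _) (sq_nonneg _))]
          exact mul_le_of_le_one_left (sq_nonneg _) (t1 _ _ _)) (Lam_nonneg _ _ _ _ _))
        (psi_L W W' K1 z0 z1 (W.tl m (step j (root d)) j))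
  simp only [← mul_add, sub_add_cancel, sum_const, card_univ, Fintype.card_fin, nsmul_eq_mul] at this
  have b1 := ((W.cc.mul W.cc).1 (root d)).mul (BM.sum univ fun j => (e2.mul (e2.ws eψ n)).1
    (step j (root d)) j)
  have a2 := F_le_Th (μ := μ) (θ := θ) (J := J) (h := h) (h' := h') K1 z0 z1
  have a3 := le_trans (le_div_self (by positivity) (by positivity) (pow_le_one₀ z0.le z1)) a2
  have m := W.meas
  refine (int_mono (BM.sum _ fun u => ((BM.of_le (by fun_prop) fun ω =>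
    abs_Cov_le h0 h1 _ _).pow 2).mul (eψ.1 u)) ((eψ.1 (root d)).add b1) fun ω => ?_).trans ?_
  · simp only [Cov, mul_pow, mul_assoc, sq (pp _ _), ← pp_mul]
    rw [← mul_sum, sum_ball_pp, ← WV_root, WV, mul_add, sq, ← mul_assoc]
    simp only [← sq (tt _ _ _ _)]
    exact add_le_add_left (mul_le_of_le_one_left (sq_nonneg _) (mul_le_one₀
      (one_sub_mag_mem _ _ _).2 (one_sub_mag_mem _ _ _).1 (one_sub_mag_mem _ _ _).2)) _
  · rw [int_add (eψ.1 _) b1]; linarith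

lemma stat2 {C : ℝ} (C0 : 0 ≤ C) (hC : ∀ {Y t : α → V d → Fin d → ℝ} {γ : ℝ}, EqE a Y → EqE a t →
    (∀ ω v i, 0 ≤ t ω v i) → (∀ ω v i, t ω v i ≤ γ) → ((d : ℝ) - 1) * γ ≤ 1 →
    (Gr μ fun ω v => ∑ j, Y ω (step j v) j) →
    ∑ i, ∫ ω, (∑ j ∈ univ.erase i, Y ω (step j (root d)) j) ^ 2 ∂μ ≤ C * ∑ i, ∫ ω,
      (Y ω (root d) i - t ω (root d) i * ∑ j ∈ univ.erase i, Y ω (step j (root d)) j) ^ 2 ∂μ)
    (W : Wld μ a θ η K z J h) (W' : Wld μ a θ η K z J h') (K1 : 1 ≤ K) (z0 : 0 < z)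
    (z1 : z ≤ 1) (hG : ∀ n, Gr μ fun ω v => WV (t2 θ (h ω)) (fun _ => 1) n v -
      WV (t2 θ (h' ω)) (fun _ => 1) n v) (l : ℕ) {ε : ℝ} (hε : 0 < ε) : ∃ n, l ≤ n ∧
    ∫ ω, ∑ u ∈ ball d (n + 2), (pp (tt θ (h ω)) u - pp (tt θ (h' ω)) u) ^ 2 ∂μ ≤
      (d * (2 + 6 * C) * (16 * KL d θ η ^ 2 * Th μ θ K z J h h') + 2 * C * ε) /
        kap (Bd d θ η) ^ 2 := by
  have L := W.lam h0 h1 hb ha
  have L' := W'.lam h0 h1 hb ha
  have T := W.t h0 h1 hb ha
  have T' := W'.t h0 h1 hb ha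
  have T2 := W.t2 h0 h1 hb ha
  have T2' := W'.t2 h0 h1 hb ha
  have G := fun {L : α → ℝ} (H : Tl μ K z J L) => g_L h0 h1 hb ha W W' K1 z0 z1 H
  generalize 16 * KL d θ η ^ 2 * Th μ θ K z J h h' = Γ at G ⊢
  obtain ⟨n, hn, hs⟩ := exists_small (u := fun n => ∑ i, (∫ ω, Lam θ (h ω) n (root d) i ^ 2 ∂μ +
    ∫ ω, Lam θ (h' ω) n (root d) i ^ 2 ∂μ)) (fun n => by positivity)
    (fun n => sum_le_sum (g := fun _ => _) fun i _ => add_le_add ((W.tl n _ i).sq K1 z0).2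
      ((W'.tl n _ i).sq K1 z0).2) hε l
  refine ⟨n, hn, ?_⟩
  have t0 := fun ω => tt_nonneg h0 h1 (h ω)
  have t0' := fun ω => tt_nonneg h0 h1 (h' ω)
  have t1 := fun ω v i => (tt_le h0 h1 (h ω) v i).trans h1.le
  have t1' := fun ω v i => (tt_le h0 h1 (h' ω) v i).trans h1.le
  have eZ : ∀ ω i, ∑ j ∈ univ.erase i, (t2 θ (h ω) (step j (root d)) j *
      Lam θ (h ω) n (step j (root d)) j - t2 θ (h' ω) (step j (root d)) j *
      Lam θ (h' ω) n (step j (root d)) j) =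
      Lam θ (h ω) (n + 1) (root d) i - Lam θ (h' ω) (n + 1) (root d) i := fun ω i => by
    simp only [Lam, Ws, sum_sub_distrib]; ring
  have en := hC ((T2.mul (L n)).sub (T2'.mul (L' n))) T2 (fun _ _ _ => sq_nonneg _)
    (fun ω => t2_le h0 h1 _) hb (by
      convert hG n using 3
      simp only [WV, Lam, sum_sub_distrib]; ring)
  simp only [eZ] at en
  have bg : ∀ i, BM fun ω => tt θ (h ω) (root d) i - tt θ (h' ω) (root d) i := (T.sub T').1 _
  have e1 : ∑ i, ∫ ω, (t2 θ (h ω) (root d) i * Lam θ (h ω) n (root d) i -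
      t2 θ (h' ω) (root d) i * Lam θ (h' ω) n (root d) i - t2 θ (h ω) (root d) i *
      (Lam θ (h ω) (n + 1) (root d) i - Lam θ (h' ω) (n + 1) (root d) i)) ^ 2 ∂μ ≤
      3 * ε + d * (12 * Γ) := by
    refine (sum_le_sum (g := fun i => 3 * ((∫ ω, Lam θ (h ω) (n + 1) (root d) i ^ 2 ∂μ +
      ∫ ω, Lam θ (h' ω) (n + 1) (root d) i ^ 2 ∂μ) - (∫ ω, Lam θ (h ω) n (root d) i ^ 2 ∂μ +
      ∫ ω, Lam θ (h' ω) n (root d) i ^ 2 ∂μ)) + 12 * Γ) fun i _ => ?_).trans ?_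
    · have b1 := fun n => (((L n).1 (root d) i).pow 2).add (((L' n).1 (root d) i).pow 2)
      have b2 := ((bg i).mul ((L' n).1 (root d) i)).pow 2
      have := int_mono (μ := μ) (((((T2.mul (L n)).sub (T2'.mul (L' n))).sub
        (T2.mul ((L (n + 1)).sub (L' (n + 1))))).1 (root d) i).pow 2)
        ((((BM.const 3).mul (b1 (n + 1))).add ((BM.const (-3)).mul (b1 n))).add
          ((BM.const 12).mul b2)) fun ω => by
          have a1 : Lam θ (h ω) n (root d) i ≤ _ := Lam_mono θ _ _ _ n.le_succ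
          have a2 : Lam θ (h' ω) n (root d) i ≤ _ := Lam_mono θ _ _ _ n.le_succ
          have a3 := Lam_nonneg θ (h ω) n (root d) i
          have a4 := Lam_nonneg θ (h' ω) n (root d) i
          exact stat_pt (t0 ω _ i) (t1 ω _ i) (t0' ω _ i) (t1' ω _ i) a3 a4 a1 a2
      rw [int_l3 (b1 _) (b1 _) b2, int_add (((L _).1 _ _).pow 2) (((L' _).1 _ _).pow 2),
        int_add (((L _).1 _ _).pow 2) (((L' _).1 _ _).pow 2)] at this
      linarith [G (W'.tl n (root d) i) i]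
    · rw [sum_add_distrib, ← mul_sum, sum_sub_distrib, sum_const, card_univ, Fintype.card_fin,
        nsmul_eq_mul]
      linarith
  have X := (T.mul T').ws Eqv.one
  have XL : ∀ m ω v i, 2 * Ws (fun v i => tt θ (h ω) v i * tt θ (h' ω) v i) (fun _ => 1) m v i ≤
      Lam θ (h ω) m v i + Lam θ (h' ω) m v i := fun m ω v i => by
    have := quad_Ws (tt θ (h ω)) (tt θ (h' ω)) m v i 1 1
    simp only [one_pow, one_mul, mul_one, sub_nonneg] at this
    exact this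
  have X0 := fun ω => Ws_nonneg (φ := fun _ => 1) (fun v i => mul_nonneg (t0 ω v i) (t0' ω v i))
    fun _ => zero_le_one
  have eφ := (T.sub T').mul ((T.mul (L (n + 1))).sub (T'.mul (L' (n + 1))))
  have bZ := fun j => (((L (n + 1)).sub (L' (n + 1))).1 (root d) j).pow 2
  have := dual ha (T.mul T') (((L (n + 1)).add (L' (n + 1))).sub ((EqE.const 2).mul (X (n + 1))))
    eφ (W.cc.mul W'.cc) (fun ω v i => mul_nonneg (t0 ω v i) (t0' ω v i))
    (fun ω v i => mul_le_one₀ (t1 ω v i) (t0' ω v i) (t1' ω v i))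
    (fun _ _ => mul_nonneg (one_sub_mag_mem _ _ _).1 (one_sub_mag_mem _ _ _).1)
    (fun ω v => mul_le_one₀ (one_sub_mag_mem _ _ _).2 (one_sub_mag_mem _ _ _).1
      (one_sub_mag_mem _ _ _).2) (by
      filter_upwards [W.good, W'.good] with ω g g' i
      rw [mul_mul_mul_comm, g.1.edge h0 h1, g'.1.edge h0 h1]; ring)
    (fun ω i => by
      have := quad_Ws' (tt θ (h ω)) (tt θ (h' ω)) (n + 1) (root d) i 1 1
      simp only [one_pow, one_mul, mul_one] at this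
      refine this.trans (le_of_eq ?_)
      rw [Ws, Ws, Ws, mul_add, mul_sum, add_add_add_comm, ← sum_add_distrib,
        add_sub_add_comm, ← sum_sub_distrib, show (1 : ℝ) + 1 - 2 * 1 = 0 by norm_num, zero_add]
      exact sum_congr rfl fun j _ => by simp only [Lam]; unfold t2; ring)
    (K := ∑ _j : Fin d, K / z ^ 12 * 2) (Φ := ∑ j : Fin d, (2 * Γ + 1 / 2 *
      ∫ ω, (Lam θ (h ω) (n + 1) (root d) j - Lam θ (h' ω) (n + 1) (root d) j) ^ 2 ∂μ))
    (fun m => sum_le_sum fun j _ => by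
      have := int_mono (μ := μ) ((BM.const 2).mul ((X m).1 (step j (root d)) j))
        (((L m).add (L' m)).1 (step j (root d)) j) fun ω => XL m ω _ _
      rw [integral_const_mul, int_add ((L m).1 _ _) ((L' m).1 _ _)] at this
      linarith [((W.tl m (step j (root d)) j).sq K1 z0).1, ((W'.tl m (step j (root d)) j).sq K1 z0).1])
    fun m => sum_le_sum fun j _ => by
      have b := fun {L : α → ℝ} (H : Tl μ K z J L) => ((bg j).mul H.bm).pow 2
      have := int_mono (μ := μ) (((X m).1 (step j (root d)) j).mul (eφ.1 (root d) j).abs)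
        (((((BM.const (1 / 2)).mul (b (W.tl m (step j (root d)) j))).add ((BM.const (1 / 2)).mul
        (b (W'.tl m (step j (root d)) j)))).add ((BM.const (1 / 2)).mul
        (b (W.tl (n + 1) (root d) j)))).add ((BM.const (1 / 2)).mul (bZ j))) fun ω =>
          stat_pt2 (t0' ω _ j) (t1' ω _ j) (X0 ω _ _ _) (XL m ω _ _) (Lam_nonneg _ _ _ _ _)
      rw [int_add ((((BM.const _).mul (b (W.tl _ _ _))).add ((BM.const _).mul
        (b (W'.tl _ _ _)))).add ((BM.const _).mul (b (W.tl _ _ _)))) ((BM.const _).mul (bZ j)), int_l3 (b (W.tl _ _ _))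
        (b (W'.tl _ _ _)) (b (W.tl _ _ _)), integral_const_mul] at this
      have g0 : 0 ≤ Γ := le_trans (by positivity) (G (W.tl 0 (root d) j) j)
      linarith [G (W.tl m (step j (root d)) j) j, G (W'.tl m (step j (root d)) j) j,
        G (W.tl (n + 1) (root d) j) j]
  rw [sum_add_distrib, sum_const, card_univ, Fintype.card_fin, nsmul_eq_mul, ← mul_sum] at this
  have k0 := kap_pos (Bd d θ η)
  have bp : ∀ u, BM fun ω => (pp (tt θ (h ω)) u - pp (tt θ (h' ω)) u) ^ 2 := fun u =>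
    ((BM_pptt h0 h1 W.meas u).sub (BM_pptt h0 h1 W'.meas u)).pow 2
  rw [le_div_iff₀ (by positivity), ← integral_mul_const]
  refine le_trans (int_mono_ae ((BM.sum _ bp).mul (BM.const _)) (((W.cc.mul W'.cc).1 _).mul
    (BM.sum _ fun j => (((T.mul T').mul (((L (n + 1)).add (L' (n + 1))).sub ((EqE.const 2).mul
      (X (n + 1))))).add eφ).1 _ _)) ?_) (this.trans ?_)
  · filter_upwards [W.good, W'.good] with ω g g'
    rw [mul_comm]
    refine mul_le_mul ?_ (le_of_eq ?_) (sum_nonneg fun _ _ => sq_nonneg _)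
      (mul_nonneg (one_sub_mag_mem _ _ _).1 (one_sub_mag_mem _ _ _).1)
    · rw [sq]
      exact mul_le_mul (kap_le (abs_Hv_le h0 h1 g.2 _)) (kap_le (abs_Hv_le h0 h1 g'.2 _)) k0.le
        (one_sub_mag_mem _ _ _).1
    · have e : ∀ u, (pp (tt θ (h ω)) u - pp (tt θ (h' ω)) u) ^ 2 =
          pp (t2 θ (h ω)) u * 1 + pp (t2 θ (h' ω)) u * 1 -
          2 * (pp (fun v i => tt θ (h ω) v i * tt θ (h' ω) v i) u * 1) := fun u => by
        unfold t2; simp only [sq, pp_mul]; ring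
      simp only [e, sum_sub_distrib, sum_add_distrib, ← mul_sum, sum_ball_pp, ← WV_root, WV]
      rw [mul_add, mul_sum, add_add_add_comm, ← sum_add_distrib, ← sum_add_distrib,
        add_sub_add_comm, ← sum_sub_distrib, show (1 : ℝ) + 1 - 2 * 1 = 0 by norm_num, zero_add]
      exact sum_congr rfl fun j _ => by simp only [Lam]; unfold t2; ring
  · have := mul_le_mul_of_nonneg_left e1 C0
    nlinarith

end

lemma static {θ : ℝ} (h0 : 0 ≤ θ) (h1 : θ < 1) (hb : ((d : ℝ) - 1) * θ ^ 2 ≤ 1) (hd : 3 ≤ d)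
    (η : ℝ) : ∃ C : ℝ, 0 ≤ C ∧ ∀ {α : Type} [MeasurableSpace α] {μ : Measure α}
      [IsProbabilityMeasure μ] {a : V d → α → α} (_ : ∀ g, MeasurePreserving (a g) μ μ)
      {K z : ℝ} {J : ℕ} {h h' : α → V d → ℝ}, Wld μ a θ η K z J h → Wld μ a θ η K z J h' →
      1 ≤ K → 0 < z → z ≤ 1 → (∀ n, Gr μ fun ω v => WV (t2 θ (h ω)) (fun _ => 1) n v -
        WV (t2 θ (h' ω)) (fun _ => 1) n v) → ∀ l, ∑ u ∈ ball d l, ∫ ω,
      ((Cov θ (h ω) u - Cov θ (h' ω) u) ^ 2 + Cov θ (h ω) u ^ 2 *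
        (mag θ (h ω) u - mag θ (h' ω) u) ^ 2) ∂μ ≤ C * Th μ θ K z J h h' := by
  obtain ⟨C, C0, hC⟩ := energy (d := d) hd
  have k0 := kap_pos (Bd d θ η)
  refine ⟨9 * (d + 1) + 2 * (d * (2 + 6 * C) * (16 * KL d θ η ^ 2)) / kap (Bd d θ η) ^ 2,
    by positivity, ?_⟩
  intro α _ μ _ a ha K z J h h' W W' K1 z0 z1 hG l
  refine le_of_forall_pos_le_add fun ε hε => ?_
  obtain ⟨n, hn, s2⟩ := stat2 h0 h1 hb ha C0 (hC ha) W W' K1 z0 z1 hG l
    (show 0 < ε * kap (Bd d θ η) ^ 2 / (4 * (C + 1)) by positivity)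
  have s1 := stat1 h0 h1 hb ha W W' K1 z0 z1 (n + 1)
  have bm : ∀ v, BM fun ω => (mag θ (h ω) v - mag θ (h' ω) v) ^ 2 := fun v =>
    ((W.mg.sub W'.mg).1 v).pow 2
  have bC := BM_Cov h0 h1 W.meas
  have bC' := BM_Cov h0 h1 W'.meas
  have b1 : BM fun ω => ∑ u ∈ ball d (n + 2), Cov θ (h ω) u ^ 2 *
    (mag θ (h ω) u - mag θ (h' ω) u) ^ 2 := BM.sum _ fun u => ((bC u).pow 2).mul (bm u)
  have b2 : BM fun ω => ∑ u ∈ ball d (n + 2), (pp (tt θ (h ω)) u - pp (tt θ (h' ω)) u) ^ 2 :=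
    BM.sum _ fun u => ((BM_pptt h0 h1 W.meas u).sub (BM_pptt h0 h1 W'.meas u)).pow 2
  have bL := fun j => (W.tl (n + 1) (step j (root d)) j).bm.mul (bm (root d))
  have b3 := (bm (root d)).add (BM.sum univ bL)
  have s3 : ∫ ω, ((mag θ (h ω) (root d) - mag θ (h' ω) (root d)) ^ 2 + ∑ j, Lam θ (h ω) (n + 1)
      (step j (root d)) j * (mag θ (h ω) (root d) - mag θ (h' ω) (root d)) ^ 2) ∂μ ≤
      (d + 1) * Th μ θ K z J h h' := by
    rw [int_add (bm _) (BM.sum _ bL), int_sum _ bL]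
    have a2 := F_le_Th (μ := μ) (θ := θ) (J := J) (h := h) (h' := h') K1 z0 z1
    have a3 := le_trans (le_div_self (by positivity) (by positivity) (pow_le_one₀ z0.le z1)) a2
    have a4 := sum_le_card_nsmul univ _ _ fun j _ => psi_L W W' K1 z0 z1
      (W.tl (n + 1) (step j (root d)) j)
    rw [card_univ, Fintype.card_fin, nsmul_eq_mul] at a4
    linarith
  have bb := fun u => (((bC u).sub (bC' u)).pow 2).add (((bC u).pow 2).mul (bm u))
  rw [← int_sum _ bb]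
  refine (int_mono (BM.sum _ bb) ((((BM.const 8).mul b3).add ((BM.const 2).mul b2)).add
    ((BM.const 1).mul b1)) fun ω => ?_).trans ?_
  · refine (sum_le_sum_of_subset_of_nonneg (ball_mono (show l ≤ n + 2 by omega))
      fun _ _ _ => by positivity).trans ?_
    rw [sum_add_distrib, one_mul]
    refine add_le_add_left ((sum_le_sum (g := fun u => 8 * ((mag θ (h ω) (root d) -
      mag θ (h' ω) (root d)) ^ 2 * (pp (t2 θ (h ω)) u * 1)) + 2 * (pp (tt θ (h ω)) u -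
      pp (tt θ (h' ω)) u) ^ 2) fun u _ => ?_).trans ?_) _
    · have e : pp (t2 θ (h ω)) u = pp (tt θ (h ω)) u ^ 2 := by unfold t2; simp only [sq, pp_mul]
      have a1 := abs_mag_le θ (h ω) (root d)
      have a2 := abs_mag_le θ (h' ω) (root d)
      have a3 := one_sub_mag_mem θ (h' ω) (root d)
      rw [e, Cov, Cov]
      generalize mag θ (h ω) (root d) = x, mag θ (h' ω) (root d) = y, pp (tt θ (h ω)) u = p,
        pp (tt θ (h' ω)) u = q at *
      rw [show (1 - x ^ 2) * p - (1 - y ^ 2) * q = (1 - y ^ 2) * (p - q) - (x + y) * ((x - y) * p)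
        by ring]
      have c1 : ((1 - y ^ 2) * (p - q)) ^ 2 ≤ (p - q) ^ 2 := by
        rw [mul_pow]; exact mul_le_of_le_one_left (sq_nonneg _) (pow_le_one₀ a3.1 a3.2)
      have c2 : ((x + y) * ((x - y) * p)) ^ 2 ≤ 4 * ((x - y) * p) ^ 2 := by
        rw [mul_pow]
        exact mul_le_mul_of_nonneg_right (by nlinarith [abs_le.1 a1, abs_le.1 a2]) (sq_nonneg _)
      nlinarith [sq_nonneg ((1 - y ^ 2) * (p - q) + (x + y) * ((x - y) * p))]
    · rw [sum_add_distrib, ← mul_sum, ← mul_sum, ← mul_sum, sum_ball_pp, ← WV_root, WV, mul_add,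
        mul_one, mul_sum]
      refine add_le_add_left (mul_le_mul_of_nonneg_left (add_le_add_right
        (sum_le_sum fun j _ => ?_) _) (by norm_num)) _
      rw [mul_comm]
      exact mul_le_mul_of_nonneg_right (mul_le_of_le_one_left (Lam_nonneg _ _ _ _ _)
        ((t2_le h0 h1 _ _ _).trans (by nlinarith))) (sq_nonneg _)
  · rw [int_l3 b3 b2 b1]
    have e : 2 * C * (ε * kap (Bd d θ η) ^ 2 / (4 * (C + 1))) / kap (Bd d θ η) ^ 2 ≤ ε / 2 := by
      rw [show 2 * C * (ε * kap (Bd d θ η) ^ 2 / (4 * (C + 1))) / kap (Bd d θ η) ^ 2 =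
        ε / 2 * (C / (C + 1)) by field_simp; ring]
      exact mul_le_of_le_one_right (by positivity) ((div_le_one (by positivity)).2 (by linarith))
    rw [add_div] at s2
    have e2 : d * (2 + 6 * C) * (16 * KL d θ η ^ 2 * Th μ θ K z J h h') / kap (Bd d θ η) ^ 2 * 2 =
      2 * (d * (2 + 6 * C) * (16 * KL d θ η ^ 2)) / kap (Bd d θ η) ^ 2 * Th μ θ K z J h h' := by ring
    linarith

end Vale.Agent.P161
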