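import Vale.Agent.P161.Join
import Vale.Agent.P161.Static2

namespace Vale.Agent.P161

open MeasureTheory Finset Real Filter Topology

set_option linter.unusedSectionVars false

variable {d : ℕ}

noncomputable def ind (s s' : ℝ) (k : J d) (τ : J d → ℝ) : ℝ :=
  if s ≤ Tm k.2 (τ k) ∧ Tm k.2 (τ k) < s' then 1 else 0

lemma BM_ind (s s' : ℝ) (k : J d) : BM (ind s s' k) :=
  BM.ind ((measurable_pi_apply k : Measurable fun τ : J d → ℝ => τ k) (measurableSet_I s s' k.2))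

noncomputable def rat (w m : ℝ) : ℝ := w / (1 + w * m)

lemma abs_rat_le (x : X d) (k : J d) {m : ℝ} (hm : |m| ≤ 1) : |rat (wv x k) m| ≤ 2 * |am x k| :=
  abs_ratio_le (abs_am_le _ _) (abs_clp_le zero_le_one _) hm

/-- The jump of the root magnetization caused by slot `k` in the field `h`. -/
noncomputable def Dl (θ : ℝ) (h : V d → ℝ) (x : X d) (k : J d) : ℝ :=
  Cov θ h k.1 * rat (wv x k) (mag θ h k.1)

noncomputable def Bk (s s' : ℝ) (Ch mh : V d → X d → ℝ) (k : J d) (l : X d) : ℝ :=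
  ind s s' k (clk l) * (Ch k.1 (cut s l) * ph (am l k) (mh k.1 (cut s l)) (l k).2)

lemma Bk_congr {s s' : ℝ} {Ch mh : V d → X d → ℝ} {k : J d} {l l' : X d}
    (h : ind s s' k (clk l) = ind s s' k (clk l'))
    (h' : s ≤ T l k → T l k < s' → Ag s l l' ∧ l k = l' k) :
    Bk s s' Ch mh k l = Bk s s' Ch mh k l' := by
  rw [Bk, Bk, ← h, ind]
  split_ifs with a
  · obtain ⟨b, c⟩ := h' a.1 a.2
    rw [b.cut, am, am, c]
  · simp

lemma Bk_ag {s s' : ℝ} (hs : s ≤ s') {Ch mh : V d → X d → ℝ} (k : J d) {l l' : X d}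
    (h : Ag s' l l') : Bk s s' Ch mh k l = Bk s s' Ch mh k l' :=
  Bk_congr (if_congr (and_congr (by
    have := h.iff hs k
    simp only [← not_lt]; exact not_congr this) (h.iff le_rfl k)) rfl rfl)
    fun _ b => ⟨h.mono hs, h k (Or.inl b)⟩

lemma ag_upd {s τ : ℝ} (l : X d) {k : J d} (h : s ≤ Tm k.2 τ) (t t' : ℝ) :
    Ag s (Function.update l k (τ, t)) (Function.update l k (τ, t')) := fun j hj => by
  by_cases e : j = k
  · subst e
    simp only [T, Function.update_self, or_self] at hj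
    exact absurd h (not_le.2 hj)
  · simp only [Function.update_of_ne e]

lemma orth_sq {α ι : Type*} [MeasurableSpace α] [DecidableEq ι] {μ : Measure α} [IsFiniteMeasure μ]
    {X : α → ℝ} {B : ι → α → ℝ} (bX : BM X) (bB : ∀ k, BM (B k))
    (h1 : ∀ k, ∫ x, B k x * X x ∂μ = 0) (h2 : ∀ k j, k ≠ j → ∫ x, B k x * B j x ∂μ = 0)
    (S : Finset ι) : ∫ x, (X x + ∑ k ∈ S, B k x) ^ 2 ∂μ =
      ∫ x, X x ^ 2 ∂μ + ∑ k ∈ S, ∫ x, B k x ^ 2 ∂μ := by
  induction S using Finset.induction_on with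
  | empty => simp
  | insert a S ha ih =>
    have b := bX.add (BM.sum S bB)
    have e := int_l3 (μ := μ) (b.pow 2) ((bB a).mul b) ((bB a).pow 2) 1 2 1
    have e2 : ∫ x, B a x * (X x + ∑ k ∈ S, B k x) ∂μ = 0 := by
      simp only [mul_add, mul_sum]
      rw [int_add ((bB a).mul bX) (BM.sum _ fun k => (bB a).mul (bB k)),
        int_sum _ fun k => (bB a).mul (bB k), h1, zero_add]
      exact sum_eq_zero fun k hk => h2 _ _ (by rintro rfl; exact ha hk)
    simp only [sum_insert ha]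
    rw [e2, ih] at e
    rw [show (fun x => (X x + (B a x + ∑ k ∈ S, B k x)) ^ 2) = fun x => 1 * (X x + ∑ k ∈ S,
      B k x) ^ 2 + 2 * (B a x * (X x + ∑ k ∈ S, B k x)) + 1 * B a x ^ 2 from
      funext fun x => by ring, e]
    ring

section
variable {s s' : ℝ} {Ch mh : V d → X d → ℝ} (bC : ∀ u, BM (Ch u)) (bm : ∀ u, BM (mh u))
  (hm : ∀ u l, |mh u l| ≤ 1)
include bC bm hm

lemma BM_Bk0 (k : J d) : BM fun p : X d × ℝ => ind s s' k (clk p.1) *
    (Ch k.1 (cut s p.1) * ph (am p.1 k) (mh k.1 (cut s p.1)) p.2) := by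
  have := (bm k.1).1
  exact ((BM_ind s s' k).comp (by fun_prop)).mul (((bC _).comp (by fun_prop)).mul
    (BM.of_le (C := 2 * (1 / 2)) (by fun_prop) fun p => (abs_ph_le (abs_am_le _ _) (hm _ _) _).trans
      (by linarith [abs_am_le p.1 k])))

lemma BM_Bk (k : J d) : BM (Bk s s' Ch mh k) :=
  (BM_Bk0 bC bm hm k).comp (φ := fun l : X d => (l, (l k).2)) (by fun_prop)

lemma Bk_orth (k : J d) {G : X d → ℝ} (bG : BM G) (hG : ∀ l τ t, s ≤ Tm k.2 τ →
    G (Function.update l k (τ, t)) = G (Function.update l k (τ, 0))) :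
    ∫ l, Bk s s' Ch mh k l * G l ∂PL d = 0 := by
  classical
  have b := (BM_Bk bC bm hm (s := s) (s' := s') k).mul bG
  rw [int_upd _ k b]
  refine integral_eq_zero_of_ae (ae_of_all _ fun l => ?_)
  simp only
  rw [integral_prod _ ((b.comp (φ := fun p => Function.update l k p)
    ((measurable_upd k).comp measurable_prodMk_left)).int _)]
  refine integral_eq_zero_of_ae (ae_of_all _ fun τ => ?_)
  simp only [Bk, ind, clk, am, Function.update_self]
  split_ifs with h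
  · simp only [hG l τ _ h.1, (ag_upd l h.1 _ 0).cut]
    rw [integral_mul_const, integral_const_mul, integral_const_mul,
      int_ph (abs_amp_le _ _) (hm _ _)]
    simp
  · simp

lemma Z_sq (S : Finset (J d)) : ∫ l, (mh (root d) (cut s l) + ∑ k ∈ S, Bk s s' Ch mh k l) ^ 2 ∂PL d =
    ∫ l, mh (root d) (cut s l) ^ 2 ∂PL d + ∑ k ∈ S, ∫ l, Bk s s' Ch mh k l ^ 2 ∂PL d :=
  orth_sq ((bm _).comp (by fun_prop)) (BM_Bk bC bm hm) (fun k => Bk_orth bC bm hm k
    ((bm _).comp (by fun_prop)) fun l τ t h => by simp only [(ag_upd l h t 0).cut])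
    (fun k j hkj => Bk_orth bC bm hm k (BM_Bk bC bm hm j) fun l τ t h => Bk_congr
      (by simp only [ind, clk, Function.update_of_ne hkj.symm]) fun _ _ =>
        ⟨ag_upd l h t 0, by simp only [Function.update_of_ne hkj.symm]⟩) S

end

lemma rat_lip {a y m m' : ℝ} (ha : |a| ≤ 1 / 2) (hy : |y| ≤ 1) (hm : |m| ≤ 1) (hm' : |m'| ≤ 1) :
    |rat (a * y) m - rat (a * y) m'| ≤ 2 * |a| * |m - m'| := by
  have h := abs_mul_le_half ha hy
  have g1 := (abs_le.1 (abs_mul_le_half h hm)).1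
  have g2 := (abs_le.1 (abs_mul_le_half h hm')).1
  have h2 : |a * y| ≤ |a| := by rw [abs_mul]; exact mul_le_of_le_one_right (abs_nonneg _) hy
  generalize a * y = w at *
  have p : 1 / 4 ≤ (1 + w * m) * (1 + w * m') := by nlinarith
  rw [rat, rat, div_sub_div _ _ (by linarith) (by linarith), abs_div,
    abs_of_pos (by linarith : 0 < (1 + w * m) * (1 + w * m')), div_le_iff₀ (by linarith),
    show w * (1 + w * m') - (1 + w * m) * w = w * w * (m' - m) by ring, abs_mul, abs_mul,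
    abs_sub_comm m']
  have := mul_le_mul h2 h (abs_nonneg _) (abs_nonneg _)
  nlinarith [mul_le_mul_of_nonneg_right this (abs_nonneg (m - m')),
    mul_le_mul_of_nonneg_left p (mul_nonneg (abs_nonneg a) (abs_nonneg (m - m')))]

lemma cov_pt {x y : ℝ} (a1 : |x| ≤ 1) (a2 : |y| ≤ 1) (p q : ℝ) :
    ((1 - x ^ 2) * p - (1 - y ^ 2) * q) ^ 2 ≤ 8 * ((x - y) ^ 2 * p ^ 2) + 2 * (p - q) ^ 2 := by
  rw [show (1 - x ^ 2) * p - (1 - y ^ 2) * q = (1 - y ^ 2) * (p - q) - (x + y) * ((x - y) * p)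
    by ring, ← mul_pow]
  have c1 : ((1 - y ^ 2) * (p - q)) ^ 2 ≤ (p - q) ^ 2 := by
    rw [mul_pow]
    exact mul_le_of_le_one_left (sq_nonneg _) (pow_le_one₀ (by nlinarith [abs_le.1 a2])
      (by nlinarith))
  have c2 : ((x + y) * ((x - y) * p)) ^ 2 ≤ 4 * ((x - y) * p) ^ 2 := by
    rw [mul_pow]
    exact mul_le_mul_of_nonneg_right (by nlinarith [abs_le.1 a1, abs_le.1 a2]) (sq_nonneg _)
  nlinarith [sq_nonneg ((1 - y ^ 2) * (p - q) + (x + y) * ((x - y) * p))]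

lemma dyn_a {a C C0 Ch m m0 mh r p : ℝ} (hC : |C| ≤ 1) (hm0 : |m0| ≤ 1) (hmh : |mh| ≤ 1)
    (r4 : |p| ≤ 2 * |a|) (r5 : |r - p| ≤ 4 * |a| * |m - mh|) :
    (C * r - Ch * p) ^ 2 ≤ a ^ 2 * (128 * ((C0 - Ch) ^ 2 + C0 ^ 2 * (m0 - mh) ^ 2) +
      400 * ((C - C0) ^ 2 + (m - m0) ^ 2)) := by
  have e1 : |C * r - Ch * p| ≤ |a| * (2 * |C - Ch| + 4 * |C * (m - mh)|) := by
    rw [show C * r - Ch * p = (C - Ch) * p + C * (r - p) by ring]
    refine (abs_add_le _ _).trans ?_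
    rw [abs_mul, abs_mul, abs_mul C]
    linarith [mul_le_mul_of_nonneg_left r4 (abs_nonneg (C - Ch)),
      mul_le_mul_of_nonneg_left r5 (abs_nonneg C)]
  have := pow_le_pow_left₀ (abs_nonneg _) e1 2
  rw [sq_abs, mul_pow, sq_abs] at this
  refine this.trans (mul_le_mul_of_nonneg_left ?_ (sq_nonneg _))
  have f0 : (2 * |C - Ch| + 4 * |C * (m - mh)|) ^ 2 ≤ 8 * (C - Ch) ^ 2 + 32 * (C * (m - mh)) ^ 2 := by
    rw [← sq_abs (C - Ch), ← sq_abs (C * (m - mh))]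
    nlinarith [sq_nonneg (|C - Ch| - 2 * |C * (m - mh)|)]
  have f1 : ((C - C0) * (m0 - mh)) ^ 2 ≤ (C - C0) ^ 2 * 4 := by
    rw [mul_pow]
    exact mul_le_mul_of_nonneg_left (by nlinarith [abs_le.1 hm0, abs_le.1 hmh]) (sq_nonneg _)
  have f3 : (C * (m - m0)) ^ 2 ≤ (m - m0) ^ 2 := by
    rw [mul_pow]; exact mul_le_of_le_one_left (sq_nonneg _) (by nlinarith [abs_le.1 hC])
  have f4 : (C - Ch) ^ 2 ≤ 2 * (C0 - Ch) ^ 2 + 2 * (C - C0) ^ 2 := by
    nlinarith [sq_nonneg (C - 2 * C0 + Ch)]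
  have f5 : ∀ x y z : ℝ, (x + y + z) ^ 2 ≤ 3 * x ^ 2 + 3 * y ^ 2 + 3 * z ^ 2 := fun x y z => by
    nlinarith [sq_nonneg (x - y), sq_nonneg (x - z), sq_nonneg (y - z)]
  have f6 := f5 (C0 * (m0 - mh)) ((C - C0) * (m0 - mh)) (C * (m - m0))
  rw [show C0 * (m0 - mh) + (C - C0) * (m0 - mh) + C * (m - m0) = C * (m - mh) by ring,
    mul_pow C0] at f6
  linarith [sq_nonneg (C0 - Ch), sq_nonneg (m - m0), mul_nonneg (sq_nonneg C0) (sq_nonneg (m0 - mh))]

lemma abs_le_eps {ε : ℝ} (hε : 0 < ε) (x z w : ℝ) :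
    |x - z| ≤ ε / 2 + (1 / ε) * ((x - w) ^ 2 + (z - w) ^ 2) := by
  have : |x - z| ≤ ε / 2 + (1 / ε) * ((x - z) ^ 2 / 2) := by
    have : 0 ≤ (|x - z| - ε) ^ 2 / (2 * ε) := by positivity
    rw [← sq_abs (x - z)]
    refine le_of_sub_nonneg (this.trans (le_of_eq ?_)); field_simp; ring
  exact this.trans (add_le_add_right (mul_le_mul_of_nonneg_left
    (by nlinarith [sq_nonneg (x + z - 2 * w)]) (by positivity)) _)

lemma dyn_b {a C Cn C0 m mn m0 r rn ε : ℝ} (hC : |C| ≤ 1) (hCn : |Cn| ≤ 1) (hε : 0 < ε)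
    (r1 : |r| ≤ 2 * |a|) (r2 : |rn| ≤ 2 * |a|) (r3 : |rn - r| ≤ 2 * |a| * |mn - m|) :
    (Cn * rn) ^ 2 - (C * r) ^ 2 ≤ a ^ 2 * (8 * ε + 8 / ε *
      ((C - C0) ^ 2 + (m - m0) ^ 2 + ((Cn - C0) ^ 2 + (mn - m0) ^ 2))) := by
  have e3 : |Cn * rn - C * r| ≤ 2 * |a| * (|Cn - C| + |mn - m|) := by
    rw [show Cn * rn - C * r = (Cn - C) * rn + C * (rn - r) by ring]
    refine (abs_add_le _ _).trans ?_
    rw [abs_mul, abs_mul]
    linarith [mul_le_mul_of_nonneg_left r2 (abs_nonneg (Cn - C)),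
      mul_le_mul hC r3 (abs_nonneg _) zero_le_one]
  have e4 : |Cn * rn + C * r| ≤ 4 * |a| := by
    refine (abs_add_le _ _).trans ?_
    rw [abs_mul, abs_mul]
    linarith [mul_le_mul hCn r2 (abs_nonneg _) zero_le_one, mul_le_mul hC r1 (abs_nonneg _) zero_le_one]
  rw [sq_sub_sq]
  refine (le_abs_self _).trans ?_
  rw [abs_mul, ← sq_abs a]
  refine (mul_le_mul e4 e3 (abs_nonneg _) (by positivity)).trans ?_
  have := mul_le_mul_of_nonneg_left (add_le_add (abs_le_eps hε Cn C C0) (abs_le_eps hε mn m m0))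
    (sq_nonneg |a|)
  rw [show 8 / ε = 8 * (1 / ε) by ring]; linarith

lemma dyn_pt {a y C Cn C0 Ch m mn m0 mh ε : ℝ} (ha : |a| ≤ 1 / 2) (hy : |y| ≤ 1) (hC : |C| ≤ 1)
    (hCn : |Cn| ≤ 1) (hm : |m| ≤ 1) (hmn : |mn| ≤ 1) (hm0 : |m0| ≤ 1) (hmh : |mh| ≤ 1)
    (hε : 0 < ε) :
    (Cn * rat (a * y) mn) ^ 2 - 2 * ((Ch * ph a mh (Fc (a * m) y)) * (C * rat (a * y) m)) +
      (Ch * ph a mh (Fc (a * m) y)) ^ 2 ≤ a ^ 2 * (128 * ((C0 - Ch) ^ 2 + C0 ^ 2 * (m0 - mh) ^ 2) +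
        (8 * ε + (400 + 8 / ε) * ((C - C0) ^ 2 + (m - m0) ^ 2 + ((Cn - C0) ^ 2 + (mn - m0) ^ 2)))) := by
  have r5 := ph_lip ha hm hmh (Fc (a * m) y)
  rw [ph_Fc ha hm hy, ← rat] at r5
  have e1 := dyn_a (C0 := C0) (Ch := Ch) hC hm0 hmh (abs_ph_le ha hmh (Fc (a * m) y)) r5
  have e2 := dyn_b (C0 := C0) (m0 := m0) hC hCn hε (r := rat (a * y) m) (rn := rat (a * y) mn)
    (abs_ratio_le ha hy hm)
    (abs_ratio_le ha hy hmn) (rat_lip ha hy hmn hm)
  have : 0 ≤ a ^ 2 * ((Cn - C0) ^ 2 + (mn - m0) ^ 2) := by positivity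
  linarith

noncomputable def qq (d : ℕ) (θ : ℝ) (N : ℕ) (s : ℝ) : ℝ :=
  ∫ ω, mag θ (hc N (fun _ => s) ω) (root d) ^ 2 ∂PP d θ

section
variable {θ : ℝ} (h0 : 0 ≤ θ) (h1 : θ < 1)
include h0 h1

lemma close_mag (N : ℕ) {s s' : ℝ} {c : V d → ℝ} (h : ∀ v, s ≤ c v ∧ c v ≤ s') (v : V d) :
    ∫ ω, (mag θ (hc N c ω) v - mag θ (hc N (fun _ => s) ω) v) ^ 2 ∂PP d θ ≤
      qq d θ N s' - qq d θ N s := by
  have a := sq_diff' h0 h1 (rd_le N (c := fun _ => s) fun v => (h v).1) v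
  have b := sq_mono h0 h1 (rd_le N (c' := fun _ => s') fun v => (h v).2) v
  simp only [fld_rd] at a b
  rw [qq, qq, ← hom_mag θ N s' v, ← hom_mag θ N s v]
  simp only [hc]; linarith

lemma close_cov (N : ℕ) {c c' : V d → ℝ} {δ : ℝ}
    (H : ∀ v, ∫ ω, (mag θ (hc N c ω) v - mag θ (hc N c' ω) v) ^ 2 ∂PP d θ ≤ δ) (u : V d) :
    ∫ ω, (Cov θ (hc N c ω) u - Cov θ (hc N c' ω) u) ^ 2 ∂PP d θ ≤
      (8 + 2 ^ (len u + 2) * (16 * KL d θ N ^ 2)) * δ := by
  have bm : ∀ v, BM fun ω => (mag θ (hc N c ω) v - mag θ (hc N c' ω) v) ^ 2 := fun v => by fun_prop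
  have bp := fun u => ((BM_pptt h0 h1 (measurable_hc N c) u).sub
    (BM_pptt h0 h1 (measurable_hc N c') u)).pow 2
  have δ0 : 0 ≤ δ := le_trans (by positivity) (H u)
  have key : ∀ u, ∫ ω, (pp (tt θ (hc N c ω)) u - pp (tt θ (hc N c' ω)) u) ^ 2 ∂PP d θ ≤
      (2 ^ (len u + 1) - 2) * (16 * KL d θ N ^ 2 * δ) := fun u => by
    induction u using V_ind with
    | h0 => simp [len_root]
    | hs v j hj ih =>
      have := int_mono_ae (μ := PP d θ) (bp (step j v)) ((((BM.const 2).mul (bp v)).add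
        ((BM.const (16 * KL d θ N ^ 2)).mul (bm (step j v)))).add
        ((BM.const (16 * KL d θ N ^ 2)).mul (bm v))) (by
        filter_upwards [good_hc h0 h1 N c, good_hc h0 h1 N c'] with ω g g'
        have a := tt_lip h0 h1 g g' (abs_hc_le N c ω) (abs_hc_le N c' ω) (step j v) j
        rw [step_step] at a
        have a1 := a.trans (mul_le_mul_of_nonneg_right (mul_le_mul_of_nonneg_left (add_le_add
          (abs_tanh_le_one _) (abs_tanh_le_one _)) (KL_pos h0 h1 _).le) (by positivity))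
        have a2 := pow_le_pow_left₀ (abs_nonneg _) a1 2
        have b1 := pptt_bound h0 h1 (hc N c' ω) v
        have b2 := tt_nonneg h0 h1 (hc N c ω) (step j v) j
        have b3 := (tt_le h0 h1 (hc N c ω) (step j v) j).trans h1.le
        rw [pp_step _ hj, pp_step _ hj, ← sq_abs (mag θ _ v - _), ← sq_abs (mag θ _ (step j v) - _)]
        rw [sq_abs] at a2
        generalize pp (tt θ (hc N c ω)) v = p, pp (tt θ (hc N c' ω)) v = q,
          tt θ (hc N c ω) (step j v) j = t, tt θ (hc N c' ω) (step j v) j = t',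
          |mag θ (hc N c ω) v - mag θ (hc N c' ω) v| = x,
          |mag θ (hc N c ω) (step j v) - mag θ (hc N c' ω) (step j v)| = y at *
        have c1 : (t * (p - q)) ^ 2 ≤ (p - q) ^ 2 := by
          rw [mul_pow]; exact mul_le_of_le_one_left (sq_nonneg _) (pow_le_one₀ b2 b3)
        have c2 : (q * (t - t')) ^ 2 ≤ (t - t') ^ 2 := by
          rw [mul_pow]; exact mul_le_of_le_one_left (sq_nonneg _) (pow_le_one₀ b1.1 b1.2)
        rw [show p * t - q * t' = t * (p - q) + q * (t - t') by ring]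
        nlinarith [sq_nonneg (t * (p - q) - q * (t - t')),
          mul_nonneg (sq_nonneg (KL d θ N)) (sq_nonneg (x - y))])
      rw [int_l3 (bp _) (bm _) (bm _)] at this
      rw [len_step hj, pow_succ]
      linarith [mul_le_mul_of_nonneg_left (add_le_add (H (step j v)) (H v))
        (show 0 ≤ 16 * KL d θ N ^ 2 by positivity)]
  have := int_mono (μ := PP d θ) (((BM_Cov h0 h1 (measurable_hc N c) u).sub
    (BM_Cov h0 h1 (measurable_hc N c') u)).pow 2) (((BM.const 8).mul (bm (root d))).add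
    ((BM.const 2).mul (bp u))) fun ω => by
      have := cov_pt (abs_mag_le θ (hc N c ω) (root d)) (abs_mag_le θ (hc N c' ω) (root d))
        (pp (tt θ (hc N c ω)) u) (pp (tt θ (hc N c' ω)) u)
      have b := pptt_bound h0 h1 (hc N c ω) u
      have := mul_le_of_le_one_right (sq_nonneg (mag θ (hc N c ω) (root d) -
        mag θ (hc N c' ω) (root d))) (pow_le_one₀ b.1 b.2 (n := 2))
      simp only [Cov]; linarith
  rw [int_l2 (bm _) (bp _)] at this
  rw [pow_succ]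
  nlinarith [key u, H (root d), show 0 ≤ 16 * KL d θ N ^ 2 * δ by positivity]

lemma BM_Dl {α : Type*} [MeasurableSpace α] {h : α → V d → ℝ} {x : α → X d} (hh : Measurable h)
    (hx : Measurable x) (k : J d) : BM fun a => Dl θ (h a) (x a) k :=
  (BM_Cov h0 h1 hh _).mul (BM.of_le (C := 2 * (1 / 2)) (by unfold rat; fun_prop) fun a =>
    (abs_rat_le _ _ (abs_mag_le _ _ _)).trans (by linarith [abs_am_le (x a) k]))

lemma ae_jump (R : Rule d) {k : J d} (hk : ∀ τ, ¬ R.R τ k) : ∀ᵐ ω ∂PP d θ,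
    mag θ (fld (R.ins k) (D ω)) (root d) - mag θ (fld R (D ω)) (root d) =
      Dl θ (fld R (D ω)) (D ω) k := by
  filter_upwards [ae_good h0 h1 R, ae_good h0 h1 (R.ins k)] with ω g g'
  rw [(jump h0 h1 g g' k.1 _ (fld_ins R (hk _))).1, tanh_artanh' (abs_wv_lt _ _), Dl, rat]
  ring

lemma q_incr (N n : ℕ) {s s' : ℝ} (hs : s ≤ s') :
    ∫ ω, mag θ (hc N (hyb n s s') ω) (root d) ^ 2 ∂PP d θ - qq d θ N s =
      ∑ k ∈ ball d n ×ˢ range N, ∫ ω, ind s s' k (clk (D ω)) *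
        Dl θ (fc N (hyb n s (T (D ω) k)) (D ω)) (D ω) k ^ 2 ∂PP d θ := by
  rw [qq, ← int_sub (by fun_prop) (by fun_prop)]
  refine (integral_congr_ae ((ae_T_inj θ).mono fun ω hω =>
    tele_hyb (fun h => mag θ h (root d) ^ 2) N n hs hω)).trans ((int_sum _ fun k =>
      ((BM_ind s s' k).comp (φ := fun ω => clk (D ω)) (by fun_prop)).mul (by fun_prop)).trans
      (sum_congr rfl fun k hk => ?_))
  refine (sq_diff h0 h1 (R := rh N n s k) (R' := (rh N n s k).ins k) (fun _ _ => Or.inl) _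
    (BM_ind s s' k)).trans (integral_congr_ae ?_)
  filter_upwards [ae_jump h0 h1 (rh N n s k) (not_rh (mem_ball.1 (mem_product.1 hk).1))] with ω hω
  rw [hω, rh, fld_rk]

lemma q_lim (N l : ℕ) {s s' B : ℝ} (H : ∀ n, l ≤ n →
    ∫ ω, mag θ (hc N (hyb n s s') ω) (root d) ^ 2 ∂PP d θ ≤ B) : qq d θ N s' ≤ B := by
  have := tendsto_integral_of_dominated_convergence (μ := PP d θ)
    (F := fun n ω => mag θ (tr (n + 1) (hc N (fun _ => s') ω)) (root d) ^ 2)
    (f := fun ω => mag θ (hc N (fun _ => s') ω) (root d) ^ 2) (fun _ => 1)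
    (fun n => by
      simp only [hc, ← fld_rd, ← fld_ball]
      exact Measurable.aestronglyMeasurable (by fun_prop)) (integrable_const _)
    (fun n => ae_of_all _ fun ω => by
      rw [Real.norm_eq_abs, abs_pow]; exact pow_le_one₀ (abs_nonneg _) (abs_mag_le _ _ _))
    ((good_hc h0 h1 N _).mono fun ω g => (g.tendsto_mag h0 h1).pow 2)
  refine le_of_tendsto this ?_
  filter_upwards [eventually_ge_atTop l] with n hn
  refine le_trans ?_ (H (n + 1) (by omega))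
  simp only [hc, ← fld_rd, ← fld_ball]
  exact sq_mono h0 h1 (R := (rd N fun _ => s').and _) (R' := rd N _) (fun τ l a =>
    ⟨by simp only [hyb, if_pos a.2]; exact a.1.1, a.1.2⟩) _

end

end Vale.Agent.P161
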