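import Vale.Agent.P161.Dyn

namespace Vale.Agent.P161

open MeasureTheory Finset Real Filter Topology

set_option linter.unusedSectionVars false

variable {d : ℕ}

noncomputable def Ls (θ s : ℝ) (ω : Om d) : X d := cut s (Lab θ (D ω))

@[fun_prop] lemma measurable_Ls (θ s : ℝ) : Measurable (Ls (d := d) θ s) := by
  unfold Ls; fun_prop

noncomputable def mh (θ : ℝ) (N : ℕ) (s : ℝ) (u : V d) : X d → ℝ :=
  hat (PP d θ) (Ls θ s) (hc N fun _ => s) fun h => mag θ h u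

noncomputable def Ch (θ : ℝ) (N : ℕ) (s : ℝ) (u : V d) : X d → ℝ :=
  hat (PP d θ) (Ls θ s) (hc N fun _ => s) fun h => Cov θ h u

noncomputable def ff (d : ℕ) (θ : ℝ) (N : ℕ) (s : ℝ) : ℝ :=
  ∫ ω, (mag θ (hc N (fun _ => s) ω) (root d) - mh θ N s (root d) (Ls θ s ω)) ^ 2 ∂PP d θ

noncomputable def xi (θ : ℝ) (N : ℕ) (s : ℝ) (u : V d) (x : X d) : ℝ :=
  (Cov θ (fc N (fun _ => s) x) u - Ch θ N s u (cut s (Lab θ x))) ^ 2 +
    Cov θ (fc N (fun _ => s) x) u ^ 2 *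
      (mag θ (fc N (fun _ => s) x) u - mh θ N s u (cut s (Lab θ x))) ^ 2

lemma clk_Lab (θ : ℝ) (x : X d) : clk (Lab θ x) = clk x := rfl
lemma am_Lab (θ : ℝ) (x : X d) (k : J d) : am (Lab θ x) k = am x k := rfl
lemma T_Lab (θ : ℝ) (x : X d) (k : J d) : T (Lab θ x) k = T x k := rfl
lemma Lab_snd (θ : ℝ) (x : X d) (k : J d) : (Lab θ x k).2 = Uk θ x k := rfl
lemma am_mask (R : Rule d) (x : X d) (k : J d) : am (mask R x) k = am x k := rfl
lemma T_mask (R : Rule d) (x : X d) (k : J d) : T (mask R x) k = T x k := rfl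

lemma ind_pos {s s' : ℝ} {k : J d} {x : X d} (h : s ≤ T x k ∧ T x k < s') :
    ind s s' k (clk x) = 1 := if_pos h

lemma ind_neg {s s' : ℝ} {k : J d} {x : X d} (h : ¬ (s ≤ T x k ∧ T x k < s')) :
    ind s s' k (clk x) = 0 := if_neg h

lemma BM_mag' (θ : ℝ) (u : V d) : BM fun h => mag θ h u := BM_mag measurable_id θ u

lemma BM_mh (θ : ℝ) (N : ℕ) (s : ℝ) (u : V d) : BM (mh θ N s u) :=
  BM_hat _ _ _ (BM_mag measurable_id θ u)

lemma abs_mh_le (θ : ℝ) (N : ℕ) (s : ℝ) (u : V d) (l : X d) : |mh θ N s u l| ≤ 1 :=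
  abs_hat_le _ _ _ (fun _ => abs_mag_le _ _ _) l

lemma sum_prod_haz {f : J d → ℝ} {S : Finset (V d)} {N : ℕ} {c : ℝ}
    (h : ∀ r, ∑ u ∈ S, f (u, r) ≤ c) : ∑ k ∈ S ×ˢ range N, f k ≤ N * c := by
  rw [sum_product_right]
  exact (sum_le_card_nsmul _ _ _ fun r _ => h r).trans (by simp)

lemma ind_mul_le {s s' : ℝ} {k : J d} {x : X d} {y z : ℝ}
    (h : s ≤ T x k → T x k < s' → y ≤ am x k ^ 2 * z) :
    ind s s' k (clk x) * y ≤ aI s s' k.2 (clk x k) ^ 2 * z := by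
  unfold ind aI
  split_ifs with a
  · rw [one_mul]; exact h a.1 a.2
  · simp

section
variable {θ : ℝ} (h0 : 0 ≤ θ) (h1 : θ < 1)
include h0 h1

lemma BM_Ch (N : ℕ) (s : ℝ) (u : V d) : BM (Ch θ N s u) :=
  BM_hat _ _ _ (BM_Cov h0 h1 measurable_id u)

lemma BM_xi (N : ℕ) (s : ℝ) (u : V d) : BM (xi θ N s u) :=
  (((BM_Cov h0 h1 (by fun_prop) u).sub ((BM_Ch h0 h1 N s u).comp (by fun_prop))).pow 2).add
    (((BM_Cov h0 h1 (by fun_prop) u).pow 2).mul (((BM_mag (by fun_prop) θ u).sub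
      ((BM_mh θ N s u).comp (by fun_prop))).pow 2))

lemma ff_le_qq (N : ℕ) (s : ℝ) : ff d θ N s ≤ qq d θ N s := by
  simpa only [sub_zero, ff, qq, mh] using hat_proj (PP d θ) (measurable_Ls θ s)
    (measurable_hc N fun _ => s) (BM_mag' θ (root d)) (BM.const 0)

lemma Bk_sig (N : ℕ) (s s' : ℝ) (k : J d) :
    ∫ ω, Bk s s' (Ch θ N s) (mh θ N s) k (Lab θ (D ω)) * sig ω (root d) ∂PP d θ =
      ∫ ω, Bk s s' (Ch θ N s) (mh θ N s) k (Lab θ (D ω)) *
        Dl θ (fld (rb k) (D ω)) (D ω) k ∂PP d θ := by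
  have b := (BM_Bk (BM_Ch h0 h1 N s) (BM_mh θ N s) (abs_mh_le θ N s) (s := s) (s' := s') k).comp
    (measurable_Lab θ)
  have ag : ∀ (R : Rule d) (x : X d), (∀ l, T x l < T x k → R.R (clk x) l) → s ≤ T x k →
      Ag s (Lab θ (mask R x)) (Lab θ x) := fun R x h a => ((ag_mask h).mono a).lab θ
  have c1 := CE_root h0 h1 ((rb k).ins k) b
  have e : ∀ x, Bk s s' (Ch θ N s) (mh θ N s) k (Lab θ (mask ((rb k).ins k) x)) =
      Bk s s' (Ch θ N s) (mh θ N s) k (Lab θ x) := fun x => Bk_congr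
    (by rw [clk_Lab, clk_Lab, clk_mask]) fun a _ =>
    ⟨ag _ x (fun l h => Or.inl (rb_iff.2 h)) (by rwa [T_Lab, T_mask] at a), by
      rw [Lab, Lab, Uk_mask (Or.inr rfl) fun l h => Or.inl (rb_iff.2 h), mask_of (Or.inr rfl)]⟩
  simp only [e] at c1
  have b0 := (BM_Bk0 (BM_Ch h0 h1 N s) (BM_mh θ N s) (abs_mh_le θ N s) (s := s) (s' := s') k).comp
    (φ := fun p : X d × ℝ => (Lab θ p.1, p.2)) (by fun_prop)
  have c2 := innov h0 h1 k (b0.mul (BM_mag (f := fun p : X d × ℝ => fld (rb k) p.1) (by fun_prop) θ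
    (root d)))
  simp only [integral_mul_const, integral_const_mul, int_ph (abs_am_le _ _) (abs_mh_le _ _ _ _ _),
    mul_zero, zero_mul, integral_zero, fld_mask fun _ h => h] at c2
  have bD := b.comp measurable_D
  rw [c1, ← add_zero (∫ ω, _ * Dl _ _ _ _ ∂_), ← c2, ← int_add (bD.mul (BM_Dl h0 h1
    (by fun_prop) (by fun_prop) k)) ((b0.comp (φ := fun ω => (mask (rb k) (D ω), Uk θ (D ω) k))
      (by fun_prop)).mul (by fun_prop))]
  refine integral_congr_ae ?_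
  filter_upwards [ae_jump h0 h1 (rb k) (not_rb k)] with ω hω
  rw [← hω, mul_sub, sub_add, eq_comm, sub_eq_self, sub_eq_zero]
  congr 1
  simp only [Bk, clk_Lab, clk_mask, am_Lab, am_mask, Lab_snd]
  by_cases a : s ≤ T (D ω) k ∧ T (D ω) k < s'
  · rw [(ag (rb k) (D ω) (fun l h => rb_iff.2 h) a.1).cut]
  · rw [ind_neg a, zero_mul, zero_mul]

lemma ff_step {N : ℕ} {s s' : ℝ} (hs : s ≤ s') (hN : s' ≤ N) (S : Finset (J d)) :
    ff d θ N s' ≤ ff d θ N s + (qq d θ N s' - qq d θ N s) + ∑ k ∈ S, ∫ ω,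
      (-2 * (Bk s s' (Ch θ N s) (mh θ N s) k (Lab θ (D ω)) * Dl θ (fld (rb k) (D ω)) (D ω) k) +
        1 * Bk s s' (Ch θ N s) (mh θ N s) k (Lab θ (D ω)) ^ 2) ∂PP d θ := by
  have bB := BM_Bk (d := d) (BM_Ch h0 h1 N s) (BM_mh θ N s) (abs_mh_le θ N s) (s := s) (s' := s')
  have bM : BM fun l => mh θ N s (root d) (cut s l) := (BM_mh θ N s _).comp (by fun_prop)
  have bZ := bM.add (BM.sum S bB)
  have mL : Measurable fun ω : Om d => Lab θ (D ω) := by fun_prop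
  have zag : ∀ l l', Ag s' l l' → mh θ N s (root d) (cut s l) + ∑ k ∈ S, Bk s s' (Ch θ N s)
      (mh θ N s) k l = mh θ N s (root d) (cut s l') + ∑ k ∈ S, Bk s s' (Ch θ N s) (mh θ N s) k l' :=
    fun l l' h => by simp only [(h.mono hs).cut, Bk_ag hs _ h]
  have agm : ∀ t : ℝ, t ≤ N → ∀ x : X d, Ag t (Lab θ (mask (rd N fun _ => t) x)) (Lab θ x) :=
    fun t ht x => (ag_mask (R := rd N fun _ => t) fun l h => ⟨h, lt_of_T_lt h ht⟩).lab θ
  have a1 := hat_proj (PP d θ) (measurable_Ls θ s') (measurable_hc N fun _ => s')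
    (BM_mag' θ (root d)) bZ
  simp only [Ls, zag _ _ (ag_cut _ _)] at a1
  have c1 := CE_root h0 h1 (rd N fun _ => s') (bZ.comp (measurable_Lab θ))
  simp only [zag _ _ (agm s' hN _), fld_rd] at c1
  have c2 := CE_root h0 h1 (rd N fun _ => s) (bM.comp (measurable_Lab θ))
  simp only [(agm s (hs.trans hN) _).cut, fld_rd] at c2
  have z1 := Z_sq (BM_Ch h0 h1 N s) (BM_mh θ N s) (abs_mh_le θ N s) (s := s) (s' := s') S
  rw [← integral_mp (mp_Lab h0 h1) (bZ.pow 2).1, ← integral_mp (mp_Lab h0 h1) (bM.pow 2).1] at z1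
  simp only [← integral_mp (mp_Lab h0 h1) ((bB _).pow 2).1] at z1
  have ex : ∀ (t : ℝ) (Z : Om d → ℝ), BM Z → ∫ ω, (mag θ (hc N (fun _ => t) ω) (root d) - Z ω) ^ 2
      ∂PP d θ = qq d θ N t - 2 * ∫ ω, Z ω * mag θ (fc N (fun _ => t) (D ω)) (root d) ∂PP d θ +
        ∫ ω, Z ω ^ 2 ∂PP d θ := fun t Z hZ => by
    have b : BM fun ω => mag θ (hc N (fun _ => t) ω) (root d) := by fun_prop
    have := int_l3 (μ := PP d θ) (b.pow 2) (hZ.mul b) (hZ.pow 2) 1 (-2) 1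
    rw [show (fun ω => (mag θ (hc N (fun _ => t) ω) (root d) - Z ω) ^ 2) = fun ω =>
      1 * mag θ (hc N (fun _ => t) ω) (root d) ^ 2 + -2 * (Z ω * mag θ (hc N (fun _ => t) ω)
        (root d)) + 1 * Z ω ^ 2 from funext fun ω => by ring, this, qq]
    simp only [hc]; ring
  rw [ex _ _ (bZ.comp mL), ← c1, z1] at a1
  simp only [add_mul, sum_mul] at a1
  rw [int_add ((bM.comp mL).mul (BM_sig' _)) (BM.sum _ fun k => ((bB k).comp mL).mul (BM_sig' _)),
    int_sum _ fun k => ((bB k).comp mL).mul (BM_sig' _), c2] at a1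
  simp only [Bk_sig h0 h1] at a1
  have e := ex s _ (bM.comp mL)
  rw [sum_congr rfl fun k _ => int_l2 (((bB k).comp mL).mul (BM_Dl h0 h1 (by fun_prop)
    (by fun_prop) k)) (((bB k).comp mL).pow 2) _ _, sum_add_distrib, ← mul_sum, ← mul_sum]
  simp only [ff, Ls, mh] at *
  linarith

lemma tail_haz (N n : ℕ) (S : Finset (V d)) {s s' c : ℝ} (hs : s ≤ s') (c0 : 0 ≤ c)
    (H : ∀ t, s ≤ t → ∫ ω, ∑ u ∈ S, pp (t2 θ (hc N (hyb n s t) ω)) u ∂PP d θ ≤ c) :
    ∑ k ∈ S ×ˢ range N, ∫ ω, ind s s' k (clk (D ω)) *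
      Dl θ (fc N (hyb n s (T (D ω) k)) (D ω)) (D ω) k ^ 2 ∂PP d θ ≤ N * ((s' - s) * (2 * c)) := by
  have bp : ∀ u, BM fun p : ℝ × X d => 4 * Cov θ (fc N (hyb n s p.1) p.2) u ^ 2 := fun u =>
    (BM.const _).mul ((BM_Cov h0 h1 (by fun_prop) u).pow 2)
  refine sum_prod_haz fun r => le_trans (sum_le_sum fun u _ => int_mono (((BM_ind _ _ _).comp
    (by fun_prop)).mul ((BM_Dl h0 h1 (by fun_prop) (by fun_prop) _).pow 2)) (BM.mul (by fun_prop)
      ((bp u).comp (by fun_prop))) fun ω => ind_mul_le fun _ _ => ?_)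
    ((haz θ r S hs (show 0 ≤ 4 * c by positivity) (min_le_right _ _) bp (fun _ _ => by positivity)
      (fun u t x x' ht h => by simp only [h.fc N fun v => (hyb_mem ht v).2]) fun t ht _ => ?_).trans
      (le_of_eq (by ring)))
  · have := pow_le_pow_left₀ (abs_nonneg _) (abs_rat_le (D ω) (u, r)
      (abs_mag_le θ (fc N (hyb n s (T (D ω) (u, r))) (D ω)) u)) 2
    rw [sq_abs, mul_pow, sq_abs] at this
    rw [Dl, mul_pow]
    nlinarith [mul_le_mul_of_nonneg_left this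
      (sq_nonneg (Cov θ (fc N (hyb n s (T (D ω) (u, r))) (D ω)) u))]
  · have b := fun u => (bp u).comp (φ := fun ω => (t, D ω)) (by fun_prop)
    have e : ∀ (h : V d → ℝ) u, pp (t2 θ h) u = pp (tt θ h) u ^ 2 := fun h u => by
      unfold t2; simp only [sq, pp_mul]
    rw [← int_sum _ b]
    refine le_trans (int_mono (BM.sum _ b) ((BM.const 4).mul (BM.sum S fun u =>
      (BM_pptt h0 h1 (measurable_hc N (hyb n s t)) u).pow 2)) fun ω => ?_) ?_
    · rw [mul_sum]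
      exact sum_le_sum fun u _ => mul_le_mul_of_nonneg_left (pow_le_pow_left₀
        (Cov_bound h0 h1 _ _).1 (Cov_bound h0 h1 _ _).2 2) (by norm_num)
    · rw [integral_const_mul]
      simp only [← e]; linarith [H t ht]

lemma core_haz {N : ℕ} (n l : ℕ) {s s' α Ξ ε : ℝ} (hs : s ≤ s') (hN : s' ≤ N) (hε : 0 < ε)
    (hα : min s' (1 / 2) ≤ α) (hΞ : ∑ u ∈ ball d l, ∫ ω, xi θ N s u (D ω) ∂PP d θ ≤ Ξ) :
    ∑ k ∈ ball d l ×ˢ range N, ∫ ω, (ind s s' k (clk (D ω)) *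
      Dl θ (fc N (hyb n s (T (D ω) k)) (D ω)) (D ω) k ^ 2 +
      (-2 * (Bk s s' (Ch θ N s) (mh θ N s) k (Lab θ (D ω)) * Dl θ (fld (rb k) (D ω)) (D ω) k) +
        1 * Bk s s' (Ch θ N s) (mh θ N s) k (Lab θ (D ω)) ^ 2)) ∂PP d θ ≤
      N * ((s' - s) * (2 * α ^ 2 * (128 * Ξ + (ball d l).card * (8 * ε + (400 + 8 / ε) *
        (2 * ((9 + 2 ^ (l + 2) * (16 * KL d θ N ^ 2)) * (qq d θ N s' - qq d θ N s))))))) := by
  have bB := BM_Bk (d := d) (BM_Ch h0 h1 N s) (BM_mh θ N s) (abs_mh_le θ N s) (s := s) (s' := s')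
  let df : V d → (V d → ℝ) → X d → ℝ := fun u c x =>
    (Cov θ (fc N c x) u - Cov θ (fc N (fun _ => s) x) u) ^ 2 +
      (mag θ (fc N c x) u - mag θ (fc N (fun _ => s) x) u) ^ 2
  have bd : ∀ u (γ : ℝ → V d → ℝ), Measurable γ → BM fun p : ℝ × X d => df u (γ p.1) p.2 :=
    fun u γ hγ => (((BM_Cov h0 h1 (by fun_prop) u).sub (BM_Cov h0 h1 (by fun_prop) u)).pow 2).add
      (by fun_prop)
  have b1 := fun u => bd u (fun t _ => t) (by fun_prop)
  have b2 := fun u => bd u (hyb n s) (by fun_prop)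
  have bp : ∀ u, BM fun p : ℝ × X d => 128 * xi θ N s u p.2 + (8 * ε + (400 + 8 / ε) *
      (df u (fun _ => p.1) p.2 + df u (hyb n s p.1) p.2)) := fun u =>
    ((BM.const _).mul ((BM_xi h0 h1 N s u).comp measurable_snd)).add ((BM.const _).add
      ((BM.const _).mul ((b1 u).add (b2 u))))
  have δ0 : 0 ≤ qq d θ N s' - qq d θ N s :=
    le_trans (by positivity) (close_mag h0 h1 N (c := fun _ => s) (fun _ => ⟨le_rfl, hs⟩) (root d))
  have Ξ0 : 0 ≤ Ξ := le_trans (sum_nonneg fun u _ => integral_nonneg fun ω => by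
    unfold xi; positivity) hΞ
  refine sum_prod_haz fun r => le_trans (sum_le_sum fun u _ => int_mono ((((BM_ind _ _ _).comp
    (by fun_prop)).mul ((BM_Dl h0 h1 (by fun_prop) (by fun_prop) _).pow 2)).add (((BM.const _).mul
    (((bB _).comp (by fun_prop)).mul (BM_Dl h0 h1 (by fun_prop) (by fun_prop) _))).add
    ((BM.const _).mul (((bB _).comp (by fun_prop)).pow 2)))) (BM.mul (by fun_prop)
      ((bp u).comp (by fun_prop))) fun ω => ?_)
    (haz θ r _ hs (by positivity) hα bp (fun _ _ => by unfold xi; positivity)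
      (fun u t x x' ht h => by
        simp only [df, xi, h.fc N fun v => (hyb_mem ht v).2, h.fc N fun _ => ht,
          h.fc N fun _ => le_rfl, ((h.mono ht).lab θ).cut]) fun t ht ht' => ?_)
  · refine le_trans (le_of_eq ?_) (ind_mul_le (y := _) fun a b => le_of_le_of_eq (dyn_pt
      (C := Cov θ (fc N (fun _ => T (D ω) (u, r)) (D ω)) u)
      (m := mag θ (fc N (fun _ => T (D ω) (u, r)) (D ω)) u)
      (abs_am_le (D ω) (u, r)) (abs_clp_le zero_le_one (D ω (u, r)).2) (abs_Cov_le h0 h1 _ _)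
      (abs_Cov_le h0 h1 _ _) (abs_mag_le _ _ _) (abs_mag_le _ _ _) (abs_mag_le _ _ _)
      (abs_mh_le θ N s u _) hε) rfl)
    simp only [Bk, clk_Lab, am_Lab, Lab_snd]
    by_cases a : s ≤ T (D ω) (u, r) ∧ T (D ω) (u, r) < s'
    · have e : fc (r + 1) (fun _ => T (D ω) (u, r)) (D ω) = fc N (fun _ => T (D ω) (u, r)) (D ω) :=
        fc_N (fun _ => by push_cast; exact Tm_le _ _) (fun _ => a.2.le.trans hN) _
      simp only [rb, fld_rk, Uk, Dl, wv, e, ind_pos a]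
      ring
    · simp only [ind_neg a]; ring
  · have c : ∀ u ∈ ball d l, ∀ c : V d → ℝ, (∀ v, s ≤ c v ∧ c v ≤ s') → ∫ ω, df u c (D ω) ∂PP d θ ≤
        (9 + 2 ^ (l + 2) * (16 * KL d θ N ^ 2)) * (qq d θ N s' - qq d θ N s) := fun u hu c hc' => by
      have a1 := close_mag h0 h1 N hc'
      have a2 := (close_cov h0 h1 N a1 u).trans (mul_le_mul_of_nonneg_right (add_le_add_right
        (mul_le_mul_of_nonneg_right (pow_le_pow_right₀ one_le_two
          (Nat.add_le_add_right (mem_ball.1 hu) 2)) (by positivity)) _) δ0)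
      rw [int_add (((BM_Cov h0 h1 (by fun_prop) u).sub (BM_Cov h0 h1 (by fun_prop) u)).pow 2)
        (by fun_prop)]
      have a3 := a1 u
      simp only [hc] at a2 a3
      linarith
    refine (sum_le_sum (g := fun u => 128 * ∫ ω, xi θ N s u (D ω) ∂PP d θ + (8 * ε + (400 + 8 / ε) *
      (2 * ((9 + 2 ^ (l + 2) * (16 * KL d θ N ^ 2)) * (qq d θ N s' - qq d θ N s)))))
      fun u hu => ?_).trans ?_
    · have m : Measurable fun ω : Om d => (t, D ω) := by fun_prop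
      rw [int_add ((BM.const _).mul ((BM_xi h0 h1 N s u).comp measurable_D)) ((BM.const _).add
        ((BM.const _).mul (((b1 u).add (b2 u)).comp m))), integral_const_mul, int_add (BM.const _)
        ((BM.const _).mul (((b1 u).add (b2 u)).comp m)), integral_const_mul (400 + 8 / ε),
        int_add ((b1 u).comp m) ((b2 u).comp m)]
      simp only [integral_const, probReal_univ, smul_eq_mul, one_mul]
      gcongr
      linarith [c u hu _ fun _ => ⟨ht, ht'.le⟩,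
        c u hu _ fun v => ⟨(hyb_mem (n := n) ht v).1, (hyb_mem ht v).2.trans ht'.le⟩]
    · rw [sum_add_distrib, ← mul_sum, sum_const, nsmul_eq_mul]; linarith

lemma dyn0 {N l : ℕ} {s s' α Ξ e ε : ℝ} (hs : s ≤ s') (hs' : s' ≤ N) (e0 : 0 < e) (hε : 0 ≤ ε)
    (hα : min s' (1 / 2) ≤ α) (hΞ : ∑ u ∈ ball d l, ∫ ω, xi θ N s u (D ω) ∂PP d θ ≤ Ξ)
    (H : ∀ n t, s ≤ t → ∫ ω, ∑ u ∈ ball d n, pp (t2 θ (hc N (hyb n s t) ω)) u * phl l u
      ∂PP d θ ≤ ε) :
    ff d θ N s' ≤ ff d θ N s + N * ((s' - s) * (2 * ε)) +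
      N * ((s' - s) * (2 * α ^ 2 * (128 * Ξ + (ball d l).card * (8 * e + (400 + 8 / e) *
        (2 * ((9 + 2 ^ (l + 2) * (16 * KL d θ N ^ 2)) * (qq d θ N s' - qq d θ N s))))))) := by
  have f1 := ff_step h0 h1 hs hs' (ball d l ×ˢ range N)
  have bB := BM_Bk (d := d) (BM_Ch h0 h1 N s) (BM_mh θ N s) (abs_mh_le θ N s) (s := s) (s' := s')
  have a2 := fun n => core_haz h0 h1 n l hs hs' e0 hα hΞ
  generalize N * ((s' - s) * (2 * α ^ 2 * (128 * Ξ + (ball d l).card * (8 * e + (400 + 8 / e) *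
    (2 * ((9 + 2 ^ (l + 2) * (16 * KL d θ N ^ 2)) * (qq d θ N s' - qq d θ N s))))))) = B at a2 ⊢
  have a5 := fun n => (sum_add_distrib.symm.trans (sum_congr rfl fun k _ => (int_add
    (((BM_ind _ _ _).comp (by fun_prop)).mul ((BM_Dl h0 h1 (by fun_prop) (by fun_prop) _).pow 2))
    (((BM.const _).mul (((bB _).comp (by fun_prop)).mul (BM_Dl h0 h1 (by fun_prop)
      (by fun_prop) _))).add ((BM.const _).mul (((bB _).comp (by fun_prop)).pow 2)))).symm)).trans_le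
    (a2 n)
  generalize ∑ k ∈ ball d l ×ˢ range N, ∫ ω, (-2 * (Bk s s' (Ch θ N s) (mh θ N s) k (Lab θ (D ω)) *
    Dl θ (fld (rb k) (D ω)) (D ω) k) + 1 * Bk s s' (Ch θ N s) (mh θ N s) k (Lab θ (D ω)) ^ 2)
      ∂PP d θ = S at f1 a5
  have q2 := q_lim (d := d) h0 h1 N l (s := s) (s' := s')
    (B := qq d θ N s + N * ((s' - s) * (2 * ε)) + (B - S)) fun n hn => by
    have a1 := q_incr (d := d) h0 h1 N n hs
    have a3 := tail_haz h0 h1 N n (ball d n \ ball d l) hs hε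
      fun t ht => le_of_eq_of_le (congrArg _ (funext fun ω => by
        rw [← sum_sdiff (ball_mono hn), sum_eq_zero (s := ball d l) fun u hu => by
          rw [phl, if_pos (mem_ball.1 hu), mul_zero], add_zero]
        exact sum_congr rfl fun u hu => by
          rw [phl, if_neg (mt mem_ball.2 (mem_sdiff.1 hu).2), mul_one])) (H n t ht)
    have a4 := a5 n
    rw [sum_product, ← sum_sdiff (ball_mono hn)] at a1
    rw [sum_product] at a3 a4
    linarith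
  linarith

omit h0 h1 in
lemma dyn_arith {N c c' A K ε α δ q : ℝ} (N0 : 0 < N) (hc : c' ≤ c) (c0 : 0 < c) (c1 : 0 ≤ c')
    (hA : 0 ≤ A) (K0 : 0 ≤ K) (hε : 0 < ε) (α0 : 0 ≤ α) (hα : α ≤ 1 / 2) (q0 : 0 ≤ q)
    (hq : q ≤ N * (δ * (2 * K))) (hδ : δ ≤ ε / (3 * N * c *
      ((400 + 8 / (ε / (12 * N * c))) * (2 * A) * (2 * N * K) + 1))) :
    N * (2 * α ^ 2 * (c' * (8 * (ε / (12 * N * c)) + (400 + 8 / (ε / (12 * N * c))) *
      (2 * (A * q))))) ≤ ε / 2 := by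
  have p : 0 ≤ (400 + 8 / (ε / (12 * N * c))) * (2 * A) := by positivity
  rw [show (400 + 8 / (ε / (12 * N * c))) * (2 * (A * q)) =
    (400 + 8 / (ε / (12 * N * c))) * (2 * A) * q by ring]
  generalize (400 + 8 / (ε / (12 * N * c))) * (2 * A) = B at *
  have r1 : B * q ≤ ε / (3 * N * c) := by
    have M0 : 0 < B * (2 * N * K) + 1 := by positivity
    rw [← div_div, le_div_iff₀ M0] at hδ
    rcases le_total 0 δ with h | h
    · nlinarith [mul_le_mul_of_nonneg_left hq p]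
    · have : q ≤ 0 := hq.trans (by nlinarith [mul_nonneg N0.le K0])
      exact (mul_nonpos_of_nonneg_of_nonpos p this).trans (by positivity)
  calc _ ≤ N * (2 * (1 / 2) ^ 2 * (c * (8 * (ε / (12 * N * c)) + ε / (3 * N * c)))) := by gcongr
    _ = ε / 2 := by field_simp; ring

lemma dyn (hb : ((d : ℝ) - 1) * θ ^ 2 ≤ 1) (hd : 3 ≤ d) {N : ℕ} (hN : 1 ≤ N) {s0 ε : ℝ}
    (hs0 : 0 < s0) (hε : 0 < ε) : ∃ δ > 0, ∀ s s' α Ξ : ℝ, s0 ≤ s → s ≤ s' → s' ≤ N → s' - s ≤ δ →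
      min s' (1 / 2) ≤ α → α ≤ 1 / 2 → (∀ l, ∑ u ∈ ball d l, ∫ ω, xi θ N s u (D ω) ∂PP d θ ≤ Ξ) →
      ff d θ N s' ≤ ff d θ N s + (s' - s) * (256 * N * α ^ 2 * Ξ + ε) := by
  have N0 : (0 : ℝ) < N := by exact_mod_cast hN
  obtain ⟨K, l, H⟩ := tail_pack h0 h1 hb hd hN hs0 (show 0 < ε / (6 * N) by positivity)
  have K0 : 0 ≤ K := le_trans (integral_nonneg fun ω => sum_nonneg fun u _ =>
    (pp_bound (t2_nonneg h0 h1 _) (t2_le h0 h1 _) u).1) (H (fun _ => s0) (fun _ => le_rfl) 0).1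
  set c : ℝ := (ball d l).card + 1
  have c0 : 0 < c := by positivity
  refine ⟨ε / (3 * N * c * ((400 + 8 / (ε / (12 * N * c))) * (2 * (9 + 2 ^ (l + 2) *
    (16 * KL d θ N ^ 2))) * (2 * N * K) + 1)), by positivity,
    fun s s' α Ξ h2 hs hs' hδ hα hα' hΞ => ?_⟩
  have hh : ∀ n t, s ≤ t → ∀ v : V d, s0 ≤ hyb n s t v := fun n t ht v => h2.trans (hyb_mem ht v).1
  have q1 : qq d θ N s' ≤ qq d θ N s + N * ((s' - s) * (2 * K)) :=
    q_lim (s := s) h0 h1 N 0 fun n _ => by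
    rw [← sub_le_iff_le_add', q_incr h0 h1 N n hs]
    exact tail_haz h0 h1 N n _ hs K0 fun t ht => (H _ (hh n t ht) n).1
  have f1 := dyn0 h0 h1 hs hs' (show 0 < ε / (12 * N * c) by positivity)
    (show 0 ≤ ε / (6 * N) by positivity) hα (hΞ l) fun n t ht => (H _ (hh n t ht) n).2
  have r2 := dyn_arith (c' := (ball d l).card) N0 (by simp only [c]; linarith) c0 (by positivity)
    (by positivity) K0 hε (le_trans (le_min (by linarith) (by norm_num)) hα) hα'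
    (le_trans (by positivity) (close_mag h0 h1 N (c := fun _ => s) (fun _ => ⟨le_rfl, hs⟩) (root d)))
    (sub_le_iff_le_add'.2 q1) hδ
  have r3 : N * ((s' - s) * (2 * (ε / (6 * N)))) = (s' - s) * (ε / 3) := by field_simp; ring
  have d0 : 0 ≤ s' - s := by linarith
  have := mul_le_mul_of_nonneg_left r2 d0
  have := mul_nonneg d0 hε.le
  linarith

end

end Vale.Agent.P161
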