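import Vale.Agent.P161.Damp

namespace Vale.Agent.P161

open MeasureTheory Finset Real Filter Topology

set_option linter.unusedSectionVars false

variable {d : ℕ}

lemma boot {G : ℝ → ℝ} {r B l0 c : ℝ} (r0 : 0 ≤ r) (r1 : r < 1) (hB : 0 ≤ B)
    (h1 : ∀ l, 0 ≤ l → l * B ≤ 1 / 2 → G l ≤ c)
    (h2 : ∀ l, 0 ≤ l → l ≤ l0 → G (r * l) ≤ c → G l ≤ c) (hl : 0 ≤ l0) : G l0 ≤ c := by
  have key : ∀ k : ℕ, ∀ l, 0 ≤ l → l ≤ l0 → l * B * r ^ k ≤ 1 / 2 → G l ≤ c := fun k => by
    induction k with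
    | zero => exact fun l a _ b => h1 l a (by simpa using b)
    | succ k ih =>
      exact fun l a b e => h2 l a b (ih _ (by positivity) (by nlinarith)
        (by rw [pow_succ] at e; linarith))
  obtain ⟨k, hk⟩ := exists_pow_lt_of_lt_one (show 0 < 1 / (2 * (l0 * B + 1)) by positivity) r1
  refine key k l0 hl le_rfl ?_
  rw [lt_div_iff₀ (by positivity)] at hk
  nlinarith [pow_nonneg r0 k]

lemma exp_le_quad (x : ℝ) : exp x ≤ 1 + x + x ^ 2 * exp |x| := by
  have h1 := add_one_le_exp (-x)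
  have h2 := exp_pos x
  have h3 : exp x * exp (-x) = 1 := by rw [← exp_add]; simp
  rcases le_total 0 x with h | h
  · rw [abs_of_nonneg h]
    have : exp x - 1 ≤ x * exp x := by nlinarith
    nlinarith [mul_le_mul_of_nonneg_left this h]
  · have h4 := one_le_exp (abs_nonneg x)
    have h5 : exp x * (1 - x) ≤ 1 := by nlinarith
    have h6 : exp x ≤ 1 + x + x ^ 2 := by
      by_contra h7
      have := mul_lt_mul_of_pos_right (not_le.1 h7) (show 0 < 1 - x by linarith)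
      nlinarith [mul_nonneg (sq_nonneg x) (neg_nonneg.2 h)]
    nlinarith [sq_nonneg x]

lemma poly_exp {θ γ ε : ℝ} (h1 : θ ≤ 1) (hγ : 0 < γ) (hε : 0 < ε) :
    ∃ R, ∀ y, 0 ≤ y → y ^ 2 * exp (θ * y) ≤ exp R * y ^ 2 + ε * exp ((θ + γ) * y) := by
  refine ⟨6 / (ε * γ ^ 3), fun y hy => ?_⟩
  rcases le_total y (6 / (ε * γ ^ 3)) with h | h
  · have : exp (θ * y) ≤ exp (6 / (ε * γ ^ 3)) := exp_le_exp.2 (by nlinarith)
    nlinarith [mul_le_mul_of_nonneg_left this (sq_nonneg y), mul_pos hε (exp_pos ((θ + γ) * y))]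
  · have h2 := pow_div_factorial_le_exp (γ * y) (by positivity) 3
    rw [div_le_iff₀ (by positivity)] at h
    have h3 : y ^ 2 ≤ ε * exp (γ * y) := by
      refine le_trans ?_ (mul_le_mul_of_nonneg_left h2 hε.le)
      simp only [Nat.factorial]; push_cast
      nlinarith [mul_le_mul_of_nonneg_left h (sq_nonneg y)]
    rw [add_mul, exp_add]
    nlinarith [mul_le_mul_of_nonneg_left h3 (exp_pos (θ * y)).le,
      mul_nonneg (exp_pos (6 / (ε * γ ^ 3))).le (sq_nonneg y)]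

lemma exp_half_le : exp (1 / 2) ≤ 2 := by
  have h : exp (1 / 2) * exp (1 / 2) = exp 1 := by rw [← exp_add]; norm_num
  nlinarith [exp_one_lt_d9, exp_pos (1 / 2 : ℝ)]

lemma abs_hc_le' (N : ℕ) {s a : ℝ} (ha : min s (1 / 2) ≤ a) (a0 : 0 ≤ a) (ω : Om d) (v : V d) :
    |hc N (fun _ => s) ω v| ≤ N * (2 * a) :=
  abs_fldS_le' (p := fun l => T (D ω) l < s) a0 fun _ h =>
    (amp_le _ _).trans ((min_le_min_right _ (le_of_lt h)).trans ha)

lemma two_le_b (hd : 3 ≤ d) : (2 : ℝ) ≤ d - 1 := by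
  have : (3 : ℝ) ≤ d := by exact_mod_cast hd
  linarith

lemma Lam_nonneg (θ : ℝ) (h : V d → ℝ) (n : ℕ) (v : V d) (i : Fin d) : 0 ≤ Lam θ h n v i :=
  Ws_nonneg (fun _ _ => sq_nonneg _) (fun _ => zero_le_one) _ _ _

lemma Lam_mono (θ : ℝ) (h : V d → ℝ) (v : V d) (i : Fin d) : Monotone fun n => Lam θ h n v i :=
  monotone_nat_of_le_succ fun n => Ws_mono (fun _ _ => sq_nonneg _) (fun _ => zero_le_one) n v i

section
variable {θ : ℝ} (h0 : 0 ≤ θ) (h1 : θ < 1) (hb : ((d : ℝ) - 1) * θ ^ 2 ≤ 1)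
include h0 h1 hb

lemma Lam_le (h : V d → ℝ) (n : ℕ) (v : V d) (i : Fin d) : |Lam θ h n v i| ≤ (n + 1) * 1 :=
  Ws_le (t2_nonneg h0 h1 h) (t2_le h0 h1 h) hb (fun _ => by simp) n v i

lemma BM_Lam {α : Type*} [MeasurableSpace α] {f : α → V d → ℝ} (hf : Measurable f) (n : ℕ)
    (v : V d) (i : Fin d) : BM fun a => Lam θ (f a) n v i :=
  BM.of_le (by fun_prop) fun _ => Lam_le h0 h1 hb _ _ _ _

lemma mu_bound (N : ℕ) (i0 : Fin d) : ∃ K : ℝ, 0 < K ∧ ∀ s η : ℝ,
    (∀ ω v, |hc (d := d) N (fun _ => s) ω v| ≤ η) →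
      (∫ ω, Hi θ (hc N (fun _ => s) ω) (root d) i0 ^ 2 ∂PP d θ) ^ 2 ≤ K * η := by
  set B := Bd d θ N
  have B0 : 0 ≤ B := (abs_nonneg _).trans (le_Bd h0 h1 (a := 0) (by simp))
  have k0 := kap_pos B
  have p1 := one_sub_sq_pos h0 h1
  set c := (1 - θ ^ 2) * kap B ^ 2 / 3
  have c0 : 0 < c := by positivity
  set m := min (1 / (B + 1)) c
  have m0 : 0 < m := lt_min (by positivity) c0
  refine ⟨1 / (m * kap B ^ 2), by positivity, fun s η hη => ?_⟩
  set μ := ∫ ω, Hi θ (hc N (fun _ => s) ω) (root d) i0 *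
    tanh (Hi θ (hc N (fun _ => s) ω) (root d) i0) ∂PP d θ with hμ
  have bH := BM_Hc h0 h1 N fun _ : V d => s
  have bF : ∀ u k, BM fun ω => F θ (Hi θ (hc N (fun _ : V d => s) ω) u k) := fun u k =>
    BM_F h0 h1 (by fun_prop)
  have bh : BM fun ω => hc N (fun _ => s) ω (root d) :=
    BM.of_le (by fun_prop) fun ω => abs_hc_le N _ ω _
  have aH := fun ω => abs_Hi_le h0 h1 (abs_hc_le N (fun _ : V d => s) ω)
  have pos : ∀ y, kap B * y ^ 2 ≤ y * tanh y ∨ B < |y| := fun y => by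
    refine (le_or_gt |y| B).imp_left fun h => ?_
    have := mul_le_mul_of_nonneg_left (tanh_lower' h) (abs_nonneg y)
    rw [← abs_mul y, abs_of_nonneg (show 0 ≤ y * tanh y by
      rcases le_total 0 y with h | h
      · exact mul_nonneg h (tanh_nonneg' h)
      · exact mul_nonneg_of_nonpos_of_nonpos h (by simpa using tanh_mono h))] at this
    nlinarith [sq_abs y]
  have m1 : kap B * ∫ ω, Hi θ (hc N (fun _ => s) ω) (root d) i0 ^ 2 ∂PP d θ ≤ μ := by
    rw [← integral_const_mul]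
    exact int_mono ((BM.const _).mul ((bH _ _).pow 2)) ((bH _ _).mul (by fun_prop)) fun ω =>
      (pos _).resolve_right (not_lt.2 (aH ω _ _))
  have m2 : μ ≤ B := int_le_const ((bH _ _).mul (by fun_prop)) fun ω => by
    refine (le_abs_self _).trans ?_
    rw [abs_mul]
    exact (mul_le_of_le_one_right (abs_nonneg _) (abs_tanh_le_one _)).trans (aH ω _ _)
  have m3 : ∀ j, ∫ ω, sig ω (root d) * F θ (Hi θ (hc N (fun _ => s) ω) (step j (root d)) j)
      ∂PP d θ ≤ θ * (θ * μ - θ * c * μ ^ 2) := fun j => by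
    simp only [sig_parent _ (ch_root' j), mul_assoc (sg _)]
    rw [coin_mean h0 h1 (step_ne_root (ch_root' j)) ((BM_sig' _).mul (bF _ _))
      (odd_dep h0 h1 N _ (ch_root' j) fun s y hs => F_sign h0 h1 hs y).1,
      CE_hc h0 h1 N _ _ _ (continuous_F h0 h1), hom_Hi θ N s (G := fun y => F θ y * tanh y)
        (by fun_prop) _ j i0]
    refine mul_le_mul_of_nonneg_left ?_ h0
    have b := (bH (root d) i0).mul (BM_tanh (bH (root d) i0).1)
    have := int_mono (μ := PP d θ) ((bF _ _).mul (by fun_prop))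
      (((BM.const θ).mul b).add ((BM.const (-(θ * c))).mul (b.pow 2))) fun ω =>
        (F_mul_tanh_le h0 h1 (aH ω (root d) i0)).trans (le_of_eq (by simp only [c]; ring))
    rw [int_l2 b (b.pow 2)] at this
    have := mul_le_mul_of_nonneg_left (int_jensen (PP d θ) b) (mul_nonneg h0 c0.le)
    linarith
  have m4 : μ ≤ η + (d - 1) * (θ * (θ * μ - θ * c * μ ^ 2)) := by
    generalize θ * (θ * μ - θ * c * μ ^ 2) = y at m3 ⊢
    rw [hμ, ← CE_hc h0 h1 N _ _ _ continuous_id', integral_congr_ae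
      ((good_hc h0 h1 N _).mono fun ω hω => by rw [hω.bp h0 h1, mul_add, mul_sum]),
      int_add ((BM_sig' _).mul bh) (BM.sum _ fun j => (BM_sig' _).mul (bF _ _)),
      int_sum _ fun j => (BM_sig' _).mul (bF _ _)]
    refine add_le_add (int_le_const ((BM_sig' _).mul bh) fun ω => (le_abs_self _).trans ?_)
      ((sum_le_card_nsmul _ _ _ fun j _ => m3 j).trans (by rw [nsmul_eq_mul, card_erase']))
    rw [abs_mul, sign_abs (sig_cases _ _), one_mul]; exact hη _ _
  have i0' : 0 ≤ ∫ ω, Hi θ (hc N (fun _ => s) ω) (root d) i0 ^ 2 ∂PP d θ := by positivity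
  have μ0 : 0 ≤ μ := le_trans (by positivity) m1
  have g0 : 0 ≤ ((d : ℝ) - 1) * θ ^ 2 := by rw [← card_erase' i0]; positivity
  have a1 : m * μ ^ 2 ≤ μ := by
    have : m * (B + 1) ≤ 1 := by rw [← le_div_iff₀ (by positivity)]; exact min_le_left _ _
    nlinarith [mul_nonneg m0.le μ0]
  have a2 : m * μ ^ 2 ≤ c * μ ^ 2 := mul_le_mul_of_nonneg_right (min_le_right _ _) (sq_nonneg _)
  have a3 : m * μ ^ 2 ≤ η := by
    nlinarith [mul_le_mul_of_nonneg_left a1 (sub_nonneg.2 hb), mul_le_mul_of_nonneg_left a2 g0]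
  have a4 := pow_le_pow_left₀ (by positivity) m1 2
  rw [one_div_mul_eq_div, le_div_iff₀ (by positivity)]
  nlinarith

lemma mgf_H (N : ℕ) (i0 : Fin d) : ∃ K : ℝ, 1 ≤ K ∧ ∀ s z : ℝ, 0 < z → z ≤ 1 →
    min s (1 / 2) ≤ 256 * z ^ 8 → ∀ (v : V d) (i : Fin d),
      ∫ ω, exp (1 / (K * z ^ 2) * |Hi θ (hc N (fun _ => s) ω) v i|) ∂PP d θ ≤ 4 := by
  obtain ⟨K0, hK0, hμ⟩ := mu_bound h0 h1 hb N i0
  have d0 : (0 : ℝ) ≤ d - 1 := by rw [← card_erase' i0]; positivity
  obtain ⟨R, hR⟩ := poly_exp h1.le (show 0 < (1 - θ) / 2 by linarith)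
    (show 0 < 1 / (16 * (d : ℝ)) by have := i0.pos; positivity)
  set K1 := 1 + K0 + 512 * N
  set C := 4 * (1 + (d - 1) * (1 + exp R))
  have N0 : (0 : ℝ) ≤ N := Nat.cast_nonneg N
  have K11 : 1 ≤ K1 := by simp only [K1]; linarith
  have C1 : 4 ≤ C := by simp only [C]; nlinarith [exp_pos R]
  refine ⟨K1 * C, by nlinarith, fun s z z0 z1 hz v i => ?_⟩
  have hη := abs_hc_le' (d := d) N hz (by positivity)
  have bH := BM_Hc h0 h1 N fun _ : V d => s
  have bF : ∀ u k, BM fun ω => F θ (Hi θ (hc N (fun _ : V d => s) ω) u k) := fun u k =>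
    BM_F h0 h1 (by fun_prop)
  have e2 : ∫ ω, Hi θ (hc N (fun _ => s) ω) (root d) i0 ^ 2 ∂PP d θ ≤ (K1 * z ^ 2) ^ 2 := by
    refine (abs_le_of_sq_le_sq' ((hμ s _ hη).trans ?_) (by positivity)).2
    have : K0 * (512 * N) ≤ K1 ^ 4 :=
      (by simp only [K1]; nlinarith : _ ≤ K1 ^ 2).trans (pow_le_pow_right₀ K11 (by norm_num))
    nlinarith [mul_le_mul_of_nonneg_right this (pow_pos z0 8).le]
  rw [hom_Hi θ N s (G := fun y => exp (1 / (K1 * C * z ^ 2) * |y|)) (by fun_prop) v i i0]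
  refine boot (G := fun l => ∫ ω, exp (l * |Hi θ (hc N (fun _ => s) ω) (root d) i0|) ∂PP d θ)
    (r := θ + (1 - θ) / 2) (B := Bd d θ N) (by linarith) (by linarith)
    ((abs_nonneg _).trans (le_Bd h0 h1 (a := 0) (by simp))) (fun l l0 hl => ?_)
    (fun l l0 hl hG => ?_) (by positivity)
  · refine int_le_const ((BM.const _).mul (bH _ _).abs).exp fun ω => ?_
    have := mul_le_mul_of_nonneg_left (abs_Hi_le h0 h1 (abs_hc_le N (fun _ => s) ω) (root d) i0) l0
    linarith [exp_le_exp.2 (this.trans hl), exp_half_le]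
  have l1 : l * (K1 * z ^ 2) ≤ 1 / C := by
    rw [le_div_iff₀ (by positivity)] at hl ⊢; linarith
  have C2 : 1 / C ≤ 1 := by rw [div_le_one (by linarith)]; linarith
  have l2 : (l * (K1 * z ^ 2)) ^ 2 ≤ 1 / C := by nlinarith [show 0 ≤ l * (K1 * z ^ 2) by positivity]
  let ξ : Fin d → Om d → ℝ := fun j ω =>
    sig ω (root d) * F θ (Hi θ (hc N (fun _ => s) ω) (step j (root d)) j)
  have bξ : ∀ j, BM (ξ j) := fun j => (BM_sig' _).mul (bF _ _)
  have aξ : ∀ j ω, |ξ j ω| ≤ θ * |Hi θ (hc N (fun _ => s) ω) (step j (root d)) j| := fun j ω => by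
    simp only [ξ, abs_mul, sign_abs (sig_cases _ _), one_mul]; exact abs_F_le h0 h1 _
  have e2' : ∀ j, ∫ ω, Hi θ (hc N (fun _ => s) ω) (step j (root d)) j ^ 2 ∂PP d θ ≤
      (K1 * z ^ 2) ^ 2 := fun j => by
    rwa [hom_Hi θ N s (G := fun y => y ^ 2) (by fun_prop) _ j i0]
  have one : ∀ σ : ℝ, σ = 1 ∨ σ = -1 → ∀ j, ∫ ω, exp (σ * l * ξ j ω) ∂PP d θ ≤
      exp (1 / C + exp R * (1 / C) + 1 / (16 * d) * 4) := fun σ hσ j => by
    have m1 : |∫ ω, ξ j ω ∂PP d θ| ≤ K1 * z ^ 2 := by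
      refine abs_le_of_sq_le_sq ((int_jensen _ (bξ j)).trans (le_trans (int_mono ((bξ j).pow 2)
        ((bH _ _).pow 2) fun ω => sq_le_sq.2 ((aξ j ω).trans ?_)) (e2' j))) (by positivity)
      exact mul_le_of_le_one_left (abs_nonneg _) h1.le
    have b3 := ((BM.const ((θ + (1 - θ) / 2) * l)).mul (bH (step j (root d)) j).abs).exp
    have := int_mono (μ := PP d θ) ((BM.const (σ * l)).mul (bξ j)).exp ((BM.const 1).add
      ((((BM.const (σ * l)).mul (bξ j)).add ((BM.const (exp R * l ^ 2)).mul ((bH _ _).pow 2))).add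
      ((BM.const (1 / (16 * (d : ℝ)))).mul b3))) fun ω => by
        have a := hR (l * |Hi θ (hc N (fun _ => s) ω) (step j (root d)) j|) (by positivity)
        have b : |σ * l * ξ j ω| ≤ θ * (l * |Hi θ (hc N (fun _ => s) ω) (step j (root d)) j|) := by
          rw [abs_mul, abs_mul, sign_abs hσ, one_mul, abs_of_nonneg l0, mul_left_comm]
          exact mul_le_mul_of_nonneg_left (aξ j ω) l0
        have c : (σ * l * ξ j ω) ^ 2 ≤ (l * |Hi θ (hc N (fun _ => s) ω) (step j (root d)) j|) ^ 2 :=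
          sq_le_sq.2 (b.trans ((mul_le_of_le_one_left (by positivity) h1.le).trans (le_abs_self _)))
        have e := mul_le_mul c (exp_le_exp.2 b) (exp_pos _).le (sq_nonneg _)
        rw [mul_pow, sq_abs, ← mul_assoc (θ + (1 - θ) / 2)] at a
        rw [mul_pow l, sq_abs] at e
        linarith [exp_le_quad (σ * l * ξ j ω)]
    rw [int_add (BM.const _) ((((BM.const _).mul (bξ j)).add ((BM.const _).mul
      ((bH _ _).pow 2))).add ((BM.const _).mul b3)), int_l3 (bξ j) ((bH _ _).pow 2) b3,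
      hom_Hi θ N s (G := fun y => exp ((θ + (1 - θ) / 2) * l * |y|)) (by fun_prop) _ j i0] at this
    simp only [integral_const, probReal_univ, smul_eq_mul, mul_one] at this
    have a1 : σ * l * ∫ ω, ξ j ω ∂PP d θ ≤ 1 / C := by
      refine (le_abs_self _).trans (le_trans ?_ l1)
      rw [abs_mul, abs_mul, sign_abs hσ, one_mul, abs_of_nonneg l0]
      exact mul_le_mul_of_nonneg_left m1 l0
    have a2 := mul_le_mul_of_nonneg_left ((mul_le_mul_of_nonneg_left (e2' j) (sq_nonneg l)).trans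
      ((mul_pow _ _ _).ge.trans l2)) (exp_pos R).le
    have a3 := mul_le_mul_of_nonneg_left hG (show 0 ≤ 1 / (16 * (d : ℝ)) by positivity)
    rw [← mul_assoc] at a2
    linarith [add_one_le_exp (1 / C + exp R * (1 / C) + 1 / (16 * d) * 4)]
  have two : ∀ σ : ℝ, σ = 1 ∨ σ = -1 → ∫ ω, exp (σ * l *
      (sig ω (root d) * Hi θ (hc N (fun _ => s) ω) (root d) i0)) ∂PP d θ ≤ 2 := fun σ hσ => by
    have bp : ∀ j, BM fun ω => exp (σ * l * ξ j ω) := fun j => ((BM.const _).mul (bξ j)).exp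
    refine (int_mono_ae (g := fun ω => exp (1 / C) * ∏ j ∈ univ.erase i0, exp (σ * l * ξ j ω))
      ((BM.const _).mul ((BM_sig' _).mul (bH _ _))).exp ((BM.const _).mul (BM.prod _ bp)) ?_).trans ?_
    · filter_upwards [good_hc h0 h1 N fun _ => s] with ω hω
      rw [hω.bp h0 h1, mul_add, mul_add, mul_sum, mul_sum, exp_add, exp_sum]
      refine mul_le_mul_of_nonneg_right (exp_le_exp.2 ((le_abs_self _).trans (le_trans ?_ l1)))
        (prod_nonneg fun _ _ => (exp_pos _).le)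
      rw [abs_mul, abs_mul, abs_mul, sign_abs hσ, sign_abs (sig_cases _ _), one_mul, one_mul,
        abs_of_nonneg l0]
      refine mul_le_mul_of_nonneg_left ((hη _ _).trans ?_) l0
      have : z ^ 8 ≤ z ^ 2 := pow_le_pow_of_le_one z0.le z1 (by norm_num)
      simp only [K1]; nlinarith [pow_pos z0 2]
    · rw [integral_const_mul, int_prod_dep _ _ bp (A := fun j => sub1 (step j (root d)))
        (fun j _ ω ω' H => by
          simp only [ξ, (odd_dep h0 h1 N _ (ch_root' j) fun s y hs => F_sign h0 h1 hs y).2 H])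
        fun i _ j _ hij => sub1_disj (ch_root' i) (ch_root' j) hij]
      have := prod_le_prod (s := univ.erase i0) (fun j _ => integral_nonneg fun ω => (exp_pos _).le)
        fun j _ => one σ hσ j
      rw [prod_const, ← exp_nat_mul, card_erase'] at this
      refine (mul_le_mul_of_nonneg_left this (exp_pos _).le).trans ?_
      rw [← exp_add]
      refine le_trans (exp_le_exp.2 ?_) exp_half_le
      have a1 : 1 / C + (d - 1) * (1 / C + exp R * (1 / C)) = 1 / 4 := by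
        simp only [C]; field_simp
      have a2 : ((d : ℝ) - 1) * (1 / (16 * d) * 4) ≤ 1 / 4 := by
        have : (0 : ℝ) < d := by linarith
        rw [show ((d : ℝ) - 1) * (1 / (16 * d) * 4) = (d - 1) / (4 * d) by field_simp; ring,
          div_le_iff₀ (by positivity)]
        linarith
      linarith
  have b := fun σ : ℝ => ((BM.const (σ * l)).mul ((BM_sig' (root d)).mul (bH (root d) i0))).exp
  refine (int_mono ((BM.const _).mul (bH _ _).abs).exp ((b 1).add (b (-1))) fun ω => ?_).trans ?_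
  · have : |Hi θ (hc N (fun _ => s) ω) (root d) i0| =
        |sig ω (root d) * Hi θ (hc N (fun _ => s) ω) (root d) i0| := by
      rw [abs_mul, sign_abs (sig_cases _ _), one_mul]
    rw [this]
    rcases abs_cases (sig ω (root d) * Hi θ (hc N (fun _ => s) ω) (root d) i0) with h | h <;>
      rw [h.1]
    · rw [one_mul]; exact le_add_of_nonneg_right (exp_pos _).le
    · rw [neg_one_mul, neg_mul, mul_neg]; exact le_add_of_nonneg_left (exp_pos _).le
  · rw [int_add (b 1) (b (-1))]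
    linarith [two 1 (Or.inl rfl), two (-1) (Or.inr rfl)]

end

end Vale.Agent.P161
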