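import Vale.Agent.P161.Temper
import Vale.Agent.P161.Mgf

namespace Vale.Agent.P161

open MeasureTheory Finset Real Filter Topology

set_option linter.unusedSectionVars false

variable {d : ℕ}

lemma exists_small {u : ℕ → ℝ} {K ε : ℝ} (u0 : ∀ n, 0 ≤ u n) (hK : ∀ n, u n ≤ K) (hε : 0 < ε)
    (l : ℕ) : ∃ n, l ≤ n ∧ u (n + 1) - u n ≤ ε := by
  by_contra h
  push Not at h
  have key : ∀ k : ℕ, k * ε ≤ u (l + k) := fun k => by
    induction k with
    | zero => simpa using u0 l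
    | succ k ih => have := h (l + k) (by omega); push_cast; rw [← add_assoc]; linarith
  obtain ⟨k, hk⟩ := exists_nat_gt (K / ε)
  rw [div_lt_iff₀ hε] at hk
  linarith [key k, hK (l + k)]

lemma sum_erase_comm {M : Type*} [AddCommMonoid M] (f : Fin d → Fin d → M) :
    ∑ j, ∑ i ∈ univ.erase j, f i j = ∑ i, ∑ j ∈ univ.erase i, f i j :=
  sum_comm' fun j i => by simp [eq_comm]

section
variable {α : Type*} [MeasurableSpace α] {μ : Measure α} [IsProbabilityMeasure μ]
  {a : V d → α → α}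

/-- Bounded equivariant edge fields. -/
def EqE (a : V d → α → α) (Y : α → V d → Fin d → ℝ) : Prop :=
  (∀ v i, BM fun ω => Y ω v i) ∧ ∀ g ω v i, Y (a g ω) v i = Y ω (mul g v) i

lemma EqE.mul {X Y : α → V d → Fin d → ℝ} (h : EqE a X) (h' : EqE a Y) :
    EqE a fun ω v i => X ω v i * Y ω v i :=
  ⟨fun v i => (h.1 v i).mul (h'.1 v i), fun g ω v i => by simp only [h.2, h'.2]⟩

lemma EqE.add {X Y : α → V d → Fin d → ℝ} (h : EqE a X) (h' : EqE a Y) :
    EqE a fun ω v i => X ω v i + Y ω v i :=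
  ⟨fun v i => (h.1 v i).add (h'.1 v i), fun g ω v i => by simp only [h.2, h'.2]⟩

lemma EqE.sub {X Y : α → V d → Fin d → ℝ} (h : EqE a X) (h' : EqE a Y) :
    EqE a fun ω v i => X ω v i - Y ω v i :=
  ⟨fun v i => (h.1 v i).sub (h'.1 v i), fun g ω v i => by simp only [h.2, h'.2]⟩

lemma EqE.rv {X : α → V d → Fin d → ℝ} (h : EqE a X) : EqE a fun ω v i => X ω (step i v) i :=
  ⟨fun v i => h.1 _ i, fun g ω v i => by simp only [h.2, mul_step]⟩

lemma Eqv.edge {X : α → V d → ℝ} (h : Eqv a X) : EqE a fun ω v _ => X ω v :=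
  ⟨fun v _ => h.1 v, fun g ω v _ => h.2 g ω v⟩

lemma EqE.const (c : ℝ) : EqE a fun _ _ _ => c := ⟨fun _ _ => BM.const c, fun _ _ _ _ => rfl⟩

lemma EqE.ws {t : α → V d → Fin d → ℝ} {φ : α → V d → ℝ} (ht : EqE a t) (hφ : Eqv a φ) (n : ℕ) :
    EqE a fun ω v i => Ws (t ω) (φ ω) n v i := by
  induction n with
  | zero => exact hφ.edge
  | succ n ih =>
    exact ⟨fun v i => (hφ.1 v).add (BM.sum _ fun j => (ht.1 _ _).mul (ih.1 _ _)),
      fun g ω v i => by simp only [Ws, hφ.2, ht.2, ih.2, mul_step]⟩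

lemma Eqv.one : Eqv a fun _ _ => (1 : ℝ) := ⟨fun _ => BM.const 1, fun _ _ _ => rfl⟩

variable (ha : ∀ g, MeasurePreserving (a g) μ μ)
include ha

lemma EqE.flip {X : α → V d → Fin d → ℝ} (h : EqE a X) (j : Fin d) :
    ∫ ω, X ω (step j (root d)) j ∂μ = ∫ ω, X ω (root d) j ∂μ := by
  rw [← integral_mp (ha (gen j)) (h.1 (root d) j).1]
  simp only [h.2, mul_root, gen]

lemma energy1 (hd : 3 ≤ d) {Y : α → V d → Fin d → ℝ} (hY : EqE a Y)
    (hN : Gr μ fun ω v => ∑ j, Y ω (step j v) j) :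
    ∑ i, ∫ ω, Y ω (root d) i * ∑ j ∈ univ.erase i, Y ω (step j (root d)) j ∂μ ≤
      (d - 1 - (d - 2) ^ 2 / (4 * d)) * ∑ i, ∫ ω, Y ω (root d) i ^ 2 ∂μ := by
  set N : α → V d → ℝ := fun ω v => ∑ j, Y ω (step j v) j
  have eN : Eqv a N := ⟨fun v => BM.sum _ fun j => hY.1 _ _, fun g ω v => by
    simp only [N, hY.2, mul_step]⟩
  have d3 : (3 : ℝ) ≤ d := by exact_mod_cast hd
  have x1 := eN.xs_succ ha (by omega) hN 0
  simp only [xs, zero_add, Function.iterate_one, Function.iterate_zero_apply] at x1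
  set n := ∫ ω, N ω (root d) ^ 2 ∂μ
  set l := (3 * d + 4 * (d - 1) / d : ℝ) / 4 with hl
  have l2 : 2 ≤ l := by
    have : (0 : ℝ) ≤ 4 * (d - 1) / d := div_nonneg (by linarith) (by linarith)
    linarith
  have bN := eN.1
  have bY := hY.1
  have nn : ∀ i, ∫ ω, N ω (step i (root d)) ^ 2 ∂μ = n := fun i => by
    simpa only [sq, n] using (eN.edge.mul eN.edge).flip ha i
  have yy : ∀ i, ∫ ω, Y ω (step i (root d)) i ^ 2 ∂μ = ∫ ω, Y ω (root d) i ^ 2 ∂μ := fun i => by
    simpa only [sq] using (hY.mul hY).flip ha i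
  have e1 : ∀ i, ∫ ω, Y ω (root d) i * ∑ j ∈ univ.erase i, Y ω (step j (root d)) j ∂μ ≤
      (l - 1) * ∫ ω, Y ω (root d) i ^ 2 ∂μ + (2 * n + 2 * ∫ ω, N ω (root d) *
        N ω (step i (root d)) ∂μ) / (4 * l) - ∫ ω, Y ω (step i (root d)) i * N ω (root d) ∂μ :=
    fun i => by
    have f1 := ((hY.add hY.rv).mul eN.edge).flip ha i
    simp only [step_step, add_comm (Y _ (step i (root d)) i)] at f1
    have f2 : ∫ ω, Y ω (root d) i * ∑ j ∈ univ.erase i, Y ω (step j (root d)) j ∂μ =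
        1 * ∫ ω, (Y ω (root d) i + Y ω (step i (root d)) i) * N ω (root d) ∂μ +
        -1 * ∫ ω, Y ω (step i (root d)) i * N ω (root d) ∂μ +
        -1 * ∫ ω, Y ω (root d) i * Y ω (step i (root d)) i ∂μ := by
      rw [← int_l3 (((bY _ _).add (bY _ _)).mul (bN _)) ((bY _ _).mul (bN _)) ((bY _ _).mul (bY _ _))]
      congr 1; ext ω
      simp only [N]; rw [sum_erase_eq_sub (mem_univ i)]; ring
    have f3 := int_mono (μ := μ) (((BM.const (1 / 2)).mul (((bY (root d) i).add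
      (bY (step i (root d)) i)).mul (bN (root d)))).add ((BM.const (1 / 2)).mul (((bY (root d) i).add
      (bY (step i (root d)) i)).mul (bN (step i (root d)))))|>.add ((BM.const (-1)).mul
      ((bY (root d) i).mul (bY (step i (root d)) i))))
      ((((BM.const ((l - 1) / 2)).mul ((bY (root d) i).pow 2)).add ((BM.const ((l - 1) / 2)).mul
      ((bY (step i (root d)) i).pow 2))).add ((((BM.const (1 / (4 * l))).mul
      ((bN (root d)).pow 2)).add ((BM.const (1 / (4 * l))).mul ((bN (step i (root d))).pow 2))).add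
      ((BM.const (2 / (4 * l))).mul ((bN (root d)).mul (bN (step i (root d))))))) fun ω => by
        generalize Y ω (root d) i = x, Y ω (step i (root d)) i = y, N ω (root d) = p,
          N ω (step i (root d)) = q
        have : 0 ≤ (l * (x + y) - (p + q)) ^ 2 / (4 * l) := by positivity
        have e : (l * (x + y) - (p + q)) ^ 2 / (4 * l) = l / 4 * (x + y) ^ 2 -
            (x + y) * (p + q) / 2 + 1 / (4 * l) * (p + q) ^ 2 := by field_simp; ring
        have e2 : 2 / (4 * l) = 2 * (1 / (4 * l)) := by ring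
        rw [e2]
        nlinarith [mul_nonneg (sub_nonneg.2 l2) (sq_nonneg (x - y))]
    rw [int_l3 (((bY _ _).add (bY _ _)).mul (bN _)) (((bY _ _).add (bY _ _)).mul (bN _))
      ((bY _ _).mul (bY _ _)), int_add (by fun_prop) (by fun_prop), int_l2 ((bY _ _).pow 2)
      ((bY _ _).pow 2), int_l3 ((bN _).pow 2) ((bN _).pow 2) ((bN _).mul (bN _)), nn, yy, f1] at f3
    rw [f2]
    have e : (2 * n + 2 * ∫ ω, N ω (root d) * N ω (step i (root d)) ∂μ) / (4 * l) =
      1 / (4 * l) * n + 1 / (4 * l) * n + 2 / (4 * l) * ∫ ω, N ω (root d) *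
        N ω (step i (root d)) ∂μ := by ring
    linarith
  refine (sum_le_sum fun i _ => e1 i).trans ?_
  have s1 : ∑ i, ∫ ω, Y ω (step i (root d)) i * N ω (root d) ∂μ = n := by
    rw [← int_sum _ fun i => (bY _ _).mul (bN _)]
    simp only [← sum_mul, n, sq]; rfl
  have s2 : ∑ i, ∫ ω, N ω (root d) * N ω (step i (root d)) ∂μ ≤ (d + 4 * (d - 1) / d) / 2 * n := by
    rw [← int_sum _ fun i => (bN _).mul (bN _)]
    simp only [← mul_sum]
    have bA : BM fun ω => Ad (N ω) (root d) := (eN.ad 1).1 (root d)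
    have := int_mono (μ := μ) ((bN (root d)).mul bA) (((BM.const (d / 2 : ℝ)).mul
      ((bN (root d)).pow 2)).add ((BM.const (1 / (2 * d : ℝ))).mul (bA.pow 2))) fun ω => by
        generalize N ω (root d) = p, Ad (N ω) (root d) = q
        have : 0 ≤ (d * p - q) ^ 2 / (2 * d) := by positivity
        have e : (d * p - q) ^ 2 / (2 * d) = d / 2 * p ^ 2 - p * q + 1 / (2 * d) * q ^ 2 := by
          field_simp; ring
        linarith
    rw [int_l2 ((bN _).pow 2) (bA.pow 2)] at this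
    have := this.trans (add_le_add_right (mul_le_mul_of_nonneg_left x1 (by positivity)) _)
    exact this.trans (le_of_eq (by ring))
  rw [sum_sub_distrib, sum_add_distrib, ← mul_sum, ← sum_div, sum_add_distrib, s1,
    sum_const, card_univ, Fintype.card_fin, nsmul_eq_mul, ← mul_sum]
  have e : l - 1 = d - 1 - (d - 2) ^ 2 / (4 * d) := by rw [hl]; field_simp; ring
  have : (d * (2 * n) + 2 * ∑ i, ∫ ω, N ω (root d) * N ω (step i (root d)) ∂μ) / (4 * l) ≤ n := by
    rw [div_le_iff₀ (by linarith), hl]; linarith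
  rw [← e]; linarith

omit ha in
lemma energy (hd : 3 ≤ d) : ∃ K : ℝ, 0 ≤ K ∧ ∀ {α : Type} [MeasurableSpace α] {μ : Measure α}
    [IsProbabilityMeasure μ] {a : V d → α → α} (_ : ∀ g, MeasurePreserving (a g) μ μ)
    {Y t : α → V d → Fin d → ℝ} {γ : ℝ}, EqE a Y → EqE a t → (∀ ω v i, 0 ≤ t ω v i) →
    (∀ ω v i, t ω v i ≤ γ) → ((d : ℝ) - 1) * γ ≤ 1 → (Gr μ fun ω v => ∑ j, Y ω (step j v) j) →
    ∑ i, ∫ ω, (∑ j ∈ univ.erase i, Y ω (step j (root d)) j) ^ 2 ∂μ ≤ K * ∑ i, ∫ ω,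
      (Y ω (root d) i - t ω (root d) i * ∑ j ∈ univ.erase i, Y ω (step j (root d)) j) ^ 2 ∂μ := by
  have d3 : (3 : ℝ) ≤ d := by exact_mod_cast hd
  set δ : ℝ := (d - 2) ^ 2 / (4 * d) / (d - 1) with hδ
  have δ0 : 0 < δ := div_pos (div_pos (by nlinarith) (by linarith)) (by linarith)
  set ε : ℝ := δ / (2 * (1 + d ^ 2)) with hε
  have ε0 : 0 < ε := by positivity
  refine ⟨d ^ 2 * (4 / (ε * δ)), by positivity, ?_⟩
  intro α _ μ _ a ha Y t γ hY ht t0 t1 hγ hN
  have e1 := energy1 ha hd hY hN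
  have bY := hY.1
  have bZ : ∀ i, BM fun ω => ∑ j ∈ univ.erase i, Y ω (step j (root d)) j := fun i =>
    BM.sum _ fun j => bY _ _
  have bG := fun i => ((bY (root d) i).sub ((ht.1 (root d) i).mul (bZ i))).pow 2
  set y := ∑ i, ∫ ω, Y ω (root d) i ^ 2 ∂μ
  have y0 : 0 ≤ y := by positivity
  obtain ⟨ω0⟩ := nonempty_of_isProbabilityMeasure μ
  have γ0 : 0 ≤ γ := (t0 ω0 (root d) ⟨0, by omega⟩).trans (t1 _ _ _)
  have γ1 : γ ≤ 1 := by nlinarith
  have z1 : ∑ i, ∫ ω, (∑ j ∈ univ.erase i, Y ω (step j (root d)) j) ^ 2 ∂μ ≤ d ^ 2 * y := by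
    refine (sum_le_card_nsmul _ _ (d * y) fun i _ => ?_).trans (le_of_eq (by simp; ring))
    refine (int_mono (g := fun ω => d * ∑ j, Y ω (step j (root d)) j ^ 2) ((bZ i).pow 2)
      ((BM.const _).mul (BM.sum _ fun j => (bY _ _).pow 2)) fun ω => ?_).trans (le_of_eq ?_)
    · refine sq_sum_le_card_mul_sum_sq.trans (mul_le_mul ?_ (sum_le_sum_of_subset_of_nonneg
        (subset_univ _) fun _ _ _ => sq_nonneg _) (by positivity) (by positivity))
      rw [card_erase']; linarith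
    · rw [integral_const_mul, int_sum _ fun j => (bY _ _).pow 2]
      refine congrArg _ (sum_congr rfl fun j _ => ?_)
      simpa only [sq] using (hY.mul hY).flip ha j
  have e2 := sum_le_sum (s := univ) fun i _ => (int_mono (μ := μ) ((bY (root d) i).pow 2)
    ((((BM.const γ).mul ((bY (root d) i).mul (bZ i))).add ((BM.const ε).mul
      ((bY (root d) i).pow 2))).add (((BM.const ε).mul ((bZ i).pow 2)).add
      ((BM.const (2 / ε)).mul (bG i)))) fun ω => by
      have a0 := t0 ω (root d) i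
      have a1 := t1 ω (root d) i
      generalize Y ω (root d) i = x, ∑ j ∈ univ.erase i, Y ω (step j (root d)) j = z,
        t ω (root d) i = s at *
      obtain ⟨g, rfl⟩ : ∃ g, x = s * z + g := ⟨x - s * z, by ring⟩
      have b1 : 0 ≤ (ε * (s * z + g) - g) ^ 2 / ε := by positivity
      have b2 : 0 ≤ (ε * z + γ * g) ^ 2 / ε := by positivity
      have c1 : (ε * (s * z + g) - g) ^ 2 / ε =
          ε * (s * z + g) ^ 2 - 2 * (s * z + g) * g + g ^ 2 / ε := by field_simp; ring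
      have c2 : (ε * z + γ * g) ^ 2 / ε = ε * z ^ 2 + 2 * γ * z * g + γ ^ 2 * (g ^ 2 / ε) := by
        field_simp; ring
      have c3 : 2 / ε * (s * z + g - s * z) ^ 2 = 2 * (g ^ 2 / ε) := by ring
      have b3 : γ ^ 2 * (g ^ 2 / ε) ≤ g ^ 2 / ε :=
        mul_le_of_le_one_left (by positivity) (by nlinarith)
      have b4 : 0 ≤ g ^ 2 / ε := by positivity
      nlinarith [mul_nonneg (mul_nonneg a0 (sub_nonneg.2 a1)) (sq_nonneg z), sq_nonneg g,
        mul_nonneg ε0.le (sq_nonneg z)]).trans (le_of_eq (by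
      rw [int_add (by fun_prop) (by fun_prop), int_l2 ((bY _ _).mul (bZ i)) ((bY _ _).pow 2),
        int_l2 ((bZ i).pow 2) (bG i)]))
  simp only [sum_add_distrib, ← mul_sum] at e2
  refine z1.trans ?_
  rw [mul_assoc]
  refine mul_le_mul_of_nonneg_left ?_ (by positivity)
  have f1 : γ * (d - 1 - (d - 2) ^ 2 / (4 * d)) ≤ 1 - δ := by
    have e : (d - 1 - (d - 2) ^ 2 / (4 * d) : ℝ) = (d - 1) * (1 - δ) := by
      rw [hδ]; have : (d : ℝ) - 1 ≠ 0 := by linarith
      field_simp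
    have : δ ≤ 1 := by
      rw [hδ, div_div, div_le_one (by nlinarith)]; nlinarith
    rw [e]; nlinarith
  have f2 := mul_le_mul_of_nonneg_left e1 γ0
  have f3 := mul_le_mul_of_nonneg_left z1 ε0.le
  have f4 := mul_le_mul_of_nonneg_right f1 y0
  have f5 : ε * y + ε * (d ^ 2 * y) = δ / 2 * y := by rw [hε]; field_simp
  generalize ∑ i, ∫ ω, (Y ω (root d) i - t ω (root d) i *
    ∑ j ∈ univ.erase i, Y ω (step j (root d)) j) ^ 2 ∂μ = g at *
  have f6 : δ / 2 * y ≤ 2 / ε * g := by nlinarith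
  rw [div_mul_eq_mul_div, le_div_iff₀ (by positivity)]
  rw [div_mul_eq_mul_div 2, le_div_iff₀ ε0] at f6
  linarith

lemma dual {t A φ : α → V d → Fin d → ℝ} {c : α → V d → ℝ} (ht : EqE a t) (hA : EqE a A)
    (hφ : EqE a φ) (hc : Eqv a c) (t0 : ∀ ω v i, 0 ≤ t ω v i) (t1 : ∀ ω v i, t ω v i ≤ 1)
    (c0 : ∀ ω v, 0 ≤ c ω v) (c1 : ∀ ω v, c ω v ≤ 1)
    (sym : ∀ᵐ ω ∂μ, ∀ i, t ω (root d) i * c ω (step i (root d)) =
      t ω (step i (root d)) i * c ω (root d))
    (sup : ∀ ω i, A ω (root d) i ≤ ∑ j ∈ univ.erase i,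
      (t ω (step j (root d)) j * A ω (step j (root d)) j + φ ω (step j (root d)) j))
    {K Φ : ℝ} (hK : ∀ m, ∑ j, ∫ ω, Ws (t ω) (fun _ => 1) m (step j (root d)) j ∂μ ≤ K)
    (hΦ : ∀ m, ∑ j, ∫ ω, Ws (t ω) (fun _ => 1) m (step j (root d)) j * |φ ω (root d) j| ∂μ ≤ Φ) :
    ∫ ω, c ω (root d) * ∑ j, (t ω (step j (root d)) j * A ω (step j (root d)) j +
      φ ω (step j (root d)) j) ∂μ ≤ Φ := by
  choose C hC using fun j => (hA.1 (root d) j).2
  obtain ⟨ω0⟩ := nonempty_of_isProbabilityMeasure μ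
  have C0 : ∀ j, 0 ≤ C j := fun j => (abs_nonneg _).trans (hC j ω0)
  have hX := ht.ws Eqv.one
  have X0 := fun ω => Ws_nonneg (t0 ω) (φ := fun _ => 1) fun _ => zero_le_one
  have X1 := fun ω => Ws_mono (t0 ω) (φ := fun _ => 1) fun _ => zero_le_one
  have hW := (ht.mul hA).add hφ
  refine le_of_forall_pos_le_add fun ε hε => ?_
  have CC : 0 < 1 + ∑ j, C j := by linarith [sum_nonneg (s := univ) fun j _ => C0 j]
  obtain ⟨m, -, hm⟩ := exists_small (fun m => sum_nonneg fun j _ => integral_nonneg fun ω =>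
    X0 ω _ _ _) hK (div_pos hε CC) 0
  have e1 := sum_congr (s₁ := univ) rfl fun j _ => ((hc.edge.mul (hX (m + 1))).mul hW.rv).flip ha j
  simp only [step_step] at e1
  have b1 := fun j => ((hc.edge.mul (hX (m + 1))).mul hW.rv).1 (root d) j
  have b2 := fun j => (((hc.edge.mul (hX m)).rv.mul ht).mul hA).1 (root d) j
  have b3 : BM fun ω => c ω (root d) * ∑ j, (t ω (step j (root d)) j * A ω (step j (root d)) j +
      φ ω (step j (root d)) j) := (hc.1 _).mul (BM.sum _ fun j => hW.1 _ _)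
  have e2 := int_mono_ae (μ := μ) (b3.add (BM.sum univ b2)) (BM.sum univ b1) (by
    filter_upwards [sym] with ω hω
    simp only [Ws, mul_add, add_mul, mul_one, sum_add_distrib, mul_sum, sum_mul]
    rw [add_add_add_comm, ← sum_add_distrib (s := univ) (f := fun j => ∑ i ∈ univ.erase j, _)]
    refine add_le_add_right ?_ _
    simp only [← sum_add_distrib, ← mul_add]
    rw [sum_erase_comm]
    refine sum_le_sum fun i _ => ?_
    rw [← mul_sum, show c ω (root d) * (t ω (step i (root d)) i *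
      Ws (t ω) (fun _ => 1) m (step i (root d)) i) = c ω (step i (root d)) *
      Ws (t ω) (fun _ => 1) m (step i (root d)) i * t ω (root d) i by
        linear_combination (-Ws (t ω) (fun _ => 1) m (step i (root d)) i) * hω i]
    exact mul_le_mul_of_nonneg_left (sup ω i) (mul_nonneg (mul_nonneg (c0 _ _) (X0 _ _ _ _))
      (t0 _ _ _)))
  rw [int_add b3 (BM.sum _ b2), int_sum _ b2, int_sum _ b1, ← e1, ← le_sub_iff_add_le,
    ← sum_sub_distrib] at e2
  refine e2.trans ((sum_le_sum (g := fun j => ∫ ω, Ws (t ω) (fun _ => 1) (m + 1)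
    (step j (root d)) j * |φ ω (root d) j| ∂μ + (1 + ∑ j, C j) *
    (∫ ω, Ws (t ω) (fun _ => 1) (m + 1) (step j (root d)) j ∂μ -
      ∫ ω, Ws (t ω) (fun _ => 1) m (step j (root d)) j ∂μ)) fun j _ => ?_).trans ?_)
  · have b4 := ((hc.edge.mul (hX (m + 1))).rv.mul hW).1 (root d) j
    have b5 := ((hX (m + 1)).1 (step j (root d)) j).mul (hφ.1 (root d) j).abs
    have b6 := ((hX (m + 1)).1 (step j (root d)) j).sub ((hX m).1 (step j (root d)) j)
    rw [← int_sub b4 (b2 j), ← int_sub ((hX _).1 _ _) ((hX _).1 _ _), ← integral_const_mul,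
      ← int_add b5 ((BM.const _).mul b6)]
    refine int_mono (b4.sub (b2 j)) (b5.add ((BM.const _).mul b6)) fun ω => ?_
    have a1 := X1 ω m (step j (root d)) j
    have a0 := X0 ω (m + 1) (step j (root d)) j
    have a2 : c ω (step j (root d)) * φ ω (root d) j ≤ |φ ω (root d) j| := by
      refine (le_abs_self _).trans ?_
      rw [abs_mul, abs_of_nonneg (c0 _ _)]; exact mul_le_of_le_one_left (abs_nonneg _) (c1 _ _)
    have a3 : c ω (step j (root d)) * t ω (root d) j * A ω (root d) j ≤ 1 + ∑ j, C j := by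
      refine (le_abs_self _).trans ?_
      rw [abs_mul, abs_of_nonneg (mul_nonneg (c0 _ _) (t0 _ _ _))]
      refine (mul_le_of_le_one_left (abs_nonneg _) (mul_le_one₀ (c1 _ _) (t0 _ _ _)
        (t1 _ _ _))).trans ((hC j ω).trans ?_)
      linarith [single_le_sum (fun j _ => C0 j) (mem_univ j)]
    nlinarith [mul_le_mul_of_nonneg_left a2 a0, mul_le_mul_of_nonneg_left a3 (sub_nonneg.2 a1)]
  · rw [sum_add_distrib, ← mul_sum, sum_sub_distrib]
    rw [le_div_iff₀ CC] at hm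
    linarith [hΦ (m + 1)]

end

end Vale.Agent.P161
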