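import Vale.Agent.P161.Link

namespace Vale.Agent.P161

open MeasureTheory Finset Real Filter Topology

set_option linter.unusedSectionVars false

variable {d : ℕ}

noncomputable def bb (r : ℕ) (ω : Om d) : ℝ :=
  1 - 24 * (amp (r + 1) (ω (kt (root d, r + 1))) * Yt ω (root d, r + 1))

lemma abs_bb_le (r : ℕ) (ω : Om d) : |bb r ω| ≤ 13 := by
  have := abs_le.1 (abs_mul_le_half (abs_amp_le (r + 1) (ω (kt (root d, r + 1))))
    (abs_Yt_le ω (root d, r + 1)))
  rw [bb, abs_le]; constructor <;> linarith [this.1, this.2]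

lemma BM_bb (r : ℕ) : BM (bb (d := d) r) := BM.of_le (by unfold bb; fun_prop) (abs_bb_le r)

lemma int_bb (θ : ℝ) (r : ℕ) : ∫ ω, bb r ω ∂PP d θ = 0 := by
  have e : ∀ τ, aI 0 (r + 3) (r + 1) τ = amp (r + 1) τ := fun τ => if_pos ⟨(Nat.cast_nonneg _).trans
    (le_Tm _ _), (Tm_le _ _).trans_lt (by push_cast; linarith)⟩
  have e2 : ∀ τ, amp (r + 1) τ ^ 2 = 1 / 4 * if cl τ < 1 / 2 then (1 : ℝ) else 0 := fun τ => by
    unfold amp; split_ifs
    · rw [min_eq_right (le_trans (by push_cast; linarith [Nat.cast_nonneg (α := ℝ) r])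
        (le_Tm _ _))]; norm_num
    · simp
  have := int_aY θ 0 (r + 3) (root d, r + 1)
  simp only [e, e2, integral_const_mul, int_half] at this
  have b : BM fun ω : Om d => amp (r + 1) (ω (kt (root d, r + 1))) * Yt ω (root d, r + 1) :=
    (BM.of_le (by fun_prop) fun _ => abs_amp_le _ _).mul (BM_Yt _)
  simp only [bb]
  rw [int_sub (BM.const _) ((BM.const _).mul b), integral_const_mul, this]
  simp; norm_num

lemma bb_dep (r : ℕ) : DependsOn (bb (d := d) r) {k | ∃ b, k = (root d, some (r + 1, b))} :=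
  fun ω ω' H => by
    have e1 : ω (kt (root d, r + 1)) = ω' (kt (root d, r + 1)) := H _ ⟨_, rfl⟩
    have e2 : ω (kn (root d, r + 1)) = ω' (kn (root d, r + 1)) := H _ ⟨_, rfl⟩
    simp only [bb, Yt, e1, e2]

lemma int_sum_bb (θ : ℝ) (M : ℕ) : ∫ ω, (∑ r ∈ range M, bb r ω) ^ 2 ∂PP d θ ≤ 169 * M := by
  induction M with
  | zero => simp
  | succ M ih =>
    have b := BM.sum (range M) (BM_bb (d := d))
    have c : ∫ ω, bb M ω * ∑ r ∈ range M, bb r ω ∂PP d θ = 0 := by
      rw [int_mul_dep _ (BM_bb M) b (bb_dep M) fun ω ω' H => sum_congr rfl fun r hr =>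
        bb_dep r fun k ⟨a, ha⟩ => H k fun ⟨a', ha'⟩ => by
          rw [ha] at ha'
          simp only [Prod.mk.injEq, Option.some.injEq] at ha'
          have := mem_range.1 hr
          omega, int_bb, zero_mul]
    have := int_l3 (μ := PP d θ) (b.pow 2) ((BM_bb M).mul b) ((BM_bb M).pow 2) 1 2 1
    have q : ∫ ω, bb M ω ^ 2 ∂PP d θ ≤ 169 := int_le_const ((BM_bb M).pow 2) fun ω => by
      nlinarith [abs_bb_le M ω, sq_abs (bb M ω), abs_nonneg (bb M ω)]
    simp only [sum_range_succ]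
    rw [show (fun ω => (∑ r ∈ range M, bb r ω + bb M ω) ^ 2) = fun ω : Om d =>
      1 * (∑ r ∈ range M, bb r ω) ^ 2 + 2 * (bb M ω * ∑ r ∈ range M, bb r ω) + 1 * bb M ω ^ 2 from
      funext fun ω => by ring, this, c]
    push_cast; linarith

noncomputable def Zm (M : ℕ) (x : X d) : ℝ := 24 / M * ∑ r ∈ range M, wv x (root d, r + 1)

lemma BM_Zm (M : ℕ) : BM (Zm (d := d) M) :=
  (BM.const _).mul (BM.sum _ fun _ => BM.of_le (by fun_prop) fun _ => abs_wv_le _ _)

lemma int_Zm (θ : ℝ) {M : ℕ} (hM : 0 < M) :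
    ∫ ω, (sig ω (root d) - Zm M (D ω)) ^ 2 ∂PP d θ ≤ 169 / M := by
  have M0 : (0 : ℝ) < M := by exact_mod_cast hM
  have e : ∀ ω : Om d, (sig ω (root d) - Zm M (D ω)) ^ 2 =
      (1 / M) ^ 2 * (∑ r ∈ range M, bb r ω) ^ 2 := fun ω => by
    rw [← sq_sig_mul ω (root d), ← mul_pow, mul_sub, sign_sq (sig_cases _ _), Zm, mul_left_comm,
      mul_sum, sum_congr rfl fun r _ => wv_gauge ω (root d, r + 1)]
    simp only [bb, sum_sub_distrib, ← mul_sum, sum_const, card_range, nsmul_eq_mul]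
    congr 1; field_simp
  simp only [e, integral_const_mul]
  refine (mul_le_mul_of_nonneg_left (int_sum_bb θ M) (by positivity)).trans (le_of_eq ?_)
  field_simp

lemma Zm_mask (M : ℕ) (x : X d) :
    Zm M (mask (rd (M + 1) fun _ => ((M + 1 : ℕ) : ℝ)) x) = Zm M x := by
  refine congrArg (24 / (M : ℝ) * ·) (sum_congr rfl fun r hr => ?_)
  by_cases h : (rd (M + 1) fun _ => ((M + 1 : ℕ) : ℝ)).R (clk x) (root d, r + 1)
  · simp only [wv, am, mask_of h]
  · have hr' := mem_range.1 hr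
    have : am x (root d, r + 1) = 0 := if_neg fun a => h ⟨by
      have : (r : ℝ) + 1 ≤ M := by exact_mod_cast hr'
      simp only [Tm, clk]; push_cast; linarith, by simpa using hr'⟩
    rw [wv, wv, am_mask, this, zero_mul, zero_mul]

section
variable {θ : ℝ} (h0 : 0 ≤ θ) (h1 : θ < 1)
include h0 h1

lemma proj_le (R : Rule d) {Z : X d → ℝ} (hZ : BM Z) (e : ∀ x, Z (mask R x) = Z x) :
    ∫ ω, (sig ω (root d) - mag θ (fld R (D ω)) (root d)) ^ 2 ∂PP d θ ≤
      ∫ ω, (sig ω (root d) - Z (D ω)) ^ 2 ∂PP d θ := by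
  have bm : BM fun x : X d => mag θ (fld R x) (root d) := by fun_prop
  have c := CE_root h0 h1 R (bm.sub hZ)
  simp only [e, fld_mask fun _ h => h] at c
  have b1 := (bm.sub hZ).comp measurable_D
  have b2 := bm.comp measurable_D
  have b3 := (BM_sig' (root d)).sub b2
  rw [← sub_eq_zero, ← int_sub (b1.mul (BM_sig' _)) (b1.mul b2)] at c
  have := int_l2 (μ := PP d θ) (b3.pow 2) ((b1.mul (BM_sig' (root d))).sub (b1.mul b2)) 1 2
  rw [c, mul_zero, add_zero, one_mul] at this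
  rw [← this]
  exact int_mono (((BM.const _).mul (b3.pow 2)).add ((BM.const _).mul
    ((b1.mul (BM_sig' _)).sub (b1.mul b2)))) (((BM_sig' _).sub (hZ.comp measurable_D)).pow 2)
    fun ω => by nlinarith [sq_nonneg (mag θ (fld R (D ω)) (root d) - Z (D ω))]

theorem exists_Psi (hb : ((d : ℝ) - 1) * θ ^ 2 ≤ 1) (hd : 3 ≤ d) : ∃ Ψ : X d → ℝ, Measurable Ψ ∧
    ∀ᵐ ω ∂PP d θ, sig ω (root d) = Ψ (Lab θ (D ω)) := by
  have mL : Measurable fun ω : Om d => Lab θ (D ω) := by fun_prop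
  have bc : BM (clp 1) := BM.of_le (by fun_prop) (abs_clp_le zero_le_one)
  have bh := BM_hat (PP d θ) (fun ω : Om d => Lab θ (D ω)) (fun ω => sig ω (root d)) bc
  refine ⟨_, bh.1, ae_eq_of_sq (BM_sig' _) (bh.comp mL) ?_⟩
  refine ge_of_tendsto (tendsto_const_div_atTop_nhds_zero_nat (169 : ℝ)) ?_
  filter_upwards [eventually_gt_atTop 0] with M hM
  have p := hat_proj (PP d θ) mL (measurable_sig (root d)) bc
    ((BM_mh θ (M + 1) (M + 1 : ℕ) (root d)).comp (measurable_cut (M + 1 : ℕ)))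
  simp only [clp_of_le (sign_abs (sig_cases _ _)).le] at p
  refine p.trans (le_trans (le_of_eq (integral_congr_ae ?_)) ((proj_le h0 h1 _ (BM_Zm M)
    (Zm_mask M)).trans (int_Zm θ hM)))
  filter_upwards [ae_eq_of_sq ((BM_mag' θ (root d)).comp (measurable_hc _ _))
    ((BM_mh θ _ _ (root d)).comp (measurable_Ls θ _)) (ff_zero h0 h1 hb hd (Nat.le_add_left 1 M))]
    with ω hω
  rw [fld_rd]
  exact congrArg (fun y => (sig ω (root d) - y) ^ 2) hω.symm

end

end Vale.Agent.P161
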