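import Vale.Agent.P161.Fin1

namespace Vale.Agent.P161

open MeasureTheory Finset Real Filter Topology

set_option linter.unusedSectionVars false

variable {d : ℕ}

noncomputable def pos (y : ℝ) : Bool := decide (0 < y)

@[fun_prop] lemma measurable_pos : Measurable pos :=
  measurable_to_bool (by
    convert measurableSet_Ioi (a := (0 : ℝ)) using 1
    ext y; simp [pos])

noncomputable def bs (ω : Om d) (v : V d) : Bool := pos (sig ω v)

@[fun_prop] lemma measurable_bs : Measurable (bs (d := d)) := by unfold bs; fun_prop

lemma map_pos_two {p : ℝ} (hp : p ∈ Set.Icc (0 : ℝ) 1) : (two p).map pos = coin p := by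
  simp only [two, coin, cl_of_mem hp]
  rw [Measure.map_add _ _ measurable_pos, Measure.map_smul, Measure.map_smul,
    Measure.map_dirac' measurable_pos, Measure.map_dirac' measurable_pos]
  norm_num [pos]

lemma spin_step (ξ : V d → Bool) {v : V d} {j : Fin d} (hj : j ∈ ch v) :
    spin ξ (step j v).1 (step j v).2 =
      if ξ (step j v) then spin ξ v.1 v.2 else !spin ξ v.1 v.2 := by
  have e : step j v = ⟨j :: v.1, step_val hj ▸ (step j v).2⟩ := Subtype.ext (step_val hj)
  rw [e]; rfl

lemma measurable_spin (v : V d) : Measurable fun ξ : V d → Bool => spin ξ v.1 v.2 := by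
  induction v using V_ind with
  | h0 => exact measurable_pi_apply (root d)
  | hs v j hj ih =>
    simp only [spin_step _ hj]
    exact Measurable.ite (measurableSet_eq_fun (by fun_prop) measurable_const) ih
      ((measurable_of_countable not).comp ih)

lemma spin_eq (ω : Om d) (v : V d) : spin (fun w => pos (ω (w, none))) v.1 v.2 = bs ω v := by
  induction v using V_ind with
  | h0 =>
    change pos (ω (root d, none)) = pos (sg (ω (root d, none)))
    unfold sg pos; split_ifs with h <;> simp [h]
  | hs v j hj ih =>
    rw [spin_step _ hj, ih, bs, bs, sig_step _ hj]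
    unfold sg pos
    rcases sig_cases ω v with e | e <;> rw [e] <;> by_cases h : 0 < ω (step j v, none) <;> simp [h]

lemma ising_eq (β : ℝ) : ising d β = (PP d (tanh β)).map bs := by
  have h1 := Measure.map_infinitePi_infinitePi_of_inj (P := rho (d := d) (tanh β))
    (f := fun v : V d => ((v, none) : K d)) fun a b h => congrArg Prod.fst h
  have h2 := Measure.infinitePi_map_pi (fun v : V d => rho (tanh β) ((v, none) : K d))
    fun _ => measurable_pos
  rw [← h1, Measure.map_map (by fun_prop) (by fun_prop)] at h2
  have e : (fun v : V d => if v = root d then coin (1 / 2) else coin ((1 + tanh β) / 2)) =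
      fun v => (rho (tanh β) ((v, none) : K d)).map pos := funext fun v => by
    simp only [rho]
    split_ifs
    · rw [map_pos_two (by norm_num)]
    · rw [map_pos_two ⟨by linarith [neg_one_lt_tanh β], by linarith [tanh_lt_one β]⟩]
  unfold ising
  simp only [e]
  rw [← h2, Measure.map_map (measurable_pi_lambda _ measurable_spin) (by fun_prop)]
  congr 1
  funext ω v
  exact spin_eq ω v

lemma exists_lab : ∃ e : unitInterval → ℕ → ℝ × ℝ, MeasurePreserving
    (fun (U : V d → unitInterval) (l : J d) => e (U l.1) l.2)
    (Measure.infinitePi fun _ => volume) (PL d) := by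
  obtain ⟨e, he, h⟩ := (Measure.infinitePi fun _ : ℕ => lam.prod lam).exists_measurable_map_eq
  refine ⟨e, by fun_prop, ?_⟩
  have h1 := Measure.infinitePi_map_pi (fun _ : V d => (volume : Measure unitInterval)) fun _ => he
  have h2 := Measure.infinitePi_map_curry_symm fun (_ : V d) (_ : ℕ) => lam.prod lam
  simp only [h] at h1
  rw [← h1, Measure.map_map (by fun_prop) (by fun_prop)] at h2
  exact h2

theorem forward {β : ℝ} (hβ : 0 ≤ β) (hb : ((d : ℝ) - 1) * tanh β ^ 2 ≤ 1) (hd : 3 ≤ d) :
    IsFIID (ising d β) := by
  have h0 : 0 ≤ tanh β := by simpa using tanh_mono hβ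
  have h1 := tanh_lt_one β
  obtain ⟨Ψ, mΨ, hΨ⟩ := exists_Psi h0 h1 hb hd
  obtain ⟨e, he⟩ := exists_lab (d := d)
  let S : X d → V d → Bool := fun x v => pos (Ψ (sh (lm v) x))
  have mS : Measurable S := by fun_prop
  have mp := mp_Lab (d := d) h0 h1
  have key : ∀ᵐ ω ∂PP d (tanh β), S (Lab (tanh β) (D ω)) = bs ω := by
    filter_upwards [ae_all_iff.2 fun v => (mp_act _ (lm v)).quasiMeasurePreserving.ae hΨ] with ω hω
    funext v
    have := hω v
    rw [sig_act, D_act, Lab_sh, lm_e, mul_root] at this
    simp only [S, bs, this]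
  refine ⟨_, mS.comp he.measurable, ?_, fun g => ?_⟩
  · rw [← Measure.map_map mS he.measurable, he.map_eq, ← mp.map_eq,
      Measure.map_map mS mp.measurable, ising_eq]
    exact Measure.map_congr key
  · obtain ⟨t, ht⟩ := TAut.exists_of_iso g.symm
    have : ∀ᵐ x ∂PL d, ∀ v, S (sh t x) v = S x (t.e v) := by
      rw [← mp.map_eq, ae_all_iff]
      intro v
      rw [ae_map_iff mp.measurable.aemeasurable (measurableSet_eq_fun (by fun_prop) (by fun_prop))]
      filter_upwards [key, (mp_act _ t).quasiMeasurePreserving.ae key] with ω a b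
      rw [← Lab_sh, ← D_act, a, b, bs, bs, sig_act]
    filter_upwards [he.quasiMeasurePreserving.ae this] with U hU
    funext v
    simp only [← ht]
    exact hU v

end Vale.Agent.P161
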