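import Vale.Agent.P161.Innov

namespace Vale.Agent.P161

open MeasureTheory Finset Real Filter Topology

set_option linter.unusedSectionVars false

variable {d : ℕ}

/-- Agreement before time `t`. -/
def Ag (t : ℝ) (x x' : X d) : Prop := ∀ l, T x l < t ∨ T x' l < t → x l = x' l

lemma T_congr {x x' : X d} {l : J d} (h : x l = x' l) : T x l = T x' l := by rw [T, T, h]

lemma Ag.iff {t c : ℝ} {x x' : X d} (h : Ag t x x') (hc : c ≤ t) (l : J d) :
    T x l < c ↔ T x' l < c :=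
  ⟨fun a => T_congr (h l (Or.inl (a.trans_le hc))) ▸ a,
    fun a => (T_congr (h l (Or.inr (a.trans_le hc)))).symm ▸ a⟩

lemma Ag.mono {t c : ℝ} {x x' : X d} (h : Ag t x x') (hc : c ≤ t) : Ag c x x' :=
  fun l a => h l (a.imp (·.trans_le hc) (·.trans_le hc))

lemma Ag.fc {t : ℝ} {x x' : X d} (h : Ag t x x') (N : ℕ) {c : V d → ℝ} (hc : ∀ v, c v ≤ t) :
    fc N c x = fc N c x' :=
  funext fun v => fc_congr (fun _ => h.iff (hc v) _) fun _ a => h _ (Or.inl (a.trans_le (hc v)))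

noncomputable def cut (s : ℝ) (x : X d) : X d := fun l => if T x l < s then x l else (2, 0)

@[fun_prop] lemma measurable_cut (s : ℝ) : Measurable (cut (d := d) s) :=
  measurable_pi_lambda _ fun _ => Measurable.ite (measurableSet_lt (by fun_prop) (by fun_prop))
    (by fun_prop) measurable_const

lemma Ag.cut {t : ℝ} {x x' : X d} (h : Ag t x x') : cut t x = cut t x' := by
  funext l
  simp only [Vale.Agent.P161.cut, ← h.iff le_rfl l]
  split_ifs with a
  · exact h l (Or.inl a)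
  · rfl

lemma ag_cut (t : ℝ) (x : X d) : Ag t (cut t x) x := fun l h => by
  by_cases a : T x l < t
  · simp only [cut, if_pos a]
  · refine absurd (h.resolve_right a) (not_lt.2 ((not_lt.1 a).trans ?_))
    have : cl 2 = 1 := by norm_num [cl]
    have e : cut t x l = (2, 0) := if_neg a
    simp only [T, e, Tm, this]; exact add_le_add_right (cl_mem _).2 _

lemma Ag.lab {t : ℝ} {x x' : X d} (h : Ag t x x') (θ : ℝ) : Ag t (Lab θ x) (Lab θ x') :=
  fun l a => by
    have e : x l = x' l := h l a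
    have a' : T x l < t := a.elim id fun b => (T_congr e).symm ▸ b
    simp only [Lab, Uk, am, ← T_congr e, ← e, h.fc _ fun _ => a'.le]

lemma ag_mask {t : ℝ} {R : Rule d} {x : X d} (h : ∀ l, T x l < t → R.R (clk x) l) :
    Ag t (mask R x) x := fun l a => mask_of (h l (a.elim id id))

lemma cut_sh (g : TAut d) (s : ℝ) (x : X d) : cut s (sh g x) = sh g (cut s x) := rfl

/-- The amplitude of a slot whose time falls in `[s, s')`. -/
noncomputable def aI (s s' : ℝ) (r : ℕ) (τ : ℝ) : ℝ :=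
  if s ≤ Tm r τ ∧ Tm r τ < s' then amp r τ else 0

lemma measurableSet_I (s s' : ℝ) (r : ℕ) : MeasurableSet {τ | s ≤ Tm r τ ∧ Tm r τ < s'} :=
  measurable_Tm r measurableSet_Ico

lemma aI_mem (s s' : ℝ) (r : ℕ) (τ : ℝ) : 0 ≤ aI s s' r τ ∧ aI s s' r τ ≤ 1 / 2 := by
  unfold aI; split_ifs
  · exact ⟨amp_nonneg _ _, (le_abs_self _).trans (abs_amp_le _ _)⟩
  · norm_num

@[fun_prop] lemma BM_aI {α : Type*} [MeasurableSpace α] {f : α → ℝ} (hf : Measurable f)
    (s s' : ℝ) (r : ℕ) : BM fun a => aI s s' r (f a) :=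
  BM.of_le (C := 1 / 2) ((Measurable.ite (measurableSet_I s s' r) (measurable_amp r)
    measurable_const).comp hf) fun a => by
      rw [abs_of_nonneg (aI_mem _ _ _ _).1]; exact (aI_mem _ _ _ _).2

lemma int_I (r : ℕ) {s s' : ℝ} (h : s ≤ s') :
    ∫ τ, (if s ≤ Tm r τ ∧ Tm r τ < s' then (1 : ℝ) else 0) ∂lam ≤ s' - s := by
  have : ∫ τ, (if s ≤ Tm r τ ∧ Tm r τ < s' then (1 : ℝ) else 0) ∂lam =
      ∫ τ, (Set.Ico (s - r) (s' - r)).indicator 1 τ ∂lam := by
    refine integral_congr_ae (ae_cl.mono fun t ht => ?_)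
    simp only [Tm, ht, Set.indicator, Set.mem_Ico, Pi.one_apply]
    exact if_congr ⟨fun a => ⟨by linarith, by linarith⟩, fun a => ⟨by linarith, by linarith⟩⟩ rfl rfl
  rw [this, integral_indicator_one measurableSet_Ico]
  have h2 : lam (Set.Ico (s - r) (s' - r)) ≤ volume (Set.Ico (s - r) (s' - r)) :=
    Measure.restrict_apply_le _ _
  rw [Real.volume_Ico] at h2
  have := ENNReal.toReal_le_of_le_ofReal (by linarith) h2
  rw [Measure.real]; linarith

lemma int_half : ∫ τ, (if cl τ < 1 / 2 then (1 : ℝ) else 0) ∂lam = 1 / 2 := by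
  have : ∫ τ, (if cl τ < 1 / 2 then (1 : ℝ) else 0) ∂lam =
      ∫ τ, (Set.Iio (1 / 2)).indicator 1 τ ∂lam :=
    integral_congr_ae (ae_cl.mono fun t ht => by simp only [ht]; rfl)
  rw [this, integral_indicator_one measurableSet_Iio, Measure.real, lam,
    Measure.restrict_apply measurableSet_Iio]
  have : Set.Iio (1 / 2 : ℝ) ∩ Set.Icc 0 1 = Set.Ico 0 (1 / 2) := by
    ext t; simp only [Set.mem_inter_iff, Set.mem_Iio, Set.mem_Icc, Set.mem_Ico]
    exact ⟨fun a => ⟨a.2.1, a.1⟩, fun a => ⟨a.2, a.1, by linarith⟩⟩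
  rw [this, Real.volume_Ico, ENNReal.toReal_ofReal (by norm_num)]; norm_num

lemma BM_half : BM fun τ => if cl τ < 1 / 2 then (1 : ℝ) else 0 :=
  BM.ind (measurableSet_lt measurable_cl measurable_const)

lemma D_upd_kt (ω : Om d) {k l : J d} (h : l ≠ k) (t : ℝ) :
    D (Function.update ω (kt k) t) l = D ω l := by
  simp only [D, Yt, upd_kt_kt ω h, upd_kt_kn, sig_upd_kt]

lemma BM_updD {θ : ℝ} {Φ : X d → ℝ} (hΦ : BM Φ) (k : K d) :
    BM fun τ => ∫ ω, Φ (D (Function.update ω k τ)) ∂PP d θ :=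
  (hΦ.comp (φ := fun p : ℝ × Om d => D (Function.update p.2 k p.1))
    (measurable_D.comp ((measurable_upd k).comp measurable_swap))).integral _

lemma haz1 (θ : ℝ) (k : J d) {τ : ℝ} (hτ : cl τ < 1 / 2) {Φ : X d → ℝ} (hΦ : BM Φ)
    (h0 : ∀ x, 0 ≤ Φ x) (hP : ∀ x x', Ag (Tm k.2 τ) x x' → Φ x = Φ x') :
    ∫ ω, Φ (D (Function.update ω (kt k) τ)) ∂PP d θ ≤ 2 * ∫ ω, Φ (D ω) ∂PP d θ := by
  classical
  rw [int_upd' _ (kt k) (hΦ.comp measurable_D), rho_kt]
  have := int_mono (μ := lam) (((BM.const 1).sub BM_half).mul (BM.const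
    (∫ ω, Φ (D (Function.update ω (kt k) τ)) ∂PP d θ))) (BM_updD (θ := θ) hΦ (kt k)) fun t => by
      split_ifs with h
      · simpa using integral_nonneg fun ω => h0 _
      · rw [sub_zero, one_mul]
        refine le_of_eq (congrArg _ (funext fun ω => hP _ _ fun l hl => ?_))
        by_cases e : l = k
        · subst e
          simp only [T_D, Function.update_self, Tm] at hl
          rcases hl with hl | hl <;> linarith
        · rw [D_upd_kt _ e, D_upd_kt _ e]
  rw [integral_mul_const, int_sub (BM.const _) BM_half, int_half] at this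
  simp only [integral_const, probReal_univ, smul_eq_mul] at this
  linarith

lemma haz (θ : ℝ) (r : ℕ) (S : Finset (V d)) {s s' c α : ℝ} (hs : s ≤ s') (hc : 0 ≤ c)
    (hα : min s' (1 / 2) ≤ α) {Φ : V d → ℝ × X d → ℝ} (hΦ : ∀ u, BM (Φ u))
    (h0 : ∀ u p, 0 ≤ Φ u p) (hP : ∀ u t x x', s ≤ t → Ag t x x' → Φ u (t, x) = Φ u (t, x'))
    (hb : ∀ t, s ≤ t → t < s' → ∑ u ∈ S, ∫ ω, Φ u (t, D ω) ∂PP d θ ≤ c) :
    ∑ u ∈ S, ∫ ω, aI s s' r (clk (D ω) (u, r)) ^ 2 * Φ u (T (D ω) (u, r), D ω) ∂PP d θ ≤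
      (s' - s) * (2 * α ^ 2 * c) := by
  classical
  have b1 : ∀ u, BM fun τ => ∫ ω, Φ u (Tm r τ, D (Function.update ω (kt (u, r)) τ)) ∂PP d θ :=
    fun u => ((hΦ u).comp (φ := fun p : ℝ × Om d =>
      (Tm r p.1, D (Function.update p.2 (kt (u, r)) p.1))) (Measurable.prodMk (by fun_prop)
      (measurable_D.comp ((measurable_upd _).comp measurable_swap)))).integral _
  have e : ∀ u, ∫ ω, aI s s' r (clk (D ω) (u, r)) ^ 2 * Φ u (T (D ω) (u, r), D ω) ∂PP d θ =
      ∫ τ, aI s s' r τ ^ 2 *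
        ∫ ω, Φ u (Tm r τ, D (Function.update ω (kt (u, r)) τ)) ∂PP d θ ∂lam := fun u => by
    rw [int_upd' _ (kt (u, r)) (BM.mul (by fun_prop) ((hΦ u).comp (by fun_prop))), rho_kt]
    congr 1; ext τ
    rw [← integral_const_mul]
    simp only [T_D, clk, D, Function.update_self]
  simp only [e]
  rw [← int_sum _ fun u => BM.mul (by fun_prop) (b1 u)]
  refine (int_mono (BM.sum _ fun u => BM.mul (by fun_prop) (b1 u))
    ((BM.ind (measurableSet_I s s' r)).mul (BM.const (2 * α ^ 2 * c))) fun τ => ?_).trans ?_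
  · rw [← mul_sum, aI]
    split_ifs with h
    · by_cases hτ : cl τ < 1 / 2
      · have a1 : amp r τ ^ 2 ≤ α ^ 2 := pow_le_pow_left₀ (amp_nonneg _ _)
          ((amp_le _ _).trans ((min_le_min_right _ h.2.le).trans hα)) 2
        have a2 : ∑ u ∈ S, ∫ ω, Φ u (Tm r τ, D (Function.update ω (kt (u, r)) τ)) ∂PP d θ ≤
            2 * c := by
          refine (sum_le_sum fun u _ => haz1 θ (u, r) hτ (Φ := fun x => Φ u (Tm r τ, x))
            ((hΦ u).comp (by fun_prop)) (fun _ => h0 _ _) fun x x' => hP u _ x x' h.1).trans ?_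
          rw [← mul_sum]; linarith [hb _ h.1 h.2]
        have := mul_le_mul a1 a2 (sum_nonneg fun u _ => integral_nonneg fun _ => h0 _ _)
          (sq_nonneg _)
        linarith
      · simp only [amp, if_neg hτ]; simp; positivity
    · simp
  · rw [integral_mul_const]
    exact mul_le_mul_of_nonneg_right (int_I r hs) (by positivity)

lemma tele {ι : Type*} [DecidableEq ι] (T : ι → ℝ) (hT : Function.Injective T) (g : Finset ι → ℝ)
    (A : Finset ι) : g A - g ∅ = ∑ k ∈ A, (g (insert k (A.filter fun l => T l < T k)) -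
      g (A.filter fun l => T l < T k)) := by
  induction A using Finset.induction_on_max_value T with
  | empty => simp
  | insert a A ha hm ih =>
    have e1 : (insert a A).filter (fun l => T l < T a) = A := by
      rw [filter_insert, if_neg (lt_irrefl _)]
      exact filter_true_of_mem fun l hl => lt_of_le_of_ne (hm l hl)
        (hT.ne (by rintro rfl; exact ha hl))
    rw [sum_insert ha, e1, sum_congr rfl fun k hk => by
      rw [filter_insert, if_neg (not_lt.2 (hm k hk))], ← ih]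
    ring

noncomputable def hyb (n : ℕ) (s t : ℝ) (v : V d) : ℝ := if len v ≤ n then t else s

@[fun_prop] lemma measurable_hyb (n : ℕ) (s : ℝ) : Measurable (hyb (d := d) n s) := by
  refine measurable_pi_lambda _ fun v => ?_
  unfold hyb; split_ifs <;> fun_prop

lemma hyb_mem {n : ℕ} {s t : ℝ} (h : s ≤ t) (v : V d) : s ≤ hyb n s t v ∧ hyb n s t v ≤ t := by
  unfold hyb; split_ifs
  exacts [⟨h, le_rfl⟩, ⟨le_rfl, h⟩]

noncomputable def rh (N n : ℕ) (s : ℝ) (k : J d) : Rule d := rk N k (hyb n s) (by fun_prop)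

lemma not_rh {N n : ℕ} {s : ℝ} {k : J d} (hk : len k.1 ≤ n) (τ : J d → ℝ) : ¬ (rh N n s k).R τ k :=
  fun h => by
    have := h.1
    simp only [hyb, if_pos hk] at this
    exact lt_irrefl _ this

lemma tele_hyb (G : (V d → ℝ) → ℝ) (N n : ℕ) {s s' : ℝ} (hs : s ≤ s') {x : X d}
    (hx : Function.Injective (T x)) : G (fc N (hyb n s s') x) - G (fc N (fun _ => s) x) =
      ∑ k ∈ ball d n ×ˢ range N, (if s ≤ T x k ∧ T x k < s' then 1 else 0) *
        (G (fld ((rh N n s k).ins k) x) - G (fld (rh N n s k) x)) := by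
  classical
  set A := (ball d n ×ˢ range N).filter fun k => s ≤ T x k ∧ T x k < s'
  have hA : ∀ l, l ∈ A ↔ (len l.1 ≤ n ∧ l.2 < N) ∧ s ≤ T x l ∧ T x l < s' := fun l => by
    simp only [A, mem_filter, mem_product, mem_ball, mem_range]
  have := tele (T x) hx (fun B => G (fldS N (fun l => T x l < s ∨ l ∈ B) x)) A
  have key : ∀ t, s ≤ t → t ≤ s' → ∀ l : J d, (T x l < hyb n s t l.1 ∧ l.2 < N) ↔
      ((T x l < s ∨ l ∈ A ∧ T x l < t) ∧ l.2 < N) := fun t h1 h2 l => by
    rw [hA, hyb]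
    refine and_congr_left fun hN => ?_
    split_ifs with h
    · refine ⟨fun a => ?_, fun a => a.elim (·.trans_le h1) (·.2)⟩
      by_cases b : T x l < s
      · exact Or.inl b
      · exact Or.inr ⟨⟨⟨h, hN⟩, not_lt.1 b, a.trans_le h2⟩, a⟩
    · exact ⟨Or.inl, fun a => a.elim id fun b => absurd b.1.1.1 h⟩
  have e1 : fc N (hyb n s s') x = fldS N (fun l => T x l < s ∨ l ∈ A) x :=
    funext fun v => fldS_congr (fun r => (key s' hs le_rfl (v, r)).trans
      (and_congr_left' (or_congr_right (and_iff_left_of_imp fun a => ((hA _).1 a).2.2))))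
      fun _ _ _ => rfl
  have e2 : fc N (fun _ => s) x = fldS N (fun l => T x l < s ∨ l ∈ (∅ : Finset (J d))) x :=
    funext fun v => fldS_congr (fun r => by simp) fun _ _ _ => rfl
  rw [e1, e2, this]
  simp only [ite_mul, one_mul, zero_mul]
  rw [← sum_filter]
  refine sum_congr rfl fun k hk => ?_
  obtain ⟨⟨_, k2⟩, k3, k4⟩ := (hA k).1 hk
  congr 2
  · refine funext fun v => fldS_congr (fun r => ?_) fun _ _ _ => rfl
    have := key _ k3 k4.le (v, r)
    simp only [mem_insert, mem_filter]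
    refine ⟨fun a => ?_, fun a => ?_⟩
    · have b : ((rh N n s k).ins k).R (clk x) (v, r) := by
        rcases a.1 with b | b | b
        exacts [Or.inl (this.2 ⟨Or.inl b, a.2⟩), Or.inr b, Or.inl (this.2 ⟨Or.inr b, a.2⟩)]
      exact ⟨b, Rule.bdd _ _ (v, r) b⟩
    · rcases a.1 with b | b
      · exact ⟨(this.1 b).1.imp_right Or.inr, b.2⟩
      · exact ⟨Or.inr (Or.inl b), by rw [← b] at k2; exact k2⟩
  · refine funext fun v => fldS_congr (fun r => ?_) fun _ _ _ => rfl
    have := key _ k3 k4.le (v, r)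
    simp only [mem_filter]
    exact ⟨fun a => ⟨this.2 a, a.2⟩, fun a => this.1 a.1⟩

section
variable {θ : ℝ} (h0 : 0 ≤ θ) (h1 : θ < 1)
include h0 h1

lemma sq_diff {R R' : Rule d} (h : ∀ τ l, R.R τ l → R'.R τ l) (v : V d)
    {w : (J d → ℝ) → ℝ} (hw : BM w) :
    ∫ ω, w (clk (D ω)) * (mag θ (fld R' (D ω)) v ^ 2 - mag θ (fld R (D ω)) v ^ 2) ∂PP d θ =
      ∫ ω, w (clk (D ω)) * (mag θ (fld R' (D ω)) v - mag θ (fld R (D ω)) v) ^ 2 ∂PP d θ := by
  have b : BM fun x : X d => w (clk x) * mag θ (fld R x) v :=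
    (hw.comp measurable_clk).mul (by fun_prop)
  have c1 := CE h0 h1 R v b
  have c2 := CE h0 h1 R' v b
  simp only [clk_mask, fld_mask fun _ h => h, fld_mask (h _)] at c1 c2
  have bw : BM fun ω : Om d => w (clk (D ω)) := hw.comp (by fun_prop)
  have := int_sub ((b.comp measurable_D).mul (g := fun ω => mag θ (fld R' (D ω)) v) (by fun_prop))
    ((b.comp measurable_D).mul (g := fun ω => mag θ (fld R (D ω)) v) (by fun_prop)) (μ := PP d θ)
  rw [← c1, ← c2, sub_self] at this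
  rw [← sub_eq_zero, ← int_sub (bw.mul (by fun_prop)) (bw.mul (by fun_prop)), ← mul_zero 2,
    ← this, ← integral_const_mul]
  congr 1; ext ω; ring

lemma sq_diff' {R R' : Rule d} (h : ∀ τ l, R.R τ l → R'.R τ l) (v : V d) :
    ∫ ω, (mag θ (fld R' (D ω)) v - mag θ (fld R (D ω)) v) ^ 2 ∂PP d θ =
      ∫ ω, mag θ (fld R' (D ω)) v ^ 2 ∂PP d θ - ∫ ω, mag θ (fld R (D ω)) v ^ 2 ∂PP d θ := by
  have := sq_diff h0 h1 h v (BM.const 1)
  simp only [one_mul] at this
  rw [← this, int_sub (by fun_prop) (by fun_prop)]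

lemma sq_mono {R R' : Rule d} (h : ∀ τ l, R.R τ l → R'.R τ l) (v : V d) :
    ∫ ω, mag θ (fld R (D ω)) v ^ 2 ∂PP d θ ≤ ∫ ω, mag θ (fld R' (D ω)) v ^ 2 ∂PP d θ := by
  rw [← sub_nonneg, ← sq_diff' h0 h1 h v]; positivity

end

end Vale.Agent.P161
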