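import Vale.Agent.P161.CE2

namespace Vale.Agent.P161

open MeasureTheory Finset Real Filter Topology

set_option linter.unusedSectionVars false

variable {d : ℕ}

lemma ae_upd {K E : Type*} [MeasurableSpace E] (ρ : K → Measure E)
    [∀ k, IsProbabilityMeasure (ρ k)] [DecidableEq K] (k : K) {p : (K → E) → Prop}
    (hp : MeasurableSet {ω | p ω}) (h : ∀ ω, ∀ᵐ t ∂ρ k, p (Function.update ω k t)) :
    ∀ᵐ ω ∂Measure.infinitePi ρ, p ω := by
  rw [← (mp_upd ρ k).map_eq, ae_map_iff (measurable_upd k).aemeasurable hp]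
  exact (Measure.ae_prod_iff_ae_ae (measurable_upd k hp)).2 (ae_of_all _ h)

lemma T_D (ω : Om d) (l : J d) : T (D ω) l = Tm l.2 (ω (kt l)) := rfl

lemma ae_T_inj (θ : ℝ) : ∀ᵐ ω ∂PP d θ, Function.Injective (T (D ω)) := by
  classical
  have : ∀ k l : J d, ∀ᵐ ω ∂PP d θ, T (D ω) k = T (D ω) l → k = l := fun k l => by
    by_cases hkl : k = l
    · exact ae_of_all _ fun _ _ => hkl
    refine ae_upd _ (kt k) ?_ fun ω => ?_
    · simp only [hkl, imp_false]
      exact (measurableSet_eq_fun (by fun_prop) (by fun_prop)).compl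
    · have h1 : ∀ᵐ t ∂lam, t ≠ Tm l.2 (ω (kt l)) - k.2 :=
        ae_restrict_of_ae (by simp [ae_iff])
      filter_upwards [h1, ae_cl] with t h2 h3 h4
      rw [T_D, T_D, Function.update_self, upd_kt_kt ω (Ne.symm hkl), Tm, h3] at h4
      exact absurd (by linarith) h2
  filter_upwards [ae_all_iff.2 fun k => ae_all_iff.2 fun l => this k l] with ω h
  exact fun k l => h k l

/-- Fields revealed by vertex-dependent cutoffs. -/
noncomputable def fc (N : ℕ) (c : V d → ℝ) (x : X d) : V d → ℝ :=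
  fldS N (fun l => T x l < c l.1) x

@[fun_prop] lemma measurable_fc {α : Type*} [MeasurableSpace α] (N : ℕ) {c : α → V d → ℝ}
    {x : α → X d} (hc : Measurable c) (hx : Measurable x) :
    Measurable fun a => fc N (c a) (x a) :=
  measurable_fldS N (fun _ => measurableSet_lt (by fun_prop) (by fun_prop)) hx

lemma lt_of_T_lt {x : X d} {l : J d} {N : ℕ} {c : ℝ} (h : T x l < c) (hc : c ≤ N) : l.2 < N := by
  have : (l.2 : ℝ) < N := (le_Tm _ _).trans_lt (h.trans_le hc)
  exact_mod_cast this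

lemma fc_N {N N' : ℕ} {c : V d → ℝ} (h : ∀ v, c v ≤ N) (h' : ∀ v, c v ≤ N') (x : X d) :
    fc N c x = fc N' c x :=
  funext fun v => fldS_congr (fun _ => ⟨fun a => ⟨a.1, lt_of_T_lt a.1 (h' v)⟩,
    fun a => ⟨a.1, lt_of_T_lt a.1 (h v)⟩⟩) fun _ _ _ => rfl

lemma fc_congr {N : ℕ} {c c' : V d → ℝ} {x x' : X d} {v v' : V d}
    (h : ∀ r, T x (v, r) < c v ↔ T x' (v', r) < c' v')
    (hw : ∀ r, T x (v, r) < c v → x (v, r) = x' (v', r)) : fc N c x v = fc N c' x' v' :=
  fldS_congr (fun r => and_congr_left' (h r)) fun r a _ => by simp only [wv, am, hw r a]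

lemma abs_fc_le (N : ℕ) (c : V d → ℝ) (x : X d) (v : V d) : |fc N c x v| ≤ N :=
  abs_fldS_le _ _ _ _

lemma fc_sh (g : TAut d) (N : ℕ) (c : V d → ℝ) (x : X d) :
    fc N (fun v => c (g.e v)) (sh g x) = fun v => fc N c x (g.e v) := rfl

noncomputable def rc (N : ℕ) (γ : (J d → ℝ) → V d → ℝ) (hγ : Measurable γ) : Rule d where
  R := fun τ l => Tm l.2 (τ l) < γ τ l.1 ∧ l.2 < N
  meas := fun l => (measurableSet_lt (f := fun τ : J d → ℝ => Tm l.2 (τ l))
    (g := fun τ => γ τ l.1) (by fun_prop) (by fun_prop)).inter (MeasurableSet.const (l.2 < N))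
  N := N
  bdd := fun _ _ h => h.2

lemma fld_rc (N : ℕ) (γ : (J d → ℝ) → V d → ℝ) (hγ : Measurable γ) (x : X d) :
    fld (rc N γ hγ) x = fc N (γ (clk x)) x :=
  funext fun _ => fldS_congr (fun _ => ⟨fun a => ⟨a.1.1, a.2⟩, fun a => ⟨⟨a.1, a.2⟩, a.2⟩⟩)
    fun _ _ _ => rfl

/-- Deterministic cutoffs. -/
noncomputable def rd (N : ℕ) (c : V d → ℝ) : Rule d := rc N (fun _ => c) measurable_const

lemma fld_rd (N : ℕ) (c : V d → ℝ) (x : X d) : fld (rd N c) x = fc N c x := fld_rc _ _ _ _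

/-- Cutoffs read at the time of slot `k`. -/
noncomputable def rk (N : ℕ) (k : J d) (γ : ℝ → V d → ℝ) (hγ : Measurable γ) : Rule d :=
  rc N (fun τ => γ (Tm k.2 (τ k))) (by fun_prop)

lemma fld_rk (N : ℕ) (k : J d) (γ : ℝ → V d → ℝ) (hγ : Measurable γ) (x : X d) :
    fld (rk N k γ hγ) x = fc N (γ (T x k)) x := fld_rc _ _ _ _

def Rule.ins (R : Rule d) (k : J d) : Rule d where
  R := fun τ l => R.R τ l ∨ l = k
  meas := fun l => (R.meas l).union (MeasurableSet.const (l = k))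
  N := max R.N (k.2 + 1)
  bdd := fun τ l h => by
    rcases h with h | rfl
    · exact (R.bdd τ l h).trans_le (le_max_left _ _)
    · exact (Nat.lt_succ_self _).trans_le (le_max_right _ _)

lemma fld_ins (R : Rule d) {k : J d} {x : X d} (hk : ¬ R.R (clk x) k) (w : V d) :
    fld (R.ins k) x w = fld R x w + if w = k.1 then artanh (wv x k) else 0 := by
  classical
  have e : fld R x w = fldS (R.ins k).N (R.R (clk x)) x w :=
    fldS_congr (fun r => ⟨fun a => ⟨a.1, (R.ins k).bdd (clk x) (w, r) (Or.inl a.1)⟩,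
      fun a => ⟨a.1, R.bdd _ (w, r) a.1⟩⟩) fun _ _ _ => rfl
  have e2 : (if w = k.1 then artanh (wv x k) else 0) =
      ∑ r ∈ range (R.ins k).N, if (w, r) = k then artanh (wv x (w, r)) else 0 := by
    split_ifs with h
    · subst h
      rw [sum_eq_single k.2, if_pos rfl]
      · intro b _ hb; rw [if_neg fun e => hb (congrArg Prod.snd e)]
      · intro h; exact absurd (mem_range.2 ((R.ins k).bdd (clk x) k (Or.inr rfl))) h
    · exact (sum_eq_zero fun r _ => if_neg (by rintro rfl; exact h rfl)).symm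
  rw [e, e2, fld, fldS, fldS, ← sum_add_distrib]
  refine sum_congr rfl fun r _ => ?_
  by_cases h1 : (w, r) = k
  · subst h1
    rw [if_pos (show (R.ins (w, r)).R (clk x) (w, r) from Or.inr rfl), if_neg hk, if_pos rfl,
      zero_add]
  · rw [if_neg h1, add_zero]
    exact if_congr ⟨fun a => a.resolve_right h1, Or.inl⟩ rfl rfl

noncomputable def Uk (θ : ℝ) (x : X d) (k : J d) : ℝ :=
  Fc (am x k * mag θ (fc (k.2 + 1) (fun _ => T x k) x) k.1) (clp 1 (x k).2)

/-- Clocks and innovations. -/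
noncomputable def Lab (θ : ℝ) (x : X d) : X d := fun k => ((x k).1, Uk θ x k)

@[fun_prop] lemma measurable_Uk (θ : ℝ) (k : J d) : Measurable fun x : X d => Uk θ x k := by
  unfold Uk; fun_prop

@[fun_prop] lemma measurable_Lab (θ : ℝ) : Measurable (Lab (d := d) θ) := by
  unfold Lab; fun_prop

lemma Uk_congr {θ : ℝ} {x x' : X d} {k : J d} (hc : clk x = clk x') (hk : x k = x' k)
    (h : ∀ l, T x l < T x k → x l = x' l) : Uk θ x k = Uk θ x' k := by
  have hT : ∀ l, T x l = T x' l := fun l => congrArg (Tm l.2) (congrFun hc l)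
  have : fc (k.2 + 1) (fun _ => T x k) x = fc (k.2 + 1) (fun _ => T x' k) x' :=
    funext fun v => fc_congr (fun r => by rw [hT, hT]) fun r a => h _ a
  rw [Uk, Uk, this, am, am, hk]

lemma mask_of {R : Rule d} {x : X d} {l : J d} (h : R.R (clk x) l) : mask R x l = x l := by
  simp only [mask]; rw [if_pos h]

lemma Uk_mask {θ : ℝ} {R : Rule d} {x : X d} {k : J d} (hk : R.R (clk x) k)
    (h : ∀ l, T x l < T x k → R.R (clk x) l) : Uk θ (mask R x) k = Uk θ x k :=
  (Uk_congr (x := x) (x' := mask R x) rfl (mask_of hk).symm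
    fun l a => (mask_of (h l a)).symm).symm

lemma Lab_sh (θ : ℝ) (g : TAut d) (x : X d) : Lab θ (sh g x) = sh g (Lab θ x) := by
  funext k
  refine Prod.ext rfl ?_
  exact congrArg (fun m => Fc (am x (g.e k.1, k.2) * m) (clp 1 (x (g.e k.1, k.2)).2))
    (mag_comp g θ (fc (k.2 + 1) (fun _ => T x (g.e k.1, k.2)) x) k.1)

/-- The rule revealing everything before slot `k`. -/
noncomputable def rb (k : J d) : Rule d := rk (k.2 + 1) k (fun t _ => t) (by fun_prop)

lemma rb_iff {k l : J d} {x : X d} : (rb k).R (clk x) l ↔ T x l < T x k :=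
  ⟨fun h => h.1, fun h => ⟨h, lt_of_T_lt h (by push_cast; exact Tm_le _ _)⟩⟩

lemma not_rb (k : J d) (τ : J d → ℝ) : ¬ (rb k).R τ k := fun h => lt_irrefl _ h.1

lemma abs_mag_le (θ : ℝ) (h : V d → ℝ) (v : V d) : |mag θ h v| ≤ 1 := abs_tanh_le_one _

noncomputable abbrev PL (d : ℕ) : Measure (X d) := Measure.infinitePi fun _ => lam.prod lam

section
variable {θ : ℝ} (h0 : 0 ≤ θ) (h1 : θ < 1)
include h0 h1

lemma innov (k : J d) {G : X d × ℝ → ℝ} (hG : BM G) :
    ∫ ω, G (mask (rb k) (D ω), Uk θ (D ω) k) ∂PP d θ =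
      ∫ ω, ∫ t, G (mask (rb k) (D ω), t) ∂lam ∂PP d θ := by
  have := KEY h0 h1 (rb k) k (not_rb k)
    (G := fun p => G (p.1, Fc (am p.1 k * mag θ (fld (rb k) p.1) k.1) p.2)) (hG.comp (by fun_prop))
  have e : ∀ x : X d, am (mask (rb k) x) k = am x k := fun _ => rfl
  simp only [fld_mask fun _ h => h, e] at this
  refine Eq.trans ?_ (this.trans ?_)
  · congr 1; ext ω
    rw [Uk, clp_of_le (abs_D_le ω k), rb, fld_rk]
  · congr 1; ext ω
    exact cvB (abs_mul_le_half (abs_am_le _ _) (abs_mag_le _ _ _))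
      fun t => G (mask (rb k) (D ω), t)

lemma peel {φ : J d → ℝ × ℝ → ℝ} (hφ : ∀ k, BM (φ k)) (S : Finset (J d)) :
    ∀ ψ : (J d → ℝ) → ℝ, BM ψ → ∫ ω, ψ (clk (D ω)) * ∏ k ∈ S, φ k (Lab θ (D ω) k) ∂PP d θ =
      ∫ ω, ψ (clk (D ω)) * ∏ k ∈ S, ∫ t, φ k (clk (D ω) k, t) ∂lam ∂PP d θ := by
  classical
  induction S using Finset.strongInduction with | _ S ih
  intro ψ hψ
  rcases S.eq_empty_or_nonempty with rfl | hS
  · simp
  let top : J d → (J d → ℝ) → ℝ := fun k τ =>
    if ∀ j ∈ S.erase k, Tm j.2 (τ j) < Tm k.2 (τ k) then 1 else 0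
  have bt : ∀ k, BM (top k) := fun k => BM.ind (by
    simp only [Set.ofPred_forall]
    exact MeasurableSet.iInter fun j => MeasurableSet.iInter fun _ =>
      measurableSet_lt (by fun_prop) (by fun_prop))
  have hs : ∀ᵐ ω ∂PP d θ, ∑ k ∈ S, top k (clk (D ω)) = 1 := by
    filter_upwards [ae_T_inj θ] with ω hω
    obtain ⟨k, hk, hm⟩ := exists_max_image S (T (D ω)) hS
    rw [sum_eq_single_of_mem k hk]
    · exact if_pos fun j hj => lt_of_le_of_ne (hm j (mem_of_mem_erase hj))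
        (hω.ne (mem_erase.1 hj).1)
    · intro j hj hjk
      exact if_neg fun h => absurd (h k (mem_erase.2 ⟨hjk.symm, hk⟩)) (not_lt.2 (hm j hj))
  have b0 : ∀ k, BM fun τ : J d → ℝ => ∫ t, φ k (τ k, t) ∂lam := fun k =>
    ((hφ k).comp (φ := fun p : (J d → ℝ) × ℝ => (p.1 k, p.2)) (by fun_prop)).integral lam
  have b1 : ∀ k, BM fun x : X d => φ k (Lab θ x k) := fun k => (hφ k).comp (by fun_prop)
  have split : ∀ F : Om d → ℝ, BM F →
      ∫ ω, F ω ∂PP d θ = ∑ k ∈ S, ∫ ω, top k (clk (D ω)) * F ω ∂PP d θ := fun F hF => by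
    rw [← int_sum _ fun k => ((bt k).comp (by fun_prop)).mul hF]
    refine integral_congr_ae ?_
    filter_upwards [hs] with ω h
    rw [← sum_mul, h, one_mul]
  rw [split _ ((hψ.comp (by fun_prop)).mul (BM.prod _ fun k => (b1 k).comp measurable_D)),
    split _ ((hψ.comp (by fun_prop)).mul (BM.prod _ fun k => (b0 k).comp (by fun_prop)))]
  refine sum_congr rfl fun k hk => ?_
  have i1 := innov h0 h1 k (G := fun p => (top k (clk p.1) * ψ (clk p.1) *
    ∏ j ∈ S.erase k, φ j (Lab θ p.1 j)) * φ k (clk p.1 k, p.2))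
    (((((bt k).mul hψ).comp (by fun_prop)).mul (BM.prod _ fun j => (b1 j).comp
      measurable_fst)).mul ((hφ k).comp (by fun_prop)))
  have e : ∀ x : X d, top k (clk x) * ψ (clk x) * ∏ j ∈ S.erase k, φ j (Lab θ (mask (rb k) x) j) =
      top k (clk x) * ψ (clk x) * ∏ j ∈ S.erase k, φ j (Lab θ x j) := fun x => by
    simp only [top]
    split_ifs with h
    · refine congrArg _ (prod_congr rfl fun j hj => ?_)
      rw [Lab, Lab, Uk_mask (rb_iff.2 (h j hj)) fun l a => rb_iff.2 (a.trans (h j hj))]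
      rfl
    · simp
  simp only [clk_mask, e, integral_const_mul] at i1
  have i2 := ih (S.erase k) (erase_ssubset hk) (fun τ => top k τ * ψ τ * ∫ t, φ k (τ k, t) ∂lam)
    (((bt k).mul hψ).mul (b0 k))
  refine Eq.trans ?_ (i1.trans (Eq.trans ?_ (i2.trans ?_))) <;> congr 1 <;> ext ω
  · rw [← mul_prod_erase _ _ hk]
    have : Lab θ (D ω) k = (clk (D ω) k, Uk θ (D ω) k) := rfl
    rw [this]; ring
  · ring
  · rw [← mul_prod_erase _ _ hk]; ring

lemma mp_Lab : MeasurePreserving (fun ω => Lab θ (D ω)) (PP d θ) (PL d) := by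
  classical
  have hm : Measurable fun ω : Om d => Lab θ (D ω) := by fun_prop
  refine ⟨hm, Measure.eq_infinitePi _ fun S t ht => ?_⟩
  have hφ : ∀ k, BM ((t k).indicator (1 : ℝ × ℝ → ℝ)) := fun k => BM.ind (p := (· ∈ t k)) (ht k)
  have hS : MeasurableSet (Set.pi (S : Set (J d)) t) := .pi S.countable_toSet fun _ _ => ht _
  have := peel h0 h1 hφ S (fun _ => 1) (BM.const 1)
  simp only [one_mul] at this
  have b0 : ∀ k, BM fun τ : ℝ => ∫ s, (t k).indicator (1 : ℝ × ℝ → ℝ) (τ, s) ∂lam := fun k =>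
    (hφ k).integral lam
  rw [int_prod_dep _ S (f := fun k ω => ∫ s, (t k).indicator (1 : ℝ × ℝ → ℝ)
      (clk (D ω) k, s) ∂lam) (fun k => (b0 k).comp (by fun_prop)) (A := fun k => {kt k})
    (fun k _ ω ω' H => by simp only [clk, D, H _ rfl])
    fun i _ j _ hij => Set.disjoint_singleton.2 (kt_inj.ne hij)] at this
  have e1 : ∀ k, ∫ ω, ∫ s, (t k).indicator (1 : ℝ × ℝ → ℝ) (clk (D ω) k, s) ∂lam ∂PP d θ =
      (lam.prod lam).real (t k) := fun k => by
    rw [← integral_indicator_one (ht k), integral_prod _ ((hφ k).int _)]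
    exact int_eval _ (kt k) (b0 k).1
  have e2 : ∀ x : X d, ∏ k ∈ S, (t k).indicator (1 : ℝ × ℝ → ℝ) (x k) =
      (Set.pi (S : Set (J d)) t).indicator 1 x := fun x => by
    by_cases hx : x ∈ Set.pi (S : Set (J d)) t
    · rw [Set.indicator_of_mem hx]
      exact prod_eq_one fun k hk => Set.indicator_of_mem (hx k hk) _
    · rw [Set.indicator_of_notMem hx]
      simp only [Set.mem_pi, not_forall] at hx
      obtain ⟨k, hk, hx⟩ := hx
      exact prod_eq_zero hk (Set.indicator_of_notMem hx _)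
  simp only [e1, e2] at this
  rw [← integral_map hm.aemeasurable ((measurable_one.indicator hS).aestronglyMeasurable),
    integral_indicator_one hS] at this
  rw [← ENNReal.toReal_eq_toReal_iff' (by finiteness)
    (ENNReal.prod_ne_top fun _ _ => by finiteness), ENNReal.toReal_prod]
  exact this

end

end Vale.Agent.P161
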