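import Vale.Agent.P161.Damp

namespace Vale.Agent.P161

open MeasureTheory ProbabilityTheory Finset Real Filter Topology

set_option linter.unusedSectionVars false

section
variable {Ω β γ : Type*} [MeasurableSpace Ω] [MeasurableSpace β] [MeasurableSpace γ]

lemma BM.kint {f : β × γ → ℝ} (hf : BM f) (κ : Kernel β γ) [IsMarkovKernel κ] :
    BM fun x => ∫ y, f (x, y) ∂κ x := by
  obtain ⟨h1, C, h2⟩ := hf
  refine ⟨h1.stronglyMeasurable.integral_kernel_prod_right'.measurable, C, fun x => ?_⟩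
  have := norm_integral_le_of_norm_le_const (μ := κ x) (f := fun y => f (x, y)) (C := C)
    (ae_of_all _ fun y => h2 _)
  simpa using this

lemma ae_eq_of_sq {μ : Measure Ω} [IsFiniteMeasure μ] {f g : Ω → ℝ} (hf : BM f) (hg : BM g)
    (h : ∫ x, (f x - g x) ^ 2 ∂μ ≤ 0) : ∀ᵐ x ∂μ, f x = g x := by
  have := (integral_eq_zero_iff_of_nonneg (fun x => sq_nonneg (f x - g x))
    (((hf.sub hg).pow 2).int μ)).1 (le_antisymm h (by positivity))
  filter_upwards [this] with x hx
  exact sub_eq_zero.1 (pow_eq_zero_iff two_ne_zero |>.1 hx)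

lemma var_le (μ : Measure Ω) [IsProbabilityMeasure μ] {f : Ω → ℝ} (hf : BM f) (c : ℝ) :
    ∫ x, (f x - ∫ y, f y ∂μ) ^ 2 ∂μ ≤ ∫ x, (f x - c) ^ 2 ∂μ := by
  have e : ∀ c, ∫ x, (f x - c) ^ 2 ∂μ = ∫ x, f x ^ 2 ∂μ - 2 * c * ∫ x, f x ∂μ + c ^ 2 := fun c => by
    have := int_l3 (μ := μ) (hf.pow 2) hf (BM.const 1) 1 (-(2 * c)) (c ^ 2)
    simp only [integral_const, probReal_univ, smul_eq_mul] at this
    rw [show (fun x => (f x - c) ^ 2) = fun x => 1 * f x ^ 2 + -(2 * c) * f x + c ^ 2 * 1 from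
      funext fun x => by ring, this]; ring
  rw [e, e]; nlinarith [sq_nonneg (c - ∫ y, f y ∂μ)]

variable [StandardBorelSpace γ] [Nonempty γ] (P : Measure Ω) [IsProbabilityMeasure P]
  (L : Ω → β) (H : Ω → γ)

noncomputable def hat (φ : γ → ℝ) (l : β) : ℝ := ∫ y, φ y ∂condDistrib H L P l

/-- The relatively independent joining. -/
noncomputable def jn : Measure (γ × γ) :=
  (P.map L ⊗ₘ (condDistrib H L P ×ₖ condDistrib H L P)).snd

lemma BM_hat {φ : γ → ℝ} (hφ : BM φ) : BM (hat P L H φ) := (hφ.comp measurable_snd).kint _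

lemma abs_hat_le {φ : γ → ℝ} {C : ℝ} (h : ∀ y, |φ y| ≤ C) (l : β) : |hat P L H φ l| ≤ C := by
  simpa [hat] using norm_integral_le_of_norm_le_const (μ := condDistrib H L P l) (f := φ) (C := C)
    (ae_of_all _ h)

variable {L H} (hL : Measurable L) (hH : Measurable H)
include hL hH

lemma jn_prob : IsProbabilityMeasure (jn P L H) := by
  have := Measure.isProbabilityMeasure_map (μ := P) hL.aemeasurable
  unfold jn; infer_instance

lemma disint {Ψ : β × γ → ℝ} (hΨ : BM Ψ) :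
    ∫ ω, Ψ (L ω, H ω) ∂P = ∫ ω, ∫ y, Ψ (L ω, y) ∂condDistrib H L P (L ω) ∂P := by
  rw [← integral_map (hL.prodMk hH).aemeasurable hΨ.1.aestronglyMeasurable,
    ← compProd_map_condDistrib hH.aemeasurable, Measure.integral_compProd (hΨ.int _),
    integral_map hL.aemeasurable (hΨ.kint _).1.aestronglyMeasurable]

lemma int_jn0 {Φ : γ × γ → ℝ} (hΦ : BM Φ) : ∫ p, Φ p ∂jn P L H =
    ∫ ω, ∫ p, Φ p ∂(condDistrib H L P (L ω)).prod (condDistrib H L P (L ω)) ∂P := by
  rw [jn, Measure.snd, integral_map measurable_snd.aemeasurable hΦ.1.aestronglyMeasurable,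
    Measure.integral_compProd ((hΦ.comp measurable_snd).int _),
    integral_map hL.aemeasurable ((hΦ.comp measurable_snd).kint _).1.aestronglyMeasurable]
  simp only [Kernel.prod_apply]

lemma int_jn {Φ : γ × γ → ℝ} (hΦ : BM Φ) :
    ∫ p, Φ p ∂jn P L H = ∫ ω, ∫ y, Φ (H ω, y) ∂condDistrib H L P (L ω) ∂P := by
  have := (hΦ.comp (φ := fun q : (β × γ) × γ => (q.1.2, q.2)) (by fun_prop)).kint
    ((condDistrib H L P).comap Prod.fst measurable_fst)
  rw [int_jn0 P hL hH hΦ]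
  simp only [integral_prod _ (hΦ.int _)]
  exact (disint P hL hH this).symm

lemma mp_jn_fst : MeasurePreserving Prod.fst (jn P L H) (P.map H) := by
  have := jn_prob P hL hH
  refine mp_of_int measurable_fst fun f hf => ?_
  rw [int_jn P hL hH (hf.comp measurable_fst), integral_map hH.aemeasurable hf.1.aestronglyMeasurable]
  simp

lemma mp_jn_snd : MeasurePreserving Prod.snd (jn P L H) (P.map H) := by
  have := jn_prob P hL hH
  refine mp_of_int measurable_snd fun f hf => ?_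
  rw [int_jn P hL hH (hf.comp measurable_snd), integral_map hH.aemeasurable hf.1.aestronglyMeasurable]
  exact (disint P hL hH (hf.comp measurable_snd)).symm

lemma jn_lower {φ w : γ → ℝ} (hφ : BM φ) (hw : BM w) :
    ∫ ω, w (H ω) ^ 2 * (φ (H ω) - hat P L H φ (L ω)) ^ 2 ∂P ≤
      ∫ p, w p.1 ^ 2 * (φ p.1 - φ p.2) ^ 2 ∂jn P L H := by
  have b := ((hw.comp measurable_fst).pow 2).mul (((hφ.comp measurable_fst).sub
    (hφ.comp measurable_snd)).pow 2)
  rw [int_jn P hL hH b]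
  refine int_mono (((hw.comp hH).pow 2).mul (((hφ.comp hH).sub ((BM_hat P L H hφ).comp hL)).pow 2))
    (((b.comp (φ := fun q : Ω × γ => (H q.1, q.2)) (by fun_prop)).kint
      ((condDistrib H L P).comap L hL))) fun ω => ?_
  simp only [integral_const_mul]
  refine mul_le_mul_of_nonneg_left (le_trans (le_of_eq ?_)
    (int_jensen _ ((BM.const _).sub hφ))) (sq_nonneg _)
  rw [int_sub (BM.const _) hφ]; simp [hat]

lemma jn_upper {φ : γ → ℝ} (hφ : BM φ) : ∫ p, (φ p.1 - φ p.2) ^ 2 ∂jn P L H ≤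
    4 * ∫ ω, (φ (H ω) - hat P L H φ (L ω)) ^ 2 ∂P := by
  have b := ((hφ.comp measurable_fst).sub (hφ.comp measurable_snd)).pow 2
  have b1 := ((hφ.comp measurable_snd).sub ((BM_hat P L H hφ).comp measurable_fst)).pow 2
  have b2 := b1.comp (hL.prodMk hH)
  have b3 := (b1.kint (condDistrib H L P)).comp hL
  have := int_l2 (μ := P) b2 b3 2 2
  rw [← disint P hL hH b1] at this
  rw [int_jn P hL hH b]
  refine (int_mono (((b.comp (φ := fun q : Ω × γ => (H q.1, q.2)) (by fun_prop)).kint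
      ((condDistrib H L P).comap L hL))) (((BM.const 2).mul b2).add ((BM.const 2).mul b3))
      fun ω => ?_).trans (by rw [this]; linarith)
  have c := (hφ.sub (BM.const (hat P L H φ (L ω)))).pow 2
  refine (int_mono (μ := condDistrib H L P (L ω)) (((BM.const (φ (H ω))).sub hφ).pow 2)
    (((BM.const 2).mul (BM.const
    ((φ (H ω) - hat P L H φ (L ω)) ^ 2))).add ((BM.const 2).mul c)) fun y => by
      nlinarith [sq_nonneg (φ (H ω) + φ y - 2 * hat P L H φ (L ω))]).trans (le_of_eq ?_)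
  rw [int_l2 (BM.const _) c]; simp

lemma hat_proj {φ : γ → ℝ} (hφ : BM φ) {ζ : β → ℝ} (hζ : BM ζ) :
    ∫ ω, (φ (H ω) - hat P L H φ (L ω)) ^ 2 ∂P ≤ ∫ ω, (φ (H ω) - ζ (L ω)) ^ 2 ∂P := by
  have b1 := ((hφ.comp measurable_snd).sub ((BM_hat P L H hφ).comp measurable_fst)).pow 2
  have b2 := ((hφ.comp measurable_snd).sub (hζ.comp measurable_fst)).pow 2
  rw [disint P hL hH b1, disint P hL hH b2]
  exact int_mono ((b1.kint _).comp hL) ((b2.kint _).comp hL) fun ω =>
    var_le (condDistrib H L P (L ω)) hφ (ζ (L ω))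

lemma jn_inv {A : Ω → Ω} (hA : MeasurePreserving A P P) {S : γ → γ} (hS : Measurable S)
    {U U' : β → β} (hU : Measurable U) (hU' : Measurable U') (e0 : ∀ l, U' (U l) = l)
    (e1 : ∀ ω, H (A ω) = S (H ω)) (e2 : ∀ ω, L (A ω) = U (L ω)) :
    MeasurePreserving (Prod.map S S) (jn P L H) (jn P L H) := by
  have := jn_prob P hL hH
  have hp : ∀ φ : γ → ℝ, BM φ → ∀ ψ : β → ℝ, BM ψ →
      ∫ ω, φ (H ω) * ψ (L ω) ∂P = ∫ ω, hat P L H φ (L ω) * ψ (L ω) ∂P := fun φ hφ ψ hψ => by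
    rw [disint P hL hH ((hφ.comp measurable_snd).mul (hψ.comp measurable_fst))]
    simp only [integral_mul_const, hat]
  have key : ∀ φ : γ → ℝ, BM φ → ∀ᵐ ω ∂P, hat P L H (fun y => φ (S y)) (L ω) =
      hat P L H φ (L (A ω)) := fun φ hφ => by
    have b1 := BM_hat P L H (hφ.comp hS)
    have b2 := (BM_hat P L H hφ).comp hU
    simp only [e2]
    refine ae_eq_of_sq (b1.comp hL) (b2.comp hL) (le_of_eq ?_)
    have c1 := hp _ (hφ.comp hS) _ (b1.sub b2)
    have c2 := hp _ hφ _ ((b1.sub b2).comp hU')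
    rw [← integral_mp hA ((hφ.comp hH).mul (((b1.sub b2).comp hU').comp hL)).1,
      ← integral_mp hA (((BM_hat P L H hφ).comp hL).mul (((b1.sub b2).comp hU').comp hL)).1] at c2
    simp only [e1, e2, e0] at c2
    rw [c2, ← sub_eq_zero, ← int_sub ((b2.mul (b1.sub b2)).comp hL) ((b1.mul (b1.sub b2)).comp hL)]
      at c1
    rw [← neg_eq_zero, ← integral_neg, ← c1]
    congr 1; ext ω; ring
  have pr : ∀ φ ψ : γ → ℝ, BM φ → BM ψ → ∫ p, φ p.1 * ψ p.2 ∂jn P L H =
      ∫ ω, hat P L H φ (L ω) * hat P L H ψ (L ω) ∂P := fun φ ψ hφ hψ => by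
    rw [int_jn0 P hL hH ((hφ.comp measurable_fst).mul (hψ.comp measurable_snd))]
    simp only [integral_prod_mul, hat]
  refine ⟨hS.prodMap hS, Measure.ext_prod fun {s t} hs ht => ?_⟩
  have e : ∀ p : γ × γ, (s ×ˢ t).indicator (1 : γ × γ → ℝ) p =
      s.indicator 1 p.1 * t.indicator 1 p.2 := fun p => by
    by_cases h1 : p.1 ∈ s <;> by_cases h2 : p.2 ∈ t <;> simp [Set.indicator, h1, h2]
  rw [← measureReal_eq_measureReal_iff (by finiteness) (by finiteness),
    ← integral_indicator_one (hs.prod ht), ← integral_indicator_one (hs.prod ht),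
    integral_map (hS.prodMap hS).aemeasurable (BM_indic (hs.prod ht)).1.aestronglyMeasurable]
  simp only [e, Prod.map_fst, Prod.map_snd]
  rw [pr _ _ ((BM_indic hs).comp hS) ((BM_indic ht).comp hS), pr _ _ (BM_indic hs) (BM_indic ht),
    ← integral_mp hA (((BM_hat P L H (BM_indic hs)).mul (BM_hat P L H (BM_indic ht))).comp hL).1]
  refine integral_congr_ae ?_
  filter_upwards [key _ (BM_indic hs), key _ (BM_indic ht)] with ω h1 h2
  rw [h1, h2]

end

end Vale.Agent.P161
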