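import Vale.Agent.P161.Dyn2

namespace Vale.Agent.P161

open MeasureTheory Finset Real Filter Topology

set_option linter.unusedSectionVars false

variable {d : ℕ}

lemma len_low_le (a : V d) (i : Fin d) : len (low a i) ≤ len a + 1 := by
  unfold low; split_ifs with h
  · rw [len_step h]
  · omega

lemma act_dep (x : V d) (n : ℕ) {ω ω' : Om d}
    (H : ∀ k : K d, len x ≤ len k.1 + n → len k.1 ≤ len x + n → ω k = ω' k) (k : K d)
    (hk : len k.1 ≤ n ∧ k ≠ (root d, none)) : act (lm x) ω k = act (lm x) ω' k := by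
  rcases k with ⟨w, _ | a⟩
  · have hw : w ≠ root d := by simpa using hk.2
    obtain ⟨j, p, hj, rfl⟩ := exists_parent hw
    have h1 := hk.1
    simp only [len_step hj] at h1
    simp only [act, if_neg hw, par_step hj, lm_e, mul_step, sig_low]
    have a1 := le_len_mul x p
    have a2 := len_mul_le x p
    have a3 := le_len_low (mul x p) j
    have a4 := len_low_le (mul x p) j
    rw [H (low (mul x p) j, none) (by simp only; omega) (by simp only; omega)]
  · have a1 := le_len_mul x w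
    have a2 := len_mul_le x w
    have h1 := hk.1
    exact H (mul x w, some a) (by simp only at h1 ⊢; omega) (by simp only at h1 ⊢; omega)

lemma Gr.comp {α β : Type*} [MeasurableSpace α] [MeasurableSpace β] {μ : Measure α}
    {ν : Measure β} {φ : α → β} (hφ : MeasurePreserving φ μ ν) {Z : β → V d → ℝ}
    (hZ : ∀ v, BM fun ω => Z ω v) : (Gr μ fun ω => Z (φ ω)) ↔ Gr ν Z := by
  have : ∀ n, xs μ (fun ω => Z (φ ω)) n = xs ν Z n := fun n =>
    integral_mp hφ ((BM_Ad hZ n _).pow 2).1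
  simp only [Gr, this]

lemma gron {f : ℝ → ℝ} {s1 s2 δ A : ℝ} (hδ : 0 < δ) (A0 : 0 ≤ A) (f0 : ∀ s, 0 ≤ f s)
    (h : ∀ s s', s1 ≤ s → s ≤ s' → s' ≤ s2 → s' - s ≤ δ → f s' ≤ f s * (1 + A * (s' - s)))
    (hs : s1 ≤ s2) : f s2 ≤ f s1 * exp (A * (s2 - s1)) := by
  have key : ∀ k : ℕ, ∀ s', s1 ≤ s' → s' ≤ s2 → s' ≤ s1 + k * δ →
      f s' ≤ f s1 * exp (A * (s' - s1)) := fun k => by
    induction k with
    | zero =>
      intro s' a _ b
      rw [le_antisymm (by simpa using b) a]; simp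
    | succ k ih =>
      intro s' a b c
      rcases le_total s' (s1 + k * δ) with e | e
      · exact ih s' a b e
      · have p : s1 ≤ s1 + k * δ := le_add_of_nonneg_right (by positivity)
        refine (h _ s' p e b (by push_cast at c; linarith)).trans ((mul_le_mul (ih _ p (e.trans b)
          le_rfl) ((add_comm _ _).trans_le (add_one_le_exp _)) (by nlinarith)
          (mul_nonneg (f0 _) (exp_pos _).le)).trans (le_of_eq ?_))
        rw [mul_assoc, ← exp_add]; ring_nf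
  obtain ⟨k, hk⟩ := exists_nat_ge ((s2 - s1) / δ)
  rw [div_le_iff₀ hδ] at hk
  exact key k s2 hs le_rfl (by linarith)

lemma le_zero_of_exp {x C : ℝ} (C0 : 0 < C)
    (h : ∀ J : ℕ, x ≤ exp (-4 ^ J / 2) * exp (C * (2 ^ J * (J + 1) ^ 2))) : x ≤ 0 := by
  have h1 := (tendsto_add_atTop_iff_nat 1).2
    (tendsto_pow_const_div_const_pow_of_one_lt 2 (one_lt_two (α := ℝ)))
  have h2 : Tendsto (fun J : ℕ => exp (-((4 : ℝ) ^ J / 4))) atTop (𝓝 0) :=
    tendsto_exp_neg_atTop_nhds_zero.comp ((tendsto_pow_atTop_atTop_of_one_lt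
      (by norm_num)).atTop_div_const (by norm_num))
  refine ge_of_tendsto h2 ?_
  filter_upwards [h1.eventually (ge_mem_nhds (show 0 < 1 / (8 * C) by positivity))] with J hJ
  refine (h J).trans ?_
  rw [← exp_add]
  refine exp_le_exp.2 ?_
  rw [div_le_div_iff₀ (by positivity) (by positivity), pow_succ 2] at hJ
  have e : (4 : ℝ) ^ J = 2 ^ J * 2 ^ J := by rw [← mul_pow]; norm_num
  push_cast at hJ
  nlinarith [mul_le_mul_of_nonneg_left hJ (show (0 : ℝ) ≤ 2 ^ J by positivity)]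

section
variable {θ : ℝ} (h0 : 0 ≤ θ) (h1 : θ < 1) (hb : ((d : ℝ) - 1) * θ ^ 2 ≤ 1) (hd : 3 ≤ d)
include h0 h1 hb hd

lemma BM_WV (n : ℕ) (v : V d) : BM fun h => WV (t2 θ h) (fun _ => 1) n v :=
  (BM.const _).add (BM.sum _ fun _ => (BM_t2 h0 h1 measurable_id _ _).mul
    (BM_Lam h0 h1 hb measurable_id _ _ _))

lemma gr_WV (N : ℕ) (s : ℝ) (n : ℕ) : ∃ c, Gr (PP d θ) fun ω v =>
    WV (t2 θ (hc N (fun _ => s) ω)) (fun _ => 1) n v - c := by
  have b := (BM_WV h0 h1 hb hd n (root d)).comp (measurable_hc N fun _ => s)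
  refine ⟨∫ ω, WV (t2 θ (hc N (fun _ => s) ω)) (fun _ => 1) n (root d) ∂PP d θ, ?_⟩
  have := gr_prod (rho θ) (by omega) (fun g => mp_act θ (lm g)) (fun g v ω => act_lm_act g v ω)
    (B := fun n => {k : K d | len k.1 ≤ n ∧ k ≠ (root d, none)})
    (fun m n h k hk => ⟨hk.1.trans h, hk.2⟩) (fun n => ⟨2 * n, fun u v hu hv =>
      ⟨{k | len k.1 ≤ n}, fun ω ω' H => act_dep u n fun k _ a => H k (by
        simpa [hu, len_root] using a), fun ω ω' H => act_dep v n fun k a _ => H k (by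
          simp only [Set.mem_compl_iff, Set.mem_ofPred_eq]; omega)⟩⟩)
    (b.sub (BM.const (∫ ω, WV (t2 θ (hc N (fun _ => s) ω)) (fun _ => 1) n (root d) ∂PP d θ)))
    (fun ω ω' H => by
      have := Wd_dep h0 h1 N (fun _ => s) (fun _ => 1) (n + 1) (root d) fun k hk =>
        H k (Set.mem_iUnion.2 ⟨len k.1, le_rfl, hk.2⟩)
      simp only [WV_root] at this ⊢
      rw [this]) (by rw [int_sub b (BM.const _)]; simp)
  convert this using 4 with ω v
  rw [hc_act, t2_comp]
  exact ((WV_comp (lm v) _ (fun _ => 1) n (root d)).trans (by rw [lm_e, mul_root])).symm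

lemma xi_bound {N : ℕ} (hN : 1 ≤ N) : ∃ C : ℝ, 0 ≤ C ∧ ∀ (s z : ℝ) (J : ℕ), 0 < z → z ≤ 1 →
    z ^ 8 / 2 ≤ min s (1 / 2) → min s (1 / 2) ≤ 256 * z ^ 8 → ∀ l,
      ∑ u ∈ ball d l, ∫ ω, xi θ N s u (D ω) ∂PP d θ ≤
        C * ((2 ^ J * (J + 1) ^ 2 * ff d θ N s + exp (-4 ^ J / 2)) / z ^ 23) := by
  obtain ⟨C, C0, hC⟩ := static h0 h1 hb hd N
  obtain ⟨K1, k1, H1⟩ := mgf_H h0 h1 hb N (⟨0, by omega⟩ : Fin d)
  obtain ⟨K2, k2, H2⟩ := mgf_L h0 h1 hb hd hN
  refine ⟨C * (10 ^ 6 * (K1 + K2) ^ 4 * 4), by positivity, fun s z J z0 z1 a1 a2 l => ?_⟩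
  have mL := measurable_Ls (d := d) θ s
  have mH := measurable_hc (d := d) N fun _ => s
  have := jn_prob (PP d θ) mL mH
  set ν := jn (PP d θ) (Ls θ s) (hc N fun _ => s)
  have mS : ∀ g : V d, Measurable fun (h : V d → ℝ) v => h ((lm g).e v) := fun g => by fun_prop
  have ha : ∀ g, MeasurePreserving (Prod.map (fun h v => h ((lm g).e v)) fun h v => h ((lm g).e v))
      ν ν := fun g => jn_inv (PP d θ) mL mH (mp_act θ (lm g)) (mS g) (measurable_sh (lm g))
    (measurable_sh (lm g).symm) (sh_symm_sh _) (hc_act _ N s) fun ω => by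
      rw [Ls, Ls, D_act, Lab_sh, cut_sh]
  have mp0 : MeasurePreserving (hc N fun _ => s) (PP d θ) ((PP d θ).map (hc N fun _ => s)) :=
    ⟨mH, rfl⟩
  have W : ∀ pr : (V d → ℝ) × (V d → ℝ) → V d → ℝ, MeasurePreserving pr ν
      ((PP d θ).map (hc N fun _ => s)) → (∀ g p, pr (Prod.map (fun h v => h ((lm g).e v))
        (fun h v => h ((lm g).e v)) p) = fun v => pr p ((lm g).e v)) →
      Wld ν (fun g => Prod.map (fun h v => h ((lm g).e v)) fun h v => h ((lm g).e v)) θ N
        (K1 + K2) z J pr := fun pr hpr e => by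
    have tr : ∀ Φ : (V d → ℝ) → ℝ, Measurable Φ →
        ∫ p, Φ (pr p) ∂ν = ∫ ω, Φ (hc N (fun _ => s) ω) ∂PP d θ := fun Φ hΦ =>
      (integral_mp hpr hΦ).trans (integral_mp mp0 hΦ).symm
    have bL := BM_Lam h0 h1 hb mH
    have mB : MeasurableSet {h : V d → ℝ | ∀ v, |h v| ≤ N} := by
      simp only [Set.ofPred_forall]
      exact MeasurableSet.iInter fun v => measurableSet_le (by fun_prop) measurable_const
    have gd : ∀ᵐ h ∂(PP d θ).map (hc N fun _ => s), Good θ h ∧ ∀ v, |h v| ≤ N :=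
      (ae_map_iff mH.aemeasurable ((measurableSet_Good θ).inter mB)).2
        ((good_hc h0 h1 N _).mono fun ω g => ⟨g, abs_hc_le N _ ω⟩)
    refine ⟨hpr.measurable, e, hpr.quasiMeasurePreserving.ae gd, fun v i => ?_, fun n v i =>
      ⟨BM_Lam h0 h1 hb hpr.measurable _ _ _, fun _ => Lam_nonneg _ _ _ _ _, ?_, ?_⟩⟩
    · rw [tr (fun h => exp (1 / ((K1 + K2) * z ^ 2) * |tanh (Hi θ h v i)|)) (by fun_prop)]
      refine le_trans (int_mono (by fun_prop) ((BM.const _).mul (BM_Hc h0 h1 N _ v i).abs).exp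
        fun ω => exp_le_exp.2 (mul_le_mul ?_ (abs_tanh_le _) (abs_nonneg _) (by positivity)))
        (H1 s z z0 z1 a2 v i)
      gcongr; linarith
    · rw [tr (fun h => exp (z ^ 12 / (K1 + K2) * Lam θ h n v i)) (by fun_prop)]
      refine le_trans (int_mono ((BM.const _).mul (bL _ _ _)).exp ((BM.const _).mul (bL _ _ _)).exp
        fun ω => exp_le_exp.2 (mul_le_mul_of_nonneg_right ?_ (Lam_nonneg _ _ _ _ _)))
        (H2 s z z0 z1 a1 n v i).1
      gcongr; linarith
    · rw [tr (fun h => if 2 * J + 2 * (K1 + K2) / z ^ 12 < Lam θ h n v i then 1 else 0)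
        (Measurable.ite (measurableSet_lt measurable_const (by fun_prop)) measurable_const
          measurable_const)]
      refine le_trans (int_mono (BM.ind (measurableSet_lt measurable_const (bL _ _ _).1))
        (BM.ind (measurableSet_lt measurable_const (bL _ _ _).1)) fun ω => ?_)
        ((H2 s z z0 z1 a1 n v i).2 J)
      split_ifs with b1 b2
      · rfl
      · exact absurd (lt_of_le_of_lt (by gcongr; linarith) b1) b2
      · norm_num
      · rfl
  have p1 := mp_jn_fst (PP d θ) mL mH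
  have p2 := mp_jn_snd (PP d θ) mL mH
  have := hC ha (W _ p1 fun _ _ => rfl) (W _ p2 fun _ _ => rfl) (by linarith) z0 z1 (fun n => by
    obtain ⟨c, hc'⟩ := gr_WV h0 h1 hb hd N s n
    have b := fun v => (BM_WV h0 h1 hb hd n v).sub (BM.const c)
    have g := (Gr.comp mp0 b).1 hc'
    simpa only [sub_sub_sub_cancel_right] using Gr.sub (fun v => (b v).comp measurable_fst)
      (fun v => (b v).comp measurable_snd) ((Gr.comp p1 b).2 g) ((Gr.comp p2 b).2 g)) l
  refine le_trans (sum_le_sum fun u _ => ?_) (this.trans ?_)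
  · have bC : BM fun h => Cov θ h u := BM_Cov h0 h1 measurable_id u
    have j1 := jn_lower (PP d θ) mL mH bC (BM.const 1)
    have j2 := jn_lower (PP d θ) mL mH (BM_mag' θ u) bC
    simp only [one_pow, one_mul] at j1
    rw [int_add (((bC.comp measurable_fst).sub (bC.comp measurable_snd)).pow 2)
      (((bC.comp measurable_fst).pow 2).mul (by fun_prop))]
    exact (int_add (((bC.comp mH).sub ((BM_Ch h0 h1 N s u).comp mL)).pow 2) (((bC.comp mH).pow 2).mul
      ((((BM_mag' θ u).comp mH).sub ((BM_mh θ N s u).comp mL)).pow 2))).trans_le (add_le_add j1 j2)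
  · have j := jn_upper (PP d θ) mL mH (BM_mag' θ (root d))
    rw [mul_assoc C, Th, mul_assoc _ 4, ← mul_div_assoc 4]
    gcongr
    nlinarith [mul_le_mul_of_nonneg_left (show _ ≤ 4 * ff d θ N s from j)
      (show (0 : ℝ) ≤ 2 ^ J * (J + 1) ^ 2 by positivity), exp_pos (-4 ^ J / 2 : ℝ)]

lemma qq_small (N : ℕ) : ∃ K : ℝ, ∀ s z : ℝ, 0 < z → z ≤ 1 → min s (1 / 2) ≤ 256 * z ^ 8 →
    qq d θ N s ≤ K * z := by
  set i : Fin d := ⟨0, by omega⟩
  obtain ⟨K, k1, H⟩ := mgf_H h0 h1 hb N i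
  refine ⟨32 * K ^ 2, fun s z z0 z1 hz => ?_⟩
  have b := fun v => ((BM.const (1 / (K * z ^ 2))).mul (BM_Hc h0 h1 N (fun _ => s) v i).abs).exp
  have q : ∀ y : ℝ, y ^ 2 ≤ 2 * (K * z ^ 2) ^ 2 * exp (1 / (K * z ^ 2) * |y|) := fun y => by
    have p : 0 ≤ 1 / (K * z ^ 2) * |y| := by positivity
    have := mul_le_mul_of_nonneg_left (show (1 / (K * z ^ 2) * |y|) ^ 2 ≤
      2 * exp (1 / (K * z ^ 2) * |y|) by linarith [quadratic_le_exp_of_nonneg p])
      (sq_nonneg (K * z ^ 2))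
    rw [← mul_pow, ← mul_assoc, mul_one_div_cancel (by positivity), one_mul, sq_abs] at this
    linarith
  have := int_mono_ae (μ := PP d θ) (f := fun ω => mag θ (hc N (fun _ => s) ω) (root d) ^ 2)
    (by fun_prop) (((BM.const (4 * (K * z ^ 2) ^ 2)).mul (b (root d))).add
      ((BM.const (4 * (K * z ^ 2) ^ 2)).mul (b (step i (root d))))) (by
    filter_upwards [good_hc h0 h1 N fun _ => s] with ω g
    have a1 := sq_le_sq.2 (abs_tanh_le (Hv θ (hc N (fun _ => s) ω) (root d)))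
    have a2 := sq_le_sq.2 ((abs_F_le h0 h1 (Hi θ (hc N (fun _ => s) ω) (step i (root d)) i)).trans
      (mul_le_of_le_one_left (abs_nonneg _) h1.le))
    rw [mag]
    refine a1.trans ?_
    rw [g.hv h0 h1 _ i]
    nlinarith [q (Hi θ (hc N (fun _ => s) ω) (step i (root d)) i),
      q (Hi θ (hc N (fun _ => s) ω) (root d) i), sq_nonneg (Hi θ (hc N (fun _ => s) ω) (root d) i -
      F θ (Hi θ (hc N (fun _ => s) ω) (step i (root d)) i))])
  rw [int_l2 (b _) (b _)] at this
  have a1 := mul_le_mul_of_nonneg_left (add_le_add (H s z z0 z1 hz (root d) i)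
    (H s z z0 z1 hz (step i (root d)) i)) (show 0 ≤ 4 * (K * z ^ 2) ^ 2 by positivity)
  have a2 := mul_le_mul_of_nonneg_left (pow_le_of_le_one z0.le z1 (n := 4) (by norm_num))
    (sq_nonneg K)
  rw [qq]; nlinarith

theorem ff_zero {N : ℕ} (hN : 1 ≤ N) : ff d θ N N ≤ 0 := by
  obtain ⟨C, C0, hC⟩ := xi_bound h0 h1 hb hd hN
  obtain ⟨K, hK⟩ := qq_small h0 h1 hb hd N
  have N1 : (1 : ℝ) ≤ N := by exact_mod_cast hN
  set C' := (256 ^ 3 * N * C + 1) * (256 * N)
  have f0 : ∀ s, 0 ≤ ff d θ N s := fun s => integral_nonneg fun _ => sq_nonneg _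
  refine le_zero_of_exp (C := 2 * C') (by positivity) fun J => ?_
  have M1 : (1 : ℝ) ≤ 2 ^ J * (J + 1) ^ 2 := one_le_mul_of_one_le_of_one_le
    (one_le_pow₀ (by norm_num)) (one_le_pow₀ (by linarith [Nat.cast_nonneg (α := ℝ) J]))
  have hC' := fun s z => hC s z J
  have E0 := exp_pos (-4 ^ J / 2 : ℝ)
  generalize (2 : ℝ) ^ J * (J + 1) ^ 2 = M, exp (-4 ^ J / 2 : ℝ) = E at *
  have blk : ∀ z s2 : ℝ, 0 < z → z ≤ 1 → z ^ 8 ≤ s2 → s2 ≤ N → min s2 (1 / 2) ≤ 256 * z ^ 8 →
      s2 ≤ 256 * N * z ^ 8 → ff d θ N s2 + E ≤ (ff d θ N (z ^ 8) + E) * exp (C' * M * z) :=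
    fun z s2 z0 z1 a1 a2 a3 a4 => by
    obtain ⟨δ, δ0, hδ⟩ := dyn h0 h1 hb hd hN (pow_pos z0 8) E0
    have z7 : z ^ 7 ≤ 1 := pow_le_one₀ z0.le z1
    refine (gron (f := fun s => ff d θ N s + E) (A := (256 ^ 3 * N * C + 1) * M / z ^ 7) δ0
      (by positivity) (fun s => by linarith [f0 s]) (fun s s' b1 b2 b3 b4 => ?_) a1).trans ?_
    · have c1 : min s' (1 / 2) ≤ 256 * z ^ 8 := (min_le_min_right _ b3).trans a3
      have c0 : 0 ≤ min s' (1 / 2) := le_min (by linarith [pow_pos z0 8]) (by norm_num)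
      have := hδ s s' _ _ b1 b2 (b3.trans a2) b4 le_rfl (min_le_right _ _) (hC' s z z0 z1
        (le_min (by linarith [pow_pos z0 8]) (by nlinarith)) ((min_le_min_right _ b2).trans c1))
      have c2 : 256 * N * min s' (1 / 2) ^ 2 * (C * ((M * ff d θ N s + E) / z ^ 23)) + E ≤
          (256 ^ 3 * N * C + 1) * M / z ^ 7 * (ff d θ N s + E) := by
        have f1 := f0 s
        calc _ ≤ 256 * N * (256 * z ^ 8) ^ 2 * (C * ((M * ff d θ N s + M * E) / z ^ 23)) +
            M / z ^ 7 * (ff d θ N s + E) := by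
              gcongr
              · nlinarith
              · have : 1 ≤ M / z ^ 7 := by rw [le_div_iff₀ (by positivity)]; linarith
                nlinarith
          _ = _ := by field_simp
      nlinarith [mul_le_mul_of_nonneg_left c2 (sub_nonneg.2 b2)]
    · refine mul_le_mul_of_nonneg_left (exp_le_exp.2 ?_) (by linarith [f0 (z ^ 8)])
      calc _ ≤ (256 ^ 3 * N * C + 1) * M / z ^ 7 * (256 * N * z ^ 8) := by
            gcongr; linarith [pow_pos z0 8]
        _ = _ := by simp only [C']; field_simp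
  have it : ∀ i : ℕ, ff d θ N 1 + E ≤ (ff d θ N (((1 / 2) ^ i) ^ 8) + E) *
      exp (C' * M * (1 - (1 / 2) ^ i)) := fun i => by
    induction i with
    | zero => simp
    | succ i ih =>
      have z0 : (0 : ℝ) < (1 / 2) ^ i := by positivity
      have z1 : ((1 : ℝ) / 2) ^ i ≤ 1 := pow_le_one₀ (by norm_num) (by norm_num)
      rw [pow_succ (1 / 2 : ℝ) i]
      generalize ((1 : ℝ) / 2) ^ i = z at *
      have z8 := pow_pos z0 8
      have := blk (z * (1 / 2)) (z ^ 8) (by positivity) (by linarith) (by linarith)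
        ((pow_le_one₀ z0.le z1).trans N1) ((min_le_left _ _).trans (by linarith)) (by nlinarith)
      refine ih.trans ((mul_le_mul_of_nonneg_right this (exp_pos _).le).trans (le_of_eq ?_))
      rw [mul_assoc, ← exp_add]; ring_nf
  have l1 := blk 1 N one_pos le_rfl (by linarith) le_rfl ((min_le_right _ _).trans (by norm_num))
    (by linarith)
  have l2 : ff d θ N 1 + E ≤ E * exp (C' * M) := by
    have t : Tendsto (fun i : ℕ => (K * (1 / 2) ^ i + E) * exp (C' * M)) atTop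
        (𝓝 ((K * 0 + E) * exp (C' * M))) := (((tendsto_pow_atTop_nhds_zero_of_lt_one (by norm_num)
      (by norm_num)).const_mul K).add_const E).mul_const _
    rw [mul_zero, zero_add] at t
    refine ge_of_tendsto' t fun i => (it i).trans ?_
    have z0 : (0 : ℝ) < (1 / 2) ^ i := by positivity
    have z1 : ((1 : ℝ) / 2) ^ i ≤ 1 := pow_le_one₀ (by norm_num) (by norm_num)
    have := (ff_le_qq h0 h1 N _).trans (hK (((1 / 2) ^ i) ^ 8) _ z0 z1 ((min_le_left _ _).trans
      (by linarith [pow_pos z0 8])))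
    exact mul_le_mul (by linarith) (exp_le_exp.2 (mul_le_of_le_one_right (by positivity)
      (by linarith))) (exp_pos _).le (by linarith [f0 (((1 / 2) ^ i) ^ 8)])
  rw [one_pow, mul_one] at l1
  have := l1.trans (mul_le_mul_of_nonneg_right l2 (exp_pos _).le)
  rw [mul_assoc, ← exp_add, ← two_mul, ← mul_assoc] at this
  linarith

end

end Vale.Agent.P161
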