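import Vale.Agent.P161.Mgf

namespace Vale.Agent.P161

open MeasureTheory Finset Real Filter Topology

set_option linter.unusedSectionVars false

variable {d : ℕ}

lemma beta_arith {b θ C q e : ℝ} (b2 : 2 ≤ b) (hb : b * θ ^ 2 ≤ 1) (C0 : 0 < C) (C1 : C ≤ 1)
    (q0 : 0 ≤ q) (q1 : q ≤ 1) (he : e ≤ 1 - b * θ ^ 2 + q) :
    b * (θ ^ 2 - C * θ ^ 4 * q) ≤ 1 - C / (4 * b) * e := by
  have c1 : C / (4 * b) ≤ 1 / 8 := by rw [div_le_iff₀ (by positivity)]; linarith
  have c0 : 0 ≤ C / (4 * b) := by positivity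
  have := mul_le_mul_of_nonneg_left he c0
  rcases le_total (b * θ ^ 2) (1 / 2) with h | h
  · have : 0 ≤ b * (C * θ ^ 4 * q) := by positivity
    nlinarith
  · have h2 : C / (4 * b) * q ≤ b * (C * θ ^ 4 * q) := by
      rw [div_mul_eq_mul_div, div_le_iff₀ (by positivity)]
      have : 1 / 4 ≤ (b * θ ^ 2) ^ 2 := by nlinarith
      nlinarith [mul_le_mul_of_nonneg_left this (mul_nonneg C0.le q0)]
    nlinarith

lemma markov {α : Type*} [MeasurableSpace α] (μ : Measure α) [IsFiniteMeasure μ] {f : α → ℝ}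
    (hf : BM f) {l : ℝ} (hl : 0 ≤ l) (L : ℝ) :
    ∫ x, (if L < f x then (1 : ℝ) else 0) ∂μ ≤ exp (-(l * L)) * ∫ x, exp (l * f x) ∂μ := by
  rw [← integral_const_mul]
  refine int_mono (BM.ind (measurableSet_lt measurable_const hf.1)) (by fun_prop) fun x => ?_
  rw [← exp_add]
  split_ifs with h
  · exact one_le_exp (by nlinarith)
  · positivity

section
variable {θ : ℝ} (h0 : 0 ≤ θ) (h1 : θ < 1) (hb : ((d : ℝ) - 1) * θ ^ 2 ≤ 1) (hd : 3 ≤ d)
include h0 h1 hb hd

lemma Wd_pack {N : ℕ} (hN : 1 ≤ N) : ∃ c1 : ℝ, 0 < c1 ∧ c1 ≤ 1 ∧ ∀ s z : ℝ, 0 < z → z ≤ 1 →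
    z ^ 8 / 2 ≤ min s (1 / 2) → ∀ c : V d → ℝ, (∀ v, s ≤ c v) → ∀ (l m : ℕ) (j : Fin d),
      ∫ ω, t2 θ (hc N c ω) (step j (root d)) j * Wd (t2 θ (hc N c ω)) (phl l) m (step j (root d))
        ∂PP d θ ≤ (1 - c1 * z ^ 12) ^ l / (c1 * z ^ 12) := by
  have p1 := one_sub_sq_pos h0 h1
  have k0 := kap_pos (Bd d θ N)
  have k1 := kap_le_one (Bd d θ N)
  have b2 := two_le_b hd
  set C := ((1 - θ ^ 2) * kap (Bd d θ N)) ^ 2
  have C0 : 0 < C := by positivity
  have C1 : C ≤ 1 := pow_le_one₀ (by positivity) (by nlinarith [sq_nonneg θ])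
  have c1 : C / (4 * (d - 1)) / 40 ≤ 1 := by
    rw [div_div, div_le_one (by positivity)]; linarith
  refine ⟨C / (4 * (d - 1)) / 40, by positivity, c1, fun s z z0 z1 hz c hs l m j => ?_⟩
  have s0 : 0 < s := lt_of_lt_of_le (by positivity) (hz.trans (min_le_left _ _))
  have q := q1_mem θ N s j
  have e1 : z ^ 12 / 40 ≤ 1 - (d - 1) * θ ^ 2 + q1 θ N s j := by
    refine abs_le_of_sq_le_sq' (le_trans ?_ (q1_lower h0 h1 hb hN s0 j)) (by linarith) |>.2
    have := pow_le_pow_left₀ (by positivity) hz 3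
    nlinarith [pow_pos z0 24]
  have z12 : z ^ 12 ≤ 1 := pow_le_one₀ z0.le z1
  have p2 : 0 < C / (4 * (d - 1)) / 40 * z ^ 12 := by positivity
  have p3 : 0 ≤ 1 - C / (4 * (d - 1)) / 40 * z ^ 12 :=
    sub_nonneg.2 (mul_le_one₀ c1 (by positivity) z12)
  have := Wd_bound h0 h1 hd N hs j (β := 1 - C / (4 * (d - 1)) / 40 * z ^ 12)
    ((le_of_eq (by simp only [C]; ring)).trans ((beta_arith b2 hb C0 C1 q.1 q.2 e1).trans
      (le_of_eq (by ring)))) p3 (by linarith) l m (ch_root' j)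
  rw [len_step (ch_root' j), len_root, zero_add, Nat.add_sub_cancel, sub_sub_cancel] at this
  refine this.trans (div_le_div_of_nonneg_right (mul_le_of_le_one_left (pow_nonneg p3 _)
    (by linarith)) p2.le)

lemma tail_pack {N : ℕ} (hN : 1 ≤ N) {s0 ε : ℝ} (hs0 : 0 < s0) (hε : 0 < ε) : ∃ K, ∃ l : ℕ,
    ∀ c : V d → ℝ, (∀ v, s0 ≤ c v) → ∀ n,
      ∫ ω, ∑ u ∈ ball d n, pp (t2 θ (hc N c ω)) u ∂PP d θ ≤ K ∧
      ∫ ω, ∑ u ∈ ball d n, pp (t2 θ (hc N c ω)) u * phl l u ∂PP d θ ≤ ε := by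
  obtain ⟨c1, p0, p1, H⟩ := Wd_pack h0 h1 hb hd hN
  set z := min s0 (1 / 2)
  have z0 : 0 < z := lt_min hs0 (by norm_num)
  have z1 : z ≤ 1 := (min_le_right _ _).trans (by norm_num)
  have hz : z ^ 8 / 2 ≤ z := by nlinarith [pow_le_of_le_one z0.le z1 (n := 8) (by norm_num)]
  have p2 : 0 < c1 * z ^ 12 := by positivity
  have d0 : (0 : ℝ) < d := by linarith [two_le_b hd]
  obtain ⟨l, hl⟩ := exists_pow_lt_of_lt_one (show 0 < ε * (c1 * z ^ 12) / d by positivity)
    (show 1 - c1 * z ^ 12 < 1 by linarith)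
  have key : ∀ c : V d → ℝ, (∀ v, s0 ≤ c v) → ∀ n l,
      ∫ ω, ∑ u ∈ ball d n, pp (t2 θ (hc N c ω)) u * phl l u ∂PP d θ ≤
        d * ((1 - c1 * z ^ 12) ^ l / (c1 * z ^ 12)) := fun c hs n l => by
    have e : phl l (root d) = 0 := if_pos (by simp [len_root])
    simp only [sum_ball_pp]
    rcases n with _ | n
    · simp only [Wd, e, integral_zero]
      have : 0 ≤ 1 - c1 * z ^ 12 := by nlinarith [pow_le_one₀ z0.le z1 (n := 12)]
      positivity
    · simp only [Wd, e, zero_add, ch_root]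
      rw [int_sum _ fun j => (BM_t2 h0 h1 (measurable_hc N c) _ _).mul
        (BM_Wd2 h0 h1 (measurable_hc N c) _ _ _)]
      exact (sum_le_card_nsmul _ _ _ fun j _ => H s0 z z0 z1 hz c hs l n j).trans (by simp)
  refine ⟨1 + d * ((1 - c1 * z ^ 12) ^ 0 / (c1 * z ^ 12)), l, fun c hs n => ⟨?_, ?_⟩⟩
  · have e : ∀ ω, ∑ u ∈ ball d n, pp (t2 θ (hc N c ω)) u =
        1 + ∑ u ∈ ball d n, pp (t2 θ (hc N c ω)) u * phl 0 u := fun ω => by
      have hr : root d ∈ ball d n := mem_ball.2 (by simp [len_root])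
      rw [← add_sum_erase _ _ hr, ← add_sum_erase _ _ hr, phl, if_pos (by simp [len_root])]
      simp only [pp_root, mul_zero, zero_add]
      refine congrArg _ (sum_congr rfl fun u hu => ?_)
      rw [phl, if_neg fun h => (mem_erase.1 hu).1 (eq_root_of_len (by omega)), mul_one]
    simp only [e]
    rw [int_add (BM.const _) (by simp only [sum_ball_pp]; exact BM_Wd2 h0 h1 (by fun_prop) _ _ _)]
    simpa using key c hs n 0
  · refine (key c hs n l).trans ?_
    rw [lt_div_iff₀ d0] at hl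
    rw [mul_div_assoc', div_le_iff₀ p2]; linarith

lemma mgf_step (N : ℕ) (s : ℝ) (n : ℕ) (i0 : Fin d) (J : ℕ) {l : ℝ} (l0 : 0 ≤ l) :
    ∫ ω, exp (l * Lam θ (hc N (fun _ => s) ω) n (root d) i0) ∂PP d θ ≤ exp (J * l) *
      (∫ ω, exp (l / (d - 1) ^ J * Lam θ (hc N (fun _ => s) ω) n (root d) i0) ∂PP d θ) ^
        (d - 1) ^ J := by
  have bL := BM_Lam h0 h1 hb (measurable_hc N fun _ : V d => s)
  have b2 := two_le_b hd
  have one : ∀ l, 0 ≤ l → ∫ ω, exp (l * Lam θ (hc N (fun _ => s) ω) n (root d) i0) ∂PP d θ ≤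
      exp l * (∫ ω, exp (l / (d - 1) * Lam θ (hc N (fun _ => s) ω) n (root d) i0) ∂PP d θ) ^
        (d - 1) := fun l l0 => by
    have bp : ∀ j, BM fun ω => exp (l / (d - 1) *
        Lam θ (hc N (fun _ => s) ω) n (step j (root d)) j) := fun j => ((BM.const _).mul (bL _ _ _)).exp
    refine (int_mono (g := fun ω => exp l * ∏ j ∈ univ.erase i0, exp (l / (d - 1) *
        Lam θ (hc N (fun _ => s) ω) n (step j (root d)) j)) ((BM.const _).mul (bL _ _ _)).exp
      ((BM.const _).mul (BM.prod _ bp)) fun ω => ?_).trans (le_of_eq ?_)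
    · rw [← exp_sum, ← exp_add]
      refine exp_le_exp.2 ((mul_le_mul_of_nonneg_left (Lam_mono θ _ _ _ (n.le_succ)) l0).trans ?_)
      simp only [Lam, Ws, mul_add, mul_one, mul_sum]
      refine add_le_add_right (sum_le_sum fun j _ => ?_) _
      rw [← mul_assoc, div_eq_mul_one_div]
      refine mul_le_mul_of_nonneg_right (mul_le_mul_of_nonneg_left ((t2_le h0 h1 _ _ _).trans ?_) l0)
        (Lam_nonneg _ _ _ _ _)
      rw [le_div_iff₀ (by linarith)]; linarith
    · rw [integral_const_mul, int_prod_dep _ _ bp (A := fun j => sub1 (step j (root d)))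
        (fun j _ ω ω' H => by
          have := Wd_dep h0 h1 N (fun _ => s) (fun _ => 1) n _ fun k hk => H k hk.1
          simp only [Lam, Ws_eq_Wd _ _ _ (ch_root' j)] at this ⊢
          rw [this])
        fun i _ j _ hij => sub1_disj (ch_root' i) (ch_root' j) hij,
        prod_congr rfl fun j _ => hom_Lam θ N s (G := fun y => exp (l / (d - 1) * y))
          (by fun_prop) n _ j i0, prod_const, card_erase_of_mem (mem_univ _), card_univ,
        Fintype.card_fin]
  induction J with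
  | zero => simp
  | succ J ih =>
    refine ih.trans ?_
    have := pow_le_pow_left₀ (integral_nonneg fun _ => (exp_pos _).le)
      (one (l / (d - 1) ^ J) (by positivity)) ((d - 1) ^ J)
    refine (mul_le_mul_of_nonneg_left this (exp_pos _).le).trans (le_of_eq ?_)
    rw [mul_pow, ← exp_nat_mul, ← mul_assoc, ← exp_add, ← pow_mul, div_div, ← pow_succ, ← pow_succ',
      Nat.cast_pow, Nat.cast_pred (by omega), mul_div_cancel₀ _ (by positivity)]
    push_cast; ring_nf

lemma mgf_L {N : ℕ} (hN : 1 ≤ N) : ∃ K : ℝ, 1 ≤ K ∧ ∀ s z : ℝ, 0 < z → z ≤ 1 →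
    z ^ 8 / 2 ≤ min s (1 / 2) → ∀ (n : ℕ) (v : V d) (i : Fin d),
      ∫ ω, exp (z ^ 12 / K * Lam θ (hc N (fun _ => s) ω) n v i) ∂PP d θ ≤ 2 ∧
      ∀ J : ℕ, ∫ ω, (if 2 * J + 2 * K / z ^ 12 < Lam θ (hc N (fun _ => s) ω) n v i then (1 : ℝ)
        else 0) ∂PP d θ ≤ exp (-4 ^ J) := by
  obtain ⟨c1, p0, p1, H⟩ := Wd_pack h0 h1 hb hd hN
  have b2 := two_le_b hd
  have d0 : (0 : ℝ) < d := by linarith
  set K := 4 * (9 + d / c1)
  have K0 : 0 ≤ d / c1 := by positivity
  refine ⟨K, by simp only [K]; linarith, fun s z z0 z1 hz n v i => ?_⟩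
  have bL := BM_Lam h0 h1 hb (measurable_hc N fun _ : V d => s)
  have Kp : 0 < K := by positivity
  have z12 : z ^ 12 ≤ 1 := pow_le_one₀ z0.le z1
  have mean : ∫ ω, Lam θ (hc N (fun _ => s) ω) n (root d) i ∂PP d θ ≤ 1 + d / c1 / z ^ 12 := by
    refine (int_mono (bL _ _ _) (bL (n + 1) _ _) fun ω => Lam_mono θ _ _ _ n.le_succ).trans ?_
    simp only [Lam, Ws]
    have b : ∀ j, BM fun ω => t2 θ (hc N (fun _ => s) ω) (step j (root d)) j *
        Ws (t2 θ (hc N (fun _ => s) ω)) (fun _ => 1) n (step j (root d)) j := fun j =>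
      (BM_t2 h0 h1 (by fun_prop) _ _).mul (bL _ _ _)
    rw [int_add (BM.const _) (BM.sum _ b), int_sum _ b]
    refine add_le_add (by simp) ((sum_le_card_nsmul _ _ (1 / (c1 * z ^ 12)) fun j _ => ?_).trans ?_)
    · have := H s z z0 z1 hz _ (fun _ => le_rfl) 0 n j
      rw [pow_zero] at this
      refine le_of_eq_of_le (congrArg _ (funext fun ω => ?_)) this
      rw [Ws_eq_Wd _ _ _ (ch_root' j), Wd_congr _ (φ' := phl 0) _ _ fun w hw => by
        have := anc_len hw
        rw [len_step (ch_root' j)] at this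
        rw [phl, if_neg (by omega)]]
    · rw [nsmul_eq_mul, card_erase', div_div, mul_one_div]
      gcongr; linarith
  have M2 : ∫ ω, exp (z ^ 12 / K * Lam θ (hc N (fun _ => s) ω) n (root d) i) ∂PP d θ ≤ 2 := by
    refine boot (G := fun l => ∫ ω, exp (l * Lam θ (hc N (fun _ => s) ω) n (root d) i) ∂PP d θ)
      (r := 1 / 2) (B := (n + 1) * 1) (by norm_num) (by norm_num) (by positivity)
      (fun l l0 hl => ?_) (fun l l0 hl hG => ?_) (by positivity)
    · refine int_le_const ((BM.const _).mul (bL _ _ _)).exp fun ω => ?_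
      have := mul_le_mul_of_nonneg_left ((le_abs_self _).trans
        (Lam_le h0 h1 hb (hc N (fun _ => s) ω) n (root d) i)) l0
      linarith [exp_le_exp.2 (this.trans hl), exp_half_le]
    refine (mgf_step h0 h1 hb hd N s n i 8 l0).trans ?_
    have eB : (((d - 1) ^ 8 : ℕ) : ℝ) = ((d : ℝ) - 1) ^ 8 := by
      rw [Nat.cast_pow, Nat.cast_pred (by omega)]
    have B0 : (2 : ℝ) ^ 8 ≤ ((d : ℝ) - 1) ^ 8 := pow_le_pow_left₀ (by norm_num) b2 8
    generalize ((d : ℝ) - 1) ^ 8 = B at *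
    have B1 : 0 < B := by linarith
    have b3 := ((BM.const (1 / 2 * l)).mul (bL n (root d) i)).exp
    have := int_mono (μ := PP d θ) ((BM.const (l / B)).mul (bL n (root d) i)).exp ((BM.const 1).add
      (((BM.const (l / B)).mul (bL n (root d) i)).add ((BM.const (32 / B ^ 2)).mul b3))) fun ω => by
        have x0 := Lam_nonneg θ (hc N (fun _ => s) ω) n (root d) i
        generalize Lam θ (hc N (fun _ => s) ω) n (root d) i = x at *
        have a := exp_le_quad (l / B * x)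
        have y0 : 0 ≤ l * x := by positivity
        have b := quadratic_le_exp_of_nonneg (show 0 ≤ l * x / 4 by positivity)
        have c : exp |l / B * x| ≤ exp (l * x / 4) := exp_le_exp.2 (by
          rw [abs_of_nonneg (by positivity), div_mul_eq_mul_div]
          exact div_le_div_of_nonneg_left y0 (by norm_num) (by linarith))
        have e : exp (1 / 2 * l * x) = exp (l * x / 4) * exp (l * x / 4) := by
          rw [← exp_add]; ring_nf
        have f : (l / B * x) ^ 2 ≤ 32 / B ^ 2 * exp (l * x / 4) := by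
          rw [div_mul_eq_mul_div, div_pow, div_mul_eq_mul_div]
          exact div_le_div_of_nonneg_right (by nlinarith) (by positivity)
        have := mul_le_mul f c (exp_pos _).le (by positivity)
        rw [e]; linarith
    rw [int_add (BM.const _) (((BM.const _).mul (bL _ _ _)).add ((BM.const _).mul b3)),
      int_l2 (bL _ _ _) b3] at this
    simp only [integral_const, probReal_univ, smul_eq_mul, mul_one] at this
    have a1 := mul_le_mul_of_nonneg_left mean (show 0 ≤ l / B by positivity)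
    have a2 := mul_le_mul_of_nonneg_left hG (show 0 ≤ 32 / B ^ 2 by positivity)
    have a3 := pow_le_pow_left₀ (integral_nonneg fun _ => (exp_pos _).le) (this.trans (show _ ≤
      exp (l / B * (1 + d / c1 / z ^ 12) + 32 / B ^ 2 * 2) by
        linarith [add_one_le_exp (l / B * (1 + d / c1 / z ^ 12) + 32 / B ^ 2 * 2)])) ((d - 1) ^ 8)
    refine (mul_le_mul_of_nonneg_left a3 (exp_pos _).le).trans ?_
    rw [← exp_nat_mul, ← exp_add, eB]
    refine le_trans (exp_le_exp.2 ?_) exp_half_le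
    have a4 : B * (l / B * (1 + d / c1 / z ^ 12) + 32 / B ^ 2 * 2) =
        l * (1 + d / c1 / z ^ 12) + 64 / B := by field_simp; ring
    have a5 : 64 / B ≤ 1 / 4 := by rw [div_le_iff₀ B1]; linarith
    have a6 : l * (9 + d / c1 / z ^ 12) ≤ 1 / 4 := by
      refine (mul_le_mul_of_nonneg_right hl (by positivity)).trans ?_
      rw [div_mul_eq_mul_div, div_le_iff₀ Kp, mul_add, mul_div_cancel₀ _ (by positivity)]
      simp only [K]; linarith
    rw [a4]; push_cast; linarith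
  refine ⟨by rwa [hom_Lam θ N s (G := fun y => exp (z ^ 12 / K * y)) (by fun_prop) n v i i],
    fun J => ?_⟩
  rw [hom_Lam θ N s (G := fun y => if 2 * J + 2 * K / z ^ 12 < y then (1 : ℝ) else 0)
    (Measurable.ite measurableSet_Ioi measurable_const measurable_const) n v i i]
  have B0 : (4 : ℝ) ^ J ≤ ((d : ℝ) - 1) ^ (2 * J) := by
    rw [pow_mul]; exact pow_le_pow_left₀ (by norm_num) (by nlinarith) J
  have l0 : 0 ≤ z ^ 12 / K * (d - 1) ^ (2 * J) := by positivity
  refine (markov _ (bL _ _ _) l0 _).trans ((mul_le_mul_of_nonneg_left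
    (mgf_step h0 h1 hb hd N s n i (2 * J) l0) (exp_pos _).le).trans ?_)
  rw [mul_div_cancel_right₀ _ (by positivity), ← mul_assoc, ← exp_add]
  have := pow_le_pow_left₀ (integral_nonneg fun _ => (exp_pos _).le)
    (M2.trans (show (2 : ℝ) ≤ exp 1 by linarith [add_one_le_exp (1 : ℝ)])) ((d - 1) ^ (2 * J))
  refine (mul_le_mul_of_nonneg_left this (exp_pos _).le).trans ?_
  rw [← exp_nat_mul, ← exp_add, Nat.cast_pow, Nat.cast_pred (by omega)]
  refine exp_le_exp.2 ?_
  have : z ^ 12 / K * (d - 1) ^ (2 * J) * (2 * K / z ^ 12) = 2 * (d - 1) ^ (2 * J) := by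
    field_simp
  rw [mul_add, this]; push_cast; linarith

end

end Vale.Agent.P161
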