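import Mathlib

namespace Vale.Agent.P161

open MeasureTheory Finset

/-- Bounded measurable real functions. -/
@[fun_prop] def BM {α : Type*} [MeasurableSpace α] (f : α → ℝ) : Prop :=
  Measurable f ∧ ∃ C, ∀ x, |f x| ≤ C

namespace BM
variable {α β : Type*} [MeasurableSpace α] [MeasurableSpace β] {f g : α → ℝ}

lemma meas (h : BM f) : Measurable f := h.1

lemma of_le (hf : Measurable f) {C : ℝ} (h : ∀ x, |f x| ≤ C) : BM f := ⟨hf, C, h⟩

@[fun_prop] lemma const (c : ℝ) : BM fun _ : α => c := ⟨measurable_const, |c|, fun _ => le_rfl⟩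

@[fun_prop] lemma add (hf : BM f) (hg : BM g) : BM fun x => f x + g x := by
  obtain ⟨h1, C, h2⟩ := hf
  obtain ⟨h3, D, h4⟩ := hg
  exact ⟨h1.add h3, C + D, fun x => (abs_add_le _ _).trans (add_le_add (h2 x) (h4 x))⟩

@[fun_prop] lemma neg (hf : BM f) : BM fun x => -f x := by
  obtain ⟨h1, C, h2⟩ := hf
  exact ⟨h1.neg, C, fun x => by rw [abs_neg]; exact h2 x⟩

@[fun_prop] lemma sub (hf : BM f) (hg : BM g) : BM fun x => f x - g x := by
  simpa only [sub_eq_add_neg] using hf.add hg.neg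

@[fun_prop] lemma mul (hf : BM f) (hg : BM g) : BM fun x => f x * g x := by
  obtain ⟨h1, C, h2⟩ := hf
  obtain ⟨h3, D, h4⟩ := hg
  exact ⟨h1.mul h3, C * D, fun x => by
    rw [abs_mul]; exact mul_le_mul (h2 x) (h4 x) (abs_nonneg _) ((abs_nonneg _).trans (h2 x))⟩

@[fun_prop] lemma div_const (hf : BM f) (c : ℝ) : BM fun x => f x / c := by
  simpa only [div_eq_mul_inv] using hf.mul (const _)

@[fun_prop] lemma abs (hf : BM f) : BM fun x => |f x| := by
  obtain ⟨h1, C, h2⟩ := hf
  exact ⟨h1.abs, C, fun x => by rw [abs_abs]; exact h2 x⟩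

@[fun_prop] lemma pow (hf : BM f) (n : ℕ) : BM fun x => f x ^ n := by
  induction n with
  | zero => simpa using const 1
  | succ n ih => simpa only [pow_succ] using ih.mul hf

@[fun_prop] lemma exp (hf : BM f) : BM fun x => Real.exp (f x) := by
  obtain ⟨h1, C, h2⟩ := hf
  exact ⟨h1.exp, Real.exp C, fun x => by
    rw [abs_of_pos (Real.exp_pos _)]; exact Real.exp_le_exp.2 ((le_abs_self _).trans (h2 x))⟩

@[fun_prop] lemma sum {ι : Type*} (s : Finset ι) {f : ι → α → ℝ} (h : ∀ i, BM (f i)) :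
    BM fun x => ∑ i ∈ s, f i x := by
  classical
  induction s using Finset.induction_on with
  | empty => simpa using const 0
  | insert a s ha ih => simpa only [sum_insert ha] using (h a).add ih

lemma sum' {ι : Type*} (s : Finset ι) {f : ι → α → ℝ} (h : ∀ i ∈ s, BM (f i)) :
    BM fun x => ∑ i ∈ s, f i x := by
  classical
  induction s using Finset.induction_on with
  | empty => simpa using const 0
  | insert a s ha ih =>
    simpa only [sum_insert ha] using (h a (mem_insert_self _ _)).add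
      (ih fun i hi => h i (mem_insert_of_mem hi))

@[fun_prop] lemma prod {ι : Type*} (s : Finset ι) {f : ι → α → ℝ} (h : ∀ i, BM (f i)) :
    BM fun x => ∏ i ∈ s, f i x := by
  classical
  induction s using Finset.induction_on with
  | empty => simpa using const 1
  | insert a s ha ih => simpa only [prod_insert ha] using (h a).mul ih

lemma comp (hf : BM f) {φ : β → α} (hφ : Measurable φ) : BM fun x => f (φ x) :=
  ⟨hf.1.comp hφ, hf.2.imp fun _ h _ => h _⟩

lemma ite {p : α → Prop} [DecidablePred p] (hp : MeasurableSet {x | p x}) (hf : BM f)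
    (hg : BM g) : BM fun x => if p x then f x else g x := by
  obtain ⟨h1, C, h2⟩ := hf
  obtain ⟨h3, D, h4⟩ := hg
  refine ⟨Measurable.ite hp h1 h3, max C D, fun x => ?_⟩
  beta_reduce
  split_ifs
  · exact (h2 x).trans (le_max_left _ _)
  · exact (h4 x).trans (le_max_right _ _)

lemma ind {p : α → Prop} [DecidablePred p] (hp : MeasurableSet {x | p x}) :
    BM fun x => if p x then (1 : ℝ) else 0 := ite hp (const _) (const _)

lemma int (hf : BM f) (μ : Measure α) [IsFiniteMeasure μ] : Integrable f μ := by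
  obtain ⟨h1, C, h2⟩ := hf
  exact Integrable.of_bound h1.aestronglyMeasurable C (ae_of_all _ h2)

lemma memLp (hf : BM f) (μ : Measure α) [IsFiniteMeasure μ] (p : ENNReal) : MemLp f p μ := by
  obtain ⟨h1, C, h2⟩ := hf
  exact MemLp.of_bound h1.aestronglyMeasurable C (ae_of_all _ h2)

lemma integral {f : α × β → ℝ} (hf : BM f) (ν : Measure β) [IsProbabilityMeasure ν] :
    BM fun x => ∫ y, f (x, y) ∂ν := by
  obtain ⟨h1, C, h2⟩ := hf
  refine ⟨h1.stronglyMeasurable.integral_prod_right'.measurable, C, fun x => ?_⟩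
  have := norm_integral_le_of_norm_le_const (μ := ν) (f := fun y => f (x, y)) (C := C)
    (ae_of_all _ fun y => h2 _)
  simpa using this

end BM

section
variable {α β : Type*} [MeasurableSpace α] [MeasurableSpace β]

lemma integral_mp {μ : Measure α} {ν : Measure β} {φ : α → β} (h : MeasurePreserving φ μ ν)
    {f : β → ℝ} (hf : Measurable f) : ∫ x, f (φ x) ∂μ = ∫ y, f y ∂ν := by
  rw [← h.map_eq, integral_map h.measurable.aemeasurable hf.aestronglyMeasurable]

lemma int_cs (μ : Measure α) [IsFiniteMeasure μ] {f g : α → ℝ} (hf : BM f) (hg : BM g) :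
    (∫ x, f x * g x ∂μ) ^ 2 ≤ (∫ x, f x ^ 2 ∂μ) * ∫ x, g x ^ 2 ∂μ := by
  have key : ∀ t : ℝ, 0 ≤ (∫ x, g x ^ 2 ∂μ) * (t * t) + (2 * ∫ x, f x * g x ∂μ) * t +
      ∫ x, f x ^ 2 ∂μ := fun t => by
    have : ∫ x, (f x + t * g x) ^ 2 ∂μ = (∫ x, g x ^ 2 ∂μ) * (t * t) +
        (2 * ∫ x, f x * g x ∂μ) * t + ∫ x, f x ^ 2 ∂μ := by
      rw [← integral_mul_const, ← integral_const_mul, ← integral_mul_const, ← integral_add,
        ← integral_add]
      · congr 1; ext x; ring
      all_goals exact BM.int (by fun_prop) _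
    rw [← this]; positivity
  have := discrim_le_zero key
  unfold discrim at this
  nlinarith

lemma int_jensen (μ : Measure α) [IsProbabilityMeasure μ] {f : α → ℝ} (hf : BM f) :
    (∫ x, f x ∂μ) ^ 2 ≤ ∫ x, f x ^ 2 ∂μ := by
  simpa using int_cs μ hf (BM.const 1)

lemma int_mono {μ : Measure α} [IsFiniteMeasure μ] {f g : α → ℝ} (hf : BM f) (hg : BM g)
    (h : ∀ x, f x ≤ g x) : ∫ x, f x ∂μ ≤ ∫ x, g x ∂μ :=
  integral_mono (hf.int μ) (hg.int μ) h

lemma int_mono_ae {μ : Measure α} [IsFiniteMeasure μ] {f g : α → ℝ} (hf : BM f) (hg : BM g)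
    (h : ∀ᵐ x ∂μ, f x ≤ g x) : ∫ x, f x ∂μ ≤ ∫ x, g x ∂μ :=
  integral_mono_ae (hf.int μ) (hg.int μ) h

lemma int_add {μ : Measure α} [IsFiniteMeasure μ] {f g : α → ℝ} (hf : BM f) (hg : BM g) :
    ∫ x, (f x + g x) ∂μ = ∫ x, f x ∂μ + ∫ x, g x ∂μ := integral_add (hf.int μ) (hg.int μ)

lemma int_sub {μ : Measure α} [IsFiniteMeasure μ] {f g : α → ℝ} (hf : BM f) (hg : BM g) :
    ∫ x, (f x - g x) ∂μ = ∫ x, f x ∂μ - ∫ x, g x ∂μ := integral_sub (hf.int μ) (hg.int μ)

lemma int_sum {μ : Measure α} [IsFiniteMeasure μ] {ι : Type*} (s : Finset ι) {f : ι → α → ℝ}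
    (hf : ∀ i, BM (f i)) : ∫ x, ∑ i ∈ s, f i x ∂μ = ∑ i ∈ s, ∫ x, f i x ∂μ :=
  integral_finsetSum _ fun i _ => (hf i).int μ

lemma int_le_const {μ : Measure α} [IsProbabilityMeasure μ] {f : α → ℝ} (hf : BM f) {c : ℝ}
    (h : ∀ x, f x ≤ c) : ∫ x, f x ∂μ ≤ c := by
  simpa using int_mono (μ := μ) hf (BM.const c) h

end

section
variable {K E : Type*} [MeasurableSpace E] (ρ : K → Measure E) [∀ k, IsProbabilityMeasure (ρ k)]

lemma measurable_pw (A : Set K) [DecidablePred (· ∈ A)] :
    Measurable fun p : (K → E) × (K → E) => A.piecewise p.1 p.2 := by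
  refine measurable_pi_lambda _ fun k => ?_
  by_cases hk : k ∈ A
  · simp only [Set.piecewise_eq_of_mem _ _ _ hk]; fun_prop
  · simp only [Set.piecewise_eq_of_notMem _ _ _ hk]; fun_prop

lemma mp_pw (A : Set K) [DecidablePred (· ∈ A)] :
    MeasurePreserving (fun p : (K → E) × (K → E) => A.piecewise p.1 p.2)
      ((Measure.infinitePi ρ).prod (Measure.infinitePi ρ)) (Measure.infinitePi ρ) := by
  refine ⟨measurable_pw A, Measure.eq_infinitePi ρ fun s t ht => ?_⟩
  rw [Measure.map_apply (measurable_pw A) (.pi s.countable_toSet fun _ _ => ht _)]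
  have : (fun p : (K → E) × (K → E) => A.piecewise p.1 p.2) ⁻¹' (Set.pi s t) =
      (Set.pi (s.filter (· ∈ A) : Finset K) t) ×ˢ (Set.pi (s.filter (· ∉ A) : Finset K) t) := by
    ext p
    simp only [Set.mem_preimage, Set.mem_pi, Finset.mem_coe, Set.mem_prod, mem_filter]
    constructor
    · intro h
      exact ⟨fun k hk => by simpa [hk.2] using h k hk.1, fun k hk => by simpa [hk.2] using h k hk.1⟩
    · intro h k hk
      by_cases hA : k ∈ A
      · simpa [hA] using h.1 k ⟨hk, hA⟩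
      · simpa [hA] using h.2 k ⟨hk, hA⟩
  rw [this, Measure.prod_prod, Measure.infinitePi_pi _ fun _ _ => ht _,
    Measure.infinitePi_pi _ fun _ _ => ht _, prod_filter_mul_prod_filter_not]

lemma int_pw (A : Set K) [DecidablePred (· ∈ A)] {f : (K → E) → ℝ} (hf : BM f) :
    ∫ ω, f ω ∂Measure.infinitePi ρ =
      ∫ ω, ∫ ω', f (A.piecewise ω ω') ∂Measure.infinitePi ρ ∂Measure.infinitePi ρ := by
  rw [← integral_mp (mp_pw ρ A) hf.1, integral_prod _ ((hf.comp (measurable_pw A)).int _)]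

variable [DecidableEq K]

lemma measurable_upd (k : K) :
    Measurable fun p : (K → E) × E => Function.update p.1 k p.2 := measurable_update'

lemma mp_upd (k : K) :
    MeasurePreserving (fun p : (K → E) × E => Function.update p.1 k p.2)
      ((Measure.infinitePi ρ).prod (ρ k)) (Measure.infinitePi ρ) := by
  have h1 := mp_pw ρ ({k}ᶜ : Set K)
  have h2 : MeasurePreserving (Prod.map id (Function.eval k))
      ((Measure.infinitePi ρ).prod (Measure.infinitePi ρ)) ((Measure.infinitePi ρ).prod (ρ k)) :=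
    (MeasurePreserving.id _).prod (measurePreserving_eval_infinitePi ρ k)
  refine ⟨measurable_upd k, ?_⟩
  rw [← h2.map_eq, Measure.map_map (measurable_upd k) h2.measurable]
  refine Eq.trans ?_ h1.map_eq
  congr 1
  ext p j
  by_cases hj : j = k
  · subst hj; simp
  · simp [hj]

lemma int_upd (k : K) {f : (K → E) → ℝ} (hf : BM f) :
    ∫ ω, f ω ∂Measure.infinitePi ρ =
      ∫ ω, ∫ t, f (Function.update ω k t) ∂ρ k ∂Measure.infinitePi ρ := by
  rw [← integral_mp (mp_upd ρ k) hf.1, integral_prod _ ((hf.comp (measurable_upd k)).int _)]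

lemma int_upd' (k : K) {f : (K → E) → ℝ} (hf : BM f) :
    ∫ ω, f ω ∂Measure.infinitePi ρ =
      ∫ t, ∫ ω, f (Function.update ω k t) ∂Measure.infinitePi ρ ∂ρ k := by
  rw [← integral_mp (mp_upd ρ k) hf.1, integral_prod_symm _ ((hf.comp (measurable_upd k)).int _)]

omit [DecidableEq K] in
lemma int_mul_dep {f g : (K → E) → ℝ} (hf : BM f) (hg : BM g) {A : Set K}
    (df : DependsOn f A) (dg : DependsOn g Aᶜ) :
    ∫ ω, f ω * g ω ∂Measure.infinitePi ρ =
      (∫ ω, f ω ∂Measure.infinitePi ρ) * ∫ ω, g ω ∂Measure.infinitePi ρ := by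
  classical
  rw [int_pw ρ A (hf.mul hg), ← integral_mul_const]
  congr 1
  ext ω
  rw [← integral_const_mul]
  congr 1
  ext ω'
  rw [df (y := ω) fun k hk => by simp [hk], dg (y := ω') fun k hk => by
    simp [(Set.mem_compl_iff _ _).1 hk]]

omit [DecidableEq K] in
lemma int_prod_dep {ι : Type*} (s : Finset ι) {f : ι → (K → E) → ℝ} (hf : ∀ i, BM (f i))
    {A : ι → Set K} (df : ∀ i ∈ s, DependsOn (f i) (A i))
    (hA : ∀ i ∈ s, ∀ j ∈ s, i ≠ j → Disjoint (A i) (A j)) :
    ∫ ω, ∏ i ∈ s, f i ω ∂Measure.infinitePi ρ = ∏ i ∈ s, ∫ ω, f i ω ∂Measure.infinitePi ρ := by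
  classical
  induction s using Finset.induction_on with
  | empty => simp
  | insert a s ha ih =>
    simp only [prod_insert ha]
    rw [int_mul_dep ρ (hf a) (BM.prod s hf) (df a (mem_insert_self _ _)),
      ih (fun i hi => df i (mem_insert_of_mem hi))
        fun i hi j hj => hA i (mem_insert_of_mem hi) j (mem_insert_of_mem hj)]
    intro x y hxy
    refine prod_congr rfl fun i hi => df i (mem_insert_of_mem hi) fun k hk => hxy k ?_
    exact Set.disjoint_right.1 (hA a (mem_insert_self _ _) i (mem_insert_of_mem hi)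
      (by rintro rfl; exact ha hi)) hk

omit [DecidableEq K] in
lemma int_eval (k : K) {f : E → ℝ} (hf : Measurable f) :
    ∫ ω, f (ω k) ∂Measure.infinitePi ρ = ∫ t, f t ∂ρ k :=
  integral_mp (measurePreserving_eval_infinitePi ρ k) hf

end

end Vale.Agent.P161
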