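import Mathlib

namespace Vale.Agent.P161

open Real Set MeasureTheory

/-- Uniform law on `[0,1]`. -/
noncomputable def lam : Measure ℝ := volume.restrict (Icc 0 1)

instance : IsProbabilityMeasure lam := ⟨by simp [lam]⟩

lemma ae_lam : ∀ᵐ t ∂lam, t ∈ Icc (0 : ℝ) 1 := ae_restrict_mem measurableSet_Icc

noncomputable def cl (t : ℝ) : ℝ := max 0 (min t 1)

@[fun_prop] lemma measurable_cl : Measurable cl := by unfold cl; fun_prop

lemma cl_mem (t : ℝ) : cl t ∈ Icc (0 : ℝ) 1 := ⟨le_max_left _ _, max_le zero_le_one (min_le_right _ _)⟩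

lemma cl_of_mem {t : ℝ} (h : t ∈ Icc (0 : ℝ) 1) : cl t = t := by
  unfold cl; rw [min_eq_left h.2, max_eq_right h.1]

lemma ae_cl : ∀ᵐ t ∂lam, cl t = t := ae_lam.mono fun _ h => cl_of_mem h

/-- Clamp to `[-c, c]`. -/
noncomputable def clp (c y : ℝ) : ℝ := max (-c) (min y c)

@[fun_prop] lemma measurable_clp (c : ℝ) : Measurable (clp c) := by unfold clp; fun_prop

lemma abs_clp_le {c : ℝ} (hc : 0 ≤ c) (y : ℝ) : |clp c y| ≤ c :=
  abs_le.2 ⟨le_max_left _ _, max_le (by linarith) (min_le_right _ _)⟩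

lemma clp_of_le {c y : ℝ} (h : |y| ≤ c) : clp c y = y := by
  rw [abs_le] at h
  unfold clp; rw [min_eq_left h.2, max_eq_right h.1]

noncomputable def Qt (c t : ℝ) : ℝ := (4 * t - 2 + c) / (1 + √(1 + c * (4 * t - 2 + c)))

noncomputable def Fc (c y : ℝ) : ℝ := (y + 1) / 2 + c * (y ^ 2 - 1) / 4

@[fun_prop] lemma measurable_Qt {α : Type*} [MeasurableSpace α] {f g : α → ℝ} (hf : Measurable f)
    (hg : Measurable g) : Measurable fun x => Qt (f x) (g x) := by unfold Qt; fun_prop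

@[fun_prop] lemma measurable_Fc {α : Type*} [MeasurableSpace α] {f g : α → ℝ} (hf : Measurable f)
    (hg : Measurable g) : Measurable fun x => Fc (f x) (g x) := by unfold Fc; fun_prop

lemma Qt_Fc {c y : ℝ} (hc : |c| ≤ 1 / 2) (hy : |y| ≤ 1) : Qt c (Fc c y) = y := by
  have h1 : 0 < 1 + c * y := by
    have : |c * y| ≤ 1 / 2 := by
      rw [abs_mul]; nlinarith [abs_nonneg c, abs_nonneg y]
    linarith [(abs_le.1 this).1]
  have e : 4 * Fc c y - 2 + c = y * (2 + c * y) := by unfold Fc; ring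
  unfold Qt
  rw [e, show 1 + c * (y * (2 + c * y)) = (1 + c * y) ^ 2 by ring, sqrt_sq h1.le,
    div_eq_iff (by linarith)]
  ring

lemma Fc_mem {c y : ℝ} (hc : |c| ≤ 1 / 2) (hy : |y| ≤ 1) : Fc c y ∈ Icc (0 : ℝ) 1 := by
  rw [abs_le] at hc hy
  unfold Fc
  constructor
  · have : 0 ≤ (y + 1) * (2 + c * (y - 1)) := mul_nonneg (by linarith) (by nlinarith)
    nlinarith
  · have : 0 ≤ (1 - y) * (2 + c * (y + 1)) := mul_nonneg (by linarith) (by nlinarith)
    nlinarith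

lemma Fc_Qt {c t : ℝ} (hc : |c| ≤ 1 / 2) (ht : t ∈ Icc (0 : ℝ) 1) :
    |Qt c t| ≤ 1 ∧ Fc c (Qt c t) = t := by
  have hc' := abs_le.1 hc
  have hcont : ContinuousOn (Fc c) (Icc (-1) 1) := by unfold Fc; fun_prop
  have := intermediate_value_Icc (by norm_num : (-1 : ℝ) ≤ 1) hcont
  have e1 : Fc c (-1) = 0 := by unfold Fc; ring
  have e2 : Fc c 1 = 1 := by unfold Fc; ring
  rw [e1, e2] at this
  obtain ⟨y, hy, rfl⟩ := this ht
  rw [Qt_Fc hc (abs_le.2 hy)]
  exact ⟨abs_le.2 hy, rfl⟩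

lemma Qt_lip {c c' t : ℝ} (hc : |c| ≤ 1 / 2) (hc' : |c'| ≤ 1 / 2) (ht : t ∈ Icc (0 : ℝ) 1) :
    |Qt c t - Qt c' t| ≤ |c - c'| := by
  obtain ⟨h1, h2⟩ := Fc_Qt hc ht
  obtain ⟨h3, h4⟩ := Fc_Qt hc' ht
  generalize Qt c t = y at *
  generalize Qt c' t = y' at *
  unfold Fc at h2 h4
  have e : (y - y') * (2 + c * (y + y')) = (c - c') * (1 - y' ^ 2) := by nlinarith
  have a1 : 1 ≤ 2 + c * (y + y') := by
    have : |c * (y + y')| ≤ 1 := by
      rw [abs_mul]
      have := abs_add_le y y'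
      nlinarith [abs_nonneg c, abs_nonneg (y + y')]
    linarith [(abs_le.1 this).1]
  have a2 : |1 - y' ^ 2| ≤ 1 := by
    have := sq_abs y'
    rw [abs_le]; constructor <;> nlinarith [abs_nonneg y']
  have := congrArg abs e
  rw [abs_mul, abs_mul, abs_of_pos (by linarith : 0 < 2 + c * (y + y'))] at this
  nlinarith [abs_nonneg (y - y'), abs_nonneg (c - c')]

lemma cvA {c ε : ℝ} (hc : |c| ≤ 1 / 2) (hε : ε = 1 ∨ ε = -1) (g : ℝ → ℝ) :
    ∫ t, g (ε * Qt c (cl t)) ∂lam = ∫ t, g (2 * cl t - 1) * (1 + c * ε * (2 * cl t - 1)) ∂lam := by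
  have hε2 : ε * ε = 1 := by rcases hε with rfl | rfl <;> norm_num
  have hεa : |ε| = 1 := by rcases hε with rfl | rfl <;> norm_num
  have hy : ∀ t ∈ Icc (0 : ℝ) 1, |ε * (2 * t - 1)| ≤ 1 := fun t ht => by
    rw [abs_mul, hεa, one_mul, abs_le]; constructor <;> linarith [ht.1, ht.2]
  have hd : ∀ t ∈ Icc (0 : ℝ) 1, HasDerivWithinAt (fun t => Fc c (ε * (2 * t - 1)))
      (ε * (1 + c * ε * (2 * t - 1))) (Icc 0 1) t := fun t _ => by
    have h1 : HasDerivAt (fun t : ℝ => ε * (2 * t - 1)) (ε * 2) t := by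
      simpa using (((hasDerivAt_id t).const_mul 2).sub_const 1).const_mul ε
    have h2 := ((h1.add_const 1).div_const 2).add ((((h1.pow 2).sub_const 1).const_mul c).div_const 4)
    refine (HasDerivAt.congr_deriv h2 ?_).hasDerivWithinAt
    push_cast; ring
  have hinj : InjOn (fun t => Fc c (ε * (2 * t - 1))) (Icc 0 1) := fun a ha b hb hab => by
    have := congrArg (Qt c) hab
    simp only [Qt_Fc hc (hy a ha), Qt_Fc hc (hy b hb)] at this
    have h3 := congrArg (fun z => ε * z) this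
    simp only [← mul_assoc, hε2] at h3
    linarith
  have himg : (fun t => Fc c (ε * (2 * t - 1))) '' Icc 0 1 = Icc 0 1 := by
    apply Subset.antisymm
    · rintro _ ⟨t, ht, rfl⟩; exact Fc_mem hc (hy t ht)
    · intro u hu
      obtain ⟨h1, h2⟩ := Fc_Qt hc hu
      have h3 : |ε * Qt c u| ≤ 1 := by rwa [abs_mul, hεa, one_mul]
      refine ⟨(ε * Qt c u + 1) / 2, ⟨by linarith [(abs_le.1 h3).1], by
        linarith [(abs_le.1 h3).2]⟩, ?_⟩
      simp only
      rw [show ε * (2 * ((ε * Qt c u + 1) / 2) - 1) = (ε * ε) * Qt c u by ring, hε2, one_mul, h2]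
  have := integral_image_eq_integral_abs_deriv_smul measurableSet_Icc hd hinj
    fun u => g (ε * Qt c u)
  rw [himg] at this
  rw [integral_congr_ae (ae_cl.mono fun t h => by rw [h]), lam, this]
  refine setIntegral_congr_fun measurableSet_Icc fun t ht => ?_
  simp only [smul_eq_mul, cl_of_mem ht]
  rw [Qt_Fc hc (hy t ht), ← mul_assoc, hε2, one_mul, abs_mul, hεa, one_mul, abs_of_nonneg, mul_comm]
  have : |c * (ε * (2 * t - 1))| ≤ 1 / 2 := by
    rw [abs_mul]; nlinarith [abs_nonneg c, abs_nonneg (ε * (2 * t - 1)), hy t ht]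
  linarith [(abs_le.1 this).1, mul_assoc c ε (2 * t - 1)]

lemma cvB {c : ℝ} (hc : |c| ≤ 1 / 2) (ψ : ℝ → ℝ) :
    ∫ t, ψ (Fc c (2 * cl t - 1)) * (1 + c * (2 * cl t - 1)) ∂lam = ∫ t, ψ t ∂lam := by
  have := cvA hc (Or.inl rfl) fun y => ψ (Fc c y)
  simp only [one_mul, mul_one] at this
  rw [← this]
  exact integral_congr_ae (ae_lam.mono fun t h => by
    simp only [cl_of_mem h, (Fc_Qt hc h).2])

lemma integral_lam (g : ℝ → ℝ) : ∫ t, g (cl t) ∂lam = ∫ t in (0 : ℝ)..1, g t := by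
  rw [integral_congr_ae (ae_cl.mono fun t h => by rw [h]), lam,
    intervalIntegral.integral_of_le zero_le_one, integral_Icc_eq_integral_Ioc]

lemma int_lin : ∫ t, (2 * cl t - 1) ∂lam = 0 := by
  rw [integral_lam fun t => 2 * t - 1, intervalIntegral.integral_eq_sub_of_hasDerivAt
    (f := fun t => t ^ 2 - t) (fun t _ => ((hasDerivAt_pow 2 t).sub (hasDerivAt_id t)).congr_deriv
      (by simp)) (Continuous.intervalIntegrable (by fun_prop) _ _)]
  norm_num

lemma int_sq : ∫ t, (2 * cl t - 1) ^ 2 ∂lam = 1 / 3 := by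
  rw [integral_lam fun t => (2 * t - 1) ^ 2, intervalIntegral.integral_eq_sub_of_hasDerivAt
    (f := fun t => (2 * t - 1) ^ 3 / 6) (fun t _ =>
      (((((hasDerivAt_id t).const_mul 2).sub_const 1).pow 3).div_const 6).congr_deriv
      (by simp; ring)) (Continuous.intervalIntegrable (by fun_prop) _ _)]
  norm_num

lemma abs_lin_le (t : ℝ) : |2 * cl t - 1| ≤ 1 := by
  have := cl_mem t
  rw [abs_le]; constructor <;> linarith [this.1, this.2]

/-- The normalized jump as a function of the innovation. -/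
noncomputable def ph (a m t : ℝ) : ℝ := a * Qt (a * m) (cl t) / (1 + a * Qt (a * m) (cl t) * m)

@[fun_prop] lemma measurable_ph {α : Type*} [MeasurableSpace α] {f g k : α → ℝ}
    (hf : Measurable f) (hg : Measurable g) (hk : Measurable k) :
    Measurable fun x => ph (f x) (g x) (k x) := by unfold ph; fun_prop

lemma abs_mul_le_half {a m : ℝ} (ha : |a| ≤ 1 / 2) (hm : |m| ≤ 1) : |a * m| ≤ 1 / 2 := by
  rw [abs_mul]; nlinarith [abs_nonneg a, abs_nonneg m]

lemma int_ph {a m : ℝ} (ha : |a| ≤ 1 / 2) (hm : |m| ≤ 1) : ∫ t, ph a m t ∂lam = 0 := by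
  have := cvA (abs_mul_le_half ha hm) (Or.inl rfl) fun y => a * y / (1 + a * y * m)
  simp only [one_mul, mul_one] at this
  unfold ph
  rw [this]
  have e : ∀ t, a * (2 * cl t - 1) / (1 + a * (2 * cl t - 1) * m) * (1 + a * m * (2 * cl t - 1)) =
      a * (2 * cl t - 1) := fun t => by
    have h := abs_mul_le_half (abs_mul_le_half ha (abs_lin_le t)) hm
    have : 0 < 1 + a * (2 * cl t - 1) * m := by linarith [(abs_le.1 h).1]
    rw [div_mul_eq_mul_div, div_eq_iff this.ne']; ring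
  simp only [e]
  rw [integral_const_mul, int_lin, mul_zero]

lemma abs_ratio_le {a y m : ℝ} (ha : |a| ≤ 1 / 2) (hy : |y| ≤ 1) (hm : |m| ≤ 1) :
    |a * y / (1 + a * y * m)| ≤ 2 * |a| := by
  have h := abs_mul_le_half (abs_mul_le_half ha hy) hm
  have h2 : 1 / 2 ≤ 1 + a * y * m := by linarith [(abs_le.1 h).1]
  rw [abs_div, abs_of_pos (by linarith : 0 < 1 + a * y * m), div_le_iff₀ (by linarith), abs_mul]
  nlinarith [abs_nonneg a, abs_nonneg y]

lemma abs_ph_le {a m : ℝ} (ha : |a| ≤ 1 / 2) (hm : |m| ≤ 1) (t : ℝ) : |ph a m t| ≤ 2 * |a| :=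
  abs_ratio_le ha (Fc_Qt (abs_mul_le_half ha hm) (cl_mem t)).1 hm

lemma ph_lip {a m m' : ℝ} (ha : |a| ≤ 1 / 2) (hm : |m| ≤ 1) (hm' : |m'| ≤ 1) (t : ℝ) :
    |ph a m t - ph a m' t| ≤ 4 * |a| * |m - m'| := by
  have h1 := (Fc_Qt (abs_mul_le_half ha hm) (cl_mem t)).1
  have h2 := (Fc_Qt (abs_mul_le_half ha hm') (cl_mem t)).1
  have h3 := Qt_lip (abs_mul_le_half ha hm) (abs_mul_le_half ha hm') (cl_mem t)
  unfold ph
  generalize Qt (a * m) (cl t) = y at *
  generalize Qt (a * m') (cl t) = y' at *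
  have g1 : 1 / 2 ≤ 1 + a * y * m := by
    linarith [(abs_le.1 (abs_mul_le_half (abs_mul_le_half ha h1) hm)).1]
  have g2 : 1 / 2 ≤ 1 + a * y' * m' := by
    linarith [(abs_le.1 (abs_mul_le_half (abs_mul_le_half ha h2) hm')).1]
  rw [← mul_sub, abs_mul] at h3
  rw [div_sub_div _ _ (by linarith) (by linarith), abs_div,
    abs_of_pos (by positivity : 0 < (1 + a * y * m) * (1 + a * y' * m')),
    div_le_iff₀ (by positivity)]
  have e : a * y * (1 + a * y' * m') - (1 + a * y * m) * (a * y') =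
      a * (y - y') + a * a * (y * y') * (m' - m) := by ring
  rw [e]
  have b1 : |a * (y - y')| ≤ |a| * (|a| * |m - m'|) := by rw [abs_mul]; gcongr
  have b2 : |a * a * (y * y') * (m' - m)| ≤ |a| * |a| * 1 * |m - m'| := by
    rw [abs_mul, abs_mul, abs_mul a, abs_mul y, abs_sub_comm m']
    gcongr
    exact mul_le_one₀ h1 (abs_nonneg _) h2
  have b3 := abs_add_le (a * (y - y')) (a * a * (y * y') * (m' - m))
  have b4 : 1 / 4 ≤ (1 + a * y * m) * (1 + a * y' * m') := by nlinarith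
  have b5 : 0 ≤ |a| * |m - m'| := by positivity
  nlinarith [abs_nonneg a, mul_le_mul_of_nonneg_left b4 b5, mul_le_mul_of_nonneg_left ha b5]

lemma ph_Fc {a m y : ℝ} (ha : |a| ≤ 1 / 2) (hm : |m| ≤ 1) (hy : |y| ≤ 1) :
    ph a m (Fc (a * m) y) = a * y / (1 + a * y * m) := by
  unfold ph
  rw [cl_of_mem (Fc_mem (abs_mul_le_half ha hm) hy), Qt_Fc (abs_mul_le_half ha hm) hy]

end Vale.Agent.P161
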