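import Vale.Agent.P161.Energy
import Vale.Agent.P161.MgfL

namespace Vale.Agent.P161

open MeasureTheory Finset Real Filter Topology

set_option linter.unusedSectionVars false

variable {d : ℕ}

lemma quad_Ws (p q : V d → Fin d → ℝ) (n : ℕ) (v : V d) (i : Fin d) : ∀ x y : ℝ,
    0 ≤ x ^ 2 * Ws (fun v i => p v i ^ 2) (fun _ => 1) n v i +
      y ^ 2 * Ws (fun v i => q v i ^ 2) (fun _ => 1) n v i -
      2 * x * y * Ws (fun v i => p v i * q v i) (fun _ => 1) n v i := by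
  induction n generalizing v i with
  | zero => intro x y; simp only [Ws]; nlinarith [sq_nonneg (x - y)]
  | succ n ih =>
    intro x y
    have := sum_nonneg (s := univ.erase i) fun j _ =>
      ih (step j v) j (x * p (step j v) j) (y * q (step j v) j)
    refine (add_nonneg (sq_nonneg (x - y)) this).trans (le_of_eq ?_)
    simp only [Ws, mul_add, mul_sum, sum_add_distrib, sum_sub_distrib, mul_pow, mul_assoc,
      mul_left_comm (p _ _) y]
    ring

lemma quad_Ws' (p q : V d → Fin d → ℝ) (n : ℕ) (v : V d) (i : Fin d) : ∀ x y : ℝ,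
    x ^ 2 * Ws (fun v i => p v i ^ 2) (fun _ => 1) n v i +
      y ^ 2 * Ws (fun v i => q v i ^ 2) (fun _ => 1) n v i -
      2 * x * y * Ws (fun v i => p v i * q v i) (fun _ => 1) n v i ≤
    x ^ 2 * Ws (fun v i => p v i ^ 2) (fun _ => 1) (n + 1) v i +
      y ^ 2 * Ws (fun v i => q v i ^ 2) (fun _ => 1) (n + 1) v i -
      2 * x * y * Ws (fun v i => p v i * q v i) (fun _ => 1) (n + 1) v i := by
  induction n generalizing v i with
  | zero =>
    intro x y
    have := sum_nonneg (s := univ.erase i) fun j _ =>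
      sq_nonneg (x * p (step j v) j - y * q (step j v) j)
    rw [← sub_nonneg]
    refine this.trans (le_of_eq ?_)
    simp only [Ws, mul_add, mul_sum, sum_add_distrib, sum_sub_distrib, sub_sq, mul_pow, mul_assoc,
      mul_left_comm (p _ _) y, mul_one]
    ring
  | succ n ih =>
    intro x y
    have := sum_le_sum (s := univ.erase i) fun j _ =>
      ih (step j v) j (x * p (step j v) j) (y * q (step j v) j)
    rw [Ws, Ws, Ws, Ws, Ws, Ws]
    simp only [mul_add, mul_sum, sum_add_distrib, sum_sub_distrib, mul_pow, mul_assoc,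
      mul_left_comm (p _ _) y] at this ⊢
    linarith

lemma trunc_pt {D T L K z c E : ℝ} {J : ℕ} (K1 : 1 ≤ K) (z0 : 0 < z) (z1 : z ≤ 1) (d1 : |D| ≤ 4)
    (t1 : |T| ≤ 1) (l0 : 0 ≤ L) (hc : c = K ^ 4 / z ^ 23) (E0 : 0 < E)
    (EE : exp (-4 ^ J) = E * E) : (D * T * L) ^ 2 ≤ 4 * c * (2 ^ J * (J + 1) ^ 2) * D ^ 2 +
      (16 * c * E * 10081 * exp (1 / (K * z ^ 2) * |T|) + 16 * c * E * 10080 * exp (z ^ 12 / K * L) +
        8 * c / E * if 2 * J + 2 * K / z ^ 12 < L then (1 : ℝ) else 0) := by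
  have c0 : 0 < c := by rw [hc]; positivity
  obtain ⟨x, hx⟩ : ∃ x, |T| = K * z ^ 2 * x := ⟨|T| / (K * z ^ 2), by field_simp⟩
  obtain ⟨y, rfl⟩ : ∃ y, L = K / z ^ 12 * y := ⟨L / (K / z ^ 12), by field_simp⟩
  have x0 : 0 ≤ x := nonneg_of_mul_nonneg_right (hx ▸ abs_nonneg T) (by positivity)
  have y0 : 0 ≤ y := nonneg_of_mul_nonneg_right l0 (by positivity)
  rw [show 1 / (K * z ^ 2) * |T| = x by rw [hx]; field_simp,
    show z ^ 12 / K * (K / z ^ 12 * y) = y by field_simp, mul_pow, mul_pow, ← sq_abs T]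
  have p1 := exp_pos x
  have p2 := exp_pos y
  have p3 : 0 ≤ 8 * c / E * if 2 * J + 2 * K / z ^ 12 < K / z ^ 12 * y then (1 : ℝ) else 0 := by
    split_ifs <;> positivity
  by_cases h : x ≤ 4 ^ J ∧ K / z ^ 12 * y ≤ 2 * J + 2 * K / z ^ 12
  · have a1 : |T| ^ 2 ≤ K * z * 2 ^ J := by
      refine abs_le_of_sq_le_sq' ?_ (by positivity) |>.2
      have e : (4 : ℝ) ^ J = (2 ^ J) ^ 2 := by rw [← pow_mul, mul_comm, pow_mul]; norm_num
      have := mul_le_mul_of_nonneg_left h.1 (show 0 ≤ K * z ^ 2 by positivity)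
      rw [← pow_mul]
      refine (pow_le_of_le_one (abs_nonneg _) t1 (by norm_num)).trans (hx ▸ this.trans ?_)
      rw [e, mul_pow, mul_pow]; gcongr; nlinarith
    have a2 : K / z ^ 12 * y ≤ 2 * (K / z ^ 12) * (J + 1) := by
      have : 1 ≤ K / z ^ 12 := by
        rw [le_div_iff₀ (by positivity)]; linarith [pow_le_one₀ z0.le z1 (n := 12)]
      have := mul_le_mul_of_nonneg_right this (Nat.cast_nonneg (α := ℝ) J)
      linarith [h.2, mul_div_assoc 2 K (z ^ 12)]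
    have a3 := mul_le_mul a1 (pow_le_pow_left₀ l0 a2 2) (sq_nonneg _) (by positivity)
    have a4 : K * z * 2 ^ J * (2 * (K / z ^ 12) * (J + 1)) ^ 2 ≤
        4 * c * (2 ^ J * (J + 1) ^ 2) := by
      have : K * z * (K / z ^ 12) ^ 2 ≤ c := by
        rw [show K * z * (K / z ^ 12) ^ 2 = K ^ 3 / z ^ 23 by field_simp, hc]
        exact div_le_div_of_nonneg_right (pow_le_pow_right₀ K1 (by norm_num)) (by positivity)
      nlinarith [mul_le_mul_of_nonneg_right this (show (0 : ℝ) ≤ 2 ^ J * (J + 1) ^ 2 by positivity)]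
    have := mul_le_mul_of_nonneg_left (a3.trans a4) (sq_nonneg D)
    have : 0 ≤ 16 * c * E * 10081 * exp x + 16 * c * E * 10080 * exp y := by positivity
    linarith
  · have a1 : D ^ 2 ≤ 16 := by nlinarith [sq_abs D, abs_nonneg D]
    have a2 : |T| ^ 2 * (K / z ^ 12 * y) ^ 2 ≤ c * (x * y) ^ 2 := by
      rw [hx, show (K * z ^ 2 * x) ^ 2 * (K / z ^ 12 * y) ^ 2 =
        K ^ 4 / z ^ 20 * (x * y) ^ 2 by field_simp, hc]
      exact mul_le_mul_of_nonneg_right (div_le_div_of_nonneg_left (by positivity)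
        (by positivity) (pow_le_pow_of_le_one z0.le z1 (by norm_num))) (sq_nonneg _)
    have a3 : (x * y) ^ 2 ≤ E * 10080 * (exp x + exp y) + 1 / (2 * E) := by
      have f1 := pow_div_factorial_le_exp x x0 8
      have f2 := pow_div_factorial_le_exp y y0 8
      simp only [Nat.factorial] at f1 f2
      push_cast at f1 f2
      have f3 : 0 ≤ (E * (x * y) ^ 2 - 1) ^ 2 / (2 * E) := by positivity
      have f4 : (E * (x * y) ^ 2 - 1) ^ 2 / (2 * E) =
          E * (x ^ 4 * y ^ 4) / 2 - (x * y) ^ 2 + 1 / (2 * E) := by field_simp; ring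
      have f5 : x ^ 4 * y ^ 4 ≤ 20160 * (exp x + exp y) := by nlinarith [sq_nonneg (x ^ 4 - y ^ 4)]
      nlinarith [mul_le_mul_of_nonneg_left f5 E0.le]
    have a4 : 8 * c / E ≤ 8 * c * E * exp x + 8 * c / E *
        if 2 * J + 2 * K / z ^ 12 < K / z ^ 12 * y then (1 : ℝ) else 0 := by
      split_ifs with h'
      · rw [mul_one]; exact le_add_of_nonneg_left (by positivity)
      · have : 1 ≤ E * E * exp x := by
          rw [← EE, ← exp_add]
          exact one_le_exp (by linarith [not_le.1 fun a => h ⟨a, not_lt.1 h'⟩])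
        rw [mul_zero, add_zero, div_le_iff₀ E0]; nlinarith
    have a5 := mul_le_mul a1 (a2.trans (mul_le_mul_of_nonneg_left a3 c0.le)) (by positivity)
      (by norm_num)
    have a6 : 16 * (c * (1 / (2 * E))) = 8 * c / E := by field_simp; norm_num
    have : 0 ≤ 4 * c * (2 ^ J * (J + 1) ^ 2) * D ^ 2 := by positivity
    have : 0 ≤ c * E * exp x := by positivity
    linarith

lemma trunc {α : Type*} [MeasurableSpace α] (μ : Measure α) [IsProbabilityMeasure μ]
    {D T L : α → ℝ} (bD : BM D) (bT : BM T) (bL : BM L) {K z : ℝ} {J : ℕ} (K1 : 1 ≤ K)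
    (z0 : 0 < z) (z1 : z ≤ 1) (hD : ∀ x, |D x| ≤ 4) (hT : ∀ x, |T x| ≤ 1) (hL : ∀ x, 0 ≤ L x)
    (mT : ∫ x, exp (1 / (K * z ^ 2) * |T x|) ∂μ ≤ 4) (mL : ∫ x, exp (z ^ 12 / K * L x) ∂μ ≤ 2)
    (tL : ∫ x, (if 2 * J + 2 * K / z ^ 12 < L x then (1 : ℝ) else 0) ∂μ ≤ exp (-4 ^ J)) :
    ∫ x, (D x * T x * L x) ^ 2 ∂μ ≤ 10 ^ 6 * K ^ 4 *
      ((2 ^ J * (J + 1) ^ 2 * ∫ x, D x ^ 2 ∂μ + exp (-4 ^ J / 2)) / z ^ 23) := by
  set E := exp (-4 ^ J / 2)
  have E0 : 0 < E := exp_pos _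
  have EE : exp (-4 ^ J) = E * E := by rw [← exp_add]; ring_nf
  have b1 := ((BM.const (1 / (K * z ^ 2))).mul bT.abs).exp
  have b2 := ((BM.const (z ^ 12 / K)).mul bL).exp
  have b3 := BM.ind (p := fun x => 2 * J + 2 * K / z ^ 12 < L x)
    (measurableSet_lt measurable_const bL.1)
  set c := K ^ 4 / z ^ 23
  have c0 : 0 < c := by positivity
  have := int_mono (μ := μ) (((bD.mul bT).mul bL).pow 2) (((BM.const (4 * c * (2 ^ J *
    (J + 1) ^ 2))).mul (bD.pow 2)).add ((((BM.const (16 * c * E * 10081)).mul b1).add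
    ((BM.const (16 * c * E * 10080)).mul b2)).add ((BM.const (8 * c / E)).mul b3))) fun ω =>
      trunc_pt K1 z0 z1 (hD ω) (hT ω) (hL ω) rfl E0 EE
  rw [int_add (by fun_prop) (by fun_prop), integral_const_mul, int_l3 b1 b2 b3] at this
  have a1 := mul_le_mul_of_nonneg_left mT (show 0 ≤ 16 * c * E * 10081 by positivity)
  have a2 := mul_le_mul_of_nonneg_left mL (show 0 ≤ 16 * c * E * 10080 by positivity)
  have a3 := mul_le_mul_of_nonneg_left tL (show 0 ≤ 8 * c / E by positivity)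
  have a4 : 8 * c / E * exp (-4 ^ J) = 8 * c * E := by rw [EE]; field_simp
  have a5 : 0 ≤ c * (2 ^ J * (J + 1) ^ 2 * ∫ x, D x ^ 2 ∂μ) := by positivity
  have a6 : 10 ^ 6 * K ^ 4 * ((2 ^ J * (J + 1) ^ 2 * ∫ x, D x ^ 2 ∂μ + E) / z ^ 23) =
    10 ^ 6 * (c * (2 ^ J * (J + 1) ^ 2 * ∫ x, D x ^ 2 ∂μ)) + 10 ^ 6 * (c * E) := by
    simp only [c]; ring
  linarith [mul_pos c0 E0]

noncomputable def KL (d : ℕ) (θ η : ℝ) : ℝ := 1 / ((1 - θ ^ 2) * (1 - θ) * kap (Bd d θ η))

section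
variable {θ : ℝ} (h0 : 0 ≤ θ) (h1 : θ < 1)
include h0 h1

lemma KL_pos (η : ℝ) : 0 < KL d θ η :=
  one_div_pos.2 (mul_pos (mul_pos (one_sub_sq_pos h0 h1) (by linarith)) (kap_pos _))

lemma tt_lip {h h' : V d → ℝ} {η : ℝ} (g : Good θ h) (g' : Good θ h') (b : ∀ v, |h v| ≤ η)
    (b' : ∀ v, |h' v| ≤ η) (v : V d) (i : Fin d) : |tt θ h v i - tt θ h' v i| ≤
      KL d θ η * (|tanh (Hi θ h v i)| + |tanh (Hi θ h' v i)|) *
        (|mag θ h v - mag θ h' v| + |mag θ h (step i v) - mag θ h' (step i v)|) := by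
  have a1 := tanh_lower (abs_Hv_le h0 h1 b v) (abs_Hv_le h0 h1 b' v)
  have a2 := tanh_lower (abs_Hv_le h0 h1 b (step i v)) (abs_Hv_le h0 h1 b' (step i v))
  have e1 := g.hv h0 h1 v i
  have e2 := g.hv h0 h1 (step i v) i
  have e3 := g'.hv h0 h1 v i
  have e4 := g'.hv h0 h1 (step i v) i
  rw [step_step] at e2 e4
  have f1 := F_lip h0 h1 (Hi θ h v i) (Hi θ h' v i)
  have f2 := F_lip h0 h1 (Hi θ h (step i v) i) (Hi θ h' (step i v) i)
  have k0 := kap_pos (Bd d θ η)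
  have c1 : |Hi θ h v i - Hi θ h' v i| ≤ |Hv θ h v - Hv θ h' v| +
      |F θ (Hi θ h (step i v) i) - F θ (Hi θ h' (step i v) i)| := by
    refine le_trans (le_of_eq ?_) (abs_sub _ _); rw [e1, e3]; ring_nf
  have c2 : |Hi θ h (step i v) i - Hi θ h' (step i v) i| ≤ |Hv θ h (step i v) - Hv θ h' (step i v)| +
      |F θ (Hi θ h v i) - F θ (Hi θ h' v i)| := by
    refine le_trans (le_of_eq ?_) (abs_sub _ _); rw [e2, e4]; ring_nf
  have c3 : (1 - θ) * kap (Bd d θ η) * |tanh (Hi θ h v i) - tanh (Hi θ h' v i)| ≤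
      |mag θ h v - mag θ h' v| + |mag θ h (step i v) - mag θ h' (step i v)| := by
    have c4 := mul_le_mul_of_nonneg_left (tanh_lip (Hi θ h v i) (Hi θ h' v i)) (sub_pos.2 h1).le
    have c5 := mul_nonneg (sub_pos.2 h1).le (abs_nonneg (Hi θ h (step i v) i - Hi θ h' (step i v) i))
    have c6 : (1 - θ) * |tanh (Hi θ h v i) - tanh (Hi θ h' v i)| ≤ |Hv θ h v - Hv θ h' v| +
      |Hv θ h (step i v) - Hv θ h' (step i v)| := by linarith
    have := mul_le_mul_of_nonneg_left c6 k0.le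
    simp only [mag]; linarith
  refine (th_sub h0 h1 _ _).trans ?_
  have p1 := one_sub_sq_pos h0 h1
  have p2 := sub_pos.2 h1
  rw [KL, div_le_iff₀ p1]
  refine le_trans (le_of_eq ?_) (mul_le_mul_of_nonneg_right (mul_le_mul_of_nonneg_left c3
    (by positivity)) p1.le)
  field_simp

end

end Vale.Agent.P161
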