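import Vale.Agent.P161.Tree
import Vale.Agent.P161.Prod
import Vale.Agent.P161.Quant

namespace Vale.Agent.P161

open MeasureTheory Finset Real Filter Topology

set_option linter.unusedSectionVars false

variable {d : ℕ}

/-- The adjacency operator. -/
def Ad (φ : V d → ℝ) (v : V d) : ℝ := ∑ j, φ (step j v)

lemma Ad_succ (φ : V d → ℝ) (n : ℕ) (v : V d) :
    Ad^[n + 1] φ v = ∑ j, Ad^[n] φ (step j v) := by rw [Function.iterate_succ_apply']; rfl

lemma Ad_comp (φ : V d → ℝ) (g : V d) (n : ℕ) (v : V d) :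
    Ad^[n] (fun w => φ (mul g w)) v = Ad^[n] φ (mul g v) := by
  induction n generalizing v with
  | zero => rfl
  | succ n ih => simp only [Ad_succ, ih, mul_step]

lemma Ad_sub (φ ψ : V d → ℝ) (n : ℕ) (v : V d) :
    Ad^[n] (fun w => φ w - ψ w) v = Ad^[n] φ v - Ad^[n] ψ v := by
  induction n generalizing v with
  | zero => rfl
  | succ n ih => simp only [Ad_succ, ih, sum_sub_distrib]

lemma Ad_le {φ w : V d → ℝ} {l : ℝ} (l0 : 0 ≤ l) (h : ∀ v, φ v ≤ w v) (hw : ∀ v, Ad w v ≤ l * w v)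
    (n : ℕ) (v : V d) : Ad^[n] φ v ≤ l ^ n * w v := by
  induction n generalizing v with
  | zero => simpa using h v
  | succ n ih =>
    rw [Ad_succ, pow_succ, mul_assoc]
    refine (sum_le_sum fun j _ => ih _).trans ?_
    rw [← mul_sum]; exact mul_le_mul_of_nonneg_left (hw v) (pow_nonneg l0 _)

lemma le_Ad {φ w : V d → ℝ} {l : ℝ} (l0 : 0 ≤ l) (h : ∀ v, w v ≤ φ v) (hw : ∀ v, l * w v ≤ Ad w v)
    (n : ℕ) (v : V d) : l ^ n * w v ≤ Ad^[n] φ v := by
  induction n generalizing v with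
  | zero => simpa using h v
  | succ n ih =>
    rw [Ad_succ, pow_succ, mul_assoc]
    refine le_trans ?_ (sum_le_sum fun j _ => ih _)
    rw [← mul_sum]; exact mul_le_mul_of_nonneg_left (hw v) (pow_nonneg l0 _)

lemma Ad_rad_root (φ : ℕ → ℝ) : Ad (fun v => φ (len v)) (root d) = d * φ 1 := by
  rw [Ad, sum_congr rfl fun j _ => by rw [len_step (v := root d) (by simp [ch_root]), len_root]]
  simp

lemma Ad_rad (φ : ℕ → ℝ) {v : V d} {j : Fin d} (hj : j ∈ ch v) :
    Ad (fun v => φ (len v)) (step j v) = φ (len v) + (d - 1) * φ (len v + 2) := by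
  rw [Ad, ← add_sum_erase _ _ (mem_univ j), step_step, sum_congr rfl fun i hi => by
    rw [len_step (by rwa [ch_step hj]), len_step hj], sum_const, nsmul_eq_mul,
    card_erase_of_mem (mem_univ _), card_univ, Fintype.card_fin, Nat.cast_pred (Fin.pos j)]

lemma logconv {x : ℕ → ℝ} {K β : ℝ} (β0 : 0 < β) (x0 : ∀ n, 0 ≤ x n)
    (hc : ∀ n, x (n + 1) ^ 2 ≤ x n * x (n + 2)) (hK : ∀ n, x n ≤ K * β ^ n) (m : ℕ) :
    x (m + 1) ≤ β * x m := by
  by_contra h
  rw [not_le] at h
  have p : 0 < x m := by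
    refine (x0 m).lt_of_ne fun e => ?_
    have := hc m
    rw [← e] at h this
    nlinarith
  obtain ⟨r, hr⟩ : ∃ r, x (m + 1) = r * x m := ⟨x (m + 1) / x m, by field_simp⟩
  have r1 : β < r := by rw [hr] at h; exact lt_of_mul_lt_mul_right h p.le
  have key : ∀ k, r ^ k * x m ≤ x (m + k) ∧ r * x (m + k) ≤ x (m + k + 1) := fun k => by
    induction k with
    | zero => simp [hr]
    | succ k ih =>
      have p2 : 0 < x (m + k) := lt_of_lt_of_le (mul_pos (pow_pos (β0.trans r1) _) p) ih.1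
      refine ⟨by rw [pow_succ', mul_assoc]; exact (mul_le_mul_of_nonneg_left ih.1
        (β0.trans r1).le).trans ih.2, le_of_mul_le_mul_left ?_ p2⟩
      have := mul_le_mul_of_nonneg_left ih.2 (x0 (m + k + 1))
      have := hc (m + k)
      simp only [← add_assoc]; nlinarith
  obtain ⟨k, hk⟩ := pow_unbounded_of_one_lt (K * β ^ m / x m) ((one_lt_div β0).2 r1)
  rw [div_pow, div_lt_div_iff₀ p (pow_pos β0 _)] at hk
  have := (key k).1.trans (hK _)
  rw [pow_add] at this
  linarith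

section
variable {α : Type*} [MeasurableSpace α] {μ : Measure α} [IsProbabilityMeasure μ]
  {a : V d → α → α}

/-- Bounded equivariant fields. -/
def Eqv (a : V d → α → α) (Z : α → V d → ℝ) : Prop :=
  (∀ v, BM fun ω => Z ω v) ∧ ∀ g ω v, Z (a g ω) v = Z ω (mul g v)

lemma BM_Ad {Z : α → V d → ℝ} (h : ∀ v, BM fun ω => Z ω v) (n : ℕ) (v : V d) :
    BM fun ω => Ad^[n] (Z ω) v := by
  induction n generalizing v with
  | zero => exact h v
  | succ n ih => simp only [Ad_succ]; exact BM.sum _ fun j => ih _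

lemma Eqv.ad {Z : α → V d → ℝ} (h : Eqv a Z) (n : ℕ) : Eqv a fun ω => Ad^[n] (Z ω) :=
  ⟨BM_Ad h.1 n, fun g ω v => (congrArg (Ad^[n] · v) (funext (h.2 g ω))).trans (Ad_comp _ _ _ _)⟩

lemma Eqv.sub {Z W : α → V d → ℝ} (h : Eqv a Z) (h' : Eqv a W) :
    Eqv a fun ω v => Z ω v - W ω v :=
  ⟨fun v => (h.1 v).sub (h'.1 v), fun g ω v => by simp only [h.2, h'.2]⟩

lemma int_Ad {Z : α → V d → ℝ} (h : ∀ v, BM fun ω => Z ω v) {Y : α → ℝ} (hY : BM Y) (n : ℕ)
    (v : V d) : ∫ ω, Y ω * Ad^[n] (Z ω) v ∂μ = Ad^[n] (fun w => ∫ ω, Y ω * Z ω w ∂μ) v := by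
  induction n generalizing v with
  | zero => rfl
  | succ n ih =>
    simp only [Ad_succ, mul_sum]
    rw [int_sum _ fun j => hY.mul (BM_Ad h _ _)]
    simp only [ih]

noncomputable def xs (μ : Measure α) (Z : α → V d → ℝ) (n : ℕ) : ℝ :=
  ∫ ω, Ad^[n] (Z ω) (root d) ^ 2 ∂μ

/-- Tempered growth. -/
def Gr (μ : Measure α) (Z : α → V d → ℝ) : Prop := ∃ K, ∀ n, xs μ Z n ≤ K * (4 * (d - 1)) ^ n

lemma xs_sub {Z W : α → V d → ℝ} (h : ∀ v, BM fun ω => Z ω v) (h' : ∀ v, BM fun ω => W ω v)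
    (n : ℕ) : xs μ (fun ω v => Z ω v - W ω v) n ≤ 2 * xs μ Z n + 2 * xs μ W n := by
  rw [xs, xs, xs, ← integral_const_mul, ← integral_const_mul, ← int_add ((BM.const _).mul
    ((BM_Ad h _ _).pow 2)) ((BM.const _).mul ((BM_Ad h' _ _).pow 2))]
  refine int_mono ((BM_Ad (fun v => (h v).sub (h' v)) _ _).pow 2) (((BM.const _).mul
    ((BM_Ad h _ _).pow 2)).add ((BM.const _).mul ((BM_Ad h' _ _).pow 2))) fun ω => ?_
  rw [Ad_sub]
  nlinarith [sq_nonneg (Ad^[n] (Z ω) (root d) + Ad^[n] (W ω) (root d))]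

lemma Gr.sub {Z W : α → V d → ℝ} (h : ∀ v, BM fun ω => Z ω v) (h' : ∀ v, BM fun ω => W ω v)
    (g : Gr μ Z) (g' : Gr μ W) : Gr μ fun ω v => Z ω v - W ω v := by
  obtain ⟨K, hK⟩ := g
  obtain ⟨K', hK'⟩ := g'
  exact ⟨2 * K + 2 * K', fun n => by linarith [xs_sub (μ := μ) h h' n, hK n, hK' n]⟩

variable (ha : ∀ g, MeasurePreserving (a g) μ μ)
include ha

lemma Eqv.flip {X Y : α → V d → ℝ} (hX : Eqv a X) (hY : Eqv a Y) (j : Fin d) :
    ∫ ω, X ω (step j (root d)) * Y ω (root d) ∂μ = ∫ ω, X ω (root d) * Y ω (step j (root d)) ∂μ := by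
  rw [← integral_mp (ha (gen j)) ((hX.1 _).mul (hY.1 _)).1]
  simp only [hX.2, hY.2, mul_step, mul_root, gen, step_step]

lemma Eqv.sym {X Y : α → V d → ℝ} (hX : Eqv a X) (hY : Eqv a Y) (n : ℕ) :
    ∫ ω, Ad^[n] (X ω) (root d) * Y ω (root d) ∂μ = ∫ ω, X ω (root d) * Ad^[n] (Y ω) (root d) ∂μ := by
  induction n generalizing Y with
  | zero => rfl
  | succ n ih =>
    have := ih (hY.ad 1)
    simp only [← Function.iterate_add_apply] at this
    rw [← this]
    simp only [Ad_succ, sum_mul, mul_sum, Function.iterate_zero_apply]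
    rw [int_sum _ fun j => ((hX.ad n).1 _).mul (hY.1 _), int_sum _ fun j =>
      ((hX.ad n).1 _).mul (hY.1 _)]
    exact sum_congr rfl fun j _ => (hX.ad n).flip ha hY j

lemma Eqv.xs_eq {Z : α → V d → ℝ} (h : Eqv a Z) (n : ℕ) :
    xs μ Z n = Ad^[n + n] (fun w => ∫ ω, Z ω (root d) * Z ω w ∂μ) (root d) := by
  rw [← int_Ad h.1 (h.1 _), xs]
  simp only [sq, Function.iterate_add_apply]
  exact h.sym ha (h.ad n) n

lemma Eqv.xs_succ {Z : α → V d → ℝ} (hd : 2 ≤ d) (h : Eqv a Z) (g : Gr μ Z) (n : ℕ) :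
    xs μ Z (n + 1) ≤ 4 * (d - 1) * xs μ Z n := by
  obtain ⟨K, hK⟩ := g
  have : (2 : ℝ) ≤ d := by exact_mod_cast hd
  refine logconv (by linarith) (fun n => integral_nonneg fun _ => sq_nonneg _) (fun n => ?_) hK n
  have := (h.ad n).sym ha (h.ad (n + 1)) 1
  simp only [← Function.iterate_add_apply, add_comm 1, ← sq] at this
  change (∫ ω, Ad^[n + 1] (Z ω) (root d) ^ 2 ∂μ) ^ 2 ≤ _
  rw [this]
  exact int_cs μ ((h.ad n).1 _) ((h.ad (n + 2)).1 _)

lemma Eqv.xs_le {Z : α → V d → ℝ} (h : Eqv a Z) (n : ℕ) : xs μ Z n ≤ (d ^ 2) ^ n * xs μ Z 0 := by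
  induction n with
  | zero => simp
  | succ n ih =>
    rw [pow_succ', mul_assoc]
    refine le_trans ?_ (mul_le_mul_of_nonneg_left ih (by positivity))
    have b := fun v => ((h.ad n).1 v).pow 2
    refine (int_mono (g := fun ω => d * ∑ j, Ad^[n] (Z ω) (step j (root d)) ^ 2)
      (((h.ad (n + 1)).1 _).pow 2) ((BM.const _).mul (BM.sum _ fun j => b _)) fun ω => ?_).trans ?_
    · simp only [Ad_succ]
      simpa using sq_sum_le_card_mul_sum_sq (s := univ) (f := fun j => Ad^[n] (Z ω) (step j (root d)))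
    · rw [integral_const_mul, int_sum _ fun j => b _, sum_congr rfl (g := fun _ => xs μ Z n)
        fun j _ => by
          rw [xs, ← integral_mp (ha (gen j)) (b _).1]
          simp only [(h.ad n).2, mul_step, mul_root, gen, step_step]]
      simp only [sum_const, card_univ, Fintype.card_fin, nsmul_eq_mul]
      exact le_of_eq (by ring)

lemma Eqv.gr_local {Z : α → V d → ℝ} (hd : 2 ≤ d) (h : Eqv a Z) {ρ : ℕ}
    (hρ : ∀ v, ρ < len v → ∫ ω, Z ω (root d) * Z ω v ∂μ = 0) : Gr μ Z := by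
  have d2 : (2 : ℝ) ≤ d := by exact_mod_cast hd
  obtain ⟨r, r1, hr⟩ : ∃ r : ℝ, 1 ≤ r ∧ r ^ 2 = d - 1 :=
    ⟨√(d - 1), one_le_sqrt.2 (by linarith), sq_sqrt (by linarith)⟩
  obtain ⟨C, hC⟩ := (h.1 (root d)).2
  have C0 : 0 ≤ C := by
    obtain ⟨ω⟩ := nonempty_of_isProbabilityMeasure μ
    exact (abs_nonneg _).trans (hC ω)
  refine ⟨C * C * r ^ ρ, fun n => ?_⟩
  rw [h.xs_eq ha]
  refine (Ad_le (l := 2 * r) (w := fun v => C * C * r ^ ρ / r ^ len v) (by linarith) (fun v => ?_)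
    (fun v => ?_) _ _).trans (le_of_eq ?_)
  · by_cases hv : ρ < len v
    · rw [hρ v hv]; positivity
    · refine (int_le_const (c := C * C) ((h.1 _).mul (h.1 _)) fun ω => ?_).trans ?_
      · refine (le_abs_self _).trans ?_
        rw [abs_mul, ← mul_root v, ← h.2]
        exact mul_le_mul (hC _) (hC _) (abs_nonneg _) C0
      · rw [le_div_iff₀ (by positivity)]
        exact mul_le_mul_of_nonneg_left (pow_le_pow_right₀ r1 (by omega)) (by positivity)
  · generalize hK : C * C * r ^ ρ = K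
    have K0 : 0 ≤ K := by rw [← hK]; positivity
    induction v using V_ind with
    | h0 =>
      rw [Ad_rad_root (fun k => K / r ^ k), len_root, pow_one, pow_zero, div_one, mul_div_assoc',
        div_le_iff₀ (by positivity)]
      nlinarith [mul_le_mul_of_nonneg_left d2 K0]
    | hs v j hj _ =>
      rw [Ad_rad (fun k => K / r ^ k) hj, len_step hj, ← hr]
      exact le_of_eq (by field_simp; ring)
  · rw [len_root, ← hr, ← two_mul, pow_mul]; ring

lemma Eqv.gr_approx {Z : α → V d → ℝ} (hd : 2 ≤ d) (h : Eqv a Z) (H : ∀ ε > 0, ∃ W, Eqv a W ∧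
    Gr μ W ∧ ∫ ω, (W ω (root d) - Z ω (root d)) ^ 2 ∂μ ≤ ε) : Gr μ Z := by
  refine ⟨4 * xs μ Z 0 + 6, fun n => ?_⟩
  have d2 : (2 : ℝ) ≤ d := by exact_mod_cast hd
  obtain ⟨W, hW, g, e⟩ := H (1 / (d ^ 2) ^ n) (by positivity)
  have a1 : ∀ n, xs μ W n ≤ (4 * (d - 1)) ^ n * xs μ W 0 := fun n => by
    induction n with
    | zero => simp
    | succ n ih =>
      rw [pow_succ', mul_assoc]
      exact (hW.xs_succ ha hd g n).trans (mul_le_mul_of_nonneg_left ih (by linarith))
  have a2 := xs_sub (μ := μ) hW.1 (hW.sub h).1 n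
  have a3 := xs_sub (μ := μ) h.1 (h.sub hW).1 0
  simp only [sub_sub_cancel] at a2 a3
  have a4 := ((hW.sub h).xs_le ha n).trans (mul_le_mul_of_nonneg_left e (by positivity))
  rw [mul_one_div_cancel (by positivity)] at a4
  have a5 : xs μ (fun ω v => Z ω v - W ω v) 0 ≤ 1 := by
    refine le_trans (le_of_eq ?_) (e.trans ?_)
    · simp only [xs, Function.iterate_zero_apply]; congr 1; ext ω; ring
    · rw [div_le_one (by positivity)]; exact one_le_pow₀ (by nlinarith)
  have a6 : (1 : ℝ) ≤ (4 * (d - 1)) ^ n := one_le_pow₀ (by linarith)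
  have a7 := mul_le_mul_of_nonneg_left (show xs μ W 0 ≤ 2 * xs μ Z 0 + 2 by linarith)
    (zero_le_one.trans a6)
  linarith [a1 n]

end

section
variable {K E : Type*} [MeasurableSpace E] (ρ : K → Measure E) [∀ k, IsProbabilityMeasure (ρ k)]

lemma approx [Nonempty E] {B : ℕ → Set K} (hB : Monotone B) {f : (K → E) → ℝ} (hf : BM f)
    (df : DependsOn f (⋃ n, B n)) {ε : ℝ} (hε : 0 < ε) : ∃ n g, BM g ∧ DependsOn g (B n) ∧
      ∫ ω, (g ω - f ω) ^ 2 ∂Measure.infinitePi ρ ≤ ε := by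
  classical
  let e : K → E := fun _ => Classical.arbitrary E
  have hm : ∀ A : Set K, Measurable fun ω : K → E => A.piecewise ω e := fun A =>
    (measurable_pw A).comp (measurable_id.prodMk measurable_const)
  let ℱ : Filtration ℕ (inferInstance : MeasurableSpace (K → E)) :=
    { seq := fun n => MeasurableSpace.comap (fun ω => (B n).piecewise ω e) inferInstance
      mono' := fun m n h => by
        have : (fun ω => (B m).piecewise ω e) =
            (fun ω => (B m).piecewise ω e) ∘ fun ω => (B n).piecewise ω e := by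
          funext ω k
          by_cases hk : k ∈ B m
          · simp [hk, hB h hk]
          · simp [hk]
        simp only
        rw [this, ← MeasurableSpace.comap_comp]
        exact MeasurableSpace.comap_mono (hm _).comap_le
      le' := fun n => (hm _).comap_le }
  have h1 : Measurable[⨆ n, ℱ n] fun ω : K → E => (⋃ n, B n).piecewise ω e := by
    refine @measurable_pi_lambda _ _ _ (⨆ n, ℱ n) _ _ fun k => ?_
    by_cases hk : k ∈ ⋃ n, B n
    · obtain ⟨n, hn⟩ := Set.mem_iUnion.1 hk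
      have : (fun ω : K → E => (⋃ n, B n).piecewise ω e k) =
          (fun x : K → E => x k) ∘ fun ω => (B n).piecewise ω e := by
        funext ω
        simp only [Function.comp, Set.piecewise_eq_of_mem _ _ _ hk, Set.piecewise_eq_of_mem _ _ _ hn]
      rw [this]
      exact ((measurable_pi_apply k).comp (comap_measurable _)).mono (le_iSup ℱ n) le_rfl
    · simp only [Set.piecewise_eq_of_notMem _ _ _ hk]; exact measurable_const
  have h2 : Measurable[⨆ n, ℱ n] f := by
    have : f = f ∘ fun ω : K → E => (⋃ n, B n).piecewise ω e :=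
      funext fun ω => df fun k hk => (Set.piecewise_eq_of_mem _ _ _ hk).symm
    rw [this]; exact hf.1.comp h1
  obtain ⟨C, hC⟩ := hf.2
  have C0 : 0 ≤ C := (abs_nonneg _).trans (hC e)
  let g : ℕ → (K → E) → ℝ := fun n ω => clp C ((Measure.infinitePi ρ)[f | ℱ n] ω)
  have mg : ∀ n, Measurable[ℱ n] (g n) := fun n =>
    (measurable_clp C).comp stronglyMeasurable_condExp.measurable
  have bg : ∀ n, BM (g n) := fun n => ⟨(mg n).mono (ℱ.le n) le_rfl, C, fun _ => abs_clp_le C0 _⟩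
  have := tendsto_integral_of_dominated_convergence (μ := Measure.infinitePi ρ)
    (F := fun n ω => (g n ω - f ω) ^ 2) (f := fun _ => 0) (fun _ => (C + C) ^ 2)
    (fun n => (((bg n).sub hf).pow 2).1.aestronglyMeasurable) (integrable_const _)
    (fun n => ae_of_all _ fun ω => by
      rw [Real.norm_eq_abs, abs_pow]
      exact pow_le_pow_left₀ (abs_nonneg _) ((abs_sub _ _).trans
        (add_le_add (abs_clp_le C0 _) (hC ω))) 2) (by
      filter_upwards [(hf.int _).tendsto_ae_condExp h2.stronglyMeasurable] with ω hω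
      have c : Continuous fun y => (clp C y - f ω) ^ 2 := by unfold clp; fun_prop
      simpa only [clp_of_le (hC ω), sub_self, Function.comp_def, zero_pow two_ne_zero] using
        (c.tendsto _).comp hω)
  rw [integral_zero] at this
  obtain ⟨n, hn⟩ := (this.eventually (ge_mem_nhds hε)).exists
  refine ⟨n, g n, bg n, fun ω ω' H => (mg n).factorsThrough ?_, hn⟩
  funext k
  by_cases hk : k ∈ B n
  · simp [hk, H k hk]
  · simp [hk]

lemma gr_prod [Nonempty E] (hd : 2 ≤ d) {a : V d → (K → E) → K → E}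
    (ha : ∀ g, MeasurePreserving (a g) (Measure.infinitePi ρ) (Measure.infinitePi ρ))
    (hm : ∀ g v ω, a v (a g ω) = a (mul g v) ω) {B : ℕ → Set K} (hB : Monotone B)
    (sep : ∀ n, ∃ m, ∀ u v, u = root d → m < len v → ∃ A : Set K, (∀ ω ω', (∀ k ∈ A, ω k = ω' k) →
      ∀ k ∈ B n, a u ω k = a u ω' k) ∧
      ∀ ω ω', (∀ k ∈ Aᶜ, ω k = ω' k) → ∀ k ∈ B n, a v ω k = a v ω' k)
    {f : (K → E) → ℝ} (hf : BM f) (df : DependsOn f (⋃ n, B n))
    (f0 : ∫ ω, f ω ∂Measure.infinitePi ρ = 0) :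
    Gr (Measure.infinitePi ρ) fun ω v => f (a v ω) := by
  have eq : ∀ f : (K → E) → ℝ, BM f → Eqv a fun ω v => f (a v ω) := fun f hf =>
    ⟨fun v => hf.comp (ha v).measurable, fun g ω v => by simp only [hm]⟩
  refine (eq f hf).gr_approx ha hd fun ε hε => ?_
  obtain ⟨n, g, bg, dg, e⟩ := approx ρ hB hf df (show 0 < ε / 4 by positivity)
  obtain ⟨m, hm'⟩ := sep n
  set c := ∫ ω, g ω ∂Measure.infinitePi ρ
  have bg' := bg.sub (BM.const c)
  refine ⟨_, eq _ bg', (eq _ bg').gr_local ha hd (ρ := m) fun v hv => ?_, ?_⟩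
  · obtain ⟨A, h1, h2⟩ := hm' _ v rfl hv
    rw [int_mul_dep ρ (bg'.comp (ha _).measurable) (bg'.comp (ha _).measurable) (A := A)
      (fun ω ω' H => by simp only [dg (h1 ω ω' H)]) (fun ω ω' H => by simp only [dg (h2 ω ω' H)]),
      integral_mp (ha v) bg'.1, int_sub bg (BM.const _)]
    simp [c]
  · rw [integral_mp (ha _) (f := fun ω => (g ω - c - f ω) ^ 2) ((bg'.sub hf).pow 2).1]
    have h1 := int_jensen (Measure.infinitePi ρ) (bg.sub hf)
    rw [int_sub bg hf, f0, sub_zero] at h1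
    have := int_mono (μ := Measure.infinitePi ρ) ((bg'.sub hf).pow 2) (((BM.const 2).mul
      ((bg.sub hf).pow 2)).add (BM.const (2 * c ^ 2))) fun ω => by
        nlinarith [sq_nonneg (g ω - f ω + c)]
    rw [int_add ((BM.const 2).mul ((bg.sub hf).pow 2)) (BM.const _), integral_const_mul] at this
    simp only [integral_const, probReal_univ, smul_eq_mul, one_mul] at this
    linarith

end

end Vale.Agent.P161
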