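import Vale.Agent.P161.Defs

namespace Vale.Agent.P161

open Finset

variable {d : ℕ}

/-- Move along the edge labelled `j`. -/
def step (j : Fin d) (v : V d) : V d :=
  if h : v.1.head? = some j then ⟨v.1.tail, v.2.tail⟩ else
    ⟨j :: v.1, by
      rcases v with ⟨_ | ⟨a, l⟩, hv⟩
      · simp
      · simp only [List.head?_cons, Option.some.injEq] at h
        exact List.isChain_cons_cons.2 ⟨fun e => h e.symm, hv⟩⟩

/-- Labels of edges to children. -/
def ch (v : V d) : Finset (Fin d) := univ.filter fun j => v.1.head? ≠ some j

def len (v : V d) : ℕ := v.1.length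

lemma mem_ch {v : V d} {j : Fin d} : j ∈ ch v ↔ v.1.head? ≠ some j := by simp [ch]

lemma step_val {v : V d} {j : Fin d} (h : j ∈ ch v) : (step j v).1 = j :: v.1 := by
  rw [mem_ch] at h; simp [step, h]

lemma step_val' {v : V d} {j : Fin d} (h : j ∉ ch v) : v.1 = j :: (step j v).1 := by
  rw [mem_ch, not_not] at h
  rcases v with ⟨_ | ⟨a, l⟩, hv⟩
  · simp at h
  · simp only [List.head?_cons, Option.some.injEq] at h
    subst h; simp [step]

lemma ch_root : ch (root d) = univ := by ext j; simp [ch, root]

lemma ch_step {v : V d} {j : Fin d} (h : j ∈ ch v) : ch (step j v) = univ.erase j := by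
  ext i; rw [mem_ch, step_val h]; simp [eq_comm]

lemma not_mem_ch_step {v : V d} {j : Fin d} (h : j ∈ ch v) : j ∉ ch (step j v) := by
  rw [ch_step h]; simp

lemma mem_ch_step {v : V d} {j : Fin d} (h : j ∉ ch v) : j ∈ ch (step j v) := by
  have h1 := step_val' h
  have h2 := v.2
  rw [h1] at h2
  rw [mem_ch]
  rcases e : (step j v).1 with _ | ⟨a, l⟩
  · simp
  · rw [e] at h2
    simpa [eq_comm] using (List.isChain_cons_cons.1 h2).1

@[simp] lemma step_step (j : Fin d) (v : V d) : step j (step j v) = v := by
  apply Subtype.ext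
  by_cases h : j ∈ ch v
  · have := step_val' (not_mem_ch_step h)
    rw [step_val h] at this
    simpa using this.symm
  · rw [step_val (mem_ch_step h)]; exact (step_val' h).symm

lemma len_root : len (root d) = 0 := rfl

lemma len_step {v : V d} {j : Fin d} (h : j ∈ ch v) : len (step j v) = len v + 1 := by
  simp [len, step_val h]

lemma len_step' {v : V d} {j : Fin d} (h : j ∉ ch v) : len (step j v) + 1 = len v := by
  conv_rhs => rw [← step_step j v, len_step (mem_ch_step h)]

lemma len_step_le (v : V d) (j : Fin d) : len (step j v) ≤ len v + 1 := by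
  by_cases h : j ∈ ch v
  · rw [len_step h]
  · have := len_step' h; omega

lemma le_len_step (v : V d) (j : Fin d) : len v ≤ len (step j v) + 1 := by
  conv_lhs => rw [← step_step j v]
  exact len_step_le _ _

lemma eq_root_of_len {v : V d} (h : len v = 0) : v = root d :=
  Subtype.ext (List.length_eq_zero_iff.1 h)

lemma step_ne_root {v : V d} {j : Fin d} (h : j ∈ ch v) : step j v ≠ root d := by
  intro e; have := len_step h; rw [e, len_root] at this; omega

lemma exists_parent {v : V d} (h : v ≠ root d) : ∃ j u, j ∈ ch u ∧ v = step j u := by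
  rcases v with ⟨_ | ⟨a, l⟩, hv⟩
  · exact absurd rfl h
  · have : a ∉ ch (⟨a :: l, hv⟩ : V d) := by simp [mem_ch]
    exact ⟨a, step a ⟨a :: l, hv⟩, mem_ch_step this, (step_step _ _).symm⟩

lemma not_mem_ch_unique {v : V d} {i j : Fin d} (hi : i ∉ ch v) (hj : j ∉ ch v) : i = j := by
  rw [mem_ch, not_not] at hi hj
  rw [hi] at hj; simpa using hj

lemma step_inj (v : V d) : Function.Injective fun j => step j v := by
  intro i j h
  simp only at h
  by_cases hi : i ∈ ch v <;> by_cases hj : j ∈ ch v
  · have := congrArg Subtype.val h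
    rw [step_val hi, step_val hj] at this
    simpa using this
  · have h1 := len_step hi; have h2 := len_step' hj; rw [h] at h1; omega
  · have h1 := len_step' hi; have h2 := len_step hj; rw [h] at h1; omega
  · exact not_mem_ch_unique hi hj

lemma step_child_inj {u v : V d} {i j : Fin d} (hi : i ∈ ch u) (hj : j ∈ ch v)
    (h : step i u = step j v) : i = j ∧ u = v := by
  have := congrArg Subtype.val h
  rw [step_val hi, step_val hj] at this
  simp only [List.cons.injEq] at this
  exact ⟨this.1, Subtype.ext this.2⟩

lemma step_ne_self (j : Fin d) (v : V d) : step j v ≠ v := by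
  intro h
  by_cases hj : j ∈ ch v
  · have := len_step hj; rw [h] at this; omega
  · have := len_step' hj; rw [h] at this; omega

@[elab_as_elim]
lemma V_ind {P : V d → Prop} (h0 : P (root d))
    (hs : ∀ v j, j ∈ ch v → P v → P (step j v)) (v : V d) : P v := by
  induction hn : len v generalizing v with
  | zero => rw [eq_root_of_len hn]; exact h0
  | succ n ih =>
    have : v ≠ root d := by intro e; rw [e, len_root] at hn; omega
    obtain ⟨j, u, hj, rfl⟩ := exists_parent this
    exact hs u j hj (ih u (by rw [len_step hj] at hn; omega))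

lemma card_ch_root : (ch (root d)).card = d := by simp [ch_root]

lemma card_ch {v : V d} (h : v ≠ root d) : (ch v).card = d - 1 := by
  obtain ⟨j, u, hj, rfl⟩ := exists_parent h
  rw [ch_step hj]; simp

lemma adj_iff {u v : V d} : (tree d).Adj u v ↔ ∃ j, v = step j u := by
  constructor
  · rintro (⟨j, h⟩ | ⟨j, h⟩)
    · have hj : j ∈ ch u := by
        have h2 := v.2
        rw [h] at h2
        rw [mem_ch]
        rcases e : u.1 with _ | ⟨a, l⟩
        · simp
        · rw [e] at h2
          simpa [eq_comm] using (List.isChain_cons_cons.1 h2).1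
      exact ⟨j, Subtype.ext (by rw [step_val hj, h])⟩
    · have hj : j ∉ ch u := by rw [mem_ch, h]; simp
      refine ⟨j, Subtype.ext ?_⟩
      have := step_val' hj
      rw [h] at this
      simpa using this
  · rintro ⟨j, rfl⟩
    by_cases hj : j ∈ ch u
    · exact Or.inl ⟨j, step_val hj⟩
    · exact Or.inr ⟨j, step_val' hj⟩

/-! ### Ancestors -/

/-- `v` is an ancestor of `u` (or equal). -/
def anc (v u : V d) : Prop := v.1 <:+ u.1

instance (v u : V d) : Decidable (anc v u) := inferInstanceAs (Decidable (v.1 <:+ u.1))

lemma anc_refl (v : V d) : anc v v := List.suffix_refl _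

lemma anc_trans {a b c : V d} (h1 : anc a b) (h2 : anc b c) : anc a c :=
  List.IsSuffix.trans h1 h2

lemma anc_root (u : V d) : anc (root d) u := List.nil_suffix

lemma anc_step_self {v : V d} {j : Fin d} (h : j ∈ ch v) : anc v (step j v) := by
  unfold anc; rw [step_val h]; exact List.suffix_cons _ _

lemma anc_len {v u : V d} (h : anc v u) : len v ≤ len u := List.IsSuffix.length_le h

lemma anc_eq_of_len {v u : V d} (h : anc v u) (hl : len u ≤ len v) : v = u :=
  Subtype.ext (List.IsSuffix.eq_of_length_le h hl)

lemma anc_step_iff {v u : V d} {j : Fin d} (h : j ∈ ch u) :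
    anc v (step j u) ↔ v = step j u ∨ anc v u := by
  unfold anc; rw [step_val h, List.suffix_cons_iff, ← step_val h]
  exact or_congr Subtype.ext_iff.symm Iff.rfl

lemma anc_same_len {a b u : V d} (ha : anc a u) (hb : anc b u) (h : len a = len b) : a = b :=
  Subtype.ext ((List.suffix_of_suffix_length_le ha hb h.le).eq_of_length h)

lemma anc_sib {v u : V d} {i j : Fin d} (hi : i ∈ ch v) (hj : j ∈ ch v)
    (h1 : anc (step i v) u) (h2 : anc (step j v) u) : i = j :=
  step_inj v (anc_same_len h1 h2 (by rw [len_step hi, len_step hj]))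

lemma not_anc_child {v : V d} {j : Fin d} (hj : j ∈ ch v) : ¬ anc (step j v) v := by
  intro h; have := anc_len h; rw [len_step hj] at this; omega

lemma anc_cases {v u : V d} (h : anc v u) : v = u ∨ ∃ j ∈ ch v, anc (step j v) u := by
  induction u using V_ind with
  | h0 => left; exact anc_eq_of_len h (by simp [len_root])
  | hs u j hj ih =>
    rcases (anc_step_iff hj).1 h with h | h
    · exact Or.inl h
    · rcases ih h with rfl | ⟨i, hi, h'⟩
      · exact Or.inr ⟨j, hj, anc_refl _⟩
      · exact Or.inr ⟨i, hi, anc_trans h' (anc_step_self hj)⟩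

/-! ### Spheres and balls -/

def sph (d : ℕ) : ℕ → Finset (V d)
  | 0 => {root d}
  | n + 1 => (sph d n).biUnion fun v => (ch v).image fun j => step j v

lemma mem_sph {n : ℕ} {v : V d} : v ∈ sph d n ↔ len v = n := by
  induction n generalizing v with
  | zero =>
    simp only [sph, mem_singleton]
    exact ⟨fun h => by rw [h, len_root], eq_root_of_len⟩
  | succ n ih =>
    simp only [sph, mem_biUnion, mem_image]
    constructor
    · rintro ⟨u, hu, j, hj, rfl⟩; rw [len_step hj, ih.1 hu]
    · intro h
      have : v ≠ root d := by intro e; rw [e, len_root] at h; omega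
      obtain ⟨j, u, hj, rfl⟩ := exists_parent this
      exact ⟨u, ih.2 (by rw [len_step hj] at h; omega), j, hj, rfl⟩

lemma sum_sph_succ {M : Type*} [AddCommMonoid M] (n : ℕ) (φ : V d → M) :
    ∑ u ∈ sph d (n + 1), φ u = ∑ v ∈ sph d n, ∑ j ∈ ch v, φ (step j v) := by
  rw [sph, sum_biUnion]
  · refine sum_congr rfl fun v _ => ?_
    rw [sum_image fun i _ j _ h => step_inj v h]
  · intro u _ v _ huv
    rw [Function.onFun, disjoint_left]
    intro w h1 h2
    obtain ⟨i, hi, rfl⟩ := mem_image.1 h1
    obtain ⟨j, hj, e⟩ := mem_image.1 h2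
    exact huv (step_child_inj hi hj e.symm).2

lemma card_sph_succ (n : ℕ) : (sph d (n + 1)).card = d * (d - 1) ^ n := by
  induction n with
  | zero =>
    rw [card_eq_sum_ones, sum_sph_succ]; simp [sph, card_ch_root]
  | succ n ih =>
    rw [card_eq_sum_ones, sum_sph_succ]
    rw [sum_congr rfl (g := fun _ => d - 1)]
    · simp [ih]; ring
    · intro v hv
      have : v ≠ root d := by
        intro e; rw [e, mem_sph, len_root] at hv; omega
      simp [card_ch this]

def ball (d : ℕ) (n : ℕ) : Finset (V d) := (range (n + 1)).biUnion (sph d)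

lemma mem_ball {n : ℕ} {v : V d} : v ∈ ball d n ↔ len v ≤ n := by
  simp only [ball, mem_biUnion, mem_range, mem_sph]
  exact ⟨fun ⟨k, h1, h2⟩ => by omega, fun h => ⟨_, by omega, rfl⟩⟩

lemma sum_ball {M : Type*} [AddCommMonoid M] (n : ℕ) (φ : V d → M) :
    ∑ u ∈ ball d n, φ u = ∑ k ∈ range (n + 1), ∑ u ∈ sph d k, φ u := by
  rw [ball, sum_biUnion]
  intro i _ j _ hij
  rw [Function.onFun, disjoint_left]
  intro w h1 h2
  rw [mem_sph] at h1 h2
  exact hij (h1.symm.trans h2)

lemma ball_mono {m n : ℕ} (h : m ≤ n) : ball d m ⊆ ball d n := fun v hv => by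
  rw [mem_ball] at *; omega

/-! ### Automorphisms -/

/-- A tree automorphism together with its action on edge labels. -/
structure TAut (d : ℕ) where
  e : V d ≃ V d
  π : V d → Equiv.Perm (Fin d)
  map_step : ∀ v j, e (step j v) = step (π v j) (e v)

namespace TAut

lemma π_step (g : TAut d) (v : V d) (j : Fin d) : g.π (step j v) j = g.π v j := by
  have h1 := g.map_step (step j v) j
  rw [step_step] at h1
  apply step_inj (g.e (step j v))
  simp only
  rw [← h1, g.map_step, step_step]

def symm (g : TAut d) : TAut d where
  e := g.e.symm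
  π := fun v => (g.π (g.e.symm v)).symm
  map_step := fun v j => by
    apply g.e.injective
    rw [g.map_step]; simp

lemma exists_of_iso (g : tree d ≃g tree d) : ∃ t : TAut d, ∀ v, t.e v = g v := by
  have h : ∀ v j, ∃ i, g (step j v) = step i (g v) := fun v j =>
    adj_iff.1 (g.map_adj_iff.2 (adj_iff.2 ⟨j, rfl⟩))
  choose p hp using h
  have hinj : ∀ v, Function.Injective (p v) := fun v i j hij => by
    apply step_inj v
    apply g.injective
    simp only
    rw [hp, hp, hij]
  refine ⟨⟨g.toEquiv, fun v => Equiv.ofBijective (p v) (Finite.injective_iff_bijective.1 (hinj v)),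
    fun v j => hp v j⟩, fun v => rfl⟩

end TAut

def mul (g w : V d) : V d := w.1.foldr step g

lemma mul_root (g : V d) : mul g (root d) = g := rfl

lemma mul_step (g : V d) (j : Fin d) (w : V d) : mul g (step j w) = step j (mul g w) := by
  by_cases h : j ∈ ch w
  · simp [mul, step_val h]
  · conv_rhs => rw [mul, step_val' h]
    simp [mul]

lemma root_mul (w : V d) : mul (root d) w = w := by
  induction w using V_ind with
  | h0 => rfl
  | hs v j _ ih => rw [mul_step, ih]

lemma mul_mul (a b w : V d) : mul (mul a b) w = mul a (mul b w) := by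
  induction w using V_ind with
  | h0 => rfl
  | hs v j _ ih => rw [mul_step, mul_step, mul_step, ih]

def inv (g : V d) : V d := ⟨g.1.reverse, by
  rw [List.isChain_reverse]; exact g.2.imp fun _ _ h => h.symm⟩

lemma inv_inv' (g : V d) : inv (inv g) = g := Subtype.ext (List.reverse_reverse _)

lemma len_inv (g : V d) : len (inv g) = len g := by simp [len, inv]

lemma mul_inv_self (g : V d) : mul g (inv g) = root d := by
  induction g using V_ind with
  | h0 => rfl
  | hs v j hj ih =>
    have : (inv (step j v)).1 = (inv v).1 ++ [j] := by simp [inv, step_val hj]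
    rw [mul, this, List.foldr_append]
    simpa [mul] using ih

lemma inv_mul_self (g : V d) : mul (inv g) g = root d := by
  have := mul_inv_self (inv g)
  rwa [inv_inv'] at this

lemma len_mul_le (g w : V d) : len (mul g w) ≤ len g + len w := by
  induction w using V_ind with
  | h0 => simp [mul_root]
  | hs v j hj ih =>
    rw [mul_step, len_step hj]; have := len_step_le (mul g v) j; omega

lemma le_len_mul (g w : V d) : len g ≤ len (mul g w) + len w := by
  induction w using V_ind with
  | h0 => simp [mul_root]
  | hs v j hj ih =>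
    rw [mul_step, len_step hj]; have := le_len_step (mul g v) j; omega

/-- Left multiplication as an automorphism. -/
def lm (g : V d) : TAut d where
  e := ⟨mul g, mul (inv g), fun w => by rw [← mul_mul, inv_mul_self, root_mul],
    fun w => by rw [← mul_mul, mul_inv_self, root_mul]⟩
  π := fun _ => Equiv.refl _
  map_step := fun v j => mul_step g j v

@[simp] lemma lm_e (g w : V d) : (lm g).e w = mul g w := rfl
@[simp] lemma lm_π (g w : V d) (j : Fin d) : (lm g).π w j = j := rfl

/-- The neighbour of the root along `j`. -/
def gen (j : Fin d) : V d := step j (root d)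

lemma mul_gen (g : V d) (j : Fin d) : mul g (gen j) = step j g := by
  rw [gen, mul_step, mul_root]

lemma gen_mul_gen (j : Fin d) : mul (gen j) (gen j) = root d := by
  rw [mul_gen, gen, step_step]

def pmap (p : Equiv.Perm (Fin d)) (v : V d) : V d :=
  ⟨v.1.map p, by rw [List.isChain_map]; exact v.2.imp fun _ _ h => p.injective.ne h⟩

lemma pmap_step (p : Equiv.Perm (Fin d)) (v : V d) (j : Fin d) :
    pmap p (step j v) = step (p j) (pmap p v) := by
  have key : ∀ (v : V d), j ∈ ch v → pmap p (step j v) = step (p j) (pmap p v) := by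
    intro v h
    have h' : p j ∈ ch (pmap p v) := by
      rw [mem_ch] at *
      simp only [pmap, List.head?_map]
      intro e
      apply h
      rcases e' : v.1.head? with _ | a
      · simp [e'] at e
      · simp [e'] at e; rw [e]
    apply Subtype.ext
    rw [step_val h']; simp [pmap, step_val h]
  by_cases h : j ∈ ch v
  · exact key v h
  · have := key _ (mem_ch_step h)
    rw [step_step] at this
    rw [this, step_step]

/-- Relabelling of the letters as an automorphism. -/
def pa (p : Equiv.Perm (Fin d)) : TAut d where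
  e := ⟨pmap p, pmap p.symm, fun w => Subtype.ext (by simp [pmap]),
    fun w => Subtype.ext (by simp [pmap])⟩
  π := fun _ => p
  map_step := pmap_step p

lemma pa_root (p : Equiv.Perm (Fin d)) : (pa p).e (root d) = root d := rfl

/-- Transitivity on directed edges. -/
lemma exists_taut (v : V d) (i i0 : Fin d) :
    ∃ g : TAut d, g.e (root d) = v ∧ g.π (root d) i0 = i := by
  let p := Equiv.swap i0 i
  refine ⟨⟨(pa p).e.trans (lm v).e, fun _ => p, fun w j => ?_⟩, ?_, ?_⟩
  · simp only [Equiv.trans_apply]
    rw [(pa p).map_step, (lm v).map_step]; rfl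
  · simp [pa_root, mul_root]
  · simp [p]

end Vale.Agent.P161
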