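import Vale.Agent.P161.BP
import Vale.Agent.P161.Quant
import Vale.Agent.P161.Prod

namespace Vale.Agent.P161

open MeasureTheory Finset Real

set_option linter.unusedSectionVars false

variable {d : ℕ}

abbrev K (d : ℕ) := V d × Option (ℕ × Bool)
abbrev J (d : ℕ) := V d × ℕ
abbrev X (d : ℕ) := J d → ℝ × ℝ
abbrev Om (d : ℕ) := K d → ℝ

noncomputable def two (p : ℝ) : Measure ℝ :=
  ENNReal.ofReal (cl p) • Measure.dirac 1 + ENNReal.ofReal (1 - cl p) • Measure.dirac (-1)

instance (p : ℝ) : IsProbabilityMeasure (two p) := ⟨by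
  have := cl_mem p
  simp only [two, Measure.coe_add, Measure.coe_smul, Pi.add_apply, Pi.smul_apply, measure_univ,
    smul_eq_mul, mul_one]
  rw [← ENNReal.ofReal_add this.1 (by linarith [this.2])]; simp⟩

lemma int_two {p : ℝ} (hp : p ∈ Set.Icc (0 : ℝ) 1) (f : ℝ → ℝ) :
    ∫ t, f t ∂two p = p * f 1 + (1 - p) * f (-1) := by
  rw [two, cl_of_mem hp, integral_add_measure, integral_smul_measure, integral_smul_measure,
    integral_dirac, integral_dirac, ENNReal.toReal_ofReal hp.1,
    ENNReal.toReal_ofReal (by linarith [hp.2])]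
  · simp
  · exact (integrable_dirac (by simp)).smul_measure (by simp)
  · exact (integrable_dirac (by simp)).smul_measure (by simp)

noncomputable def rho (θ : ℝ) : K d → Measure ℝ
  | (v, none) => if v = root d then two (1 / 2) else two ((1 + θ) / 2)
  | (_, some _) => lam

instance (θ : ℝ) (k : K d) : IsProbabilityMeasure (rho θ k) := by
  rcases k with ⟨v, _ | a⟩
  · simp only [rho]; split_ifs <;> infer_instance
  · simp only [rho]; infer_instance

noncomputable abbrev PP (d : ℕ) (θ : ℝ) : Measure (Om d) := Measure.infinitePi (rho θ)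

noncomputable def sg (x : ℝ) : ℝ := if 0 < x then 1 else -1

lemma sg_cases (x : ℝ) : sg x = 1 ∨ sg x = -1 := by unfold sg; split_ifs <;> simp

@[fun_prop] lemma measurable_sg : Measurable sg :=
  Measurable.ite measurableSet_Ioi measurable_const measurable_const

lemma sg_of {s : ℝ} (h : s = 1 ∨ s = -1) : sg s = s := by
  rcases h with rfl | rfl <;> simp [sg]

lemma sg_one : sg 1 = 1 := sg_of (Or.inl rfl)
lemma sg_neg_one : sg (-1) = -1 := sg_of (Or.inr rfl)

lemma sign_mul {s t : ℝ} (hs : s = 1 ∨ s = -1) (ht : t = 1 ∨ t = -1) : s * t = 1 ∨ s * t = -1 := by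
  rcases hs with rfl | rfl <;> rcases ht with rfl | rfl <;> simp

lemma sign_sq {s : ℝ} (hs : s = 1 ∨ s = -1) : s * s = 1 := by
  rcases hs with rfl | rfl <;> simp

lemma sign_abs {s : ℝ} (hs : s = 1 ∨ s = -1) : |s| = 1 := by
  rcases hs with rfl | rfl <;> simp

noncomputable def sig' (ω : Om d) : (l : List (Fin d)) → l.IsChain (· ≠ ·) → ℝ
  | [], h => sg (ω (⟨[], h⟩, none))
  | j :: l, h => sg (ω (⟨j :: l, h⟩, none)) * sig' ω l h.tail

/-- The spin at a vertex. -/
noncomputable def sig (ω : Om d) (v : V d) : ℝ := sig' ω v.1 v.2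

lemma sig_root (ω : Om d) : sig ω (root d) = sg (ω (root d, none)) := rfl

lemma sig_step (ω : Om d) {v : V d} {j : Fin d} (hj : j ∈ ch v) :
    sig ω (step j v) = sg (ω (step j v, none)) * sig ω v := by
  have e : step j v = ⟨j :: v.1, step_val hj ▸ (step j v).2⟩ := Subtype.ext (step_val hj)
  rw [e]; rfl

lemma sig_cases (ω : Om d) (v : V d) : sig ω v = 1 ∨ sig ω v = -1 := by
  induction v using V_ind with
  | h0 => exact sg_cases _
  | hs v j hj ih => rw [sig_step _ hj]; exact sign_mul (sg_cases _) ih

@[fun_prop] lemma measurable_sig (v : V d) : Measurable fun ω : Om d => sig ω v := by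
  induction v using V_ind with
  | h0 => simp only [sig_root]; fun_prop
  | hs v j hj ih => simp only [sig_step _ hj]; fun_prop

@[fun_prop] lemma BM_sig {α : Type*} [MeasurableSpace α] {f : α → Om d} (hf : Measurable f)
    (v : V d) : BM fun a => sig (f a) v :=
  BM.of_le ((measurable_sig v).comp hf) fun _ => (sign_abs (sig_cases _ v)).le

/-- The product of two spins along an ancestral line depends only on the edge coins below. -/
lemma sig_mul_congr {ω ω' : Om d} {v w : V d} (h : anc v w)
    (H : ∀ u, anc v u → u ≠ v → anc u w → ω (u, none) = ω' (u, none)) :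
    sig ω v * sig ω w = sig ω' v * sig ω' w := by
  induction w using V_ind with
  | h0 =>
    rw [anc_eq_of_len h (by simp [len_root]), sign_sq (sig_cases _ _), sign_sq (sig_cases _ _)]
  | hs w j hj ih =>
    rcases (anc_step_iff hj).1 h with e | h'
    · rw [e, sign_sq (sig_cases _ _), sign_sq (sig_cases _ _)]
    · rw [sig_step _ hj, sig_step _ hj, mul_left_comm, mul_left_comm (sig ω' v),
        ih h' fun u h1 h2 h3 => H u h1 h2 (anc_trans h3 (anc_step_self hj)),
        H _ h (by rintro rfl; exact not_anc_child hj h') (anc_refl _)]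

lemma sig_congr {ω ω' : Om d} (H : ∀ u, ω (u, none) = ω' (u, none)) (v : V d) :
    sig ω v = sig ω' v := by
  induction v using V_ind with
  | h0 => rw [sig_root, sig_root, H]
  | hs w j hj ih => rw [sig_step _ hj, sig_step _ hj, H, ih]

/-! ### Clocks, amplitudes, data -/

noncomputable def Tm (r : ℕ) (τ : ℝ) : ℝ := r + cl τ

noncomputable def amp (r : ℕ) (τ : ℝ) : ℝ := if cl τ < 1 / 2 then min (Tm r τ) (1 / 2) else 0

@[fun_prop] lemma measurable_Tm (r : ℕ) : Measurable (Tm r) := by unfold Tm; fun_prop

@[fun_prop] lemma measurable_amp (r : ℕ) : Measurable (amp r) :=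
  Measurable.ite (measurableSet_lt measurable_cl measurable_const) (by fun_prop) measurable_const

lemma le_Tm (r : ℕ) (τ : ℝ) : (r : ℝ) ≤ Tm r τ := le_add_of_nonneg_right (cl_mem τ).1

lemma Tm_le (r : ℕ) (τ : ℝ) : Tm r τ ≤ r + 1 := add_le_add_right (cl_mem τ).2 _

lemma amp_nonneg (r : ℕ) (τ : ℝ) : 0 ≤ amp r τ := by
  unfold amp; split_ifs
  · exact le_min ((Nat.cast_nonneg r).trans (le_Tm r τ)) (by norm_num)
  · rfl

lemma amp_le (r : ℕ) (τ : ℝ) : amp r τ ≤ min (Tm r τ) (1 / 2) := by
  unfold amp; split_ifs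
  · rfl
  · exact le_min ((Nat.cast_nonneg r).trans (le_Tm r τ)) (by norm_num)

lemma abs_amp_le (r : ℕ) (τ : ℝ) : |amp r τ| ≤ 1 / 2 := by
  rw [abs_of_nonneg (amp_nonneg r τ)]; exact (amp_le r τ).trans (min_le_right _ _)

noncomputable def T (x : X d) (l : J d) : ℝ := Tm l.2 (x l).1
noncomputable def am (x : X d) (l : J d) : ℝ := amp l.2 (x l).1
noncomputable def wv (x : X d) (l : J d) : ℝ := am x l * clp 1 (x l).2

@[fun_prop] lemma measurable_T (l : J d) : Measurable fun x : X d => T x l := by
  unfold T; fun_prop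
@[fun_prop] lemma measurable_am (l : J d) : Measurable fun x : X d => am x l := by
  unfold am; fun_prop
@[fun_prop] lemma measurable_wv (l : J d) : Measurable fun x : X d => wv x l := by
  unfold wv; fun_prop

lemma abs_am_le (x : X d) (l : J d) : |am x l| ≤ 1 / 2 := abs_amp_le _ _

lemma abs_wv_le' (x : X d) (l : J d) : |wv x l| ≤ am x l := by
  rw [wv, abs_mul, abs_of_nonneg (show 0 ≤ am x l from amp_nonneg _ _)]
  exact mul_le_of_le_one_right (amp_nonneg _ _) (abs_clp_le zero_le_one _)

lemma abs_wv_le (x : X d) (l : J d) : |wv x l| ≤ 1 / 2 :=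
  (abs_wv_le' x l).trans ((le_abs_self _).trans (abs_am_le x l))

@[fun_prop] lemma BM_am {α : Type*} [MeasurableSpace α] {f : α → X d} (hf : Measurable f)
    (l : J d) : BM fun a => am (f a) l :=
  BM.of_le ((measurable_am l).comp hf) fun _ => abs_am_le _ _

def kt (l : J d) : K d := (l.1, some (l.2, false))
def kn (l : J d) : K d := (l.1, some (l.2, true))

lemma kt_inj : Function.Injective (kt (d := d)) := fun a b h => by
  simp only [kt, Prod.mk.injEq, Option.some.injEq, and_true] at h
  exact Prod.ext h.1 h.2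

lemma kn_inj : Function.Injective (kn (d := d)) := fun a b h => by
  simp only [kn, Prod.mk.injEq, Option.some.injEq, and_true] at h
  exact Prod.ext h.1 h.2

lemma kt_ne_kn (a b : J d) : kt a ≠ kn b := by simp [kt, kn]
lemma kt_ne (a : J d) (v : V d) : kt a ≠ (v, none) := by simp [kt]
lemma kn_ne (a : J d) (v : V d) : kn a ≠ (v, none) := by simp [kn]

lemma rho_kt (θ : ℝ) (l : J d) : rho θ (kt l) = lam := rfl
lemma rho_kn (θ : ℝ) (l : J d) : rho θ (kn l) = lam := rfl

/-- The gauge-fixed observation. -/
noncomputable def Yt (ω : Om d) (l : J d) : ℝ := Qt (amp l.2 (ω (kt l))) (cl (ω (kn l)))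

/-- The observed data. -/
noncomputable def D (ω : Om d) : X d := fun l => (ω (kt l), sig ω l.1 * Yt ω l)

@[fun_prop] lemma measurable_Yt (l : J d) : Measurable fun ω : Om d => Yt ω l := by
  unfold Yt; fun_prop

@[fun_prop] lemma measurable_D : Measurable (D (d := d)) := by
  unfold D; fun_prop

lemma abs_Yt_le (ω : Om d) (l : J d) : |Yt ω l| ≤ 1 := (Fc_Qt (abs_amp_le _ _) (cl_mem _)).1

lemma abs_D_le (ω : Om d) (l : J d) : |(D ω l).2| ≤ 1 := by
  simp only [D, abs_mul, sign_abs (sig_cases _ _), one_mul]; exact abs_Yt_le ω l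

lemma wv_D (ω : Om d) (l : J d) : wv (D ω) l = am (D ω) l * (D ω l).2 := by
  rw [wv, clp_of_le (abs_D_le ω l)]

open Classical in
noncomputable def fldS (N : ℕ) (p : J d → Prop) (x : X d) (v : V d) : ℝ :=
  ∑ r ∈ range N, if p (v, r) then artanh (wv x (v, r)) else 0

lemma abs_artanh_wv (x : X d) (l : J d) : |artanh (wv x l)| ≤ 2 * am x l :=
  (abs_artanh_le (abs_wv_le x l)).trans (by linarith [abs_wv_le' x l])

lemma abs_fldS_le' {N : ℕ} {p : J d → Prop} {x : X d} {v : V d} {c : ℝ} (hc : 0 ≤ c)
    (h : ∀ r, p (v, r) → am x (v, r) ≤ c) : |fldS N p x v| ≤ N * (2 * c) := by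
  refine (abs_sum_le_sum_abs _ _).trans ?_
  refine (sum_le_card_nsmul _ _ (2 * c) fun r _ => ?_).trans (by simp)
  split_ifs with hp
  · exact (abs_artanh_wv x _).trans (by linarith [h r hp])
  · simpa using hc

lemma abs_fldS_le (N : ℕ) (p : J d → Prop) (x : X d) (v : V d) : |fldS N p x v| ≤ N := by
  simpa using abs_fldS_le' (N := N) (p := p) (x := x) (v := v) (c := 1 / 2) (by norm_num)
    fun r _ => (le_abs_self _).trans (abs_am_le _ _)

lemma fldS_congr {N N' : ℕ} {p p' : J d → Prop} {x x' : X d} {v v' : V d}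
    (h : ∀ r, (p (v, r) ∧ r < N) ↔ (p' (v', r) ∧ r < N'))
    (hw : ∀ r, p (v, r) → r < N → wv x (v, r) = wv x' (v', r)) :
    fldS N p x v = fldS N' p' x' v' := by
  classical
  unfold fldS
  rw [← sum_filter, ← sum_filter]
  refine sum_congr ?_ fun r hr => ?_
  · ext r; simp only [mem_filter, mem_range]; rw [and_comm, h r, and_comm]
  · simp only [mem_filter, mem_range] at hr
    have := (h r).2 ⟨hr.2, hr.1⟩
    rw [hw r this.1 this.2]

lemma measurable_fldS {α : Type*} [MeasurableSpace α] (N : ℕ) {p : α → J d → Prop} {x : α → X d}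
    (hp : ∀ l, MeasurableSet {a | p a l}) (hx : Measurable x) :
    Measurable fun a => fldS N (p a) (x a) := by
  refine measurable_pi_lambda _ fun v => Finset.measurable_sum _ fun r _ => ?_
  exact Measurable.ite (hp _) (by fun_prop) measurable_const

def clk (x : X d) : J d → ℝ := fun l => (x l).1

@[fun_prop] lemma measurable_clk : Measurable (clk (d := d)) := by unfold clk; fun_prop

/-- A rule deciding from the clocks which observations are revealed. -/
structure Rule (d : ℕ) where
  R : (J d → ℝ) → J d → Prop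
  meas : ∀ l, MeasurableSet {τ | R τ l}
  N : ℕ
  bdd : ∀ τ l, R τ l → l.2 < N

noncomputable def fld (R : Rule d) (x : X d) : V d → ℝ := fldS R.N (R.R (clk x)) x

open Classical in
noncomputable def mask (R : Rule d) (x : X d) : X d :=
  fun l => ((x l).1, if R.R (clk x) l then (x l).2 else 0)

@[fun_prop] lemma measurable_fld (R : Rule d) : Measurable (fld R) :=
  measurable_fldS R.N (fun l => measurable_clk (R.meas l)) measurable_id

@[fun_prop] lemma measurable_mask (R : Rule d) : Measurable (mask R) := by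
  refine measurable_pi_lambda _ fun l => Measurable.prodMk (by fun_prop) ?_
  exact Measurable.ite (measurable_clk (R.meas l)) (by fun_prop) measurable_const

@[simp] lemma clk_mask (R : Rule d) (x : X d) : clk (mask R x) = clk x := rfl

lemma abs_fld_le (R : Rule d) (x : X d) (v : V d) : |fld R x v| ≤ R.N := abs_fldS_le _ _ _ _

lemma fld_congr {R R' : Rule d} {x x' : X d} {v v' : V d}
    (h : ∀ r, R.R (clk x) (v, r) ↔ R'.R (clk x') (v', r))
    (hw : ∀ r, R.R (clk x) (v, r) → x (v, r) = x' (v', r)) : fld R x v = fld R' x' v' := by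
  refine fldS_congr (fun r => ⟨fun a => ⟨(h r).1 a.1, R'.bdd _ _ ((h r).1 a.1)⟩,
    fun a => ⟨(h r).2 a.1, R.bdd _ _ ((h r).2 a.1)⟩⟩) fun r a _ => ?_
  simp only [wv, am, hw r a]

lemma fld_mask {R R' : Rule d} {x : X d} (h : ∀ l, R.R (clk x) l → R'.R (clk x) l) :
    fld R (mask R' x) = fld R x :=
  funext fun _ => fld_congr (fun _ => Iff.rfl) fun r a => by
    simp only [mask]; rw [if_pos (h _ a)]

lemma mask_mask {R R' : Rule d} {x : X d} (h : ∀ l, R.R (clk x) l → R'.R (clk x) l) :
    mask R (mask R' x) = mask R x := by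
  ext l
  · rfl
  · simp only [mask, clk_mask]
    by_cases h1 : R.R (clk x) l
    · simp only [h1, h l h1, if_true]
    · simp only [h1, if_false]

/-! ### The action -/

def par (v : V d) : V d := ⟨v.1.tail, v.2.tail⟩

lemma par_step {v : V d} {j : Fin d} (hj : j ∈ ch v) : par (step j v) = v :=
  Subtype.ext (by simp [par, step_val hj])

noncomputable def act (g : TAut d) (ω : Om d) : Om d
  | (w, none) => if w = root d then sig ω (g.e w) else sig ω (g.e w) * sig ω (g.e (par w))
  | (w, some a) => ω (g.e w, some a)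

@[fun_prop] lemma measurable_act (g : TAut d) : Measurable (act g) := by
  refine measurable_pi_lambda _ fun k => ?_
  rcases k with ⟨w, _ | a⟩
  · simp only [act]; split_ifs <;> fun_prop
  · simp only [act]; fun_prop

lemma sig_act (g : TAut d) (ω : Om d) (v : V d) : sig (act g ω) v = sig ω (g.e v) := by
  induction v using V_ind with
  | h0 => rw [sig_root, act, if_pos rfl, sg_of (sig_cases _ _)]
  | hs v j hj ih =>
    rw [sig_step _ hj, ih, act, if_neg (step_ne_root hj), par_step hj,
      sg_of (sign_mul (sig_cases _ _) (sig_cases _ _)), mul_assoc, sign_sq (sig_cases _ _), mul_one]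

/-- Reindexing of data. -/
def sh (g : TAut d) (x : X d) : X d := fun l => x (g.e l.1, l.2)

@[fun_prop] lemma measurable_sh (g : TAut d) : Measurable (sh g) := by unfold sh; fun_prop

lemma D_act (g : TAut d) (ω : Om d) : D (act g ω) = sh g (D ω) := by
  ext l
  · rfl
  · simp only [D, sh, sig_act]; rfl

def low (a : V d) (i : Fin d) : V d := if i ∈ ch a then step i a else a

lemma low_ne_root (a : V d) (i : Fin d) : low a i ≠ root d := by
  unfold low; split_ifs with h
  · exact step_ne_root h
  · rintro rfl; exact h (by simp [ch_root])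

lemma sig_low (ω : Om d) (a : V d) (i : Fin d) :
    sig ω (step i a) * sig ω a = sg (ω (low a i, none)) := by
  unfold low; split_ifs with h
  · rw [sig_step _ h, mul_assoc, sign_sq (sig_cases _ _), mul_one]
  · have := sig_step ω (mem_ch_step h)
    rw [step_step] at this
    rw [this, mul_left_comm, sign_sq (sig_cases _ _), mul_one]

lemma low_inj {a b : V d} {i j : Fin d} (h : low a i = low b j) :
    (a = b ∧ i = j) ∨ (step i a = b ∧ step j b = a) := by
  unfold low at h
  split_ifs at h with h1 h2 h2
  · exact Or.inl ⟨(step_child_inj h1 h2 h).2, (step_child_inj h1 h2 h).1⟩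
  · subst h
    rw [not_mem_ch_unique h2 (not_mem_ch_step h1)]
    exact Or.inr ⟨rfl, step_step _ _⟩
  · subst h
    rw [not_mem_ch_unique h1 (not_mem_ch_step h2)]
    exact Or.inr ⟨step_step _ _, rfl⟩
  · subst h; exact Or.inl ⟨rfl, not_mem_ch_unique h1 h2⟩

lemma le_len_low (a : V d) (i : Fin d) : len a ≤ len (low a i) := by
  unfold low; split_ifs with h
  · rw [len_step h]; omega
  · rfl

lemma exists_emap (g : TAut d) : ∃ e : K d → K d, Function.Injective e ∧
    e (root d, none) = (root d, none) ∧ (∀ w a, e (w, some a) = (g.e w, some a)) ∧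
    ∀ v j, j ∈ ch v → e (step j v, none) = (low (g.e v) (g.π v j), none) := by
  classical
  have h : ∀ w : V d, ∃ c : V d, (w = root d → c = root d) ∧
      ∀ v j, j ∈ ch v → w = step j v → c = low (g.e v) (g.π v j) := fun w => by
    by_cases hw : w = root d
    · exact ⟨root d, fun _ => rfl, fun v j hj e => absurd (e ▸ hw) (step_ne_root hj)⟩
    · obtain ⟨j, v, hj, rfl⟩ := exists_parent hw
      refine ⟨low (g.e v) (g.π v j), fun e => absurd e hw, fun v' j' hj' e => ?_⟩
      obtain ⟨rfl, rfl⟩ := step_child_inj hj hj' e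
      rfl
  choose c hc1 hc2 using h
  have hinj : Function.Injective c := fun a b hab => by
    by_cases ha : a = root d <;> by_cases hb : b = root d
    · rw [ha, hb]
    · obtain ⟨j, v, hj, rfl⟩ := exists_parent hb
      rw [hc1 a ha, hc2 _ v j hj rfl] at hab
      exact absurd hab.symm (low_ne_root _ _)
    · obtain ⟨j, v, hj, rfl⟩ := exists_parent ha
      rw [hc1 b hb, hc2 _ v j hj rfl] at hab
      exact absurd hab (low_ne_root _ _)
    · obtain ⟨j, v, hj, rfl⟩ := exists_parent ha
      obtain ⟨i, u, hi, rfl⟩ := exists_parent hb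
      rw [hc2 _ v j hj rfl, hc2 _ u i hi rfl] at hab
      rcases low_inj hab with ⟨h1, h2⟩ | ⟨h1, h2⟩
      · obtain rfl := g.e.injective h1
        rw [(g.π v).injective h2]
      · rw [← g.map_step] at h1 h2
        have e1 := congrArg len (g.e.injective h1)
        have e2 := congrArg len (g.e.injective h2)
        rw [len_step hj] at e1
        rw [len_step hi] at e2
        omega
  refine ⟨fun k => match k with | (w, none) => (c w, none) | (w, some a) => (g.e w, some a),
    ?_, ?_, fun _ _ => rfl, fun v j hj => ?_⟩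
  · rintro ⟨a, _ | x⟩ ⟨b, _ | y⟩ hab <;> simp only [Prod.mk.injEq] at hab
    · rw [hinj hab.1]
    · simp at hab
    · simp at hab
    · rw [g.e.injective hab.1, hab.2]
  · simp only [hc1 _ rfl]
  · simp only [hc2 _ v j hj rfl]

lemma mp_of_int {α β : Type*} [MeasurableSpace α] [MeasurableSpace β] {μ : Measure α}
    {ν : Measure β} [IsFiniteMeasure μ] [IsFiniteMeasure ν] {φ : α → β} (hφ : Measurable φ)
    (h : ∀ f : β → ℝ, BM f → ∫ x, f (φ x) ∂μ = ∫ y, f y ∂ν) : MeasurePreserving φ μ ν := by
  classical
  refine ⟨hφ, Measure.ext fun s hs => ?_⟩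
  have := h (s.indicator 1) (BM.ind (p := (· ∈ s)) hs)
  rw [← integral_map hφ.aemeasurable ((measurable_one.indicator hs).aestronglyMeasurable),
    integral_indicator_one hs, integral_indicator_one hs] at this
  exact (measureReal_eq_measureReal_iff (by finiteness) (by finiteness)).1 this

lemma map_sg_two (p : ℝ) : (two p).map sg = two p := by
  simp only [two]
  rw [Measure.map_add _ _ measurable_sg, Measure.map_smul, Measure.map_smul,
    Measure.map_dirac' measurable_sg, Measure.map_dirac' measurable_sg, sg_one, sg_neg_one]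

lemma sig_upd_root (ω : Om d) (t : ℝ) (v : V d) :
    sig (Function.update ω (root d, none) t) v = sg t * (sig ω (root d) * sig ω v) := by
  have := sig_mul_congr (ω := Function.update ω (root d, none) t) (ω' := ω) (anc_root v)
    fun u _ hu _ => Function.update_of_ne (by simpa using hu) _ _
  rw [← this, sig_root, Function.update_self, ← mul_assoc, sign_sq (sg_cases _), one_mul]

lemma mp_act (θ : ℝ) (g : TAut d) : MeasurePreserving (act g) (PP d θ) (PP d θ) := by
  classical
  obtain ⟨e, he, e1, e2, e3⟩ := exists_emap g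
  let f : K d → ℝ → ℝ := fun k => match k with | (_, none) => sg | (_, some _) => id
  have hf : ∀ k, Measurable (f k) := by
    rintro ⟨w, _ | a⟩
    · exact measurable_sg
    · exact measurable_id
  have m1 : MeasurePreserving (fun (ω : Om d) k => f k (ω (e k))) (PP d θ) (PP d θ) := by
    refine ⟨by fun_prop, ?_⟩
    have h1 := Measure.map_infinitePi_infinitePi_of_inj (P := rho (d := d) θ) he
    have h2 := Measure.infinitePi_map_pi (fun k => rho θ (e k)) hf
    rw [← h1, Measure.map_map (by fun_prop) (by fun_prop)] at h2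
    refine h2.trans ?_
    congr 1
    ext1 k
    rcases k with ⟨w, _ | a⟩
    · by_cases hw : w = root d
      · rw [hw, e1]; simp only [rho, f, if_true, map_sg_two]
      · obtain ⟨j, v, hj, rfl⟩ := exists_parent hw
        rw [e3 v j hj]; simp only [rho, f, if_neg hw, if_neg (low_ne_root _ _), map_sg_two]
    · rw [e2]; simp [rho, f]
  have hm : Measurable fun ω : Om d => Function.update ω (root d, none) (sig ω (g.e (root d))) :=
    (measurable_upd _).comp (measurable_id.prodMk (measurable_sig _))
  have m2 : MeasurePreserving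
      (fun ω : Om d => Function.update ω (root d, none) (sig ω (g.e (root d))))
      (PP d θ) (PP d θ) := by
    refine mp_of_int hm fun φ hφ => ?_
    rw [int_upd _ (root d, none) (hφ.comp hm), int_upd _ (root d, none) hφ]
    congr 1
    ext ω
    simp only [rho, if_true, Function.update_idem, sig_upd_root]
    rw [int_two (by norm_num), int_two (by norm_num)]
    rcases sign_mul (sig_cases ω (root d)) (sig_cases ω (g.e (root d))) with h | h <;> rw [h] <;>
      simp only [sg_one, sg_neg_one, mul_one, mul_neg, neg_neg]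
    ring
  have := m1.comp m2
  convert this using 1
  ext ω k
  rcases k with ⟨w, _ | a⟩
  · by_cases hw : w = root d
    · simp only [Function.comp, hw, e1, act, if_true, f, Function.update_self,
        sg_of (sig_cases _ _)]
    · obtain ⟨j, v, hj, rfl⟩ := exists_parent hw
      simp only [Function.comp, e3 v j hj, act, if_neg hw, f, par_step hj, g.map_step, sig_low]
      rw [Function.update_of_ne (by simpa using low_ne_root _ _)]
  · simp only [Function.comp, e2, act, f, id]
    rw [Function.update_of_ne (by simp)]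

lemma int_act (θ : ℝ) (g : TAut d) {f : Om d → ℝ} (hf : Measurable f) :
    ∫ ω, f (act g ω) ∂PP d θ = ∫ ω, f ω ∂PP d θ := integral_mp (mp_act θ g) hf

lemma act_lm_act (a b : V d) (ω : Om d) : act (lm b) (act (lm a) ω) = act (lm (mul a b)) ω := by
  ext k
  rcases k with ⟨w, _ | x⟩
  · simp only [act, sig_act, lm_e, mul_mul]
  · simp only [act, lm_e, mul_mul]

end Vale.Agent.P161
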